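import Vale.Agent.Lib.P161.Basic

/-!
Construction of a refining family of Gaussian noises on the i.i.d. uniform field for P161
(module task, see the team findings table).
-/

set_option linter.unusedSimpArgs false
set_option linter.unusedVariables false
set_option linter.unusedSectionVars false

open MeasureTheory ProbabilityTheory

namespace Vale.Agent.Lib.P161

section General

variable {Ω κ : Type*} [MeasurableSpace Ω] {P : Measure Ω} [IsProbabilityMeasure P]

/-- A finite family in the linear span of an independent standard Gaussian family is jointly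
Gaussian. -/
lemma hasGaussianLaw_of_mem_span {ζ : κ → Ω → ℝ} (hm : ∀ p, Measurable (ζ p))
    (hi : iIndepFun ζ P) (hl : ∀ p, P.map (ζ p) = gaussianReal 0 1)
    {ι : Type*} [Fintype ι] {X : ι → Ω → ℝ}
    (hX : ∀ i, X i ∈ Submodule.span ℝ (Set.range ζ)) :
    HasGaussianLaw (fun ω i => X i ω) P := by
  classical
  have hc : ∀ i, ∃ c : κ →₀ ℝ, (c.sum fun p a => a • ζ p) = X i := fun i =>
    (Finsupp.mem_span_range_iff_exists_finsupp).1 (hX i)
  choose c hc using hc
  let U : Finset κ := Finset.univ.biUnion fun i => (c i).support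
  have hG : HasGaussianLaw (fun ω (p : U) => ζ p ω) P := by
    refine iIndepFun.hasGaussianLaw (X := fun (p : U) => ζ p) (fun p => ⟨?_⟩) ?_
    · rw [hl p]; infer_instance
    · exact hi.precomp (g := ((↑) : U → κ)) Subtype.val_injective
  let L : (U → ℝ) →L[ℝ] (ι → ℝ) :=
    ContinuousLinearMap.pi fun i =>
      ∑ p : U, (c i p) • (ContinuousLinearMap.proj (R := ℝ) (φ := fun _ : U => ℝ) p)
  have := hG.map_fun L
  refine this.congr (Filter.Eventually.of_forall fun ω => ?_)
  funext i
  have h1 : X i ω = ∑ p ∈ (c i).support, c i p * ζ p ω := by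
    rw [← hc i, Finsupp.sum, Finset.sum_apply]
    rfl
  have hsub : (c i).support ⊆ U := by
    intro p hp
    exact Finset.mem_biUnion.2 ⟨i, Finset.mem_univ _, hp⟩
  have h2 : ∑ p ∈ (c i).support, c i p * ζ p ω = ∑ p ∈ U, c i p * ζ p ω := by
    refine Finset.sum_subset hsub fun p _ hp => ?_
    simp [Finsupp.notMem_support_iff.1 hp]
  simp only [L, ContinuousLinearMap.coe_pi', _root_.sum_apply,
    _root_.smul_apply, ContinuousLinearMap.proj_apply, smul_eq_mul]
  rw [h1, h2, ← Finset.sum_coe_sort U]

/-- Elements of the span have finite second moment. -/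
lemma memLp_of_mem_span {ζ : κ → Ω → ℝ} (hm : ∀ p, Measurable (ζ p))
    (hi : iIndepFun ζ P) (hl : ∀ p, P.map (ζ p) = gaussianReal 0 1)
    {X : Ω → ℝ} (hX : X ∈ Submodule.span ℝ (Set.range ζ)) : MemLp X 2 P := by
  have h := hasGaussianLaw_of_mem_span hm hi hl (ι := Unit) (X := fun _ => X) (fun _ => hX)
  exact (h.eval ()).memLp_two

/-- An uncorrelated family in the span is independent. -/
lemma iIndepFun_of_mem_span {ζ : κ → Ω → ℝ} (hm : ∀ p, Measurable (ζ p))
    (hi : iIndepFun ζ P) (hl : ∀ p, P.map (ζ p) = gaussianReal 0 1)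
    {ι : Type*} {X : ι → Ω → ℝ} (hX : ∀ i, X i ∈ Submodule.span ℝ (Set.range ζ))
    (hcov : ∀ i j, i ≠ j → cov[X i, X j; P] = 0) : iIndepFun X P := by
  classical
  rw [iIndepFun_iff_finset]
  intro s
  have hG : HasGaussianLaw (fun ω (i : s) => s.restrict X i ω) P :=
    hasGaussianLaw_of_mem_span hm hi hl (X := fun i : s => X i) (fun i => hX i)
  refine HasGaussianLaw.iIndepFun_of_covariance_eq_zero hG fun i j hij => ?_
  exact hcov _ _ (fun h => hij (Subtype.ext h))

/-- Law of a standardized element of the span. -/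
lemma map_eq_gaussianReal_of_mem_span {ζ : κ → Ω → ℝ} (hm : ∀ p, Measurable (ζ p))
    (hi : iIndepFun ζ P) (hl : ∀ p, P.map (ζ p) = gaussianReal 0 1)
    {X : Ω → ℝ} (hX : X ∈ Submodule.span ℝ (Set.range ζ))
    (h0 : P[X] = 0) (h1 : cov[X, X; P] = 1) : P.map X = gaussianReal 0 1 := by
  have h := hasGaussianLaw_of_mem_span hm hi hl (ι := Unit) (X := fun _ => X) (fun _ => hX)
  have h' : HasGaussianLaw X P := h.eval ()
  rw [h'.map_eq_gaussianReal, h0]
  congr 1
  rw [covariance_self h'.aemeasurable] at h1
  rw [h1]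
  simp

/-- Every element of the span is centered. -/
lemma integral_eq_zero_of_mem_span {ζ : κ → Ω → ℝ} (hm : ∀ p, Measurable (ζ p))
    (hi : iIndepFun ζ P) (hl : ∀ p, P.map (ζ p) = gaussianReal 0 1)
    {X : Ω → ℝ} (hX : X ∈ Submodule.span ℝ (Set.range ζ)) : P[X] = 0 := by
  induction hX using Submodule.span_induction with
  | mem x hx =>
      obtain ⟨p, rfl⟩ := hx
      have : ∫ ω, id (ζ p ω) ∂P = ∫ x, id x ∂(P.map (ζ p)) :=
        (integral_map (hm p).aemeasurable (by fun_prop)).symm
      simp only [id] at this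
      change ∫ ω, ζ p ω ∂P = 0
      rw [this, hl p]
      simp
  | zero => simp
  | add x y hx hy ihx ihy =>
      have hix := (memLp_of_mem_span hm hi hl hx).integrable (by norm_num)
      have hiy := (memLp_of_mem_span hm hi hl hy).integrable (by norm_num)
      change ∫ ω, (x + y) ω ∂P = 0
      simp only [Pi.add_apply]
      rw [integral_add hix hiy]
      change P[x] + P[y] = 0
      rw [ihx, ihy]; simp
  | smul a x hx ih =>
      change ∫ ω, (a • x) ω ∂P = 0
      simp only [Pi.smul_apply, smul_eq_mul]
      rw [integral_const_mul]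
      change a * P[x] = 0
      rw [ih]; simp

end General

section Levels

variable {α : Type*}

/-- The sign attached to the parity of `k`. -/
noncomputable def sgnP (k : ℕ) : ℝ := if k % 2 = 0 then 1 else -1

/-- The dyadic refinement levels built from an array `Z`. -/
noncomputable def gam (Z : ℕ × ℕ → α → ℝ) : ℕ → ℕ → α → ℝ
  | 0, k, s => Z (0, k) s
  | j + 1, k, s => (gam Z j (k / 2) s + sgnP k * Z (j + 1, k / 2) s) / Real.sqrt 2

lemma gam_even (Z : ℕ × ℕ → α → ℝ) (j k : ℕ) (s : α) :
    gam Z (j + 1) (2 * k) s = (gam Z j k s + Z (j + 1, k) s) / Real.sqrt 2 := by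
  have h1 : 2 * k / 2 = k := by omega
  have h2 : (2 * k) % 2 = 0 := by omega
  simp [gam, sgnP, h1, h2]

lemma gam_odd (Z : ℕ × ℕ → α → ℝ) (j k : ℕ) (s : α) :
    gam Z (j + 1) (2 * k + 1) s = (gam Z j k s - Z (j + 1, k) s) / Real.sqrt 2 := by
  have h1 : (2 * k + 1) / 2 = k := by omega
  have h2 : (2 * k + 1) % 2 = 1 := by omega
  simp [gam, sgnP, h1, h2, sub_eq_add_neg]

lemma gam_refine (Z : ℕ × ℕ → α → ℝ) (j k : ℕ) (s : α) :
    gam Z j k s = (gam Z (j + 1) (2 * k) s + gam Z (j + 1) (2 * k + 1) s) / Real.sqrt 2 := by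
  rw [gam_even, gam_odd]
  have h : Real.sqrt 2 * Real.sqrt 2 = 2 := Real.mul_self_sqrt (by norm_num)
  have h0 : Real.sqrt 2 ≠ 0 := by positivity
  have h2 : Real.sqrt 2 ^ 2 = 2 := Real.sq_sqrt (by norm_num)
  field_simp
  rw [h2]
  ring

lemma gam_measurable [MeasurableSpace α] {Z : ℕ × ℕ → α → ℝ} (hm : ∀ p, Measurable (Z p))
    (j k : ℕ) : Measurable (gam Z j k) := by
  induction j generalizing k with
  | zero => exact hm _
  | succ j ih =>
      have : gam Z (j + 1) k = fun s =>
        (gam Z j (k / 2) s + sgnP k * Z (j + 1, k / 2) s) / Real.sqrt 2 := by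
        funext s; rfl
      rw [this]
      exact ((ih _).add ((hm _).const_mul _)).div_const _

lemma gam_mem_span (Z : ℕ × ℕ → α → ℝ) (j k : ℕ) :
    gam Z j k ∈ Submodule.span ℝ (Set.range Z) := by
  induction j generalizing k with
  | zero => exact Submodule.subset_span ⟨_, rfl⟩
  | succ j ih =>
      have : gam Z (j + 1) k =
          (Real.sqrt 2)⁻¹ • (gam Z j (k / 2) + sgnP k • Z (j + 1, k / 2)) := by
        funext s
        simp only [gam, Pi.smul_apply, Pi.add_apply, smul_eq_mul]
        rw [div_eq_inv_mul]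
      rw [this]
      exact Submodule.smul_mem _ _
        (Submodule.add_mem _ (ih _) (Submodule.smul_mem _ _ (Submodule.subset_span ⟨_, rfl⟩)))

variable [MeasurableSpace α] {P : Measure α} [IsProbabilityMeasure P]

/-- Expansion of the covariance of two rotated combinations. -/
lemma cov_rot {A B C D : α → ℝ} (hA : MemLp A 2 P) (hB : MemLp B 2 P) (hC : MemLp C 2 P)
    (hD : MemLp D 2 P) (a b : ℝ) :
    cov[fun s => (A s + a * B s) / Real.sqrt 2, fun s => (C s + b * D s) / Real.sqrt 2; P]
      = (cov[A, C; P] + b * cov[A, D; P] + a * cov[B, C; P] + a * b * cov[B, D; P]) / 2 := by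
  have h : Real.sqrt 2 * Real.sqrt 2 = 2 := Real.mul_self_sqrt (by norm_num)
  have e1 : (fun s => (A s + a * B s) / Real.sqrt 2) =
      (Real.sqrt 2)⁻¹ • (A + a • B) := by
    funext s; simp [div_eq_inv_mul]
  have e2 : (fun s => (C s + b * D s) / Real.sqrt 2) =
      (Real.sqrt 2)⁻¹ • (C + b • D) := by
    funext s; simp [div_eq_inv_mul]
  rw [e1, e2, covariance_smul_left, covariance_smul_right,
    covariance_add_left hA (hB.const_smul a) (hC.add (hD.const_smul b)),
    covariance_add_right hA hC (hD.const_smul b),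
    covariance_add_right (hB.const_smul a) hC (hD.const_smul b),
    covariance_smul_right, covariance_smul_left, covariance_smul_left, covariance_smul_right]
  have h0 : Real.sqrt 2 ≠ 0 := by positivity
  have h2 : Real.sqrt 2 ^ 2 = 2 := Real.sq_sqrt (by norm_num)
  field_simp
  rw [h2]
  ring

end Levels

section Single

variable {α : Type*} [MeasurableSpace α] {P : Measure α} [IsProbabilityMeasure P]

/-- Covariances of the levels. -/
lemma gam_cov {Z : ℕ × ℕ → α → ℝ} (hm : ∀ p, Measurable (Z p))
    (hi : iIndepFun Z P) (hl : ∀ p, P.map (Z p) = gaussianReal 0 1) (j : ℕ) :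
    (∀ k k', cov[gam Z j k, gam Z j k'; P] = if k = k' then 1 else 0) ∧
      ∀ k i k', j < i → cov[gam Z j k, Z (i, k'); P] = 0 := by
  have hmem : ∀ j k, MemLp (gam Z j k) 2 P := fun j k =>
    memLp_of_mem_span hm hi hl (gam_mem_span Z j k)
  have hZmem : ∀ p, MemLp (Z p) 2 P := fun p =>
    memLp_of_mem_span hm hi hl (Submodule.subset_span ⟨p, rfl⟩)
  have hZ : ∀ p q, cov[Z p, Z q; P] = if p = q then 1 else 0 := by
    intro p q
    split_ifs with h
    · subst h
      rw [covariance_self (hm p).aemeasurable, ← variance_id_map (hm p).aemeasurable, hl p]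
      simp
    · exact (hi.indepFun h).covariance_eq_zero (hZmem p) (hZmem q)
  induction j with
  | zero =>
      refine ⟨fun k k' => ?_, fun k i k' hi' => ?_⟩
      · change cov[Z (0, k), Z (0, k'); P] = _
        rw [hZ]
        by_cases h : k = k' <;> simp [h]
      · change cov[Z (0, k), Z (i, k'); P] = 0
        rw [hZ, if_neg]
        intro h
        have := congrArg Prod.fst h
        simp only at this
        omega
  | succ j ih =>
      obtain ⟨ih1, ih2⟩ := ih
      have hg : ∀ k, gam Z (j + 1) k = fun s =>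
          (gam Z j (k / 2) s + sgnP k * Z (j + 1, k / 2) s) / Real.sqrt 2 := fun k => by
        funext s; rfl
      refine ⟨fun k k' => ?_, fun k i k' hi' => ?_⟩
      · rw [hg k, hg k', cov_rot (hmem _ _) (hZmem _) (hmem _ _) (hZmem _), ih1,
          ih2 _ _ _ (Nat.lt_succ_self j), covariance_comm, ih2 _ _ _ (Nat.lt_succ_self j), hZ]
        by_cases hk : k = k'
        · subst hk
          have hs : sgnP k * sgnP k = 1 := by
            unfold sgnP; split_ifs <;> norm_num
          simp [hs]
        · rw [if_neg hk]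
          by_cases hk2 : k / 2 = k' / 2
          · have hs : sgnP k * sgnP k' = -1 := by
              unfold sgnP
              have : k % 2 ≠ k' % 2 := by omega
              by_cases h1 : k % 2 = 0
              · have h2 : k' % 2 ≠ 0 := by omega
                simp [h1, h2]
              · have h2 : k' % 2 = 0 := by omega
                simp [h1, h2]
            simp only [hk2, if_true, mul_zero, add_zero]
            rw [mul_one, hs]
            ring
          · have h3 : (j + 1, k / 2) ≠ (j + 1, k' / 2) := fun h => hk2 (congrArg Prod.snd h)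
            simp [hk2, h3]
      · rw [hg k]
        have e1 : (fun s => (gam Z j (k / 2) s + sgnP k * Z (j + 1, k / 2) s) / Real.sqrt 2) =
            (Real.sqrt 2)⁻¹ • (gam Z j (k / 2) + sgnP k • Z (j + 1, k / 2)) := by
          funext s; simp [div_eq_inv_mul]
        rw [e1, covariance_smul_left,
          covariance_add_left (hmem _ _) ((hZmem _).const_smul _) (hZmem _),
          covariance_smul_left, ih2 _ _ _ (by omega), hZ, if_neg]
        · simp
        · intro h
          have := congrArg Prod.fst h
          simp only at this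
          omega

/-- Each level is an i.i.d. standard Gaussian sequence. -/
lemma gam_iIndep {Z : ℕ × ℕ → α → ℝ} (hm : ∀ p, Measurable (Z p))
    (hi : iIndepFun Z P) (hl : ∀ p, P.map (Z p) = gaussianReal 0 1) (j : ℕ) :
    iIndepFun (gam Z j) P :=
  iIndepFun_of_mem_span hm hi hl (fun k => gam_mem_span Z j k) fun k k' h => by
    rw [(gam_cov hm hi hl j).1, if_neg h]

lemma gam_law {Z : ℕ × ℕ → α → ℝ} (hm : ∀ p, Measurable (Z p))
    (hi : iIndepFun Z P) (hl : ∀ p, P.map (Z p) = gaussianReal 0 1) (j k : ℕ) :
    P.map (gam Z j k) = gaussianReal 0 1 :=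
  map_eq_gaussianReal_of_mem_span hm hi hl (gam_mem_span Z j k)
    (integral_eq_zero_of_mem_span hm hi hl (gam_mem_span Z j k))
    (by rw [(gam_cov hm hi hl j).1]; simp)

end Single

/-- Levels `j` of i.i.d. standard Gaussian noise, all produced vertex by vertex from the uniform
variable at the vertex, each level being a dyadic refinement of the previous one. -/
theorem exists_noise (V : Type*) [Countable V] :
    ∃ γ : ℕ → ℕ → unitInterval → ℝ,
      (∀ j k, Measurable (γ j k)) ∧
      (∀ j k s, γ j k s = (γ (j + 1) (2 * k) s + γ (j + 1) (2 * k + 1) s) / Real.sqrt 2) ∧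
      ∀ j, IsNoise (uniformField V) (fun (k : ℕ) (v : V) (u : V → unitInterval) => γ j k (u v)) := by
  classical
  let μ : Measure (ℕ × ℕ → ℝ) := Measure.infinitePi fun _ => gaussianReal 0 1
  obtain ⟨f, hf, hfμ⟩ := MeasureTheory.Measure.exists_measurable_map_eq μ
  let Z : ℕ × ℕ → unitInterval → ℝ := fun p s => f s p
  have hm : ∀ p, Measurable (Z p) := fun p => (measurable_pi_apply p).comp hf
  have hl : ∀ p, (volume : Measure unitInterval).map (Z p) = gaussianReal 0 1 := by
    intro p
    have : Z p = (fun y : ℕ × ℕ → ℝ => y p) ∘ f := rfl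
    rw [this, ← Measure.map_map (measurable_pi_apply p) hf, hfμ]
    exact Measure.infinitePi_map_eval _ p
  have hi : iIndepFun Z (volume : Measure unitInterval) := by
    rw [iIndepFun_iff_map_fun_eq_infinitePi_map hm]
    have : (fun ω i => Z i ω) = f := rfl
    rw [this, hfμ]
    simp_rw [hl]
    rfl
  refine ⟨gam Z, fun j k => gam_measurable hm j k, fun j k s => gam_refine Z j k s, fun j => ?_⟩
  have hgm : ∀ k, Measurable (gam Z j k) := fun k => gam_measurable hm j k
  have heval : ∀ v : V, (uniformField V).map (fun u => u v) = volume := fun v =>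
    Measure.infinitePi_map_eval _ v
  have hX : ∀ (k : ℕ) (v : V), Measurable fun u : V → unitInterval => gam Z j k (u v) :=
    fun k v => (hgm k).comp (measurable_pi_apply v)
  have hlaw : ∀ (k : ℕ) (v : V),
      (uniformField V).map (fun u : V → unitInterval => gam Z j k (u v)) = gaussianReal 0 1 := by
    intro k v
    have : (fun u : V → unitInterval => gam Z j k (u v)) =
        gam Z j k ∘ (fun u => u v) := rfl
    rw [this, ← Measure.map_map (hgm k) (measurable_pi_apply v), heval]
    exact gam_law hm hi hl j k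
  refine ⟨hX, ?_, hlaw⟩
  -- blocks over vertices
  have h1 : iIndepFun (fun (v : V) (u : V → unitInterval) (k : ℕ) => gam Z j k (u v))
      (uniformField V) := by
    have := iIndepFun_infinitePi (ι := V) (Ω := fun _ => unitInterval)
      (P := fun _ => (volume : Measure unitInterval)) (𝓧 := fun _ => ℕ → ℝ)
      (X := fun _ s k => gam Z j k s) (fun _ => measurable_pi_lambda _ hgm)
    exact this
  have h2 : ∀ v : V, iIndepFun (fun (k : ℕ) (u : V → unitInterval) => gam Z j k (u v))
      (uniformField V) := by
    intro v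
    have hP : IsProbabilityMeasure (uniformField V) := by
      unfold uniformField; infer_instance
    rw [iIndepFun_iff_map_fun_eq_infinitePi_map (fun k => hX k v)]
    have e : (fun (u : V → unitInterval) (k : ℕ) => gam Z j k (u v)) =
        (fun s k => gam Z j k s) ∘ (fun u => u v) := rfl
    rw [e, ← Measure.map_map (measurable_pi_lambda _ hgm) (measurable_pi_apply v), heval]
    have := (gam_iIndep hm hi hl j).map_fun_eq_infinitePi_map hgm
    rw [this]
    simp_rw [hlaw, gam_law hm hi hl j]
  have h3 := iIndepFun_uncurry' (X := fun (v : V) (k : ℕ) (u : V → unitInterval) => gam Z j k (u v))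
    (fun v k => hX k v) h1 h2
  exact h3.precomp (g := fun p : ℕ × V => (p.2, p.1)) (fun p q h => by
    have h1 := congrArg Prod.fst h
    have h2 := congrArg Prod.snd h
    exact Prod.ext h2 h1)

end Vale.Agent.Lib.P161
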