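import Vale.Agent.Lib.P161.Basic

/-!
Tree combinatorics for P161 (module task, see the team findings table).
-/

namespace Vale.Agent.Lib.P161

open SimpleGraph

variable {V : Type*} (G : SimpleGraph V)

/-- The branch behind `a` as seen from its neighbour `b`. -/
def Br (a b : V) : Set V := {w | G.dist w b = G.dist w a + 1}

variable {G}
variable {a b c c' w : V}

theorem self_mem_Br (hab : G.Adj a b) : a ∈ Br G a b := by
  show G.dist a b = G.dist a a + 1
  rw [SimpleGraph.dist_self, zero_add]
  exact SimpleGraph.dist_eq_one_iff_adj.2 hab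

theorem not_mem_Br (_hca : G.Adj c a) : a ∉ Br G c a := by
  intro h
  have h' : G.dist a a = G.dist a c + 1 := h
  rw [SimpleGraph.dist_self] at h'
  omega

/-- In a tree, a vertex has at most one neighbour closer to a given vertex. -/
theorem unique_closer (hT : G.IsTree) (hca : G.Adj c a) (hca' : G.Adj c' a)
    (h : G.dist w a = G.dist w c + 1) (h' : G.dist w a = G.dist w c' + 1) : c = c' := by
  classical
  obtain ⟨p, hp, hpl⟩ := hT.connected.exists_path_of_dist w c
  obtain ⟨q, hq, hql⟩ := hT.connected.exists_path_of_dist w c'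
  have hap : a ∉ p.support := by
    intro ha
    have h1 := SimpleGraph.dist_le (p.takeUntil a ha)
    have h2 := p.length_takeUntil_le_length ha
    omega
  have haq : a ∉ q.support := by
    intro ha
    have h1 := SimpleGraph.dist_le (q.takeUntil a ha)
    have h2 := q.length_takeUntil_le_length ha
    omega
  have hp' : (p.concat hca).IsPath := hp.concat hap hca
  have hq' : (q.concat hca').IsPath := hq.concat haq hca'
  have he : p.concat hca = q.concat hca' :=
    congrArg Subtype.val ((hT.isAcyclic.subsingleton_path w a).elim ⟨_, hp'⟩ ⟨_, hq'⟩)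
  exact (Walk.concat_inj he).1

theorem Br_step (hT : G.IsTree) (hca : G.Adj c a) (hab : G.Adj a b) (hcb : c ≠ b)
    (hw : w ∈ Br G c a) : w ∈ Br G a b := by
  have hw' : G.dist w a = G.dist w c + 1 := hw
  show G.dist w b = G.dist w a + 1
  rcases hT.dist_eq_dist_add_one_of_adj w hab with h | h
  · exact absurd (unique_closer hT hca hab.symm hw' h) hcb
  · exact h

theorem Br_disjoint (hT : G.IsTree) (hca : G.Adj c a) (hca' : G.Adj c' a) (hcc : c ≠ c') :
    Disjoint (Br G c a) (Br G c' a) := by
  rw [Set.disjoint_left]
  intro x hx hx'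
  exact hcc (unique_closer hT hca hca' hx hx')

section Balls

variable (G) [G.LocallyFinite] [DecidableEq V]

/-- The ball of radius `R` around `o`, as a finite set. -/
def ballF (o : V) : ℕ → Finset V
  | 0 => {o}
  | R + 1 => ballF o R ∪ (ballF o R).biUnion fun v => G.neighborFinset v

variable {G}

theorem mem_ballF (hc : G.Connected) {o w : V} {R : ℕ} : w ∈ ballF G o R ↔ G.dist o w ≤ R := by
  induction R generalizing w with
  | zero =>
    simp only [ballF, Finset.mem_singleton, nonpos_iff_eq_zero]
    rw [hc.dist_eq_zero_iff]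
    exact eq_comm
  | succ R ih =>
    simp only [ballF, Finset.mem_union, Finset.mem_biUnion, SimpleGraph.mem_neighborFinset]
    constructor
    · rintro (h | ⟨v, hv, hvw⟩)
      · have := ih.1 h
        omega
      · have h1 := ih.1 hv
        have h2 : G.dist v w = 1 := SimpleGraph.dist_eq_one_iff_adj.2 hvw
        have h3 := hc.dist_triangle (u := o) (v := v) (w := w)
        omega
    · intro h
      by_cases hle : G.dist o w ≤ R
      · exact Or.inl (ih.2 hle)
      · right
        have hd : G.dist w o = R + 1 := by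
          rw [SimpleGraph.dist_comm]; omega
        obtain ⟨p, hp⟩ := hc.exists_walk_length_eq_dist w o
        cases p with
        | nil => simp at hd
        | @cons _ v _ hadj q =>
          refine ⟨v, ih.2 ?_, hadj.symm⟩
          rw [SimpleGraph.dist_comm]
          have := SimpleGraph.dist_le q
          simp only [Walk.length_cons] at hp
          omega

theorem ballF_connected (hc : G.Connected) (o : V) (R : ℕ) :
    (G.induce (ballF G o R : Set V)).Connected := by
  have ho : o ∈ ballF G o R := (mem_ballF hc).2 (by simp)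
  rw [SimpleGraph.connected_iff_exists_forall_reachable]
  refine ⟨⟨o, ho⟩, ?_⟩
  rintro ⟨x, hx⟩
  obtain ⟨p, hp⟩ := hc.exists_walk_length_eq_dist o x
  have hsup : ∀ z ∈ p.support, z ∈ (ballF G o R : Set V) := by
    intro z hz
    have h1 := SimpleGraph.dist_le (p.takeUntil z hz)
    have h2 := p.length_takeUntil_le_length hz
    have h3 := (mem_ballF hc).1 hx
    exact Finset.mem_coe.2 ((mem_ballF hc).2 (by omega))
  exact ⟨p.induce _ hsup⟩

/-- A connected locally finite graph has countably many vertices. -/
theorem countable_of_connected (hc : G.Connected) : Countable V := by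
  obtain ⟨o⟩ := hc.nonempty
  have huniv : (Set.univ : Set V) = ⋃ R : ℕ, (ballF G o R : Set V) := by
    ext x
    simp only [Set.mem_univ, Set.mem_iUnion, true_iff]
    exact ⟨G.dist o x, Finset.mem_coe.2 ((mem_ballF hc).2 le_rfl)⟩
  rw [← Set.countable_univ_iff, huniv]
  exact Set.countable_iUnion fun R => (ballF G o R).countable_toSet

/-- On a ball of a tree the restricted neighbourhoods admit a rank function decreasing along the
cavity recursion, bounded by `2R + 1` on edges. -/
theorem rank_nbS (hT : G.IsTree) (o : V) (R : ℕ) :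
    ∃ rk : V → V → ℕ,
      (∀ a b c, G.Adj a b → c ∈ (nbS G (ballF G o R) a).erase b → rk c a + 1 ≤ rk a b) ∧
      (∀ a b, G.Adj a b → rk a b ≤ 2 * R + 1) := by
  classical
  set S := ballF G o R with hS
  refine ⟨fun a b => if a ∈ S then (S.filter (fun w => w ∈ Br G a b)).sup
    (fun w => G.dist a w + 1) else 0, ?_, ?_⟩
  · intro a b c hab hc
    obtain ⟨hcb, hcN⟩ := Finset.mem_erase.1 hc
    have haS : a ∈ S := by
      by_contra h
      simp [nbS, h] at hcN
    have hcN' : c ∈ (G.neighborFinset a).filter (fun c => c ∈ S) := by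
      simpa [nbS, haS] using hcN
    obtain ⟨hac, hcS⟩ := Finset.mem_filter.1 hcN'
    have hac' : G.Adj a c := by simpa using hac
    simp only [if_pos haS, if_pos hcS]
    have hkey : ∀ w ∈ S.filter (fun w => w ∈ Br G c a), G.dist c w + 2 ≤
        (S.filter (fun w => w ∈ Br G a b)).sup (fun w => G.dist a w + 1) := by
      intro w hw
      obtain ⟨hwS, hwB⟩ := Finset.mem_filter.1 hw
      have hwB' : w ∈ Br G a b := Br_step hT hac'.symm hab hcb hwB
      have h1 : G.dist a w + 1 ≤
          (S.filter (fun w => w ∈ Br G a b)).sup (fun w => G.dist a w + 1) :=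
        Finset.le_sup (f := fun w => G.dist a w + 1) (Finset.mem_filter.2 ⟨hwS, hwB'⟩)
      have h2 : G.dist w a = G.dist w c + 1 := hwB
      rw [SimpleGraph.dist_comm (u := a), h2, SimpleGraph.dist_comm (u := w)] at h1
      omega
    have hcmem : c ∈ S.filter (fun w => w ∈ Br G c a) :=
      Finset.mem_filter.2 ⟨hcS, self_mem_Br hac'.symm⟩
    have hge := hkey c hcmem
    have hle : (S.filter (fun w => w ∈ Br G c a)).sup (fun w => G.dist c w + 1) ≤
        (S.filter (fun w => w ∈ Br G a b)).sup (fun w => G.dist a w + 1) - 1 := by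
      refine Finset.sup_le fun w hw => ?_
      have := hkey w hw
      omega
    omega
  · intro a b _
    by_cases haS : a ∈ S
    · simp only [if_pos haS]
      refine Finset.sup_le fun w hw => ?_
      have hwS := (Finset.mem_filter.1 hw).1
      have h1 := (mem_ballF hT.connected).1 haS
      have h2 := (mem_ballF hT.connected).1 hwS
      have h3 := hT.connected.dist_triangle (u := a) (v := o) (w := w)
      rw [SimpleGraph.dist_comm (u := a) (v := o)] at h3
      omega
    · simp [if_neg haS]

end Balls

section Peel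

variable [DecidableEq V]

/-- In a tree, a path between two points of a connected vertex set stays inside the set. -/
theorem path_support_subset (hT : G.IsTree) {S : Finset V}
    (hS : (G.induce (S : Set V)).Connected) {x y : V} (hx : x ∈ S) (hy : y ∈ S)
    (p : G.Walk x y) (hp : p.IsPath) : ∀ z ∈ p.support, z ∈ S := by
  classical
  obtain ⟨q⟩ := hS.preconnected ⟨x, Finset.mem_coe.2 hx⟩ ⟨y, Finset.mem_coe.2 hy⟩
  let q' : G.Walk x y := q.map (SimpleGraph.Embedding.induce (S : Set V)).toHom
  have hq'S : ∀ z ∈ q'.support, z ∈ S := by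
    intro z hz
    have e : q'.support = q.support.map (SimpleGraph.Embedding.induce (G := G) (S : Set V)).toHom :=
      Walk.support_map _ _
    rw [e] at hz
    obtain ⟨u, _, rfl⟩ := List.mem_map.1 hz
    exact Finset.mem_coe.1 u.2
  have hbp : q'.bypass.IsPath := q'.bypass_isPath
  have he : p = q'.bypass :=
    congrArg Subtype.val ((hT.isAcyclic.subsingleton_path x y).elim ⟨p, hp⟩ ⟨_, hbp⟩)
  intro z hz
  rw [he] at hz
  exact hq'S z (q'.support_bypass_subset_support hz)

/-- Every vertex subset `S` inducing a connected subgraph of a tree, strictly containing a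
connected `D`, has a leaf `w ∉ D`: `w` has exactly one neighbour `p` in `S`, and `S.erase w` still
induces a connected subgraph containing `D`. -/
theorem peel (hT : G.IsTree) {S D : Finset V} (hD : (G.induce (D : Set V)).Connected)
    (hS : (G.induce (S : Set V)).Connected) (hDS : D ⊆ S) (hne : D ≠ S) :
    ∃ w ∈ S, w ∉ D ∧ ∃ p ∈ S, G.Adj w p ∧ (∀ q ∈ S, G.Adj w q → q = p) ∧
      (G.induce ((S.erase w : Finset V) : Set V)).Connected := by
  classical
  obtain ⟨⟨a, haD'⟩⟩ := hD.nonempty
  have haD : a ∈ D := Finset.mem_coe.1 haD'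
  have haS : a ∈ S := hDS haD
  have hdiff : (S \ D).Nonempty := by
    by_contra h
    rw [Finset.not_nonempty_iff_eq_empty, Finset.sdiff_eq_empty_iff_subset] at h
    exact hne (Finset.Subset.antisymm hDS h)
  obtain ⟨w, hwmem, hwmax⟩ := Finset.exists_max_image (S \ D) (fun w => G.dist a w) hdiff
  obtain ⟨hwS, hwD⟩ := Finset.mem_sdiff.1 hwmem
  have haw : a ≠ w := fun h => hwD (h ▸ haD)
  obtain ⟨p, hp, hpl⟩ := hT.connected.exists_path_of_dist a w
  have hnil : ¬ p.Nil := by
    intro h
    exact haw (Walk.Nil.eq h)
  have hpS := path_support_subset hT hS haS hwS p hp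
  set P := p.penultimate with hP
  have hPw : G.Adj P w := Walk.adj_penultimate hnil
  have hPmem : P ∈ p.support := p.getVert_mem_support _
  have hPS : P ∈ S := hpS P hPmem
  have hPd : G.dist a w = G.dist a P + 1 := by
    rcases hT.dist_eq_dist_add_one_of_adj a hPw with h | h
    · have h1 := SimpleGraph.dist_le (p.takeUntil P hPmem)
      have h2 := p.length_takeUntil_le_length hPmem
      omega
    · exact h
  have huniq : ∀ q ∈ S, G.Adj w q → q = P := by
    intro q hqS hwq
    by_contra hqP
    have hqd : G.dist a q = G.dist a w + 1 := by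
      rcases hT.dist_eq_dist_add_one_of_adj a hwq with h | h
      · exact absurd (unique_closer hT hwq.symm hPw h hPd) hqP
      · exact h
    have hqD : q ∈ D := by
      by_contra hqD
      have := hwmax q (Finset.mem_sdiff.2 ⟨hqS, hqD⟩)
      omega
    have hqp : q ∉ p.support := by
      intro hq
      have h1 := SimpleGraph.dist_le (p.takeUntil q hq)
      have h2 := p.length_takeUntil_le_length hq
      omega
    have hr : (p.concat hwq).IsPath := hp.concat hqp hwq
    have hwr : w ∈ (p.concat hwq).support := by
      rw [Walk.support_concat]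
      simp
    exact hwD (path_support_subset hT hD haD hqD _ hr w hwr)
  refine ⟨w, hwS, hwD, P, hPS, hPw.symm, huniq, ?_⟩
  -- connectedness after removing the leaf
  set H := G.induce (S : Set V) with hH
  have hleaf := SimpleGraph.Preconnected.induce_of_degree_eq_one hS.preconnected
    (s := {z : (S : Set V) | z.1 ≠ w}) (by
      intro v hv
      have hvw : v.1 = w := by simpa using hv
      intro y1 hy1 y2 hy2
      have h1 : G.Adj v.1 y1.1 := by simpa [hH] using hy1
      have h2 : G.Adj v.1 y2.1 := by simpa [hH] using hy2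
      rw [hvw] at h1 h2
      have e1 := huniq y1.1 (Finset.mem_coe.1 y1.2) h1
      have e2 := huniq y2.1 (Finset.mem_coe.1 y2.2) h2
      exact Subtype.ext (e1.trans e2.symm))
  let hphi : (H.induce {z : (S : Set V) | z.1 ≠ w}) →g
      G.induce ((S.erase w : Finset V) : Set V) :=
    { toFun := fun z => ⟨z.1.1, Finset.mem_coe.2 (Finset.mem_erase.2 ⟨z.2, Finset.mem_coe.1 z.1.2⟩)⟩
      map_rel' := by
        intro x y hxy
        simpa [hH] using hxy }
  have hpre : (G.induce ((S.erase w : Finset V) : Set V)).Preconnected := by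
    rintro ⟨x, hx⟩ ⟨y, hy⟩
    obtain ⟨hxw, hxS⟩ := Finset.mem_erase.1 (Finset.mem_coe.1 hx)
    obtain ⟨hyw, hyS⟩ := Finset.mem_erase.1 (Finset.mem_coe.1 hy)
    have hr := hleaf ⟨⟨x, Finset.mem_coe.2 hxS⟩, hxw⟩ ⟨⟨y, Finset.mem_coe.2 hyS⟩, hyw⟩
    have hm := hr.map hphi
    exact hm
  have : Nonempty ((S.erase w : Finset V) : Set V) :=
    ⟨⟨a, Finset.mem_coe.2 (Finset.mem_erase.2 ⟨haw, haS⟩)⟩⟩
  exact ⟨hpre⟩

end Peel

end Vale.Agent.Lib.P161
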