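import Vale.Agent.Lib.P161.Defs

/-!
Scalar functions and the cavity-field dynamics for P161.

Convention: `N : V → Finset V` is a neighbour function (either the full neighbourhoods of the
tree `G`, or the neighbourhoods inside a finite ball `S`); `η : V → V → ℝ` is a family of cavity
fields, `η a b` being the field sent from `a` to `b`.
-/

open Finset MeasureTheory ProbabilityTheory

namespace Vale.Agent.Lib.P161

noncomputable section

/-! ### Scalar functions -/

/-- The cavity map `h(x) = atanh (θ tanh x)`. -/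
def hm (θ x : ℝ) : ℝ :=
  Real.log ((Real.cosh x + θ * Real.sinh x) / (Real.cosh x - θ * Real.sinh x)) / 2

/-- `h'(x) = θ / (1 + (1 - θ²) sinh² x)`. -/
def hd1 (θ x : ℝ) : ℝ := θ / (1 + (1 - θ ^ 2) * Real.sinh x ^ 2)

/-- `h''(x)`. -/
def hd2 (θ x : ℝ) : ℝ :=
  -(2 * θ * (1 - θ ^ 2) * Real.sinh x * Real.cosh x) / (1 + (1 - θ ^ 2) * Real.sinh x ^ 2) ^ 2

/-- `h'''(x)`. -/
def hd3 (θ x : ℝ) : ℝ :=
  -(2 * θ * (1 - θ ^ 2)) *
    (((Real.cosh x ^ 2 + Real.sinh x ^ 2) * (1 + (1 - θ ^ 2) * Real.sinh x ^ 2)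
        - 4 * (1 - θ ^ 2) * Real.sinh x ^ 2 * Real.cosh x ^ 2)
      / (1 + (1 - θ ^ 2) * Real.sinh x ^ 2) ^ 3)

/-- The clip function, the projection of `ℝ` onto `[-1, 1]`. -/
def clip (u : ℝ) : ℝ := max (-1) (min 1 u)

variable {V : Type*} [DecidableEq V]

/-! ### Belief propagation messages -/

/-- Belief propagation messages with field `x`, run for `L` rounds. -/
def msg (θ : ℝ) (N : V → Finset V) (x : V → ℝ) : ℕ → V → V → ℝ
  | 0, a, _ => x a
  | L + 1, a, b => x a + ∑ c ∈ (N a).erase b, hm θ (msg θ N x L c a)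

/-- Total field at `a` from the `L`-round messages. -/
def totField (θ : ℝ) (N : V → Finset V) (x : V → ℝ) (L : ℕ) (a : V) : ℝ :=
  x a + ∑ c ∈ N a, hm θ (msg θ N x L c a)

/-! ### Coefficients of the cavity dynamics (computed by recursion) -/

/-- Recursive form of the noise term: `Lin (ℓ+1) a b = g a + ∑_{c ∈ N a \ b} W c a * Lin ℓ c a`. -/
def Lin (N : V → Finset V) (W : V → V → ℝ) (g : V → ℝ) : ℕ → V → V → ℝ
  | 0, a, _ => g a
  | ℓ + 1, a, b => g a + ∑ c ∈ (N a).erase b, W c a * Lin N W g ℓ c a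

/-- Recursive form of the squared norm of the noise coefficient:
`Nsq (ℓ+1) a b = 1 + ∑_{c ∈ N a \ b} (W c a)² * Nsq ℓ c a`. -/
def Nsq (N : V → Finset V) (W : V → V → ℝ) : ℕ → V → V → ℝ
  | 0, _, _ => 1
  | ℓ + 1, a, b => 1 + ∑ c ∈ (N a).erase b, W c a ^ 2 * Nsq N W ℓ c a

/-- Weights `W c a = h'(η c a)`. -/
def wgt (θ : ℝ) (η : V → V → ℝ) : V → V → ℝ := fun c a => hd1 θ (η c a)

/-- One Euler step of the closed cavity dynamics, with mesh `ε` and fuel `ℓ`:
`η' a b = η a b + ε tanh (η a b + h (η b a)) ‖I‖² + √ε ⟨I, g⟩`. -/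
def cavStep (θ : ℝ) (N : V → Finset V) (ℓ : ℕ) (ε : ℝ) (η : V → V → ℝ) (g : V → ℝ) :
    V → V → ℝ := fun a b =>
  η a b + ε * (Real.tanh (η a b + hm θ (η b a)) * Nsq N (wgt θ η) ℓ a b)
    + Real.sqrt ε * Lin N (wgt θ η) g ℓ a b

/-- The cavity chain started from zero and driven by the noise `g`. -/
def cavChain (θ : ℝ) (N : V → Finset V) (ℓ : ℕ) (ε : ℝ) (g : ℕ → V → ℝ) : ℕ → V → V → ℝ
  | 0 => 0
  | k + 1 => cavStep θ N ℓ ε (cavChain θ N ℓ ε g k) (g k)

/-- The Euler chain for the observation field on a finite system: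
`x' a = x a + ε tanh (total field at a) + √ε g a`. -/
def xChain (θ : ℝ) (N : V → Finset V) (L : ℕ) (ε : ℝ) (g : ℕ → V → ℝ) : ℕ → V → ℝ
  | 0 => 0
  | k + 1 => fun a =>
      xChain θ N L ε g k a + ε * Real.tanh (totField θ N (xChain θ N L ε g k) L a)
        + Real.sqrt ε * g k a

/-- Estimator of the observation field at `v` from the cavity fields: it equals `x v` when
`η` is the family of exact messages of `x`, `v` has `d` neighbours `N v`. -/
def yHat (θ : ℝ) (d : ℕ) (N : V → Finset V) (η : V → V → ℝ) (v : V) : ℝ :=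
  (∑ b ∈ N v, (η v b - ((d : ℝ) - 1) * hm θ (η b v))) / d

/-! ### Coefficient vectors (used in proofs only) -/

/-- The coefficient vector `I`, for which `Lin = ⟨I, g⟩` and `Nsq = ‖I‖²`. -/
def coef (N : V → Finset V) (W : V → V → ℝ) : ℕ → V → V → V →₀ ℝ
  | 0, a, _ => Finsupp.single a 1
  | ℓ + 1, a, b => Finsupp.single a 1 + ∑ c ∈ (N a).erase b, W c a • coef N W ℓ c a

/-- Inner product of a coefficient vector with a noise vector. -/
def lin (c : V →₀ ℝ) (g : V → ℝ) : ℝ := c.sum fun w y => y * g w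

/-- Squared norm of a coefficient vector. -/
def nsq (c : V →₀ ℝ) : ℝ := c.sum fun _ y => y ^ 2

/-! ### Neighbourhoods -/

/-- The neighbourhoods of `G` restricted to the finite set `S` (empty outside `S`). -/
def nbS (G : SimpleGraph V) [G.LocallyFinite] (S : Finset V) (a : V) : Finset V :=
  open Classical in if a ∈ S then (G.neighborFinset a).filter (fun c => c ∈ S) else ∅

/-! ### Noise -/

/-- `g` is a family of i.i.d. standard Gaussians on `(Ω, P)`, indexed by time step and vertex. -/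
structure IsNoise {Ω : Type*} [MeasurableSpace Ω] (P : Measure Ω) (g : ℕ → V → Ω → ℝ) : Prop where
  meas : ∀ k w, Measurable (g k w)
  indep : iIndepFun (fun p : ℕ × V => g p.1 p.2) P
  law : ∀ k w, P.map (g k w) = gaussianReal 0 1

end

end Vale.Agent.Lib.P161
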