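import Vale.Agent.Lib.P161.OneStep

/-!
The `L²` one-step estimate for two adapted cavity states driven by the same noise, for P161.
-/

open MeasureTheory ProbabilityTheory Finset

set_option linter.unusedSectionVars false

namespace Vale.Agent.Lib.P161

noncomputable section

variable {Ω V : Type*} [mΩ : MeasurableSpace Ω] {P : Measure Ω} [IsProbabilityMeasure P]
  {g : ℕ → V → Ω → ℝ}

/-- The uniform bound `K₂ = 1 / (1 - θ² (d - 1))`. -/
def K2 (θ : ℝ) (d : ℕ) : ℝ := 1 / (1 - θ ^ 2 * ((d : ℝ) - 1))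

/-- The standing hypotheses on the tree and the parameter. -/
structure TreeParams (G : SimpleGraph V) [G.LocallyFinite] (d : ℕ) (θ : ℝ) : Prop where
  tree : G.IsTree
  deg : ∀ v, G.degree v = d
  one_le : 1 ≤ d
  nonneg : 0 ≤ θ
  lt_one : θ < 1
  rho : θ ^ 2 * ((d : ℝ) - 1) < 1

/-- `N` is a sub-neighbourhood function of `G`. -/
def SubN (G : SimpleGraph V) (N : V → Finset V) : Prop := ∀ a c, c ∈ N a → G.Adj a c

/-- The full neighbourhoods of `G`. -/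
def nbV (G : SimpleGraph V) [G.LocallyFinite] (a : V) : Finset V := G.neighborFinset a

variable {G : SimpleGraph V} [G.LocallyFinite] [DecidableEq V] {d : ℕ} {θ ε : ℝ}
  {N N' : V → Finset V}

theorem TreeParams.K2_pos (hp : TreeParams G d θ) : 0 < K2 θ d := by
  have := hp.rho
  unfold K2
  apply div_pos one_pos
  linarith

theorem TreeParams.one_le_K2 (hp : TreeParams G d θ) : 1 ≤ K2 θ d := by
  have h1 := hp.rho
  have hd' : (0 : ℝ) ≤ (d : ℝ) - 1 := by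
    have : (1 : ℝ) ≤ d := by exact_mod_cast hp.one_le
    linarith
  have hρ0 : 0 ≤ θ ^ 2 * ((d : ℝ) - 1) := by positivity
  unfold K2
  rw [le_div_iff₀ (by linarith)]
  linarith

theorem TreeParams.wgt_sq_le (hp : TreeParams G d θ) (η : V → V → ℝ) (c a : V) :
    wgt θ η c a ^ 2 ≤ θ ^ 2 := by
  simp only [wgt]
  exact pow_le_pow_left₀ (hd1_nonneg hp.nonneg hp.lt_one _) (hd1_le hp.nonneg hp.lt_one _) 2

theorem TreeParams.Nsq_wgt_le (hp : TreeParams G d θ) (hN : SubN G N) (η : V → V → ℝ) (ℓ : ℕ)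
    {a b : V} (hab : G.Adj a b) : Nsq N (wgt θ η) ℓ a b ≤ K2 θ d :=
  Nsq_le hp.tree hN hp.deg hp.one_le hp.rho (hp.wgt_sq_le η) ℓ a b hab

theorem TreeParams.Nsq_wgt_nonneg (hp : TreeParams G d θ) (hN : SubN G N) (η : V → V → ℝ) (ℓ : ℕ)
    {a b : V} (hab : G.Adj a b) : 0 ≤ Nsq N (wgt θ η) ℓ a b :=
  Nsq_nonneg hp.tree hN ℓ a b hab

/-- Squared norm of a difference of two coefficient vectors is at most `4 K₂`. -/
theorem TreeParams.nsq_diff_le (hp : TreeParams G d θ) (hN : SubN G N) (hN' : SubN G N')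
    (η η' : V → V → ℝ) (ℓ : ℕ) {a b : V} (hab : G.Adj a b) :
    nsq (coef N (wgt θ η) ℓ a b - coef N' (wgt θ η') ℓ a b) ≤ 4 * K2 θ d := by
  refine (nsq_sub_le _ _).trans ?_
  rw [nsq_coef hp.tree hN ℓ a b hab, nsq_coef hp.tree hN' ℓ a b hab]
  have h1 := hp.Nsq_wgt_le hN η ℓ hab
  have h2 := hp.Nsq_wgt_le hN' η' ℓ hab
  linarith

/-- The drift of the cavity dynamics. -/
def driftOf (θ : ℝ) (N : V → Finset V) (ℓ : ℕ) (η : V → V → ℝ) (a b : V) : ℝ :=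
  Real.tanh (η a b + hm θ (η b a)) * Nsq N (wgt θ η) ℓ a b

theorem cavStep_eq (ℓ : ℕ) (η : V → V → ℝ) (h : V → ℝ) (a b : V) :
    cavStep θ N ℓ ε η h a b
      = η a b + ε * driftOf θ N ℓ η a b + Real.sqrt ε * Lin N (wgt θ η) h ℓ a b := rfl

theorem TreeParams.abs_driftOf_le (hp : TreeParams G d θ) (hN : SubN G N) (η : V → V → ℝ) (ℓ : ℕ)
    {a b : V} (hab : G.Adj a b) : |driftOf θ N ℓ η a b| ≤ K2 θ d := by
  unfold driftOf
  rw [abs_mul, abs_of_nonneg (hp.Nsq_wgt_nonneg hN η ℓ hab)]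
  calc _ ≤ 1 * K2 θ d := mul_le_mul (abs_tanh_le_one _) (hp.Nsq_wgt_le hN η ℓ hab)
        (hp.Nsq_wgt_nonneg hN η ℓ hab) (by norm_num)
    _ = K2 θ d := one_mul _

/-- Deterministic bound for the square of the drift difference. -/
theorem TreeParams.sq_driftOf_sub_le (hp : TreeParams G d θ) (hN : SubN G N) (hN' : SubN G N')
    (η η' : V → V → ℝ) (ℓ : ℕ) {a b : V} (hab : G.Adj a b) :
    (driftOf θ N ℓ η a b - driftOf θ N' ℓ η' a b) ^ 2
      ≤ 4 * K2 θ d ^ 2 * ((η a b - η' a b) ^ 2 + (η b a - η' b a) ^ 2)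
        + 8 * K2 θ d * nsq (coef N (wgt θ η) ℓ a b - coef N' (wgt θ η') ℓ a b) := by
  set K := K2 θ d
  have hK : 0 < K := hp.K2_pos
  set A := Nsq N (wgt θ η) ℓ a b
  set A' := Nsq N' (wgt θ η') ℓ a b
  have hA0 : 0 ≤ A := hp.Nsq_wgt_nonneg hN η ℓ hab
  have hA1 : A ≤ K := hp.Nsq_wgt_le hN η ℓ hab
  have hA0' : 0 ≤ A' := hp.Nsq_wgt_nonneg hN' η' ℓ hab
  have hA1' : A' ≤ K := hp.Nsq_wgt_le hN' η' ℓ hab
  set u := η a b + hm θ (η b a)
  set u' := η' a b + hm θ (η' b a)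
  set nd := nsq (coef N (wgt θ η) ℓ a b - coef N' (wgt θ η') ℓ a b)
  have hnd : 0 ≤ nd := nsq_nonneg _
  -- bound on the fields
  have hu : (u - u') ^ 2 ≤ 2 * (η a b - η' a b) ^ 2 + 2 * (η b a - η' b a) ^ 2 := by
    have h1 : |hm θ (η b a) - hm θ (η' b a)| ≤ θ * |η b a - η' b a| :=
      abs_hm_sub_le hp.nonneg hp.lt_one _ _
    have h2 : |hm θ (η b a) - hm θ (η' b a)| ≤ |η b a - η' b a| := by
      refine h1.trans ?_
      have := abs_nonneg (η b a - η' b a)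
      nlinarith [hp.lt_one]
    have h3 : (hm θ (η b a) - hm θ (η' b a)) ^ 2 ≤ (η b a - η' b a) ^ 2 := sq_le_sq.2 h2
    have e : u - u' = (η a b - η' a b) + (hm θ (η b a) - hm θ (η' b a)) := by
      simp only [u, u']; ring
    rw [e]
    nlinarith [sq_nonneg ((η a b - η' a b) - (hm θ (η b a) - hm θ (η' b a)))]
  have ht : (Real.tanh u - Real.tanh u') ^ 2 ≤ (u - u') ^ 2 := by
    exact sq_le_sq.2 (by simpa [abs_abs] using abs_tanh_sub_le u u')
  have hdA : (A - A') ^ 2 ≤ nd * (4 * K) := by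
    have h := sq_nsq_sub_le (coef N (wgt θ η) ℓ a b) (coef N' (wgt θ η') ℓ a b)
    rw [nsq_coef hp.tree hN ℓ a b hab, nsq_coef hp.tree hN' ℓ a b hab] at h
    refine h.trans ?_
    exact mul_le_mul_of_nonneg_left (by linarith) hnd
  have htu' : Real.tanh u' ^ 2 ≤ 1 := by
    have := abs_tanh_le_one u'
    rw [← abs_one] at this
    have h := sq_le_sq.2 (by simpa using this : |Real.tanh u'| ≤ |(1 : ℝ)|)
    simpa using h
  unfold driftOf
  have e : Real.tanh u * A - Real.tanh u' * A'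
      = (Real.tanh u - Real.tanh u') * A + Real.tanh u' * (A - A') := by ring
  rw [e]
  have h1 : ((Real.tanh u - Real.tanh u') * A + Real.tanh u' * (A - A')) ^ 2
      ≤ 2 * ((Real.tanh u - Real.tanh u') ^ 2 * A ^ 2) + 2 * (Real.tanh u' ^ 2 * (A - A') ^ 2) := by
    nlinarith [sq_nonneg ((Real.tanh u - Real.tanh u') * A - Real.tanh u' * (A - A'))]
  have h2 : A ^ 2 ≤ K ^ 2 := pow_le_pow_left₀ hA0 hA1 2
  have h3 : (Real.tanh u - Real.tanh u') ^ 2 * A ^ 2 ≤ (u - u') ^ 2 * K ^ 2 :=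
    mul_le_mul ht h2 (sq_nonneg _) (sq_nonneg _)
  have h4 : Real.tanh u' ^ 2 * (A - A') ^ 2 ≤ 1 * (nd * (4 * K)) :=
    mul_le_mul htu' hdA (sq_nonneg _) (by norm_num)
  have h5 : (u - u') ^ 2 * K ^ 2 ≤ (2 * (η a b - η' a b) ^ 2 + 2 * (η b a - η' b a) ^ 2) * K ^ 2 :=
    mul_le_mul_of_nonneg_right hu (sq_nonneg _)
  nlinarith

section Step

variable {k : ℕ}

/-- The coefficient function of a difference of two noise terms. -/
def diffCoef (θ : ℝ) (N N' : V → Finset V) (ℓ : ℕ) (η η' : Ω → V → V → ℝ) (a b : V)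
    (w : V) (ω : Ω) : ℝ :=
  (coef N (wgt θ (η ω)) ℓ a b - coef N' (wgt θ (η' ω)) ℓ a b) w

/-- The finite set carrying the coefficients of the difference. -/
def diffSupp (N N' : V → Finset V) (ℓ : ℕ) (a b : V) : Finset V :=
  coefSupp N ℓ a b ∪ coefSupp N' ℓ a b

theorem support_diff_subset (W W' : V → V → ℝ) (ℓ : ℕ) (a b : V) :
    (coef N W ℓ a b - coef N' W' ℓ a b).support ⊆ diffSupp N N' ℓ a b :=
  (Finsupp.support_sub).trans (union_subset_union (support_coef_subset ℓ a b)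
    (support_coef_subset ℓ a b))

/-- The difference of the noise terms as a finite sum with adapted coefficients. -/
theorem Lin_sub_eq (η η' : Ω → V → V → ℝ) (h : V → ℝ) (ℓ : ℕ) (a b : V) (ω : Ω) :
    Lin N (wgt θ (η ω)) h ℓ a b - Lin N' (wgt θ (η' ω)) h ℓ a b
      = ∑ w ∈ diffSupp N N' ℓ a b, diffCoef θ N N' ℓ η η' a b w ω * h w := by
  rw [← lin_coef, ← lin_coef, ← lin_sub, lin_eq_sum _ _ (support_diff_subset _ _ ℓ a b)]
  rfl

theorem nsq_diff_eq (η η' : Ω → V → V → ℝ) (ℓ : ℕ) (a b : V) (ω : Ω) :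
    nsq (coef N (wgt θ (η ω)) ℓ a b - coef N' (wgt θ (η' ω)) ℓ a b)
      = ∑ w ∈ diffSupp N N' ℓ a b, diffCoef θ N N' ℓ η η' a b w ω ^ 2 := by
  rw [nsq_eq_sum _ (support_diff_subset _ _ ℓ a b)]
  rfl

/-- Adapted pairs of states. -/
structure Adapted2 (g : ℕ → V → Ω → ℝ) (k : ℕ) (P : Measure Ω) (η : Ω → V → V → ℝ) : Prop where
  meas : ∀ i j, Measurable[pastS g k] (fun ω => η ω i j)
  memLp : ∀ i j, MemLp (fun ω => η ω i j) 2 P

theorem Adapted2.measurable_wgt {η : Ω → V → V → ℝ} (hη : Adapted2 g k P η)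
    (h0 : 0 ≤ θ) (h1 : θ < 1) (c a : V) :
    Measurable[pastS g k] (fun ω => wgt θ (η ω) c a) :=
  (continuous_hd1 h0 h1).measurable.comp (hη.meas c a)

theorem measurable_diffCoef {η η' : Ω → V → V → ℝ} (hη : Adapted2 g k P η)
    (hη' : Adapted2 g k P η') (h0 : 0 ≤ θ) (h1 : θ < 1) (ℓ : ℕ) (a b w : V) :
    Measurable[pastS g k] (diffCoef θ N N' ℓ η η' a b w) := by
  unfold diffCoef
  simp only [Finsupp.sub_apply]
  exact (measurable_coef_apply (hη.measurable_wgt h0 h1) ℓ a b w).sub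
    (measurable_coef_apply (hη'.measurable_wgt h0 h1) ℓ a b w)

theorem TreeParams.abs_diffCoef_le (hp : TreeParams G d θ) (hN : SubN G N) (hN' : SubN G N')
    (η η' : Ω → V → V → ℝ) (ℓ : ℕ) {a b : V} (hab : G.Adj a b) (w : V) (ω : Ω) :
    |diffCoef θ N N' ℓ η η' a b w ω| ≤ 1 + 4 * K2 θ d := by
  have h := abs_apply_le_sqrt_nsq (coef N (wgt θ (η ω)) ℓ a b - coef N' (wgt θ (η' ω)) ℓ a b) w
  have h2 := hp.nsq_diff_le hN hN' (η ω) (η' ω) ℓ hab
  have h3 : diffCoef θ N N' ℓ η η' a b w ω ^ 2 ≤ 4 * K2 θ d := h.trans h2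
  rcases abs_cases (diffCoef θ N N' ℓ η η' a b w ω) with ⟨h4, _⟩ | ⟨h4, _⟩ <;> rw [h4] <;>
    nlinarith [sq_nonneg (diffCoef θ N N' ℓ η η' a b w ω - 1),
      sq_nonneg (diffCoef θ N N' ℓ η η' a b w ω + 1)]

theorem measurable_driftOf {η : Ω → V → V → ℝ} (hη : Adapted2 g k P η)
    (h0 : 0 ≤ θ) (h1 : θ < 1) (ℓ : ℕ) (a b : V) :
    Measurable[pastS g k] (fun ω => driftOf θ N ℓ (η ω) a b) := by
  unfold driftOf
  exact (continuous_tanh.measurable.comp ((hη.meas a b).add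
    ((continuous_hm h0 h1).measurable.comp (hη.meas b a)))).mul
    (measurable_Nsq (hη.measurable_wgt h0 h1) ℓ a b)

/-- The adapted part of one step of the difference. -/
def stepA (θ ε : ℝ) (N N' : V → Finset V) (ℓ : ℕ) (η η' : Ω → V → V → ℝ) (a b : V) (ω : Ω) : ℝ :=
  (η ω a b - η' ω a b) + ε * (driftOf θ N ℓ (η ω) a b - driftOf θ N' ℓ (η' ω) a b)

theorem cavStep_sub_eq (η η' : Ω → V → V → ℝ) (h : V → ℝ) (ℓ : ℕ) (a b : V) (ω : Ω) :
    cavStep θ N ℓ ε (η ω) h a b - cavStep θ N' ℓ ε (η' ω) h a b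
      = stepA θ ε N N' ℓ η η' a b ω
        + Real.sqrt ε * ∑ w ∈ diffSupp N N' ℓ a b, diffCoef θ N N' ℓ η η' a b w ω * h w := by
  rw [← Lin_sub_eq, cavStep_eq, cavStep_eq]
  unfold stepA
  ring

theorem measurable_stepA {η η' : Ω → V → V → ℝ} (hη : Adapted2 g k P η)
    (hη' : Adapted2 g k P η') (h0 : 0 ≤ θ) (h1 : θ < 1) (ℓ : ℕ) (a b : V) :
    Measurable[pastS g k] (stepA θ ε N N' ℓ η η' a b) := by
  unfold stepA
  exact ((hη.meas a b).sub (hη'.meas a b)).add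
    (((measurable_driftOf hη h0 h1 ℓ a b).sub (measurable_driftOf hη' h0 h1 ℓ a b)).const_mul _)

theorem TreeParams.memLp_stepA (hp : TreeParams G d θ) (hN : SubN G N) (hN' : SubN G N')
    (hg : IsNoise P g) {η η' : Ω → V → V → ℝ} (hη : Adapted2 g k P η)
    (hη' : Adapted2 g k P η') (ℓ : ℕ) {a b : V} (hab : G.Adj a b) :
    MemLp (stepA θ ε N N' ℓ η η' a b) 2 P := by
  unfold stepA
  refine ((hη.memLp a b).sub (hη'.memLp a b)).add ?_
  refine MemLp.of_bound ?_ (|ε| * (K2 θ d + K2 θ d)) (Filter.Eventually.of_forall fun ω => ?_)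
  · exact (((((measurable_driftOf hη hp.nonneg hp.lt_one ℓ a b).sub
      (measurable_driftOf hη' hp.nonneg hp.lt_one ℓ a b)).const_mul ε).mono
      (pastS_le hg k) le_rfl)).aestronglyMeasurable
  · rw [Real.norm_eq_abs, abs_mul]
    refine mul_le_mul_of_nonneg_left ?_ (abs_nonneg _)
    refine (abs_sub _ _).trans ?_
    exact add_le_add (hp.abs_driftOf_le hN _ ℓ hab) (hp.abs_driftOf_le hN' _ ℓ hab)

/-- The adapted part has second moment at most
`(1+ε) E D² + 2 ε E U²`, for `0 < ε ≤ 1`, and `U` is controlled. -/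
theorem TreeParams.integral_stepA_sq_le (hp : TreeParams G d θ) (hN : SubN G N) (hN' : SubN G N')
    (hg : IsNoise P g) (hε : 0 < ε) (hε1 : ε ≤ 1) {η η' : Ω → V → V → ℝ}
    (hη : Adapted2 g k P η) (hη' : Adapted2 g k P η') (ℓ : ℕ) {a b : V} (hab : G.Adj a b) :
    ∫ ω, stepA θ ε N N' ℓ η η' a b ω ^ 2 ∂P
      ≤ (1 + ε + 8 * K2 θ d ^ 2 * ε) * ∫ ω, (η ω a b - η' ω a b) ^ 2 ∂P
        + 8 * K2 θ d ^ 2 * ε * ∫ ω, (η ω b a - η' ω b a) ^ 2 ∂P
        + 16 * K2 θ d * ε * ∫ ω, nsq (coef N (wgt θ (η ω)) ℓ a b - coef N' (wgt θ (η' ω)) ℓ a b) ∂P := by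
  set K := K2 θ d
  have hK : 0 < K := hp.K2_pos
  have hD1 : Integrable (fun ω => (η ω a b - η' ω a b) ^ 2) P :=
    ((hη.memLp a b).sub (hη'.memLp a b)).integrable_sq
  have hD2 : Integrable (fun ω => (η ω b a - η' ω b a) ^ 2) P :=
    ((hη.memLp b a).sub (hη'.memLp b a)).integrable_sq
  have hV : Integrable (fun ω => nsq (coef N (wgt θ (η ω)) ℓ a b - coef N' (wgt θ (η' ω)) ℓ a b)) P := by
    refine Integrable.of_bound (C := 4 * K) ?_ (Filter.Eventually.of_forall fun ω => ?_)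
    · have : Measurable (fun ω => ∑ w ∈ diffSupp N N' ℓ a b, diffCoef θ N N' ℓ η η' a b w ω ^ 2) :=
        Finset.measurable_fun_sum _ fun w _ =>
          ((measurable_diffCoef hη hη' hp.nonneg hp.lt_one ℓ a b w).mono
            (pastS_le hg k) le_rfl).pow_const 2
      rw [← funext (nsq_diff_eq (θ := θ) (N := N) (N' := N') η η' ℓ a b)] at this
      exact this.aestronglyMeasurable
    · rw [Real.norm_eq_abs, abs_of_nonneg (nsq_nonneg _)]
      exact hp.nsq_diff_le hN hN' _ _ ℓ hab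
  have hpt : ∀ ω, stepA θ ε N N' ℓ η η' a b ω ^ 2
      ≤ (1 + ε + 8 * K ^ 2 * ε) * (η ω a b - η' ω a b) ^ 2
        + 8 * K ^ 2 * ε * (η ω b a - η' ω b a) ^ 2
        + 16 * K * ε * nsq (coef N (wgt θ (η ω)) ℓ a b - coef N' (wgt θ (η' ω)) ℓ a b) := by
    intro ω
    unfold stepA
    set D := η ω a b - η' ω a b
    set D' := η ω b a - η' ω b a
    set U := driftOf θ N ℓ (η ω) a b - driftOf θ N' ℓ (η' ω) a b
    set nd := nsq (coef N (wgt θ (η ω)) ℓ a b - coef N' (wgt θ (η' ω)) ℓ a b)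
    have hU : U ^ 2 ≤ 4 * K ^ 2 * (D ^ 2 + D' ^ 2) + 8 * K * nd :=
      hp.sq_driftOf_sub_le hN hN' (η ω) (η' ω) ℓ hab
    have h1 : (D + ε * U) ^ 2 ≤ (1 + ε) * D ^ 2 + 2 * ε * U ^ 2 := by
      have e : (1 + ε) * D ^ 2 + (1 + 1 / ε) * (ε * U) ^ 2 - (D + ε * U) ^ 2
          = (ε * D - ε * U) ^ 2 / ε := by
        field_simp; ring
      have h2 : 0 ≤ (ε * D - ε * U) ^ 2 / ε := by positivity
      have h3 : (1 + 1 / ε) * (ε * U) ^ 2 = (ε + ε ^ 2) * U ^ 2 := by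
        field_simp; ring
      have h4 : (ε + ε ^ 2) * U ^ 2 ≤ 2 * ε * U ^ 2 :=
        mul_le_mul_of_nonneg_right (by nlinarith) (sq_nonneg _)
      linarith
    have h2 : 2 * ε * U ^ 2 ≤ 2 * ε * (4 * K ^ 2 * (D ^ 2 + D' ^ 2) + 8 * K * nd) :=
      mul_le_mul_of_nonneg_left hU (by positivity)
    refine h1.trans ?_
    nlinarith
  have hstep : Integrable (fun ω => stepA θ ε N N' ℓ η η' a b ω ^ 2) P :=
    (hp.memLp_stepA hN hN' hg hη hη' ℓ hab).integrable_sq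
  calc ∫ ω, stepA θ ε N N' ℓ η η' a b ω ^ 2 ∂P
      ≤ ∫ ω, ((1 + ε + 8 * K ^ 2 * ε) * (η ω a b - η' ω a b) ^ 2
        + 8 * K ^ 2 * ε * (η ω b a - η' ω b a) ^ 2
        + 16 * K * ε * nsq (coef N (wgt θ (η ω)) ℓ a b - coef N' (wgt θ (η' ω)) ℓ a b)) ∂P :=
        integral_mono hstep (((hD1.const_mul _).add (hD2.const_mul _)).add (hV.const_mul _)) hpt
    _ = _ := by
        have i1 : Integrable (fun ω => (1 + ε + 8 * K ^ 2 * ε) * (η ω a b - η' ω a b) ^ 2) P :=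
          hD1.const_mul _
        have i2 : Integrable (fun ω => 8 * K ^ 2 * ε * (η ω b a - η' ω b a) ^ 2) P :=
          hD2.const_mul _
        have i3 : Integrable (fun ω => 16 * K * ε
            * nsq (coef N (wgt θ (η ω)) ℓ a b - coef N' (wgt θ (η' ω)) ℓ a b)) P :=
          hV.const_mul _
        have i12 : Integrable (fun ω => (1 + ε + 8 * K ^ 2 * ε) * (η ω a b - η' ω a b) ^ 2
            + 8 * K ^ 2 * ε * (η ω b a - η' ω b a) ^ 2) P := i1.add i2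
        rw [integral_add i12 i3, integral_add i1 i2, integral_const_mul, integral_const_mul,
          integral_const_mul]

/-- The one-step estimate for the difference of two adapted states. -/
theorem TreeParams.integral_step_sq_le (hp : TreeParams G d θ) (hN : SubN G N) (hN' : SubN G N')
    (hg : IsNoise P g) (hε : 0 < ε) (hε1 : ε ≤ 1) {η η' : Ω → V → V → ℝ}
    (hη : Adapted2 g k P η) (hη' : Adapted2 g k P η') (ℓ : ℕ) {a b : V} (hab : G.Adj a b) :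
    ∫ ω, (cavStep θ N ℓ ε (η ω) (fun w => g k w ω) a b
        - cavStep θ N' ℓ ε (η' ω) (fun w => g k w ω) a b) ^ 2 ∂P
      ≤ (1 + ε + 8 * K2 θ d ^ 2 * ε) * ∫ ω, (η ω a b - η' ω a b) ^ 2 ∂P
        + 8 * K2 θ d ^ 2 * ε * ∫ ω, (η ω b a - η' ω b a) ^ 2 ∂P
        + (16 * K2 θ d + 1) * ε
            * ∫ ω, nsq (coef N (wgt θ (η ω)) ℓ a b - coef N' (wgt θ (η' ω)) ℓ a b) ∂P := by
  have h1 := hp.integral_stepA_sq_le hN hN' hg hε hε1 hη hη' ℓ hab
  have hc := fun w => measurable_diffCoef (N := N) (N' := N') hη hη' hp.nonneg hp.lt_one ℓ a b w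
  have hC := fun w ω => hp.abs_diffCoef_le hN hN' η η' ℓ hab w ω
  have e := one_step_sq (F := diffSupp N N' ℓ a b) hg hc hC
    (measurable_stepA (ε := ε) hη hη' hp.nonneg hp.lt_one ℓ a b)
    (hp.memLp_stepA hN hN' hg hη hη' ℓ hab) (Real.sqrt ε)
  simp only [cavStep_sub_eq]
  rw [e, Real.sq_sqrt hε.le]
  have e2 : ∫ ω, ∑ w ∈ diffSupp N N' ℓ a b, diffCoef θ N N' ℓ η η' a b w ω ^ 2 ∂P
      = ∫ ω, nsq (coef N (wgt θ (η ω)) ℓ a b - coef N' (wgt θ (η' ω)) ℓ a b) ∂P :=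
    integral_congr_ae (Filter.Eventually.of_forall fun ω => (nsq_diff_eq η η' ℓ a b ω).symm)
  rw [e2]
  nlinarith

end Step

end

end Vale.Agent.Lib.P161
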