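import Vale.Agent.Lib.P161.Ising
import Vale.Agent.Lib.P161.Step

/-!
Bridge between the field chain of a ball and the exact observation paths, for P161
(module task, see the team findings table).
-/

open MeasureTheory ProbabilityTheory Finset

namespace Vale.Agent.Lib.P161

noncomputable section

variable {Ω V : Type*} [MeasurableSpace Ω] {P : Measure Ω} [IsProbabilityMeasure P]
  {G : SimpleGraph V} [G.LocallyFinite] [DecidableEq V] {d : ℕ} {θ ε : ℝ}

set_option linter.unusedSectionVars false

private theorem subN_nbS' (S : Finset V) : ∀ a c, c ∈ nbS G S a → G.Adj a c := by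
  classical
  intro a c hc
  unfold nbS at hc
  split_ifs at hc with ha
  · have := (mem_filter.1 hc).1
    simpa using this
  · simp at hc

/-- The posterior mean on a ball is `tanh` of the total field of the messages. -/
theorem pm_ball_eq_tanh (hp : TreeParams G d θ) (o : V) (R : ℕ) (x : V → ℝ)
    (i : ↥(ballF G o R)) :
    pm (isingW G θ (ballF G o R)) (spinVec (ballF G o R)) (fun j : ↥(ballF G o R) => x j) i
      = Real.tanh (totField θ (nbS G (ballF G o R)) x (2 * R + 1) i) := by
  obtain ⟨rk, hrk, hrk2⟩ := rank_nbS hp.tree o R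
  have hE : ∀ a ∈ ballF G o R, ∀ b ∈ nbS G (ballF G o R) a,
      msg θ (nbS G (ballF G o R)) x (2 * R + 1) a b
        = x a + ∑ c ∈ (nbS G (ballF G o R) a).erase b,
            hm θ (msg θ (nbS G (ballF G o R)) x (2 * R + 1) c a) := by
    intro a _ b hb
    exact msg_fixed (G := G) (rk := rk) hrk (subN_nbS' _) hrk2 x a b (subN_nbS' _ a b hb)
  have := pm_eq_tanh hp.tree hp.nonneg hp.lt_one (ballF_connected hp.tree.1 o R) x
    (msg θ (nbS G (ballF G o R)) x (2 * R + 1)) hE i
  rw [this]
  rfl

/-- The field chain on a ball is the Euler scheme of the exact posterior mean. -/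
theorem xChain_eq_euler (hp : TreeParams G d θ) (o : V) (R : ℕ) (h : ℕ → V → ℝ) (k : ℕ)
    (i : ↥(ballF G o R)) :
    xChain θ (nbS G (ballF G o R)) (2 * R + 1) ε h k i
      = euler (pm (isingW G θ (ballF G o R)) (spinVec (ballF G o R))) ε
          (fun l (j : ↥(ballF G o R)) => h l j) k i := by
  induction k generalizing i with
  | zero => rfl
  | succ k ih =>
    have e : euler (pm (isingW G θ (ballF G o R)) (spinVec (ballF G o R))) ε
          (fun l (j : ↥(ballF G o R)) => h l j) k
        = fun j : ↥(ballF G o R) => xChain θ (nbS G (ballF G o R)) (2 * R + 1) ε h k j := by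
      funext j
      exact (ih j).symm
    show xChain θ (nbS G (ballF G o R)) (2 * R + 1) ε h k i
        + ε * Real.tanh (totField θ (nbS G (ballF G o R))
            (xChain θ (nbS G (ballF G o R)) (2 * R + 1) ε h k) (2 * R + 1) i)
        + Real.sqrt ε * h k i
      = euler (pm (isingW G θ (ballF G o R)) (spinVec (ballF G o R))) ε
          (fun l (j : ↥(ballF G o R)) => h l j) k i
        + ε * pm (isingW G θ (ballF G o R)) (spinVec (ballF G o R))
          (euler (pm (isingW G θ (ballF G o R)) (spinVec (ballF G o R))) ε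
            (fun l (j : ↥(ballF G o R)) => h l j) k) i
        + Real.sqrt ε * h k i
    rw [e, pm_ball_eq_tanh hp o R, ih i, e]

/-- Restriction of a noise to a subset of the vertices is a noise. -/
theorem IsNoise.restrict {g : ℕ → V → Ω → ℝ} (hg : IsNoise P g) (S : Finset V) :
    IsNoise P (fun k (i : ↥S) => g k i) := by
  refine ⟨fun k w => hg.meas k w, ?_, fun k w => hg.law k w⟩
  have hinj : Function.Injective (fun p : ℕ × ↥S => ((p.1, (p.2 : V)) : ℕ × V)) := by
    rintro ⟨k, i⟩ ⟨k', i'⟩ h
    simp only [Prod.mk.injEq] at h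
    exact Prod.ext h.1 (Subtype.ext h.2)
  exact hg.indep.precomp hinj

/-- Total variation bound for the field chain of a ball against the Ising mixture of exact paths,
for a path functional of the field restricted to the ball. -/
theorem tv_field (hp : TreeParams G d θ) {g : ℕ → V → Ω → ℝ} (hg : IsNoise P g) (o : V) (R : ℕ)
    (hε : 0 < ε) (hε1 : ε ≤ 1) (K : ℕ)
    (F : (Fin (K + 1) → ↥(ballF G o R) → ℝ) → ℝ) (hF : Measurable F) (hF1 : ∀ x, |F x| ≤ 1) :
    |∫ ω, F (fun k i => xChain θ (nbS G (ballF G o R)) (2 * R + 1) ε (fun l w => g l w ω) k i) ∂P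
        - ∑ σ, isingW G θ (ballF G o R) σ *
            ∫ ω, F (fun k => exactPath (spinVec (ballF G o R) σ) ε
              (fun l (i : ↥(ballF G o R)) => g l i ω) k) ∂P|
      ≤ Real.sqrt (Real.exp (8 * ((ballF G o R).card : ℝ) ^ 2
            * Real.exp (4 * ((ballF G o R).card : ℝ)) * K * ε ^ 2) - 1) := by
  have hv : ∀ (σ : ↥(ballF G o R) → Bool) (i : ↥(ballF G o R)),
      spinVec (ballF G o R) σ i ^ 2 = 1 := by
    intro σ i
    unfold spinVec spin
    split_ifs <;> norm_num
  have h := tv_bound P (isingW G θ (ballF G o R)) (isingW_nonneg hp.nonneg hp.lt_one _)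
    (isingW_sum hp.tree (ballF_connected hp.tree.1 o R)) (spinVec (ballF G o R)) hv
    (fun k (i : ↥(ballF G o R)) => g k i) (IsNoise.restrict hg _) hε hε1 K F hF hF1
  rw [Fintype.card_coe] at h
  have e : ∀ ω, (fun (k : Fin (K + 1)) (i : ↥(ballF G o R)) =>
        xChain θ (nbS G (ballF G o R)) (2 * R + 1) ε (fun l w => g l w ω) k i)
      = fun k : Fin (K + 1) => euler (pm (isingW G θ (ballF G o R)) (spinVec (ballF G o R))) ε
          (fun l (i : ↥(ballF G o R)) => g l i ω) k := by
    intro ω
    funext k i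
    exact xChain_eq_euler hp o R (fun l w => g l w ω) k i
  simp_rw [e]
  exact h

/-- Second moment of a partial sum of the noise at one site. -/
theorem integral_sum_noise_sq {ι : Type*} {g : ℕ → ι → Ω → ℝ} (hg : IsNoise P g) (K : ℕ) (i : ι) :
    ∫ ω, (∑ l ∈ Finset.range K, g l i ω) ^ 2 ∂P = K := by
  have hI : ∀ K : ℕ, MemLp (fun ω => ∑ l ∈ Finset.range K, g l i ω) 2 P := fun K =>
    memLp_finsetSum _ fun l _ => memLp_noise hg l i 2 (by simp)
  induction K with
  | zero => simp
  | succ K ih =>
    have hX : Measurable[pastS g K] (fun ω => ∑ l ∈ Finset.range K, g l i ω) := by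
      refine Finset.measurable_fun_sum _ fun l hl => ?_
      exact measurable_noise_past (Finset.mem_range.1 hl) i
    have hY : Measurable[layerS g K] (g K i) := measurable_noise_layer K i
    have hprod := integral_past_mul_layer hg K hX hY
    rw [integral_noise hg K i, mul_zero] at hprod
    have hprodI : Integrable (fun ω => (∑ l ∈ Finset.range K, g l i ω) * g K i ω) P :=
      (hI K).integrable_mul (memLp_noise hg K i 2 (by simp))
    have hsqI : Integrable (fun ω => (∑ l ∈ Finset.range K, g l i ω) ^ 2) P :=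
      (hI K).integrable_sq
    have hsq2I : Integrable (fun ω => g K i ω ^ 2) P :=
      (memLp_noise hg K i 2 (by simp)).integrable_sq
    have e : ∀ ω, (∑ l ∈ Finset.range (K + 1), g l i ω) ^ 2
        = (∑ l ∈ Finset.range K, g l i ω) ^ 2
          + 2 * ((∑ l ∈ Finset.range K, g l i ω) * g K i ω) + g K i ω ^ 2 := by
      intro ω
      rw [Finset.sum_range_succ]
      ring
    simp_rw [e]
    have h1 : ∫ ω, (∑ l ∈ Finset.range K, g l i ω) ^ 2
          + 2 * ((∑ l ∈ Finset.range K, g l i ω) * g K i ω) + g K i ω ^ 2 ∂P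
        = ∫ ω, ((∑ l ∈ Finset.range K, g l i ω) ^ 2
          + 2 * ((∑ l ∈ Finset.range K, g l i ω) * g K i ω)) ∂P + ∫ ω, g K i ω ^ 2 ∂P :=
      integral_add (hsqI.add (hprodI.const_mul 2)) hsq2I
    have h2 : ∫ ω, ((∑ l ∈ Finset.range K, g l i ω) ^ 2
          + 2 * ((∑ l ∈ Finset.range K, g l i ω) * g K i ω)) ∂P
        = ∫ ω, (∑ l ∈ Finset.range K, g l i ω) ^ 2 ∂P
          + ∫ ω, 2 * ((∑ l ∈ Finset.range K, g l i ω) * g K i ω) ∂P :=
      integral_add hsqI (hprodI.const_mul 2)
    rw [h1, h2, integral_const_mul, hprod, ih, integral_noise_sq hg K i]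
    push_cast
    ring

/-- The exact observation path, rescaled by the elapsed time and clipped, is close to the spin. -/
theorem exact_clip_close {ι : Type*} {g : ℕ → ι → Ω → ℝ} (hg : IsNoise P g) (hε : 0 < ε)
    {K : ℕ} (hK : 1 ≤ K) (b : Bool) (v : ι → ℝ) (i : ι) (hv : v i = spin b) :
    ∫ ω, (clip (exactPath v ε (fun l j => g l j ω) K i / (K * ε)) - spin b) ^ 2 ∂P
      ≤ 1 / (K * ε) := by
  have hK0 : (0 : ℝ) < K := by exact_mod_cast hK
  have hKε : (0 : ℝ) < K * ε := mul_pos hK0 hε
  set c : ℝ := Real.sqrt ε / (K * ε) with hc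
  have hc2 : c ^ 2 = 1 / (K ^ 2 * ε) := by
    rw [hc, div_pow, Real.sq_sqrt hε.le]
    field_simp
  have hpt : ∀ ω, (clip (exactPath v ε (fun l j => g l j ω) K i / (K * ε)) - spin b) ^ 2
      ≤ c ^ 2 * (∑ l ∈ Finset.range K, g l i ω) ^ 2 := by
    intro ω
    have e : exactPath v ε (fun l j => g l j ω) K i / (K * ε)
        = spin b + c * ∑ l ∈ Finset.range K, g l i ω := by
      unfold exactPath
      rw [hv, hc]
      field_simp
    rw [e, ← mul_pow]
    refine sq_le_sq.2 ?_
    have h := abs_clip_sub_le (spin b + c * ∑ l ∈ Finset.range K, g l i ω) (spin b)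
    rw [clip_spin] at h
    refine h.trans (le_of_eq ?_)
    rw [add_sub_cancel_left]
  have hI : MemLp (fun ω => ∑ l ∈ Finset.range K, g l i ω) 2 P :=
    memLp_finsetSum _ fun l _ => memLp_noise hg l i 2 (by simp)
  have hbd : Integrable (fun ω => c ^ 2 * (∑ l ∈ Finset.range K, g l i ω) ^ 2) P :=
    hI.integrable_sq.const_mul _
  have hmeas : Measurable (fun ω => ∑ l ∈ Finset.range K, g l i ω) :=
    Finset.measurable_fun_sum _ fun l _ => hg.meas l i
  have hmeas' : Measurable (fun ω => exactPath v ε (fun l j => g l j ω) K i) := by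
    unfold exactPath
    exact (measurable_const.add (measurable_const.mul hmeas))
  have hmain : Integrable
      (fun ω => (clip (exactPath v ε (fun l j => g l j ω) K i / (K * ε)) - spin b) ^ 2) P := by
    refine hbd.mono' ?_ ?_
    · have : Measurable
          (fun ω => (clip (exactPath v ε (fun l j => g l j ω) K i / (K * ε)) - spin b) ^ 2) :=
        (((continuous_clip.measurable.comp (hmeas'.div_const _)).sub_const _).pow_const 2)
      exact this.aestronglyMeasurable
    · refine Filter.Eventually.of_forall fun ω => ?_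
      rw [Real.norm_eq_abs, abs_of_nonneg (sq_nonneg _)]
      exact hpt ω
  calc ∫ ω, (clip (exactPath v ε (fun l j => g l j ω) K i / (K * ε)) - spin b) ^ 2 ∂P
      ≤ ∫ ω, c ^ 2 * (∑ l ∈ Finset.range K, g l i ω) ^ 2 ∂P :=
        integral_mono hmain hbd hpt
    _ = c ^ 2 * K := by rw [integral_const_mul, integral_sum_noise_sq hg K i]
    _ = 1 / (K * ε) := by
        rw [hc2]
        field_simp

end

end Vale.Agent.Lib.P161
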