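import Vale.Agent.Lib.P161.Basic

/-!
Scalar calculus for P161 (module task, see the team findings table).
All statements are for `0 ≤ θ < 1`.
-/

set_option linter.unusedSimpArgs false
set_option linter.unusedVariables false
set_option linter.unusedSectionVars false

namespace Vale.Agent.Lib.P161

variable {θ : ℝ}

private lemma cs (x : ℝ) : Real.cosh x ^ 2 = 1 + Real.sinh x ^ 2 := by
  have := Real.cosh_sq x; linarith

private lemma Dpos (h0 : 0 ≤ θ) (h1 : θ < 1) (x : ℝ) : 1 ≤ 1 + (1 - θ ^ 2) * Real.sinh x ^ 2 := by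
  have : 0 ≤ (1 - θ ^ 2) * Real.sinh x ^ 2 := by
    apply mul_nonneg _ (sq_nonneg _)
    nlinarith
  linarith

private lemma cosh_pm (h0 : 0 ≤ θ) (h1 : θ < 1) (x : ℝ) :
    0 < Real.cosh x + θ * Real.sinh x ∧ 0 < Real.cosh x - θ * Real.sinh x := by
  have hc := Real.cosh_pos x
  have h2 := cs x
  have h3 : |Real.sinh x| < Real.cosh x := by
    apply abs_lt_of_sq_lt_sq _ hc.le
    rw [h2]; linarith
  have h4 := abs_lt.1 h3
  constructor
  · nlinarith [abs_nonneg (Real.sinh x), neg_abs_le (Real.sinh x), le_abs_self (Real.sinh x)]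
  · nlinarith [abs_nonneg (Real.sinh x), neg_abs_le (Real.sinh x), le_abs_self (Real.sinh x)]

private lemma hm_eq (h0 : 0 ≤ θ) (h1 : θ < 1) (x : ℝ) :
    hm θ x = (Real.log (Real.cosh x + θ * Real.sinh x)
      - Real.log (Real.cosh x - θ * Real.sinh x)) / 2 := by
  obtain ⟨hp, hq⟩ := cosh_pm h0 h1 x
  unfold hm
  rw [Real.log_div hp.ne' hq.ne']

private lemma pq_eq (x : ℝ) : (Real.cosh x + θ * Real.sinh x) * (Real.cosh x - θ * Real.sinh x)
    = 1 + (1 - θ ^ 2) * Real.sinh x ^ 2 := by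
  have := cs x
  nlinarith

theorem hm_hasDerivAt (h0 : 0 ≤ θ) (h1 : θ < 1) (x : ℝ) : HasDerivAt (hm θ) (hd1 θ x) x := by
  obtain ⟨hp, hq⟩ := cosh_pm h0 h1 x
  have hf : hm θ = fun x => (Real.log (Real.cosh x + θ * Real.sinh x)
      - Real.log (Real.cosh x - θ * Real.sinh x)) / 2 := funext (hm_eq h0 h1)
  rw [hf]
  have hP : HasDerivAt (fun x => Real.cosh x + θ * Real.sinh x)
      (Real.sinh x + θ * Real.cosh x) x :=
    (Real.hasDerivAt_cosh x).add ((Real.hasDerivAt_sinh x).const_mul θ)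
  have hQ : HasDerivAt (fun x => Real.cosh x - θ * Real.sinh x)
      (Real.sinh x - θ * Real.cosh x) x :=
    (Real.hasDerivAt_cosh x).sub ((Real.hasDerivAt_sinh x).const_mul θ)
  have h3 : HasDerivAt (fun x => (Real.log (Real.cosh x + θ * Real.sinh x)
      - Real.log (Real.cosh x - θ * Real.sinh x)) / 2) _ x :=
    ((hP.log hp.ne').sub (hQ.log hq.ne')).div_const 2
  refine h3.congr_deriv ?_
  unfold hd1
  have hD := pq_eq (θ := θ) x
  have h2 := cs x
  rw [← hD, div_sub_div _ _ hp.ne' hq.ne']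
  have hnum : (Real.sinh x + θ * Real.cosh x) * (Real.cosh x - θ * Real.sinh x) -
      (Real.cosh x + θ * Real.sinh x) * (Real.sinh x - θ * Real.cosh x) = 2 * θ := by
    nlinarith
  rw [hnum]
  have := mul_pos hp hq
  field_simp

private lemma D_hasDerivAt (x : ℝ) : HasDerivAt (fun x => 1 + (1 - θ ^ 2) * Real.sinh x ^ 2)
    ((1 - θ ^ 2) * (2 * Real.sinh x * Real.cosh x)) x := by
  have h := (Real.hasDerivAt_sinh x).pow 2
  have h2 : HasDerivAt (fun x => 1 + (1 - θ ^ 2) * Real.sinh x ^ 2) _ x :=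
    (h.const_mul (1 - θ ^ 2)).const_add 1
  refine h2.congr_deriv ?_
  simp

theorem hd1_hasDerivAt (h0 : 0 ≤ θ) (h1 : θ < 1) (x : ℝ) : HasDerivAt (hd1 θ) (hd2 θ x) x := by
  have hD := Dpos h0 h1 x
  have hne : 1 + (1 - θ ^ 2) * Real.sinh x ^ 2 ≠ 0 := by linarith
  have h2 : HasDerivAt (fun x => θ / (1 + (1 - θ ^ 2) * Real.sinh x ^ 2)) _ x :=
    (hasDerivAt_const x θ).div (D_hasDerivAt (θ := θ) x) hne
  refine h2.congr_deriv ?_
  unfold hd2
  field_simp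
  ring

theorem hd2_hasDerivAt (h0 : 0 ≤ θ) (h1 : θ < 1) (x : ℝ) : HasDerivAt (hd2 θ) (hd3 θ x) x := by
  have hD := Dpos h0 h1 x
  have hne : 1 + (1 - θ ^ 2) * Real.sinh x ^ 2 ≠ 0 := by linarith
  have hN : HasDerivAt (fun x => -(2 * θ * (1 - θ ^ 2) * Real.sinh x * Real.cosh x))
      (-(2 * θ * (1 - θ ^ 2) * (Real.cosh x * Real.cosh x + Real.sinh x * Real.sinh x))) x := by
    have h2 : HasDerivAt (fun x => -(2 * θ * (1 - θ ^ 2) * Real.sinh x * Real.cosh x)) _ x :=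
      (((Real.hasDerivAt_sinh x).const_mul (2 * θ * (1 - θ ^ 2))).mul
      (Real.hasDerivAt_cosh x)).neg
    refine h2.congr_deriv ?_
    ring
  have hDD := (D_hasDerivAt (θ := θ) x).pow 2
  have h3 : HasDerivAt (fun x => -(2 * θ * (1 - θ ^ 2) * Real.sinh x * Real.cosh x) /
      (1 + (1 - θ ^ 2) * Real.sinh x ^ 2) ^ 2) _ x := hN.div hDD (pow_ne_zero 2 hne)
  refine h3.congr_deriv ?_
  unfold hd3
  field_simp
  ring

theorem hd1_nonneg (h0 : 0 ≤ θ) (h1 : θ < 1) (x : ℝ) : 0 ≤ hd1 θ x := by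
  have hD := Dpos h0 h1 x
  exact div_nonneg h0 (by linarith)

theorem hd1_le (h0 : 0 ≤ θ) (h1 : θ < 1) (x : ℝ) : hd1 θ x ≤ θ := by
  have hD := Dpos h0 h1 x
  exact div_le_self h0 hD

private lemma kbound (h0 : 0 ≤ θ) (h1 : θ < 1) (x : ℝ) :
    |(1 - θ ^ 2) * Real.sinh x * Real.cosh x| ≤ (1 + (1 - θ ^ 2) * Real.sinh x ^ 2) ^ 2 := by
  have hκ0 : 0 ≤ 1 - θ ^ 2 := by nlinarith
  have hκ1 : 1 - θ ^ 2 ≤ 1 := by nlinarith [sq_nonneg θ]
  have h2 := cs x
  set s := Real.sinh x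
  set c := Real.cosh x
  set κ := 1 - θ ^ 2
  apply abs_le_of_sq_le_sq _ (by positivity)
  set u := κ * s ^ 2 with hu
  have hu0 : 0 ≤ u := by positivity
  have e : (κ * s * c) ^ 2 = u * (κ + u) := by
    have : (κ * s * c) ^ 2 = κ ^ 2 * s ^ 2 * c ^ 2 := by ring
    rw [this, h2, hu]; ring
  rw [e]
  have : u * (κ + u) ≤ (1 + u) * (1 + u) := by nlinarith
  have h3 : (1 + u) * (1 + u) ≤ ((1 + u) ^ 2) ^ 2 := by
    have h4 : 1 ≤ 1 + u := by linarith
    nlinarith [mul_self_nonneg (1 + u), mul_le_mul h4 h4 (by linarith) (by linarith)]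
  linarith

theorem abs_hd2_le (h0 : 0 ≤ θ) (h1 : θ < 1) (x : ℝ) : |hd2 θ x| ≤ 2 := by
  have hD := Dpos h0 h1 x
  have hk := kbound h0 h1 x
  unfold hd2
  rw [abs_div, abs_neg, div_le_iff₀ (by rw [abs_pos]; positivity)]
  have e : 2 * θ * (1 - θ ^ 2) * Real.sinh x * Real.cosh x =
      (2 * θ) * ((1 - θ ^ 2) * Real.sinh x * Real.cosh x) := by ring
  rw [e, abs_mul, abs_of_nonneg (by positivity : 0 ≤ 2 * θ),
    abs_of_nonneg (by positivity : 0 ≤ (1 + (1 - θ ^ 2) * Real.sinh x ^ 2) ^ 2)]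
  have hpos : 0 ≤ (1 + (1 - θ ^ 2) * Real.sinh x ^ 2) ^ 2 := by positivity
  nlinarith [abs_nonneg ((1 - θ ^ 2) * Real.sinh x * Real.cosh x)]

theorem abs_hd3_le (h0 : 0 ≤ θ) (h1 : θ < 1) (x : ℝ) : |hd3 θ x| ≤ 12 := by
  have hD := Dpos h0 h1 x
  have hκ0 : 0 ≤ 1 - θ ^ 2 := by nlinarith
  have hκ1 : 1 - θ ^ 2 ≤ 1 := by nlinarith [sq_nonneg θ]
  have h2 := cs x
  unfold hd3
  set s := Real.sinh x
  set c := Real.cosh x
  set κ := 1 - θ ^ 2
  set D := 1 + κ * s ^ 2 with hDdef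
  have hDpos : 0 < D := by linarith
  have hu0 : 0 ≤ κ * s ^ 2 := by positivity
  -- bound of the numerator
  have hA : κ * (c ^ 2 + s ^ 2) ≤ 2 * D := by
    rw [h2]; nlinarith
  have hB : (κ * s * c) ^ 2 ≤ D ^ 2 := by
    have e : (κ * s * c) ^ 2 = (κ * s ^ 2) * (κ + κ * s ^ 2) := by
      have : (κ * s * c) ^ 2 = κ ^ 2 * s ^ 2 * c ^ 2 := by ring
      rw [this, h2]; ring
    rw [e, hDdef]
    nlinarith
  have hA0 : 0 ≤ κ * (c ^ 2 + s ^ 2) := by positivity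
  have hD1 : 1 ≤ D := hD
  have hD2 : D ^ 2 ≤ D ^ 3 := by
    have : 0 ≤ D ^ 2 := by positivity
    nlinarith
  have hD12 : D ≤ D ^ 2 := by nlinarith
  have hnum : |κ * (((c ^ 2 + s ^ 2) * D - 4 * κ * s ^ 2 * c ^ 2))| ≤ 6 * D ^ 3 := by
    have e : κ * ((c ^ 2 + s ^ 2) * D - 4 * κ * s ^ 2 * c ^ 2) =
        (κ * (c ^ 2 + s ^ 2)) * D - 4 * (κ * s * c) ^ 2 := by ring
    rw [e, abs_le]
    have h5 : (κ * (c ^ 2 + s ^ 2)) * D ≤ 2 * D ^ 2 := by nlinarith
    have h6 : 0 ≤ (κ * (c ^ 2 + s ^ 2)) * D := by positivity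
    have h7 : 0 ≤ (κ * s * c) ^ 2 := sq_nonneg _
    constructor <;> nlinarith
  have e : -(2 * θ * κ) * (((c ^ 2 + s ^ 2) * D - 4 * κ * s ^ 2 * c ^ 2) / D ^ 3) =
      -(2 * θ) * (κ * ((c ^ 2 + s ^ 2) * D - 4 * κ * s ^ 2 * c ^ 2)) / D ^ 3 := by
    field_simp
  rw [e, abs_div, abs_mul, abs_neg, abs_of_nonneg (by positivity : 0 ≤ 2 * θ),
    abs_of_pos (by positivity : 0 < D ^ 3), div_le_iff₀ (by positivity)]
  have hX := abs_nonneg (κ * ((c ^ 2 + s ^ 2) * D - 4 * κ * s ^ 2 * c ^ 2))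
  have hD3 : 0 < D ^ 3 := by positivity
  nlinarith

private lemma exp_two_hm (h0 : 0 ≤ θ) (h1 : θ < 1) (x : ℝ) :
    Real.exp (hm θ x) ^ 2 = (Real.cosh x + θ * Real.sinh x) / (Real.cosh x - θ * Real.sinh x) := by
  obtain ⟨hp, hq⟩ := cosh_pm h0 h1 x
  rw [← Real.exp_nat_mul]
  unfold hm
  have : ((2 : ℕ) : ℝ) * (Real.log ((Real.cosh x + θ * Real.sinh x) /
      (Real.cosh x - θ * Real.sinh x)) / 2) =
      Real.log ((Real.cosh x + θ * Real.sinh x) / (Real.cosh x - θ * Real.sinh x)) := by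
    push_cast; ring
  rw [this, Real.exp_log (div_pos hp hq)]

theorem tanh_hm (h0 : 0 ≤ θ) (h1 : θ < 1) (x : ℝ) : Real.tanh (hm θ x) = θ * Real.tanh x := by
  obtain ⟨hp, hq⟩ := cosh_pm h0 h1 x
  have hE := exp_two_hm h0 h1 x
  have hc := Real.cosh_pos x
  rw [Real.tanh_eq, Real.tanh_eq_sinh_div_cosh, Real.exp_neg]
  set E := Real.exp (hm θ x) with hEdef
  have hEpos : 0 < E := Real.exp_pos _
  have h3 : E ^ 2 * (Real.cosh x - θ * Real.sinh x) = Real.cosh x + θ * Real.sinh x := by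
    rw [hE]; field_simp
  have hden : E + E⁻¹ ≠ 0 := by positivity
  rw [div_eq_iff hden]
  field_simp
  nlinarith [h3]

private lemma tanh_add' (u v : ℝ) : Real.tanh (u + v) =
    (Real.tanh u + Real.tanh v) / (1 + Real.tanh u * Real.tanh v) := by
  have hu := Real.cosh_pos u
  have hv := Real.cosh_pos v
  have huv := Real.cosh_pos (u + v)
  have h2 : 0 < 1 + Real.tanh u * Real.tanh v := by
    have h3 := Real.abs_tanh_lt_one u
    have h4 := Real.abs_tanh_lt_one v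
    have h5 : |Real.tanh u * Real.tanh v| < 1 := by
      rw [abs_mul]; nlinarith [abs_nonneg (Real.tanh u), abs_nonneg (Real.tanh v)]
    linarith [(abs_lt.1 h5).1]
  rw [eq_div_iff h2.ne']
  simp only [Real.tanh_eq_sinh_div_cosh]
  rw [Real.sinh_add, Real.cosh_add]
  rw [Real.cosh_add] at huv
  rw [div_mul_eq_mul_div, div_eq_iff huv.ne']
  field_simp

private lemma hd1_t (h0 : 0 ≤ θ) (h1 : θ < 1) (x : ℝ) : hd1 θ x =
    θ * (1 - Real.tanh x ^ 2) / (1 - θ ^ 2 * Real.tanh x ^ 2) := by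
  have hc := Real.cosh_pos x
  have h2 := cs x
  have hD := Dpos h0 h1 x
  have hq : 0 < 1 - θ ^ 2 * Real.tanh x ^ 2 := by
    have := Real.tanh_sq_lt_one x
    nlinarith [sq_nonneg θ, sq_nonneg (Real.tanh x)]
  unfold hd1
  rw [div_eq_div_iff (by linarith) hq.ne', Real.tanh_eq_sinh_div_cosh]
  field_simp
  rw [h2]
  ring

private lemma hd2_t (h0 : 0 ≤ θ) (h1 : θ < 1) (x : ℝ) : hd2 θ x =
    -(2 * θ * (1 - θ ^ 2) * Real.tanh x * (1 - Real.tanh x ^ 2)) /
      (1 - θ ^ 2 * Real.tanh x ^ 2) ^ 2 := by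
  have hc := Real.cosh_pos x
  have h2 := cs x
  have hD := Dpos h0 h1 x
  have hq : 0 < 1 - θ ^ 2 * Real.tanh x ^ 2 := by
    have := Real.tanh_sq_lt_one x
    nlinarith [sq_nonneg θ, sq_nonneg (Real.tanh x)]
  have e1 : 1 - θ ^ 2 * Real.tanh x ^ 2 =
      (1 + (1 - θ ^ 2) * Real.sinh x ^ 2) / Real.cosh x ^ 2 := by
    rw [Real.tanh_eq_sinh_div_cosh]; field_simp; rw [h2]; ring
  have e2 : 1 - Real.tanh x ^ 2 = 1 / Real.cosh x ^ 2 := by
    rw [Real.tanh_eq_sinh_div_cosh]; field_simp; rw [h2]; ring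
  unfold hd2
  rw [e2, e1, Real.tanh_eq_sinh_div_cosh]
  have hne : 1 + (1 - θ ^ 2) * Real.sinh x ^ 2 ≠ 0 := by linarith
  field_simp

/-- The key identity behind the closure of the cavity dynamics. -/
theorem key_identity (h0 : 0 ≤ θ) (h1 : θ < 1) (x A : ℝ) :
    (1 / 2) * hd2 θ x + hd1 θ x * Real.tanh (x + hm θ A)
      = hd1 θ x ^ 2 * Real.tanh (A + hm θ x) := by
  rw [hd1_t h0 h1, hd2_t h0 h1, tanh_add', tanh_add', tanh_hm h0 h1, tanh_hm h0 h1]
  set t := Real.tanh x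
  set a := Real.tanh A
  have ht := Real.abs_tanh_lt_one x
  have ha := Real.abs_tanh_lt_one A
  have hq : 0 < 1 - θ ^ 2 * t ^ 2 := by
    have := Real.tanh_sq_lt_one x
    nlinarith [sq_nonneg θ, sq_nonneg t]
  have h5 : |t * a| < 1 := by
    rw [abs_mul]; nlinarith [abs_nonneg t, abs_nonneg a]
  have h6 := abs_lt.1 h5
  have hr : 0 < 1 + θ * t * a := by nlinarith [h6.1, h6.2]
  have e1 : 1 + t * (θ * a) = 1 + θ * t * a := by ring
  have e2 : 1 + a * (θ * t) = 1 + θ * t * a := by ring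
  rw [e1, e2]
  have hne : 1 + θ * t * a ≠ 0 := hr.ne'
  field_simp
  ring

/-- Eliminating a leaf: `cosh x + θ u sinh x = √(cosh² x - θ² sinh² x) * exp (u h(x))`. -/
theorem leaf_identity (h0 : 0 ≤ θ) (h1 : θ < 1) (x u : ℝ) (hu : u = 1 ∨ u = -1) :
    Real.cosh x + θ * u * Real.sinh x
      = Real.sqrt (Real.cosh x ^ 2 - θ ^ 2 * Real.sinh x ^ 2) * Real.exp (u * hm θ x) := by
  obtain ⟨hp, hq⟩ := cosh_pm h0 h1 x
  have hE := exp_two_hm h0 h1 x
  have hprod : Real.cosh x ^ 2 - θ ^ 2 * Real.sinh x ^ 2 =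
      (Real.cosh x + θ * Real.sinh x) * (Real.cosh x - θ * Real.sinh x) := by ring
  rw [hprod]
  set p := Real.cosh x + θ * Real.sinh x
  set q := Real.cosh x - θ * Real.sinh x
  have hs : Real.sqrt (p * q) ^ 2 = p * q := Real.sq_sqrt (by positivity)
  have hs0 : 0 ≤ Real.sqrt (p * q) := Real.sqrt_nonneg _
  set E := Real.exp (hm θ x) with hEdef
  have hEpos : 0 < E := Real.exp_pos _
  rcases hu with rfl | rfl
  · simp only [one_mul, mul_one]
    rw [← hEdef]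
    change p = _
    have : (Real.sqrt (p * q) * E) ^ 2 = p ^ 2 := by
      rw [mul_pow, hs, hE]; field_simp
    exact (pow_left_inj₀ hp.le (by positivity) (by norm_num)).1 this.symm
  · have e : -1 * hm θ x = - hm θ x := by ring
    rw [e, Real.exp_neg, ← hEdef]
    have e2 : Real.cosh x + θ * -1 * Real.sinh x = q := by
      change _ = Real.cosh x - θ * Real.sinh x; ring
    rw [e2]
    have : (Real.sqrt (p * q) * E⁻¹) ^ 2 = q ^ 2 := by
      rw [mul_pow, hs, inv_pow, hE]; field_simp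
    exact (pow_left_inj₀ hq.le (by positivity) (by norm_num)).1 this.symm

private lemma lip_of_deriv {f f' : ℝ → ℝ} {C : ℝ} (hf : ∀ x, HasDerivAt f (f' x) x)
    (hC : ∀ x, |f' x| ≤ C) (x y : ℝ) : |f x - f y| ≤ C * |x - y| := by
  have := Convex.norm_image_sub_le_of_norm_hasDerivWithin_le (f := f) (f' := f') (s := Set.univ)
    (C := C) (x := y) (y := x) (fun z _ => (hf z).hasDerivWithinAt) (fun z _ => hC z)
    convex_univ (Set.mem_univ _) (Set.mem_univ _)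
  simpa [Real.norm_eq_abs] using this

theorem abs_hm_sub_le (h0 : 0 ≤ θ) (h1 : θ < 1) (x y : ℝ) :
    |hm θ x - hm θ y| ≤ θ * |x - y| :=
  lip_of_deriv (hm_hasDerivAt h0 h1)
    (fun z => by rw [abs_of_nonneg (hd1_nonneg h0 h1 z)]; exact hd1_le h0 h1 z) x y

theorem abs_hm_le (h0 : 0 ≤ θ) (h1 : θ < 1) (x : ℝ) : |hm θ x| ≤ θ * |x| := by
  have h := abs_hm_sub_le h0 h1 x 0
  have h00 : hm θ 0 = 0 := by simp [hm]
  simpa [h00] using h

theorem abs_hd1_sub_le (h0 : 0 ≤ θ) (h1 : θ < 1) (x y : ℝ) :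
    |hd1 θ x - hd1 θ y| ≤ 2 * |x - y| :=
  lip_of_deriv (hd1_hasDerivAt h0 h1) (abs_hd2_le h0 h1) x y

theorem abs_hd2_sub_le (h0 : 0 ≤ θ) (h1 : θ < 1) (x y : ℝ) :
    |hd2 θ x - hd2 θ y| ≤ 12 * |x - y| :=
  lip_of_deriv (hd2_hasDerivAt h0 h1) (abs_hd3_le h0 h1) x y

theorem abs_tanh_le_one (x : ℝ) : |Real.tanh x| ≤ 1 := (Real.abs_tanh_lt_one x).le

private lemma tanh_hasDerivAt (x : ℝ) :
    HasDerivAt Real.tanh (1 / Real.cosh x ^ 2) x := by
  have hc := Real.cosh_pos x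
  have hf : Real.tanh = fun x => Real.sinh x / Real.cosh x := by
    funext z; exact Real.tanh_eq_sinh_div_cosh z
  rw [hf]
  have h3 : HasDerivAt (fun x => Real.sinh x / Real.cosh x) _ x :=
    (Real.hasDerivAt_sinh x).div (Real.hasDerivAt_cosh x) hc.ne'
  refine h3.congr_deriv ?_
  have h2 := cs x
  have e : Real.cosh x * Real.cosh x - Real.sinh x * Real.sinh x = 1 := by nlinarith
  rw [e]

theorem abs_tanh_sub_le (x y : ℝ) : |Real.tanh x - Real.tanh y| ≤ |x - y| := by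
  have := lip_of_deriv (C := 1) tanh_hasDerivAt (fun z => by
    have hc := Real.one_le_cosh z
    rw [abs_of_nonneg (by positivity), div_le_one (by positivity)]
    nlinarith) x y
  simpa using this

theorem continuous_hm (h0 : 0 ≤ θ) (h1 : θ < 1) : Continuous (hm θ) :=
  continuous_iff_continuousAt.2 fun x => (hm_hasDerivAt h0 h1 x).continuousAt

theorem continuous_hd1 (h0 : 0 ≤ θ) (h1 : θ < 1) : Continuous (hd1 θ) :=
  continuous_iff_continuousAt.2 fun x => (hd1_hasDerivAt h0 h1 x).continuousAt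

theorem continuous_hd2 (h0 : 0 ≤ θ) (h1 : θ < 1) : Continuous (hd2 θ) :=
  continuous_iff_continuousAt.2 fun x => (hd2_hasDerivAt h0 h1 x).continuousAt

theorem continuous_hd3 (h0 : 0 ≤ θ) (h1 : θ < 1) : Continuous (hd3 θ) := by
  unfold hd3
  have hD : ∀ x, (1 + (1 - θ ^ 2) * Real.sinh x ^ 2) ^ 3 ≠ 0 := fun x => by
    have := Dpos h0 h1 x
    exact pow_ne_zero 3 (by linarith)
  have hs := Real.continuous_sinh
  have hc := Real.continuous_cosh
  refine continuous_const.mul (Continuous.div ?_ ?_ hD)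
  · fun_prop
  · fun_prop

theorem continuous_tanh : Continuous Real.tanh :=
  continuous_iff_continuousAt.2 fun x => (tanh_hasDerivAt x).continuousAt

theorem abs_clip_sub_le (x y : ℝ) : |clip x - clip y| ≤ |x - y| := by
  unfold clip
  have h1 := abs_max_sub_max_le_max (-1 : ℝ) (min 1 x) (-1) (min 1 y)
  have h2 := abs_min_sub_min_le_max (1 : ℝ) x 1 y
  have h3 : max |(1 : ℝ) - 1| |x - y| = |x - y| := by simp
  have h4 : max |(-1 : ℝ) - (-1)| |min 1 x - min 1 y| = |min 1 x - min 1 y| := by simp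
  rw [h3] at h2
  rw [h4] at h1
  exact h1.trans h2

theorem abs_clip_le_one (x : ℝ) : |clip x| ≤ 1 := by
  unfold clip
  rw [abs_le]
  exact ⟨le_max_left _ _, max_le (by norm_num) (min_le_left _ _)⟩

theorem continuous_clip : Continuous clip := by
  unfold clip
  fun_prop

/-- `clip` fixes the spin values. -/
theorem clip_spin (b : Bool) : clip (spin b) = spin b := by
  cases b <;> norm_num [clip, spin]

end Vale.Agent.Lib.P161
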