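import Vale.Agent.Lib.P161.Tree
import Vale.Agent.Lib.P161.Scalar

/-!
Deterministic facts about the coefficient vectors of the cavity dynamics for P161.
`N` is a sub-neighbourhood function of the tree `G`.
-/

open Finset

set_option linter.unusedSectionVars false

namespace Vale.Agent.Lib.P161

noncomputable section

variable {V : Type*} [DecidableEq V]

/-! ### Linear algebra of `lin` and `nsq` -/

theorem lin_add (x y : V →₀ ℝ) (g : V → ℝ) : lin (x + y) g = lin x g + lin y g := by
  classical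
  unfold lin
  rw [Finsupp.sum_add_index'] <;> intros <;> ring

theorem lin_zero (g : V → ℝ) : lin (0 : V →₀ ℝ) g = 0 := by
  simp [lin]

theorem lin_smul (u : ℝ) (x : V →₀ ℝ) (g : V → ℝ) : lin (u • x) g = u * lin x g := by
  classical
  unfold lin
  rw [Finsupp.sum_smul_index' (by intro i; ring), Finsupp.mul_sum]
  refine Finsupp.sum_congr fun w _ => ?_
  simp [smul_eq_mul]; ring

theorem lin_single (a : V) (y : ℝ) (g : V → ℝ) : lin (Finsupp.single a y) g = y * g a := by
  simp [lin]

theorem lin_sum {ι : Type*} (s : Finset ι) (f : ι → V →₀ ℝ) (g : V → ℝ) :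
    lin (∑ i ∈ s, f i) g = ∑ i ∈ s, lin (f i) g := by
  classical
  induction s using Finset.induction_on with
  | empty => simp [lin_zero]
  | insert i s hi ih => rw [sum_insert hi, sum_insert hi, lin_add, ih]

theorem lin_sub (x y : V →₀ ℝ) (g : V → ℝ) : lin (x - y) g = lin x g - lin y g := by
  have : x - y = x + (-1 : ℝ) • y := by
    ext w; simp [sub_eq_add_neg]
  rw [this, lin_add, lin_smul]; ring

/-- `lin` as a sum over any finite superset of the support. -/
theorem lin_eq_sum (c : V →₀ ℝ) (g : V → ℝ) {F : Finset V} (hF : c.support ⊆ F) :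
    lin c g = ∑ w ∈ F, c w * g w := by
  unfold lin
  exact Finsupp.sum_of_support_subset c hF _ (by intros; simp)

/-- `nsq` as a sum over any finite superset of the support. -/
theorem nsq_eq_sum (c : V →₀ ℝ) {F : Finset V} (hF : c.support ⊆ F) :
    nsq c = ∑ w ∈ F, c w ^ 2 := by
  unfold nsq
  exact Finsupp.sum_of_support_subset c hF _ (by intros; simp)

theorem nsq_nonneg (c : V →₀ ℝ) : 0 ≤ nsq c := by
  rw [nsq_eq_sum c (subset_refl _)]
  exact sum_nonneg fun _ _ => sq_nonneg _

theorem nsq_zero : nsq (0 : V →₀ ℝ) = 0 := by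
  simp [nsq]

theorem nsq_single (a : V) (y : ℝ) : nsq (Finsupp.single a y) = y ^ 2 := by
  simp [nsq]

theorem nsq_smul (u : ℝ) (x : V →₀ ℝ) : nsq (u • x) = u ^ 2 * nsq x := by
  classical
  rw [nsq_eq_sum (u • x) (Finsupp.support_smul (b := u) (g := x)), nsq_eq_sum x (subset_refl _),
    mul_sum]
  refine sum_congr rfl fun w _ => ?_
  simp [smul_eq_mul]; ring

/-- Squared norm is additive on vectors with disjoint supports. -/
theorem nsq_add_of_disjoint (x y : V →₀ ℝ) (h : Disjoint x.support y.support) :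
    nsq (x + y) = nsq x + nsq y := by
  classical
  unfold nsq
  rw [Finsupp.sum_add_index_of_disjoint h]

/-- `nsq (x + y) ≤ (1 + τ) nsq x + (1 + 1/τ) nsq y`. -/
theorem nsq_add_le (x y : V →₀ ℝ) {τ : ℝ} (hτ : 0 < τ) :
    nsq (x + y) ≤ (1 + τ) * nsq x + (1 + 1 / τ) * nsq y := by
  classical
  set F := x.support ∪ y.support
  have hx : x.support ⊆ F := subset_union_left
  have hy : y.support ⊆ F := subset_union_right
  rw [nsq_eq_sum (x + y) ((Finsupp.support_add).trans (subset_refl _)), nsq_eq_sum x hx,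
    nsq_eq_sum y hy, mul_sum, mul_sum, ← sum_add_distrib]
  refine sum_le_sum fun w _ => ?_
  simp only [Finsupp.add_apply]
  have h : 0 ≤ (τ * x w - y w) ^ 2 / τ := by positivity
  have e : (1 + τ) * x w ^ 2 + (1 + 1 / τ) * y w ^ 2 - (x w + y w) ^ 2
      = (τ * x w - y w) ^ 2 / τ := by
    field_simp; ring
  linarith

theorem nsq_sub_le (x y : V →₀ ℝ) : nsq (x - y) ≤ 2 * nsq x + 2 * nsq y := by
  have h := nsq_add_le x ((-1 : ℝ) • y) (τ := 1) one_pos
  rw [nsq_smul] at h
  have e : x + (-1 : ℝ) • y = x - y := by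
    ext w; simp [sub_eq_add_neg]
  rw [e] at h
  norm_num at h
  linarith

/-- `(nsq x - nsq y)² ≤ nsq (x - y) * (2 nsq x + 2 nsq y)`. -/
theorem sq_nsq_sub_le (x y : V →₀ ℝ) :
    (nsq x - nsq y) ^ 2 ≤ nsq (x - y) * (2 * nsq x + 2 * nsq y) := by
  classical
  set F := x.support ∪ y.support
  have hx : x.support ⊆ F := subset_union_left
  have hy : y.support ⊆ F := subset_union_right
  have hxy : (x - y).support ⊆ F := (Finsupp.support_sub).trans (subset_refl _)
  rw [nsq_eq_sum x hx, nsq_eq_sum y hy, nsq_eq_sum (x - y) hxy, ← sum_sub_distrib]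
  have e : ∑ w ∈ F, (x w ^ 2 - y w ^ 2) = ∑ w ∈ F, (x w - y w) * (x w + y w) :=
    sum_congr rfl fun w _ => by ring
  rw [e]
  refine (sum_mul_sq_le_sq_mul_sq F _ _).trans ?_
  simp only [Finsupp.sub_apply]
  refine mul_le_mul_of_nonneg_left ?_ (sum_nonneg fun _ _ => sq_nonneg _)
  rw [mul_sum, mul_sum, ← sum_add_distrib]
  refine sum_le_sum fun w _ => ?_
  nlinarith [sq_nonneg (x w - y w)]

theorem abs_apply_le_sqrt_nsq (c : V →₀ ℝ) (w : V) : c w ^ 2 ≤ nsq c := by
  classical
  by_cases h : w ∈ c.support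
  · rw [nsq_eq_sum c (subset_refl _)]
    exact single_le_sum (f := fun w => c w ^ 2) (fun _ _ => sq_nonneg _) h
  · have : c w = 0 := by simpa using h
    rw [this]; simpa using nsq_nonneg c

/-! ### Supports and the recursive forms -/

variable {G : SimpleGraph V} {N N' : V → Finset V} {W W' : V → V → ℝ}

theorem coef_zero (a b : V) : coef N W 0 a b = Finsupp.single a 1 := by
  simp [coef]

theorem coef_succ (ℓ : ℕ) (a b : V) :
    coef N W (ℓ + 1) a b = Finsupp.single a 1 + ∑ c ∈ (N a).erase b, W c a • coef N W ℓ c a := by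
  simp [coef]

/-- `lin` of the coefficient vector is the recursively defined noise term. -/
theorem lin_coef (g : V → ℝ) (ℓ : ℕ) (a b : V) : lin (coef N W ℓ a b) g = Lin N W g ℓ a b := by
  induction ℓ generalizing a b with
  | zero => simp [coef, Lin, lin_single]
  | succ ℓ ih =>
    rw [coef_succ, lin_add, lin_single, lin_sum]
    simp only [Lin, one_mul, lin_smul, ih]

/-- A deterministic finite set containing the support of the coefficient vector. -/
def coefSupp (N : V → Finset V) : ℕ → V → V → Finset V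
  | 0, a, _ => {a}
  | ℓ + 1, a, b => {a} ∪ ((N a).erase b).biUnion fun c => coefSupp N ℓ c a

theorem support_coef_subset (ℓ : ℕ) (a b : V) : (coef N W ℓ a b).support ⊆ coefSupp N ℓ a b := by
  classical
  induction ℓ generalizing a b with
  | zero =>
    simp only [coef, coefSupp]
    exact Finsupp.support_single_subset
  | succ ℓ ih =>
    rw [coef_succ]
    simp only [coefSupp]
    refine (Finsupp.support_add).trans (union_subset_union Finsupp.support_single_subset ?_)
    refine (Finsupp.support_finset_sum).trans ?_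
    refine biUnion_mono ?_
    intro c hc
    exact (Finsupp.support_smul).trans (ih c a)

/-- Sum of vectors with supports in pairwise disjoint sets: squared norms add. -/
theorem nsq_sum_of_disjoint {ι : Type*} [DecidableEq ι] (s : Finset ι) (f : ι → V →₀ ℝ)
    (A : ι → Set V) (hA : ∀ i ∈ s, ((f i).support : Set V) ⊆ A i)
    (hd : ∀ i ∈ s, ∀ j ∈ s, i ≠ j → Disjoint (A i) (A j)) :
    nsq (∑ i ∈ s, f i) = ∑ i ∈ s, nsq (f i) := by
  classical
  induction s using Finset.induction_on with
  | empty => simp [nsq_zero]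
  | insert i s hi ih =>
    rw [sum_insert hi, sum_insert hi, nsq_add_of_disjoint, ih]
    · exact fun j hj => hA j (mem_insert_of_mem hj)
    · exact fun j hj k hk => hd j (mem_insert_of_mem hj) k (mem_insert_of_mem hk)
    · rw [Finset.disjoint_left]
      intro w hw hw'
      obtain ⟨j, hj, hwj⟩ := Finset.mem_biUnion.1 (Finsupp.support_finset_sum hw')
      have hij : i ≠ j := fun h => hi (h ▸ hj)
      exact Set.disjoint_left.1 (hd i (mem_insert_self _ _) j (mem_insert_of_mem hj) hij)
        (hA i (mem_insert_self _ _) hw) (hA j (mem_insert_of_mem hj) hwj)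

/-- The support of the coefficient vector lies in the branch behind `a`. -/
theorem support_coef_Br (hT : G.IsTree) (hN : ∀ a c, c ∈ N a → G.Adj a c) (ℓ : ℕ) (a b : V)
    (hab : G.Adj a b) : ((coef N W ℓ a b).support : Set V) ⊆ Br G a b := by
  classical
  induction ℓ generalizing a b with
  | zero =>
    intro w hw
    simp only [coef, mem_coe] at hw
    have := Finsupp.support_single_subset hw
    simp only [mem_singleton] at this
    rw [this]
    exact self_mem_Br hab
  | succ ℓ ih =>
    intro w hw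
    rw [coef_succ] at hw
    have hw1 := Finsupp.support_add hw
    rcases mem_union.1 hw1 with h | h
    · have := Finsupp.support_single_subset h
      simp only [mem_singleton] at this
      rw [this]
      exact self_mem_Br hab
    · obtain ⟨c, hc, hwc⟩ := mem_biUnion.1 (Finsupp.support_finset_sum h)
      have hc' := mem_of_mem_erase hc
      have hcb := ne_of_mem_erase hc
      have hca : G.Adj c a := (hN a c hc').symm
      have hwc' := Finsupp.support_smul hwc
      exact Br_step hT hca hab hcb (ih c a hca hwc')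

/-- Squared norm of the coefficient vector equals its recursive form. -/
theorem nsq_coef (hT : G.IsTree) (hN : ∀ a c, c ∈ N a → G.Adj a c) (ℓ : ℕ) (a b : V)
    (hab : G.Adj a b) : nsq (coef N W ℓ a b) = Nsq N W ℓ a b := by
  classical
  induction ℓ generalizing a b with
  | zero => simp [coef, Nsq, nsq_single]
  | succ ℓ ih =>
    rw [coef_succ, nsq_add_of_disjoint, nsq_single]
    · rw [nsq_sum_of_disjoint _ _ (fun c => Br G c a)]
      · simp only [Nsq, one_pow]
        congr 1
        refine sum_congr rfl fun c hc => ?_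
        rw [nsq_smul, ih c a (hN a c (mem_of_mem_erase hc)).symm]
      · intro c hc w hw
        exact support_coef_Br hT hN ℓ c a (hN a c (mem_of_mem_erase hc)).symm
          (Finsupp.support_smul hw)
      · intro c hc c' hc' hcc
        exact Br_disjoint hT (hN a c (mem_of_mem_erase hc)).symm
          (hN a c' (mem_of_mem_erase hc')).symm hcc
    · rw [Finset.disjoint_left]
      intro w hw hw'
      have := Finsupp.support_single_subset hw
      simp only [mem_singleton] at this
      subst this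
      obtain ⟨c, hc, hwc⟩ := mem_biUnion.1 (Finsupp.support_finset_sum hw')
      have hca : G.Adj c w := (hN w c (mem_of_mem_erase hc)).symm
      exact not_mem_Br hca (support_coef_Br hT hN ℓ c w hca (Finsupp.support_smul hwc))

theorem Nsq_nonneg (hT : G.IsTree) (hN : ∀ a c, c ∈ N a → G.Adj a c) (ℓ : ℕ) (a b : V)
    (hab : G.Adj a b) : 0 ≤ Nsq N W ℓ a b := by
  rw [← nsq_coef hT hN ℓ a b hab]; exact nsq_nonneg _

/-- The uniform bound `K₂ = 1 / (1 - θ² (d - 1))` on the squared norm. -/
theorem Nsq_le [G.LocallyFinite] {d : ℕ} {θ : ℝ} (hT : G.IsTree)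
    (hN : ∀ a c, c ∈ N a → G.Adj a c) (hdeg : ∀ v, G.degree v = d) (hd : 1 ≤ d)
    (hρ : θ ^ 2 * ((d : ℝ) - 1) < 1) (hW : ∀ c a, W c a ^ 2 ≤ θ ^ 2) (ℓ : ℕ) (a b : V)
    (hab : G.Adj a b) : Nsq N W ℓ a b ≤ 1 / (1 - θ ^ 2 * ((d : ℝ) - 1)) := by
  classical
  have hd' : (0 : ℝ) ≤ (d : ℝ) - 1 := by
    have : (1 : ℝ) ≤ d := by exact_mod_cast hd
    linarith
  have hρ0 : 0 ≤ θ ^ 2 * ((d : ℝ) - 1) := by positivity
  set K := 1 / (1 - θ ^ 2 * ((d : ℝ) - 1)) with hK
  have hpos : 0 < 1 - θ ^ 2 * ((d : ℝ) - 1) := by linarith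
  have hK1 : 1 ≤ K := by
    rw [hK, le_div_iff₀ hpos]; linarith
  have hKeq : 1 + θ ^ 2 * ((d : ℝ) - 1) * K = K := by
    rw [hK]; field_simp; ring
  induction ℓ generalizing a b with
  | zero => simpa [Nsq] using hK1
  | succ ℓ ih =>
    simp only [Nsq]
    have hcard : (((N a).erase b).card : ℝ) ≤ (d : ℝ) - 1 := by
      have hsub : (N a).erase b ⊆ (G.neighborFinset a).erase b := by
        intro c hc
        rw [mem_erase] at hc ⊢
        exact ⟨hc.1, by simpa using hN a c hc.2⟩
      have h1 := card_le_card hsub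
      have h2 : ((G.neighborFinset a).erase b).card = d - 1 := by
        rw [card_erase_of_mem (by simpa using hab), G.card_neighborFinset_eq_degree, hdeg]
      rw [h2] at h1
      have h3 : ((d - 1 : ℕ) : ℝ) = (d : ℝ) - 1 := by
        rw [Nat.cast_sub hd]; simp
      rw [← h3]; exact_mod_cast h1
    have hsum : ∑ c ∈ (N a).erase b, W c a ^ 2 * Nsq N W ℓ c a
        ≤ ∑ _c ∈ (N a).erase b, θ ^ 2 * K := by
      refine sum_le_sum fun c hc => ?_
      have hca : G.Adj c a := (hN a c (mem_of_mem_erase hc)).symm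
      exact mul_le_mul (hW c a) (ih c a hca) (Nsq_nonneg hT hN ℓ c a hca) (sq_nonneg _)
    rw [sum_const, nsmul_eq_mul] at hsum
    have h2 : (((N a).erase b).card : ℝ) * (θ ^ 2 * K) ≤ ((d : ℝ) - 1) * (θ ^ 2 * K) :=
      mul_le_mul_of_nonneg_right hcard (by positivity)
    nlinarith

/-- Recursion inequality for the squared norm of the difference of two coefficient vectors, when
the neighbourhoods of `a` agree. -/
theorem nsq_coef_sub_succ_le (hT : G.IsTree) (hN : ∀ a c, c ∈ N a → G.Adj a c)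
    (hN' : ∀ a c, c ∈ N' a → G.Adj a c) (ℓ : ℕ) (a b : V) (hab : G.Adj a b) (hNa : N a = N' a)
    {τ : ℝ} (hτ : 0 < τ) :
    nsq (coef N W (ℓ + 1) a b - coef N' W' (ℓ + 1) a b)
      ≤ ∑ c ∈ (N a).erase b,
          ((1 + τ) * (W c a) ^ 2 * nsq (coef N W ℓ c a - coef N' W' ℓ c a)
            + (1 + 1 / τ) * (W c a - W' c a) ^ 2 * Nsq N' W' ℓ c a) := by
  classical
  have e : coef N W (ℓ + 1) a b - coef N' W' (ℓ + 1) a b
      = ∑ c ∈ (N a).erase b, (W c a • coef N W ℓ c a - W' c a • coef N' W' ℓ c a) := by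
    rw [coef_succ, coef_succ, ← hNa, sum_sub_distrib]
    abel
  rw [e, nsq_sum_of_disjoint _ _ (fun c => Br G c a)]
  · refine sum_le_sum fun c hc => ?_
    have hca : G.Adj c a := (hN a c (mem_of_mem_erase hc)).symm
    have hc' : c ∈ N' a := hNa ▸ mem_of_mem_erase hc
    have e2 : W c a • coef N W ℓ c a - W' c a • coef N' W' ℓ c a
        = W c a • (coef N W ℓ c a - coef N' W' ℓ c a)
          + (W c a - W' c a) • coef N' W' ℓ c a := by
      rw [smul_sub, sub_smul]; abel
    rw [e2]
    refine (nsq_add_le _ _ hτ).trans ?_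
    rw [nsq_smul, nsq_smul, nsq_coef hT hN' ℓ c a hca]
    apply le_of_eq; ring
  · intro c hc w hw
    have hca : G.Adj c a := (hN a c (mem_of_mem_erase hc)).symm
    have hw' := Finsupp.support_sub hw
    rcases mem_union.1 hw' with h | h
    · exact support_coef_Br hT hN ℓ c a hca (Finsupp.support_smul h)
    · exact support_coef_Br hT hN' ℓ c a hca (Finsupp.support_smul h)
  · intro c hc c' hc' hcc
    exact Br_disjoint hT (hN a c (mem_of_mem_erase hc)).symm
      (hN a c' (mem_of_mem_erase hc')).symm hcc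

/-- `Lin` is linear in the noise. -/
theorem Lin_add_smul (m g : V → ℝ) (u v : ℝ) (ℓ : ℕ) (a b : V) :
    Lin N W (fun w => u * m w + v * g w) ℓ a b = u * Lin N W m ℓ a b + v * Lin N W g ℓ a b := by
  simp only [← lin_coef]
  have h : ∀ (c : V →₀ ℝ), lin c (fun w => u * m w + v * g w) = u * lin c m + v * lin c g := by
    intro c
    unfold lin
    rw [Finsupp.mul_sum, Finsupp.mul_sum, Finsupp.sum, Finsupp.sum, Finsupp.sum,
      ← sum_add_distrib]
    exact sum_congr rfl fun w _ => by ring
  exact h _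

/-- `Nsq` only depends on the weights along the edges of `N`. -/
theorem Nsq_congr (hW : ∀ a c, c ∈ N a → W c a = W' c a) (ℓ : ℕ) (a b : V) :
    Nsq N W ℓ a b = Nsq N W' ℓ a b := by
  induction ℓ generalizing a b with
  | zero => rfl
  | succ ℓ ih =>
    simp only [Nsq]
    congr 1
    refine sum_congr rfl fun c hc => ?_
    rw [hW a c (mem_of_mem_erase hc), ih c a]

theorem Lin_congr (g : V → ℝ) (hW : ∀ a c, c ∈ N a → W c a = W' c a) (ℓ : ℕ) (a b : V) :
    Lin N W g ℓ a b = Lin N W' g ℓ a b := by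
  induction ℓ generalizing a b with
  | zero => rfl
  | succ ℓ ih =>
    simp only [Lin]
    congr 1
    refine sum_congr rfl fun c hc => ?_
    rw [hW a c (mem_of_mem_erase hc), ih c a]

/-! ### Rank functions and fuel stability -/

/-- A rank function for the cavity recursion of `N` on the edges of `G`. -/
def IsRank (G : SimpleGraph V) (N : V → Finset V) (rk : V → V → ℕ) : Prop :=
  ∀ a b c, G.Adj a b → c ∈ (N a).erase b → rk c a + 1 ≤ rk a b

/-- Generic fuel stability for functions defined by the cavity recursion. -/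
theorem fuel_stable {α : Type*} {rk : V → V → ℕ} (hrk : IsRank G N rk)
    (hN : ∀ a c, c ∈ N a → G.Adj a c) (f : ℕ → V → V → α)
    (hbase : ∀ a b, (N a).erase b = ∅ → ∀ ℓ, f ℓ a b = f 0 a b)
    (hstep : ∀ ℓ ℓ' a b, (∀ c ∈ (N a).erase b, f ℓ c a = f ℓ' c a) → f (ℓ + 1) a b = f (ℓ' + 1) a b)
    (L : ℕ) (a b : V) (hab : G.Adj a b) (hL : rk a b ≤ L) (L' : ℕ) (hL' : rk a b ≤ L') :
    f L a b = f L' a b := by
  induction L generalizing a b L' with
  | zero =>
    have he : (N a).erase b = ∅ := by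
      rw [Finset.eq_empty_iff_forall_notMem]
      intro c hc
      have := hrk a b c hab hc
      omega
    rw [hbase a b he L']
  | succ L ih =>
    cases L' with
    | zero =>
      have he : (N a).erase b = ∅ := by
        rw [Finset.eq_empty_iff_forall_notMem]
        intro c hc
        have := hrk a b c hab hc
        omega
      rw [hbase a b he (L + 1)]
    | succ L' =>
      apply hstep
      intro c hc
      have h1 := hrk a b c hab hc
      exact ih c a (hN a c (mem_of_mem_erase hc)).symm (by omega) L' (by omega)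

theorem msg_stable {θ : ℝ} {rk : V → V → ℕ} (hrk : IsRank G N rk)
    (hN : ∀ a c, c ∈ N a → G.Adj a c) (x : V → ℝ) (L : ℕ) (a b : V) (hab : G.Adj a b)
    (hL : rk a b ≤ L) (L' : ℕ) (hL' : rk a b ≤ L') : msg θ N x L a b = msg θ N x L' a b := by
  refine fuel_stable hrk hN (fun L a b => msg θ N x L a b) ?_ ?_ L a b hab hL L' hL'
  · intro a b he ℓ
    cases ℓ with
    | zero => rfl
    | succ ℓ => simp [msg, he]
  · intro ℓ ℓ' a b h
    simp only [msg]
    congr 1
    exact sum_congr rfl fun c hc => by rw [h c hc]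

theorem Nsq_stable {rk : V → V → ℕ} (hrk : IsRank G N rk)
    (hN : ∀ a c, c ∈ N a → G.Adj a c) (L : ℕ) (a b : V) (hab : G.Adj a b)
    (hL : rk a b ≤ L) (L' : ℕ) (hL' : rk a b ≤ L') : Nsq N W L a b = Nsq N W L' a b := by
  refine fuel_stable hrk hN (fun L a b => Nsq N W L a b) ?_ ?_ L a b hab hL L' hL'
  · intro a b he ℓ
    cases ℓ with
    | zero => rfl
    | succ ℓ => simp [Nsq, he]
  · intro ℓ ℓ' a b h
    simp only [Nsq]
    congr 1
    exact sum_congr rfl fun c hc => by rw [h c hc]

theorem Lin_stable {rk : V → V → ℕ} (hrk : IsRank G N rk)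
    (hN : ∀ a c, c ∈ N a → G.Adj a c) (g : V → ℝ) (L : ℕ) (a b : V) (hab : G.Adj a b)
    (hL : rk a b ≤ L) (L' : ℕ) (hL' : rk a b ≤ L') : Lin N W g L a b = Lin N W g L' a b := by
  refine fuel_stable hrk hN (fun L a b => Lin N W g L a b) ?_ ?_ L a b hab hL L' hL'
  · intro a b he ℓ
    cases ℓ with
    | zero => rfl
    | succ ℓ => simp [Lin, he]
  · intro ℓ ℓ' a b h
    simp only [Lin]
    congr 1
    exact sum_congr rfl fun c hc => by rw [h c hc]

/-- The cavity chain of a finite system does not depend on the fuel, once the fuel exceeds the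
rank. -/
theorem cavChain_stable {θ ε : ℝ} {rk : V → V → ℕ} {L₀ : ℕ} (hrk : IsRank G N rk)
    (hN : ∀ a c, c ∈ N a → G.Adj a c) (hL₀ : ∀ a b, G.Adj a b → rk a b ≤ L₀) (g : ℕ → V → ℝ)
    (ℓ : ℕ) (hℓ : L₀ ≤ ℓ) (k : ℕ) (a b : V) (hab : G.Adj a b) :
    cavChain θ N ℓ ε g k a b = cavChain θ N L₀ ε g k a b := by
  induction k generalizing a b with
  | zero => rfl
  | succ k ih =>
    simp only [cavChain, cavStep]
    have hW : ∀ a c, c ∈ N a → wgt θ (cavChain θ N ℓ ε g k) c a = wgt θ (cavChain θ N L₀ ε g k) c a := by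
      intro a c hc
      simp only [wgt]
      rw [ih c a (hN a c hc).symm]
    rw [ih a b hab, ih b a hab.symm, Nsq_congr hW, Lin_congr _ hW,
      Nsq_stable hrk hN ℓ a b hab ((hL₀ a b hab).trans hℓ) L₀ (hL₀ a b hab),
      Lin_stable hrk hN _ ℓ a b hab ((hL₀ a b hab).trans hℓ) L₀ (hL₀ a b hab)]

/-- With enough fuel the messages solve the message equations. -/
theorem msg_fixed {θ : ℝ} {rk : V → V → ℕ} {L₀ : ℕ} (hrk : IsRank G N rk)
    (hN : ∀ a c, c ∈ N a → G.Adj a c) (hL₀ : ∀ a b, G.Adj a b → rk a b ≤ L₀) (x : V → ℝ)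
    (a b : V) (hab : G.Adj a b) :
    msg θ N x L₀ a b = x a + ∑ c ∈ (N a).erase b, hm θ (msg θ N x L₀ c a) := by
  rw [msg_stable hrk hN x L₀ a b hab (hL₀ a b hab) (L₀ + 1) ((hL₀ a b hab).trans (Nat.le_succ _))]
  rfl

theorem Nsq_fixed {rk : V → V → ℕ} {L₀ : ℕ} (hrk : IsRank G N rk)
    (hN : ∀ a c, c ∈ N a → G.Adj a c) (hL₀ : ∀ a b, G.Adj a b → rk a b ≤ L₀)
    (a b : V) (hab : G.Adj a b) :
    Nsq N W L₀ a b = 1 + ∑ c ∈ (N a).erase b, W c a ^ 2 * Nsq N W L₀ c a := by
  rw [Nsq_stable hrk hN L₀ a b hab (hL₀ a b hab) (L₀ + 1) ((hL₀ a b hab).trans (Nat.le_succ _))]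
  rfl

theorem Lin_fixed {rk : V → V → ℕ} {L₀ : ℕ} (hrk : IsRank G N rk)
    (hN : ∀ a c, c ∈ N a → G.Adj a c) (hL₀ : ∀ a b, G.Adj a b → rk a b ≤ L₀) (g : V → ℝ)
    (a b : V) (hab : G.Adj a b) :
    Lin N W g L₀ a b = g a + ∑ c ∈ (N a).erase b, W c a * Lin N W g L₀ c a := by
  rw [Lin_stable hrk hN g L₀ a b hab (hL₀ a b hab) (L₀ + 1) ((hL₀ a b hab).trans (Nat.le_succ _))]
  rfl

end

end Vale.Agent.Lib.P161
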