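import Vale.Agent.Lib.P161.Step

/-!
Comparison of the master chain on the infinite tree with the chain of a finite ball, for P161.
The error decays exponentially in the distance from the boundary of the ball, uniformly in the
fuel, the mesh and the ball.
-/

open MeasureTheory ProbabilityTheory Finset

set_option linter.unusedSectionVars false

namespace Vale.Agent.Lib.P161

noncomputable section

variable {Ω V : Type*} [mΩ : MeasurableSpace Ω] {P : Measure Ω} [IsProbabilityMeasure P]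
  {g : ℕ → V → Ω → ℝ}

variable {G : SimpleGraph V} [G.LocallyFinite] [DecidableEq V] {d : ℕ} {θ ε : ℝ}
  {N N' : V → Finset V}

/-- The gap parameter `(1 - ρ) / 4`. -/
def gapC (θ : ℝ) (d : ℕ) : ℝ := (1 - θ ^ 2 * ((d : ℝ) - 1)) / 4

/-- The spatial decay rate. -/
def gammaC (θ : ℝ) (d : ℕ) : ℝ := 1 + gapC θ d

/-- Constant `C₃`. -/
def threeC (θ : ℝ) (d : ℕ) : ℝ :=
  gammaC θ d * ((d : ℝ) - 1) * (4 * K2 θ d * (1 + 1 / gapC θ d))

/-- Constant `C₁`. -/
def oneC (θ : ℝ) (d : ℕ) : ℝ := threeC θ d / gapC θ d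

/-- Constant `C₂`. -/
def twoC (θ : ℝ) (d : ℕ) : ℝ := 4 * K2 θ d * gammaC θ d

/-- The rate of the comparison estimate. -/
def compC (θ : ℝ) (d : ℕ) : ℝ :=
  1 + 8 * K2 θ d ^ 2 * (1 + gammaC θ d) + (16 * K2 θ d + 1) * (oneC θ d + twoC θ d)

theorem TreeParams.rho_nonneg (hp : TreeParams G d θ) : 0 ≤ θ ^ 2 * ((d : ℝ) - 1) := by
  have hd' : (0 : ℝ) ≤ (d : ℝ) - 1 := by
    have : (1 : ℝ) ≤ d := by exact_mod_cast hp.one_le
    linarith
  positivity

theorem TreeParams.gapC_pos (hp : TreeParams G d θ) : 0 < gapC θ d := by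
  have := hp.rho
  unfold gapC
  linarith

theorem TreeParams.gapC_le (hp : TreeParams G d θ) : gapC θ d ≤ 1 / 4 := by
  have := hp.rho_nonneg
  unfold gapC
  linarith

theorem TreeParams.gammaC_gt (hp : TreeParams G d θ) : 1 < gammaC θ d := by
  have := hp.gapC_pos
  unfold gammaC
  linarith

theorem TreeParams.gamma_contract (hp : TreeParams G d θ) :
    gammaC θ d * (1 + gapC θ d) * (θ ^ 2 * ((d : ℝ) - 1)) ≤ 1 - gapC θ d := by
  have h1 := hp.rho_nonneg
  have h2 := hp.rho
  have h3 := hp.gapC_pos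
  have h4 := hp.gapC_le
  set δ := gapC θ d with hδ
  set ρ := θ ^ 2 * ((d : ℝ) - 1) with hρ
  have e : ρ = 1 - 4 * δ := by
    simp only [hδ, gapC]
    ring
  unfold gammaC
  rw [← hδ]
  have h5 : (1 + δ) * (1 + δ) * ρ ≤ (1 + 3 * δ) * ρ :=
    mul_le_mul_of_nonneg_right (by nlinarith) h1
  have h6 : (1 + 3 * δ) * ρ ≤ ρ + 3 * δ := by nlinarith
  linarith

theorem TreeParams.threeC_nonneg (hp : TreeParams G d θ) : 0 ≤ threeC θ d := by
  have h1 := hp.K2_pos
  have h2 := hp.gapC_pos
  have h3 := hp.gammaC_gt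
  have hd' : (0 : ℝ) ≤ (d : ℝ) - 1 := by
    have : (1 : ℝ) ≤ d := by exact_mod_cast hp.one_le
    linarith
  unfold threeC
  have : 0 < gammaC θ d := by linarith
  positivity

theorem TreeParams.oneC_nonneg (hp : TreeParams G d θ) : 0 ≤ oneC θ d :=
  div_nonneg hp.threeC_nonneg hp.gapC_pos.le

theorem TreeParams.twoC_nonneg (hp : TreeParams G d θ) : 0 ≤ twoC θ d := by
  have h1 := hp.K2_pos
  have h3 := hp.gammaC_gt
  unfold twoC
  have : 0 < gammaC θ d := by linarith
  positivity

theorem TreeParams.compC_pos (hp : TreeParams G d θ) : 0 < compC θ d := by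
  have h1 := hp.K2_pos
  have h3 := hp.gammaC_gt
  have h4 := hp.oneC_nonneg
  have h5 := hp.twoC_nonneg
  unfold compC
  have : 0 < gammaC θ d := by linarith
  positivity

section Ball

variable {o : V} {R : ℕ}

/-- Distance-to-boundary rank of a vertex of the ball. -/
def ballRank (G : SimpleGraph V) (o : V) (R : ℕ) (a : V) : ℕ := R + 1 - G.dist o a

theorem TreeParams.ballRank_le_succ (hp : TreeParams G d θ) {a c : V} (hca : G.Adj c a) :
    ballRank G o R a ≤ ballRank G o R c + 1 := by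
  unfold ballRank
  have h : G.dist o c ≤ G.dist o a + G.dist a c := hp.tree.1.dist_triangle
  have h2 : G.dist a c = 1 := SimpleGraph.dist_eq_one_iff_adj.2 hca.symm
  omega

theorem TreeParams.pow_ballRank_le (hp : TreeParams G d θ) {a c : V} (hca : G.Adj c a) :
    gammaC θ d ^ ballRank G o R a ≤ gammaC θ d * gammaC θ d ^ ballRank G o R c := by
  have h := hp.ballRank_le_succ (o := o) (R := R) hca
  have h1 := hp.gammaC_gt
  calc gammaC θ d ^ ballRank G o R a ≤ gammaC θ d ^ (ballRank G o R c + 1) :=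
        pow_le_pow_right₀ h1.le h
    _ = _ := by rw [pow_succ]; ring

theorem subN_nbV : SubN G (nbV G) := fun a c hc => by simpa [nbV] using hc

theorem subN_nbS (S : Finset V) : SubN G (nbS G S) := by
  classical
  intro a c hc
  unfold nbS at hc
  split_ifs at hc with ha
  · have := (mem_filter.1 hc).1
    simpa using this
  · simp at hc

theorem TreeParams.nbS_interior (hp : TreeParams G d θ) {a : V} (h : G.dist o a < R) :
    nbS G (ballF G o R) a = nbV G a := by
  classical
  have ha : a ∈ ballF G o R := (mem_ballF hp.tree.1).2 h.le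
  unfold nbS nbV
  rw [if_pos ha]
  ext c
  simp only [mem_filter, SimpleGraph.mem_neighborFinset]
  constructor
  · exact fun h => h.1
  · intro hc
    refine ⟨hc, (mem_ballF hp.tree.1).2 ?_⟩
    have h1 : G.dist o c ≤ G.dist o a + G.dist a c := hp.tree.1.dist_triangle
    have h2 : G.dist a c = 1 := SimpleGraph.dist_eq_one_iff_adj.2 hc
    omega

/-- Squared norm of the noise coefficient difference, integrated, in the ball. -/
theorem TreeParams.nsq_diff_ball (hp : TreeParams G d θ) (hg : IsNoise P g) {k : ℕ}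
    {η η' : Ω → V → V → ℝ} (hη : Adapted2 g k P η) (hη' : Adapted2 g k P η') {A : ℝ} (hA0 : 0 ≤ A)
    (hA : ∀ a b, G.Adj a b → a ∈ ballF G o R → b ∈ ballF G o R →
      gammaC θ d ^ ballRank G o R a * ∫ ω, (η ω a b - η' ω a b) ^ 2 ∂P ≤ A)
    (ℓ : ℕ) (a b : V) (hab : G.Adj a b) (ha : a ∈ ballF G o R) (hb : b ∈ ballF G o R) :
    gammaC θ d ^ ballRank G o R a * ∫ ω, nsq (coef (nbV G) (wgt θ (η ω)) ℓ a b
        - coef (nbS G (ballF G o R)) (wgt θ (η' ω)) ℓ a b) ∂P
      ≤ oneC θ d * A + twoC θ d := by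
  classical
  set N := nbV G with hNdef
  set N' := nbS G (ballF G o R) with hN'def
  have hN : SubN G N := subN_nbV
  have hN' : SubN G N' := subN_nbS _
  set γ := gammaC θ d with hγ
  set K := K2 θ d with hK
  have hγ1 : 1 < γ := hp.gammaC_gt
  have hγ0 : 0 < γ := by linarith
  have hK0 : 0 < K := hp.K2_pos
  have h1 := hp.oneC_nonneg
  have h2 := hp.twoC_nonneg
  have hB0 : 0 ≤ oneC θ d * A + twoC θ d := by positivity
  -- integrability of the squared norm of the coefficient difference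
  have hV : ∀ ℓ a b, G.Adj a b → Integrable (fun ω => nsq (coef N (wgt θ (η ω)) ℓ a b
      - coef N' (wgt θ (η' ω)) ℓ a b)) P := by
    intro ℓ a b hab
    refine Integrable.of_bound (C := 4 * K) ?_ (Filter.Eventually.of_forall fun ω => ?_)
    · have : Measurable (fun ω => ∑ w ∈ diffSupp N N' ℓ a b, diffCoef θ N N' ℓ η η' a b w ω ^ 2) :=
        Finset.measurable_fun_sum _ fun w _ =>
          ((measurable_diffCoef hη hη' hp.nonneg hp.lt_one ℓ a b w).mono
            (pastS_le hg k) le_rfl).pow_const 2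
      rw [← funext (nsq_diff_eq (θ := θ) (N := N) (N' := N') η η' ℓ a b)] at this
      exact this.aestronglyMeasurable
    · rw [Real.norm_eq_abs, abs_of_nonneg (nsq_nonneg _)]
      exact hp.nsq_diff_le hN hN' _ _ ℓ hab
  induction ℓ generalizing a b with
  | zero =>
    have e : ∀ ω, nsq (coef N (wgt θ (η ω)) 0 a b - coef N' (wgt θ (η' ω)) 0 a b) = 0 := by
      intro ω
      simp [coef, nsq_zero]
    simp only [e, integral_zero, mul_zero]
    exact hB0
  | succ ℓ ih =>
    by_cases hint : G.dist o a < R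
    · -- interior vertex: use the recursion
      have hNa : N a = N' a := (hp.nbS_interior hint).symm
      set τ := gapC θ d with hτ
      have hτ0 : 0 < τ := hp.gapC_pos
      -- the pointwise recursion
      have hpt : ∀ ω, nsq (coef N (wgt θ (η ω)) (ℓ + 1) a b - coef N' (wgt θ (η' ω)) (ℓ + 1) a b)
          ≤ ∑ c ∈ (N a).erase b, ((1 + τ) * θ ^ 2 * nsq (coef N (wgt θ (η ω)) ℓ c a
              - coef N' (wgt θ (η' ω)) ℓ c a)
            + (1 + 1 / τ) * (4 * K) * (η ω c a - η' ω c a) ^ 2) := by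
        intro ω
        refine (nsq_coef_sub_succ_le hp.tree hN hN' ℓ a b hab hNa hτ0).trans
          (sum_le_sum fun c hc => ?_)
        have hca : G.Adj c a := (hN a c (mem_of_mem_erase hc)).symm
        refine add_le_add ?_ ?_
        · exact mul_le_mul_of_nonneg_right
            (mul_le_mul_of_nonneg_left (hp.wgt_sq_le _ c a) (by linarith)) (nsq_nonneg _)
        · have hw : (wgt θ (η ω) c a - wgt θ (η' ω) c a) ^ 2 ≤ 4 * (η ω c a - η' ω c a) ^ 2 := by
            have := abs_hd1_sub_le hp.nonneg hp.lt_one (η ω c a) (η' ω c a)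
            simp only [wgt]
            have h3 : |hd1 θ (η ω c a) - hd1 θ (η' ω c a)| ^ 2
                ≤ (2 * |η ω c a - η' ω c a|) ^ 2 :=
              pow_le_pow_left₀ (abs_nonneg _) this 2
            rw [sq_abs, mul_pow, sq_abs] at h3
            linarith
          have hnsq := hp.Nsq_wgt_le (η := η' ω) hN' ℓ hca
          have hnsq0 := hp.Nsq_wgt_nonneg (η := η' ω) hN' ℓ hca
          have h1τ : 0 < 1 + 1 / τ := by positivity
          calc (1 + 1 / τ) * (wgt θ (η ω) c a - wgt θ (η' ω) c a) ^ 2 * Nsq N' (wgt θ (η' ω)) ℓ c a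
              ≤ (1 + 1 / τ) * (4 * (η ω c a - η' ω c a) ^ 2) * K :=
                mul_le_mul (mul_le_mul_of_nonneg_left hw h1τ.le) hnsq hnsq0 (by positivity)
            _ = (1 + 1 / τ) * (4 * K) * (η ω c a - η' ω c a) ^ 2 := by ring
      have hD : ∀ c, Integrable (fun ω => (η ω c a - η' ω c a) ^ 2) P := fun c =>
        ((hη.memLp c a).sub (hη'.memLp c a)).integrable_sq
      have hchild : ∀ c ∈ (N a).erase b, G.Adj c a ∧ c ∈ ballF G o R := by
        intro c hc
        have hca : G.Adj c a := (hN a c (mem_of_mem_erase hc)).symm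
        refine ⟨hca, (mem_ballF hp.tree.1).2 ?_⟩
        have h3 : G.dist o c ≤ G.dist o a + G.dist a c := hp.tree.1.dist_triangle
        have h4 : G.dist a c = 1 := SimpleGraph.dist_eq_one_iff_adj.2 hca.symm
        omega
      have hint1 : ∀ c ∈ (N a).erase b, Integrable (fun ω => (1 + τ) * θ ^ 2
          * nsq (coef N (wgt θ (η ω)) ℓ c a - coef N' (wgt θ (η' ω)) ℓ c a)
          + (1 + 1 / τ) * (4 * K) * (η ω c a - η' ω c a) ^ 2) P := by
        intro c hc
        have hca := (hchild c hc).1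
        exact ((hV ℓ c a hca).const_mul _).add ((hD c).const_mul _)
      -- integrate
      have hI : ∫ ω, nsq (coef N (wgt θ (η ω)) (ℓ + 1) a b - coef N' (wgt θ (η' ω)) (ℓ + 1) a b) ∂P
          ≤ ∑ c ∈ (N a).erase b, ((1 + τ) * θ ^ 2 * ∫ ω, nsq (coef N (wgt θ (η ω)) ℓ c a
              - coef N' (wgt θ (η' ω)) ℓ c a) ∂P
            + (1 + 1 / τ) * (4 * K) * ∫ ω, (η ω c a - η' ω c a) ^ 2 ∂P) := by
        refine (integral_mono (hV (ℓ + 1) a b hab) (integrable_finset_sum _ hint1) hpt).trans ?_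
        rw [integral_finset_sum _ hint1]
        refine le_of_eq (sum_congr rfl fun c hc => ?_)
        have hca := (hchild c hc).1
        have i1 : Integrable (fun ω => (1 + τ) * θ ^ 2
            * nsq (coef N (wgt θ (η ω)) ℓ c a - coef N' (wgt θ (η' ω)) ℓ c a)) P :=
          (hV ℓ c a hca).const_mul _
        have i2 : Integrable (fun ω => (1 + 1 / τ) * (4 * K) * (η ω c a - η' ω c a) ^ 2) P :=
          (hD c).const_mul _
        rw [integral_add i1 i2, integral_const_mul, integral_const_mul]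
      -- weighted bound of each term
      have hterm : ∀ c ∈ (N a).erase b,
          γ ^ ballRank G o R a * ((1 + τ) * θ ^ 2 * ∫ ω, nsq (coef N (wgt θ (η ω)) ℓ c a
              - coef N' (wgt θ (η' ω)) ℓ c a) ∂P
            + (1 + 1 / τ) * (4 * K) * ∫ ω, (η ω c a - η' ω c a) ^ 2 ∂P)
          ≤ (1 + τ) * θ ^ 2 * (γ * (oneC θ d * A + twoC θ d))
            + (1 + 1 / τ) * (4 * K) * (γ * A) := by
        intro c hc
        obtain ⟨hca, hcS⟩ := hchild c hc
        have hpow : γ ^ ballRank G o R a ≤ γ * γ ^ ballRank G o R c := hp.pow_ballRank_le hca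
        have hv := ih c a hca hcS ha
        have hd := hA c a hca hcS ha
        have hv0 : 0 ≤ ∫ ω, nsq (coef N (wgt θ (η ω)) ℓ c a
              - coef N' (wgt θ (η' ω)) ℓ c a) ∂P := integral_nonneg fun ω => nsq_nonneg _
        have hd0 : 0 ≤ ∫ ω, (η ω c a - η' ω c a) ^ 2 ∂P := integral_nonneg fun ω => sq_nonneg _
        have h3 : γ ^ ballRank G o R a * ∫ ω, nsq (coef N (wgt θ (η ω)) ℓ c a
              - coef N' (wgt θ (η' ω)) ℓ c a) ∂P ≤ γ * (oneC θ d * A + twoC θ d) := by
          calc _ ≤ (γ * γ ^ ballRank G o R c) * ∫ ω, nsq (coef N (wgt θ (η ω)) ℓ c a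
              - coef N' (wgt θ (η' ω)) ℓ c a) ∂P := mul_le_mul_of_nonneg_right hpow hv0
            _ = γ * (γ ^ ballRank G o R c * ∫ ω, nsq (coef N (wgt θ (η ω)) ℓ c a
              - coef N' (wgt θ (η' ω)) ℓ c a) ∂P) := by ring
            _ ≤ _ := mul_le_mul_of_nonneg_left hv hγ0.le
        have h4 : γ ^ ballRank G o R a * ∫ ω, (η ω c a - η' ω c a) ^ 2 ∂P ≤ γ * A := by
          calc _ ≤ (γ * γ ^ ballRank G o R c) * ∫ ω, (η ω c a - η' ω c a) ^ 2 ∂P :=
                mul_le_mul_of_nonneg_right hpow hd0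
            _ = γ * (γ ^ ballRank G o R c * ∫ ω, (η ω c a - η' ω c a) ^ 2 ∂P) := by ring
            _ ≤ _ := mul_le_mul_of_nonneg_left hd hγ0.le
        have h5 : 0 ≤ (1 + τ) * θ ^ 2 := by positivity
        have h6 : 0 ≤ (1 + 1 / τ) * (4 * K) := by positivity
        calc _ = (1 + τ) * θ ^ 2 * (γ ^ ballRank G o R a * ∫ ω, nsq (coef N (wgt θ (η ω)) ℓ c a
              - coef N' (wgt θ (η' ω)) ℓ c a) ∂P)
              + (1 + 1 / τ) * (4 * K) * (γ ^ ballRank G o R a * ∫ ω, (η ω c a - η' ω c a) ^ 2 ∂P) := by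
              ring
          _ ≤ _ := add_le_add (mul_le_mul_of_nonneg_left h3 h5) (mul_le_mul_of_nonneg_left h4 h6)
      have hcard : (((N a).erase b).card : ℝ) ≤ (d : ℝ) - 1 := by
        have h3 : ((G.neighborFinset a).erase b).card = d - 1 := by
          rw [card_erase_of_mem (by simpa using hab), G.card_neighborFinset_eq_degree, hp.deg]
        have h4 : ((d - 1 : ℕ) : ℝ) = (d : ℝ) - 1 := by
          rw [Nat.cast_sub hp.one_le]; simp
        rw [← h4, ← h3]
        exact le_of_eq rfl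
      have hpow0 : 0 ≤ γ ^ ballRank G o R a := by positivity
      have hfinal : γ ^ ballRank G o R a * ∫ ω, nsq (coef N (wgt θ (η ω)) (ℓ + 1) a b
          - coef N' (wgt θ (η' ω)) (ℓ + 1) a b) ∂P
          ≤ ((d : ℝ) - 1) * ((1 + τ) * θ ^ 2 * (γ * (oneC θ d * A + twoC θ d))
            + (1 + 1 / τ) * (4 * K) * (γ * A)) := by
        have hnn : 0 ≤ (1 + τ) * θ ^ 2 * (γ * (oneC θ d * A + twoC θ d))
            + (1 + 1 / τ) * (4 * K) * (γ * A) := by positivity
        calc _ ≤ γ ^ ballRank G o R a * ∑ c ∈ (N a).erase b, ((1 + τ) * θ ^ 2 *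
              ∫ ω, nsq (coef N (wgt θ (η ω)) ℓ c a - coef N' (wgt θ (η' ω)) ℓ c a) ∂P
              + (1 + 1 / τ) * (4 * K) * ∫ ω, (η ω c a - η' ω c a) ^ 2 ∂P) :=
              mul_le_mul_of_nonneg_left hI hpow0
          _ = ∑ c ∈ (N a).erase b, γ ^ ballRank G o R a * ((1 + τ) * θ ^ 2 *
              ∫ ω, nsq (coef N (wgt θ (η ω)) ℓ c a - coef N' (wgt θ (η' ω)) ℓ c a) ∂P
              + (1 + 1 / τ) * (4 * K) * ∫ ω, (η ω c a - η' ω c a) ^ 2 ∂P) := mul_sum _ _ _
          _ ≤ ∑ _c ∈ (N a).erase b, ((1 + τ) * θ ^ 2 * (γ * (oneC θ d * A + twoC θ d))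
              + (1 + 1 / τ) * (4 * K) * (γ * A)) := sum_le_sum hterm
          _ = ((N a).erase b).card * ((1 + τ) * θ ^ 2 * (γ * (oneC θ d * A + twoC θ d))
              + (1 + 1 / τ) * (4 * K) * (γ * A)) := by
              rw [sum_const, nsmul_eq_mul]
          _ ≤ _ := mul_le_mul_of_nonneg_right hcard hnn
      refine hfinal.trans ?_
      -- the contraction
      have hc := hp.gamma_contract
      have hoC : threeC θ d = τ * oneC θ d := by
        rw [oneC, ← hτ]
        field_simp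
      have e : ((d : ℝ) - 1) * ((1 + τ) * θ ^ 2 * (γ * (oneC θ d * A + twoC θ d))
            + (1 + 1 / τ) * (4 * K) * (γ * A))
          = (γ * (1 + τ) * (θ ^ 2 * ((d : ℝ) - 1))) * (oneC θ d * A + twoC θ d)
            + threeC θ d * A := by
        simp only [threeC, ← hτ, ← hγ, ← hK]
        ring
      rw [e, hoC]
      have h5 : (γ * (1 + τ) * (θ ^ 2 * ((d : ℝ) - 1))) * (oneC θ d * A + twoC θ d)
          ≤ (1 - τ) * (oneC θ d * A + twoC θ d) := mul_le_mul_of_nonneg_right hc hB0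
      have h6 : 0 ≤ τ * twoC θ d := by positivity
      nlinarith
    · -- boundary vertex: crude bound
      have hdist : G.dist o a = R := by
        have := (mem_ballF hp.tree.1).1 ha
        omega
      have hr : ballRank G o R a = 1 := by
        unfold ballRank; omega
      rw [hr, pow_one]
      have hb0 : ∫ ω, nsq (coef N (wgt θ (η ω)) (ℓ + 1) a b
          - coef N' (wgt θ (η' ω)) (ℓ + 1) a b) ∂P ≤ 4 * K := by
        have := integral_mono (hV (ℓ + 1) a b hab) (integrable_const (4 * K))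
          (fun ω => hp.nsq_diff_le hN hN' (η ω) (η' ω) (ℓ + 1) hab)
        simpa using this
      have : γ * ∫ ω, nsq (coef N (wgt θ (η ω)) (ℓ + 1) a b
          - coef N' (wgt θ (η' ω)) (ℓ + 1) a b) ∂P ≤ γ * (4 * K) :=
        mul_le_mul_of_nonneg_left hb0 hγ0.le
      have e : twoC θ d = γ * (4 * K) := by
        simp only [twoC, ← hγ, ← hK]; ring
      rw [e]
      have h6 : 0 ≤ oneC θ d * A := by positivity
      linarith

theorem adapted_cavChain (hg : IsNoise P g) (h0 : 0 ≤ θ) (h1 : θ < 1) (ℓ k : ℕ) :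
    Adapted2 g k P (fun ω => cavChain θ N ℓ ε (fun i w => g i w ω) k) :=
  ⟨fun a b => measurable_cavChain h0 h1 ℓ k a b, fun a b => memLp_cavChain hg h0 h1 ℓ k a b⟩

/-- (C) The master chain and the ball chain are close far from the boundary of the ball, uniformly
in the fuel, the mesh and the ball. -/
theorem TreeParams.compare_chains (hp : TreeParams G d θ) (hg : IsNoise P g) (hε : 0 < ε)
    (hε1 : ε ≤ 1) (ℓ k : ℕ) (a b : V) (hab : G.Adj a b) (ha : a ∈ ballF G o R)
    (hb : b ∈ ballF G o R) :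
    gammaC θ d ^ ballRank G o R a * ∫ ω, (cavChain θ (nbV G) ℓ ε (fun i w => g i w ω) k a b
        - cavChain θ (nbS G (ballF G o R)) ℓ ε (fun i w => g i w ω) k a b) ^ 2 ∂P
      ≤ Real.exp (compC θ d * k * ε) - 1 := by
  induction k generalizing a b with
  | zero =>
    simp [cavChain]
  | succ k ih =>
    set η := fun ω => cavChain θ (nbV G) ℓ ε (fun i w => g i w ω) k
    set η' := fun ω => cavChain θ (nbS G (ballF G o R)) ℓ ε (fun i w => g i w ω) k
    have hη : Adapted2 g k P η := adapted_cavChain hg hp.nonneg hp.lt_one ℓ k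
    have hη' : Adapted2 g k P η' := adapted_cavChain hg hp.nonneg hp.lt_one ℓ k
    set C := compC θ d with hC
    have hC0 : 0 < C := hp.compC_pos
    set A := Real.exp (C * k * ε) - 1 with hAdef
    have hA0 : 0 ≤ A := by
      rw [hAdef, sub_nonneg]
      exact Real.one_le_exp (by positivity)
    have hV := hp.nsq_diff_ball hg hη hη' hA0 ih ℓ a b hab ha hb
    have hstep := hp.integral_step_sq_le subN_nbV (subN_nbS (ballF G o R)) hg hε hε1
      hη hη' ℓ hab
    have hD1 := ih a b hab ha hb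
    have hD2 := ih b a hab.symm hb ha
    set γ := gammaC θ d with hγ
    set K := K2 θ d with hK
    have hγ1 : 1 < γ := hp.gammaC_gt
    have hγ0 : 0 < γ := by linarith
    have hK0 : 0 < K := hp.K2_pos
    have hpow : γ ^ ballRank G o R a ≤ γ * γ ^ ballRank G o R b := hp.pow_ballRank_le hab.symm
    have hpow0 : 0 ≤ γ ^ ballRank G o R a := by positivity
    have hI0 : 0 ≤ ∫ ω, (η ω b a - η' ω b a) ^ 2 ∂P := integral_nonneg fun ω => sq_nonneg _
    have hD2' : γ ^ ballRank G o R a * ∫ ω, (η ω b a - η' ω b a) ^ 2 ∂P ≤ γ * A := by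
      calc _ ≤ (γ * γ ^ ballRank G o R b) * ∫ ω, (η ω b a - η' ω b a) ^ 2 ∂P :=
            mul_le_mul_of_nonneg_right hpow hI0
        _ = γ * (γ ^ ballRank G o R b * ∫ ω, (η ω b a - η' ω b a) ^ 2 ∂P) := by ring
        _ ≤ _ := mul_le_mul_of_nonneg_left hD2 hγ0.le
    have hmain : γ ^ ballRank G o R a * ∫ ω, (cavStep θ (nbV G) ℓ ε (η ω) (fun w => g k w ω) a b
        - cavStep θ (nbS G (ballF G o R)) ℓ ε (η' ω) (fun w => g k w ω) a b) ^ 2 ∂P
        ≤ (1 + C * ε) * A + C * ε := by
      have h1 := mul_le_mul_of_nonneg_left hstep hpow0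
      refine h1.trans ?_
      have e : γ ^ ballRank G o R a * ((1 + ε + 8 * K ^ 2 * ε) * ∫ ω, (η ω a b - η' ω a b) ^ 2 ∂P
          + 8 * K ^ 2 * ε * ∫ ω, (η ω b a - η' ω b a) ^ 2 ∂P
          + (16 * K + 1) * ε * ∫ ω, nsq (coef (nbV G) (wgt θ (η ω)) ℓ a b
              - coef (nbS G (ballF G o R)) (wgt θ (η' ω)) ℓ a b) ∂P)
          = (1 + ε + 8 * K ^ 2 * ε) * (γ ^ ballRank G o R a * ∫ ω, (η ω a b - η' ω a b) ^ 2 ∂P)
            + 8 * K ^ 2 * ε * (γ ^ ballRank G o R a * ∫ ω, (η ω b a - η' ω b a) ^ 2 ∂P)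
            + (16 * K + 1) * ε * (γ ^ ballRank G o R a * ∫ ω, nsq (coef (nbV G) (wgt θ (η ω)) ℓ a b
              - coef (nbS G (ballF G o R)) (wgt θ (η' ω)) ℓ a b) ∂P) := by ring
      rw [e]
      have t1 := mul_le_mul_of_nonneg_left hD1 (by positivity : 0 ≤ 1 + ε + 8 * K ^ 2 * ε)
      have t2 := mul_le_mul_of_nonneg_left hD2' (by positivity : 0 ≤ 8 * K ^ 2 * ε)
      have t3 := mul_le_mul_of_nonneg_left hV (by positivity : 0 ≤ (16 * K + 1) * ε)
      refine (add_le_add (add_le_add t1 t2) t3).trans ?_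
      have h1' := hp.oneC_nonneg
      have h2' := hp.twoC_nonneg
      have eC : C = 1 + 8 * K ^ 2 * (1 + γ) + (16 * K + 1) * (oneC θ d + twoC θ d) := by
        simp only [hC, compC, ← hγ, ← hK]
      have hfin : (1 + ε + 8 * K ^ 2 * ε) * A + 8 * K ^ 2 * ε * (γ * A)
          + (16 * K + 1) * ε * (oneC θ d * A + twoC θ d)
          = A + ε * ((1 + 8 * K ^ 2 * (1 + γ) + (16 * K + 1) * oneC θ d) * A
            + (16 * K + 1) * twoC θ d) := by ring
      rw [hfin, eC]
      have hsign : 0 ≤ ε * ((16 * K + 1) * twoC θ d * A + (1 + 8 * K ^ 2 * (1 + γ)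
          + (16 * K + 1) * oneC θ d)) := by positivity
      nlinarith
    simp only [cavChain]
    refine hmain.trans ?_
    have hexp : (1 : ℝ) + C * ε ≤ Real.exp (C * ε) := by
      have := Real.add_one_le_exp (C * ε); linarith
    have e2 : Real.exp (C * ((k + 1 : ℕ) : ℝ) * ε) = Real.exp (C * ε) * Real.exp (C * k * ε) := by
      rw [← Real.exp_add]; congr 1; push_cast; ring
    rw [e2]
    have hexp0 : 0 < Real.exp (C * k * ε) := Real.exp_pos _
    have e3 : (1 + C * ε) * A + C * ε = (1 + C * ε) * Real.exp (C * k * ε) - 1 := by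
      rw [hAdef]; ring
    rw [e3]
    have := mul_le_mul_of_nonneg_right hexp hexp0.le
    linarith

end Ball

end

end Vale.Agent.Lib.P161
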