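import Mathlib

/-!
Definitions used in the final statement for P161: the free Ising measure on a graph, the
i.i.d. uniform field and the factor-of-IID property.
-/

open MeasureTheory

namespace Vale.Agent.Lib.P161

noncomputable section

/-- The spin value attached to a Boolean: `true` is `1`, `false` is `-1`. -/
def spin (b : Bool) : ℝ := if b then 1 else -1

variable {V : Type*}

open Classical in
/-- The edges of `G` with both endpoints in the finite set `D`. -/
def edgesOf (G : SimpleGraph V) (D : Finset V) : Finset (Sym2 V) :=
  D.sym2.filter (fun e => e ∈ G.edgeSet)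

/-- The factor `(1 + θ f(u) f(v)) / 2` of an unordered pair `{u, v}`. -/
def edgeFactor (θ : ℝ) (f : V → ℝ) : Sym2 V → ℝ :=
  Sym2.lift ⟨fun u v => (1 + θ * f u * f v) / 2, by intro u v; ring⟩

/-- The free Ising cylinder weight
`(1/2) ∏_{ {u,v} ∈ E(D)} (1 + θ η_u η_v) / 2` of the configuration `η` on `D`. -/
def cylWeight (G : SimpleGraph V) (θ : ℝ) (D : Finset V) (η : V → Bool) : ℝ :=
  (1 / 2) * ∏ e ∈ edgesOf G D, edgeFactor θ (fun v => spin (η v)) e

/-- `ν` is the free Ising measure on `G` with edge parameter `θ`: a probability measure on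
spin configurations whose cylinders over finite connected vertex sets have the free weight. -/
def IsFreeIsing (G : SimpleGraph V) (θ : ℝ) (ν : Measure (V → Bool)) : Prop :=
  IsProbabilityMeasure ν ∧ ∀ D : Finset V, (G.induce (D : Set V)).Connected → ∀ η : V → Bool,
    ν {σ | ∀ v ∈ D, σ v = η v} = ENNReal.ofReal (cylWeight G θ D η)

/-- The law of an i.i.d. field of uniform `[0,1]` variables indexed by `V`. -/
def uniformField (V : Type*) : Measure (V → unitInterval) :=
  Measure.infinitePi (fun _ : V => (volume : Measure unitInterval))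

/-- `ν` is a factor of IID for `G`: it is the law of `Φ(U)` for an i.i.d. uniform field `U`,
with `Φ` measurable and commuting almost surely with each automorphism `g` of `G`,
where `g` acts on fields by `x ↦ x ∘ g⁻¹`. -/
def IsFactorOfIID (G : SimpleGraph V) (ν : Measure (V → Bool)) : Prop :=
  ∃ Φ : (V → unitInterval) → (V → Bool), Measurable Φ ∧
    (∀ g : G ≃g G, ∀ᵐ u ∂(uniformField V), Φ (u ∘ g.symm) = Φ u ∘ g.symm) ∧
    (uniformField V).map Φ = ν

end

end Vale.Agent.Lib.P161
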