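import Vale.Agent.Lib.P161.Basic

/-!
Discrete Girsanov bound for the Euler scheme of stochastic localization for P161
(module task, see the team findings table).

Contents: the shift formula for the standard Gaussian on `ι → ℝ`, the Cameron-Martin identity for
an Euler scheme with measurable drift (`cameron_martin`), the second moment of the mixture
likelihood (`moment_le`) and the main bound `tv_bound`.
-/

open MeasureTheory ProbabilityTheory Finset
open scoped ENNReal

namespace Vale.Agent.Lib.P161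

noncomputable section

variable {ι : Type*} [Fintype ι]

/-- The standard Gaussian measure on `ι → ℝ`. -/
def gamm (ι : Type*) [Fintype ι] : Measure (ι → ℝ) := Measure.pi (fun _ => gaussianReal 0 1)

instance : IsProbabilityMeasure (gamm ι) := by unfold gamm; infer_instance

/-- One-dimensional exponential tilt of the standard Gaussian. -/
lemma gauss1_withDensity (a : ℝ) :
    (gaussianReal 0 1).withDensity (fun u => ENNReal.ofReal (Real.exp (a * u - a ^ 2 / 2)))
      = gaussianReal a 1 := by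
  have h1 : (1 : NNReal) ≠ 0 := one_ne_zero
  rw [gaussianReal_of_var_ne_zero 0 h1, gaussianReal_of_var_ne_zero a h1]
  rw [← withDensity_mul _ (measurable_gaussianPDF 0 1)
    (by fun_prop)]
  congr 1
  funext u
  simp only [Pi.mul_apply, gaussianPDF_def, gaussianPDFReal]
  rw [← ENNReal.ofReal_mul (by positivity)]
  congr 1
  rw [mul_assoc, ← Real.exp_add]
  congr 2
  push_cast
  ring

/-- The shift formula for the standard Gaussian measure on `ι → ℝ`, as an equality of measures. -/
lemma gamm_withDensity (a : ι → ℝ) :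
    (gamm ι).withDensity (fun u => ∏ i, ENNReal.ofReal (Real.exp (a i * u i - a i ^ 2 / 2)))
      = Measure.pi (fun i => gaussianReal (a i) 1) := by
  symm
  apply Measure.pi_eq
  intro s hs
  have hmeas : ∀ i, Measurable (fun x : ℝ => ENNReal.ofReal (Real.exp (a i * x - a i ^ 2 / 2))) := by
    intro i; fun_prop
  rw [withDensity_apply _ (MeasurableSet.univ_pi hs)]
  have hind : ∀ u : ι → ℝ, Set.indicator (Set.univ.pi s)
      (fun u => ∏ i, ENNReal.ofReal (Real.exp (a i * u i - a i ^ 2 / 2))) u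
      = ∏ i, (Set.indicator (s i) (fun x => ENNReal.ofReal (Real.exp (a i * x - a i ^ 2 / 2)))) (u i) := by
    intro u
    by_cases hu : u ∈ Set.univ.pi s
    · rw [Set.indicator_of_mem hu]
      refine Finset.prod_congr rfl (fun i _ => ?_)
      rw [Set.indicator_of_mem (hu i (Set.mem_univ i))]
    · rw [Set.indicator_of_notMem hu]
      simp only [Set.mem_pi, Set.mem_univ, true_implies, not_forall] at hu
      obtain ⟨i, hi⟩ := hu
      symm
      apply Finset.prod_eq_zero (Finset.mem_univ i)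
      rw [Set.indicator_of_notMem hi]
  rw [← lintegral_indicator (MeasurableSet.univ_pi hs)]
  simp_rw [hind]
  have hX : ∀ i, Measurable (Set.indicator (s i)
      (fun x => ENNReal.ofReal (Real.exp (a i * x - a i ^ 2 / 2)))) :=
    fun i => (hmeas i).indicator (hs i)
  have hindep := iIndepFun_pi (μ := fun _ : ι => gaussianReal 0 1)
    (X := fun i => Set.indicator (s i)
      (fun x => ENNReal.ofReal (Real.exp (a i * x - a i ^ 2 / 2))))
    (fun i => (hX i).aemeasurable)
  have := lintegral_prod_eq_prod_lintegral_of_indepFun (μ := gamm ι) Finset.univ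
    (fun i (u : ι → ℝ) => Set.indicator (s i)
      (fun x => ENNReal.ofReal (Real.exp (a i * x - a i ^ 2 / 2))) (u i))
    hindep (fun i => (hX i).comp (measurable_pi_apply i))
  refine this.trans ?_
  refine Finset.prod_congr rfl (fun i _ => ?_)
  have hev := (measurePreserving_eval (fun _ : ι => gaussianReal 0 1) i)
  have h2 : ∫⁻ u : ι → ℝ, Set.indicator (s i)
      (fun x => ENNReal.ofReal (Real.exp (a i * x - a i ^ 2 / 2))) (u i) ∂gamm ι
      = ∫⁻ x, Set.indicator (s i)
      (fun x => ENNReal.ofReal (Real.exp (a i * x - a i ^ 2 / 2))) x ∂gaussianReal 0 1 := by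
    rw [← hev.map_eq, lintegral_map (hX i) (measurable_pi_apply i)]
    rfl
  rw [h2, lintegral_indicator (hs i), ← gauss1_withDensity (a i),
    withDensity_apply _ (hs i)]

/-- The real exponential density of the shifted Gaussian. -/
def shiftDens (a u : ι → ℝ) : ℝ := Real.exp (∑ i, a i * u i - (∑ i, a i ^ 2) / 2)

lemma shiftDens_pos (a u : ι → ℝ) : 0 < shiftDens a u := Real.exp_pos _

lemma measurable_shiftDens2 :
    Measurable (fun z : (ι → ℝ) × (ι → ℝ) => shiftDens z.1 z.2) := by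
  unfold shiftDens
  apply Real.measurable_exp.comp
  fun_prop

/-- The shift formula for the standard Gaussian measure on `ι → ℝ`. -/
theorem lintegral_shift (a : ι → ℝ) {H : (ι → ℝ) → ℝ≥0∞} (hH : Measurable H) :
    ∫⁻ u, H u * ENNReal.ofReal (shiftDens a u) ∂gamm ι = ∫⁻ u, H (u + a) ∂gamm ι := by
  have hf : Measurable (fun u : ι → ℝ => ∏ i, ENNReal.ofReal (Real.exp (a i * u i - a i ^ 2 / 2))) := by
    fun_prop
  have hd : ∀ u : ι → ℝ, ∏ i, ENNReal.ofReal (Real.exp (a i * u i - a i ^ 2 / 2))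
      = ENNReal.ofReal (shiftDens a u) := by
    intro u
    rw [← ENNReal.ofReal_prod_of_nonneg (fun i _ => (Real.exp_pos _).le), ← Real.exp_sum]
    unfold shiftDens
    congr 2
    rw [Finset.sum_sub_distrib, Finset.sum_div]
  have h1 : ∫⁻ u, H u * ENNReal.ofReal (shiftDens a u) ∂gamm ι
      = ∫⁻ u, H u ∂((gamm ι).withDensity
          (fun u => ∏ i, ENNReal.ofReal (Real.exp (a i * u i - a i ^ 2 / 2)))) := by
    rw [lintegral_withDensity_eq_lintegral_mul _ hf hH]
    refine lintegral_congr (fun u => ?_)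
    simp only [Pi.mul_apply]
    rw [hd u, mul_comm]
  rw [h1, gamm_withDensity]
  have h2 : Measure.pi (fun i => gaussianReal (a i) 1) = (gamm ι).map (fun u i => u i + a i) := by
    unfold gamm
    have : ∀ i, SigmaFinite (Measure.map (fun x : ℝ => x + a i) (gaussianReal 0 1)) := fun i => by
      rw [gaussianReal_map_add_const]; infer_instance
    rw [Measure.pi_map_pi (μ := fun _ : ι => gaussianReal 0 1) (f := fun i x => x + a i)
      (fun i => (measurable_id.add_const (a i)).aemeasurable)]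
    congr 1
    funext i
    rw [gaussianReal_map_add_const]
    simp
  rw [h2, lintegral_map hH (by fun_prop)]
  rfl

/-- The exponential moment, from the shift formula. -/
theorem lintegral_shiftDens (a : ι → ℝ) :
    ∫⁻ u, ENNReal.ofReal (shiftDens a u) ∂gamm ι = 1 := by
  have := lintegral_shift a (H := fun _ => 1) measurable_const
  simpa using this

/-! ### The noise on `Ω` -/

section Noise

variable {Ω : Type*} [MeasurableSpace Ω] {P : Measure Ω} [IsProbabilityMeasure P]
variable {g : ℕ → ι → Ω → ℝ}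

/-- The noise vector at step `k`. -/
def gv (g : ℕ → ι → Ω → ℝ) (k : ℕ) (ω : Ω) : ι → ℝ := fun i => g k i ω

/-- The noise sequence. -/
def gs (g : ℕ → ι → Ω → ℝ) (ω : Ω) : ℕ → ι → ℝ := fun k i => g k i ω

/-- The noise sequence truncated to the past of step `k`. -/
def past (k : ℕ) (a : ℕ → ι → ℝ) : ℕ → ι → ℝ := fun l => if l < k then a l else 0

lemma measurable_past (k : ℕ) : Measurable (past (ι := ι) k) := by
  unfold past
  refine measurable_pi_lambda _ (fun l => ?_)
  by_cases h : l < k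
  · simp only [h, if_true]; exact measurable_pi_apply l
  · simp only [h, if_false]; exact measurable_const

lemma measurable_gs (hg : IsNoise P g) : Measurable (gs g) :=
  measurable_pi_lambda _ (fun k => measurable_pi_lambda _ (fun i => hg.meas k i))

lemma measurable_gv (hg : IsNoise P g) (k : ℕ) : Measurable (gv g k) :=
  measurable_pi_lambda _ (fun i => hg.meas k i)

lemma map_gv (hg : IsNoise P g) (k : ℕ) : P.map (gv g k) = gamm ι := by
  have hinj : Function.Injective (fun i : ι => ((k, i) : ℕ × ι)) := fun i j h => by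
    simpa using h
  have h1 : iIndepFun (fun i : ι => g k i) P :=
    iIndepFun.precomp (g := fun i : ι => ((k, i) : ℕ × ι)) hinj hg.indep
  have h2 := (iIndepFun_iff_map_fun_eq_pi_map
    (f := fun i : ι => g k i) (fun i => (hg.meas k i).aemeasurable)).1 h1
  unfold gv gamm
  rw [h2]
  congr 1
  funext i
  exact hg.law k i

lemma indep_past (hg : IsNoise P g) (k : ℕ) :
    IndepFun (fun ω => past k (gs g ω)) (gv g k) P := by
  classical
  set S : Finset (ℕ × ι) := (Finset.range k) ×ˢ Finset.univ with hS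
  set T : Finset (ℕ × ι) := {k} ×ˢ Finset.univ with hT
  have hST : Disjoint S T := by
    rw [Finset.disjoint_left]
    intro x hx hx'
    simp only [hS, hT, Finset.mem_product, Finset.mem_range, Finset.mem_univ, and_true,
      Finset.mem_singleton] at hx hx'
    omega
  have h0 := iIndepFun.indepFun_finset (f := fun p : ℕ × ι => g p.1 p.2) S T hST hg.indep
    (fun p => hg.meas p.1 p.2)
  let φ : (S → ℝ) → ℕ → ι → ℝ := fun s l i =>
    if h : l < k then s ⟨(l, i), by simp [hS, h]⟩ else 0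
  let ψ : (T → ℝ) → ι → ℝ := fun t i => t ⟨(k, i), by simp [hT]⟩
  have hφ : Measurable φ := by
    refine measurable_pi_lambda _ (fun l => measurable_pi_lambda _ (fun i => ?_))
    by_cases h : l < k
    · simp only [φ, h, dif_pos]; exact measurable_pi_apply _
    · simp only [φ, h, dif_neg, not_false_eq_true]; exact measurable_const
  have hψ : Measurable ψ := measurable_pi_lambda _ (fun i => measurable_pi_apply _)
  have h1 := h0.comp hφ hψ
  convert h1 using 1
  · funext ω l
    funext i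
    by_cases h : l < k
    · simp [past, gs, φ, h]
    · simp [past, φ, h]
  · funext ω i
    simp [gv, ψ]

/-- Integration over the noise at step `k`, given the past. -/
theorem lintegral_past (hg : IsNoise P g) (k : ℕ)
    {Ψ : (ℕ → ι → ℝ) × (ι → ℝ) → ℝ≥0∞} (hΨ : Measurable Ψ) :
    ∫⁻ ω, Ψ (past k (gs g ω), gv g k ω) ∂P
      = ∫⁻ ω, ∫⁻ u, Ψ (past k (gs g ω), u) ∂gamm ι ∂P := by
  have hp : Measurable (fun ω => past k (gs g ω)) := (measurable_past k).comp (measurable_gs hg)
  have hv := measurable_gv hg k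
  have h := (indepFun_iff_map_prod_eq_prod_map_map hp.aemeasurable hv.aemeasurable).1
    (indep_past hg k)
  calc ∫⁻ ω, Ψ (past k (gs g ω), gv g k ω) ∂P
      = ∫⁻ z, Ψ z ∂(P.map (fun ω => (past k (gs g ω), gv g k ω))) := by
        rw [lintegral_map hΨ (hp.prodMk hv)]
    _ = ∫⁻ z, Ψ z ∂((P.map (fun ω => past k (gs g ω))).prod (gamm ι)) := by
        rw [h, map_gv hg k]
    _ = ∫⁻ a, ∫⁻ u, Ψ (a, u) ∂gamm ι ∂(P.map (fun ω => past k (gs g ω))) := by
        rw [lintegral_prod _ hΨ.aemeasurable]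
    _ = ∫⁻ ω, ∫⁻ u, Ψ (past k (gs g ω), u) ∂gamm ι ∂P := by
        rw [lintegral_map hΨ.lintegral_prod_right' hp]

end Noise


/-! ### The Cameron-Martin identity for the Euler scheme -/

section CM

variable {b : (ι → ℝ) → ι → ℝ} {ε : ℝ}

/-- Euler scheme `x' = x + ε b(x) + √ε G`, started at zero. -/
def euler (b : (ι → ℝ) → ι → ℝ) (ε : ℝ) (G : ℕ → ι → ℝ) : ℕ → ι → ℝ
  | 0 => 0
  | k + 1 => fun i => euler b ε G k i + ε * b (euler b ε G k) i + Real.sqrt ε * G k i

/-- The exact observation path with signal `v`: `k ε v + √ε ∑_{l < k} G l`. -/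
def exactPath (v : ι → ℝ) (ε : ℝ) (G : ℕ → ι → ℝ) (k : ℕ) (i : ι) : ℝ :=
  k * ε * v i + Real.sqrt ε * ∑ l ∈ Finset.range k, G l i

omit [Fintype ι] in
lemma euler_congr {a a' : ℕ → ι → ℝ} (k : ℕ) (h : ∀ l < k, a l = a' l) :
    euler b ε a k = euler b ε a' k := by
  induction k with
  | zero => rfl
  | succ k ih =>
    have ih' := ih (fun l hl => h l (by omega))
    funext i
    simp only [euler]
    rw [ih', h k (by omega)]

omit [Fintype ι] in
lemma past_apply_of_lt {K l : ℕ} (h : l < K) (a : ℕ → ι → ℝ) : past K a l = a l := by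
  simp [past, h]

omit [Fintype ι] in
lemma euler_past {K k : ℕ} (h : k ≤ K) (a : ℕ → ι → ℝ) :
    euler b ε (past K a) k = euler b ε a k :=
  euler_congr k (fun l hl => past_apply_of_lt (by omega) a)

omit [Fintype ι] in
lemma exactPath_past {K k : ℕ} (h : k ≤ K) (v : ι → ℝ) (a : ℕ → ι → ℝ) :
    exactPath v ε (past K a) k = exactPath v ε a k := by
  funext i
  simp only [exactPath]
  congr 2
  refine Finset.sum_congr rfl (fun l hl => ?_)
  rw [past_apply_of_lt (by have := Finset.mem_range.1 hl; omega) a]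

omit [Fintype ι] in
lemma exactPath_succ (v : ι → ℝ) (a : ℕ → ι → ℝ) (K : ℕ) :
    exactPath v ε a (K + 1)
      = fun i => exactPath v ε a K i + ε * v i + Real.sqrt ε * a K i := by
  funext i
  simp only [exactPath, Finset.sum_range_succ]
  push_cast
  ring

omit [Fintype ι] in
lemma exactPath_zero (v : ι → ℝ) (a : ℕ → ι → ℝ) : exactPath v ε a 0 = 0 := by
  funext i
  simp [exactPath]

lemma measurable_euler (hb : Measurable b) (k : ℕ) :
    Measurable (fun a : ℕ → ι → ℝ => euler b ε a k) := by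
  induction k with
  | zero => exact measurable_const
  | succ k ih =>
    refine measurable_pi_lambda _ (fun i => ?_)
    simp only [euler]
    have h1 : Measurable (fun a : ℕ → ι → ℝ => euler b ε a k i) :=
      (measurable_pi_apply i).comp ih
    have h2 : Measurable (fun a : ℕ → ι → ℝ => b (euler b ε a k) i) :=
      (measurable_pi_apply i).comp (hb.comp ih)
    have h3 : Measurable (fun a : ℕ → ι → ℝ => a k i) :=
      (measurable_pi_apply i).comp (measurable_pi_apply k)
    exact (h1.add (h2.const_mul ε)).add (h3.const_mul _)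

lemma measurable_exactPath (v : ι → ℝ) (k : ℕ) :
    Measurable (fun a : ℕ → ι → ℝ => exactPath v ε a k) := by
  refine measurable_pi_lambda _ (fun i => ?_)
  simp only [exactPath]
  refine Measurable.add measurable_const (Measurable.const_mul ?_ _)
  refine Finset.measurable_sum _ (fun l _ => ?_)
  exact (measurable_pi_apply i).comp (measurable_pi_apply l)

/-- The likelihood of one step. -/
def stepDens (b : (ι → ℝ) → ι → ℝ) (ε : ℝ) (v x u : ι → ℝ) : ℝ :=
  shiftDens (fun i => Real.sqrt ε * (v i - b x i)) u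

/-- The likelihood of the signal `v` along the Euler path. -/
def Lam (b : (ι → ℝ) → ι → ℝ) (ε : ℝ) (v : ι → ℝ) (K : ℕ) (a : ℕ → ι → ℝ) : ℝ :=
  ∏ k ∈ Finset.range K, stepDens b ε v (euler b ε a k) (a k)

lemma Lam_pos (v : ι → ℝ) (K : ℕ) (a : ℕ → ι → ℝ) : 0 < Lam b ε v K a :=
  Finset.prod_pos (fun _ _ => shiftDens_pos _ _)

lemma Lam_succ (v : ι → ℝ) (K : ℕ) (a : ℕ → ι → ℝ) :
    Lam b ε v (K + 1) a = Lam b ε v K a * stepDens b ε v (euler b ε a K) (a K) :=
  Finset.prod_range_succ _ _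

lemma Lam_past (v : ι → ℝ) (K : ℕ) (a : ℕ → ι → ℝ) :
    Lam b ε v K (past K a) = Lam b ε v K a := by
  refine Finset.prod_congr rfl (fun l hl => ?_)
  have hl' := Finset.mem_range.1 hl
  rw [euler_past (by omega) a, past_apply_of_lt hl' a]

lemma measurable_stepDens' (hb : Measurable b) (v : ι → ℝ) {α : Type*} [MeasurableSpace α]
    {f h : α → ι → ℝ} (hf : Measurable f) (hh : Measurable h) :
    Measurable (fun z : α => stepDens b ε v (f z) (h z)) := by
  have h1 : Measurable (fun z : α => ((fun i => Real.sqrt ε * (v i - b (f z) i), h z) :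
      (ι → ℝ) × (ι → ℝ))) := by
    refine Measurable.prodMk (measurable_pi_lambda _ (fun i => ?_)) hh
    exact ((measurable_const.sub ((measurable_pi_apply i).comp (hb.comp hf))).const_mul _)
  exact measurable_shiftDens2.comp h1

lemma measurable_Lam (hb : Measurable b) (v : ι → ℝ) (K : ℕ) :
    Measurable (Lam b ε v K) := by
  have h : ∀ k, Measurable (fun a : ℕ → ι → ℝ => stepDens b ε v (euler b ε a k) (a k)) := by
    intro k
    exact measurable_stepDens' hb v (measurable_euler (ε := ε) hb k) (measurable_pi_apply k)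
  exact Finset.measurable_prod _ (fun k _ => h k)

/-- Add a last point to a path. -/
def snocP (K : ℕ) (p : Fin (K + 1) → ι → ℝ) (w : ι → ℝ) : Fin (K + 2) → ι → ℝ :=
  fun k => if h : (k : ℕ) < K + 1 then p ⟨k, h⟩ else w

lemma measurable_snocP (K : ℕ) :
    Measurable (fun z : (Fin (K + 1) → ι → ℝ) × (ι → ℝ) => snocP K z.1 z.2) := by
  refine measurable_pi_lambda _ (fun k => ?_)
  unfold snocP
  by_cases h : (k : ℕ) < K + 1
  · simp only [h, dif_pos]
    exact (measurable_pi_apply _).comp measurable_fst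
  · simp only [h, dif_neg, not_false_eq_true]
    exact measurable_snd

omit [Fintype ι] in
lemma path_snoc {K : ℕ} (f : ℕ → ι → ℝ) :
    (fun k : Fin (K + 2) => f k) = snocP K (fun k : Fin (K + 1) => f k) (f (K + 1)) := by
  funext k
  unfold snocP
  by_cases h : (k : ℕ) < K + 1
  · simp [h]
  · have hk : (k : ℕ) = K + 1 := by have := k.2; omega
    simp [hk]

/-- The average of a path functional over one more exact step. -/
def avgPhi (ε : ℝ) (v : ι → ℝ) (K : ℕ) (Φ : (Fin (K + 2) → ι → ℝ) → ℝ≥0∞)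
    (p : Fin (K + 1) → ι → ℝ) : ℝ≥0∞ :=
  ∫⁻ u, Φ (snocP K p (fun i => p (Fin.last K) i + ε * v i + Real.sqrt ε * u i)) ∂gamm ι

lemma measurable_avgPhi (v : ι → ℝ) (K : ℕ) {Φ : (Fin (K + 2) → ι → ℝ) → ℝ≥0∞}
    (hΦ : Measurable Φ) : Measurable (avgPhi ε v K Φ) := by
  have hpr : Measurable (fun z : (Fin (K + 1) → ι → ℝ) × (ι → ℝ) => Φ (snocP K z.1
      (fun i => z.1 (Fin.last K) i + ε * v i + Real.sqrt ε * z.2 i))) := by
    refine hΦ.comp ((measurable_snocP K).comp (Measurable.prodMk measurable_fst ?_))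
    refine measurable_pi_lambda _ (fun i => ?_)
    have h1 : Measurable (fun z : (Fin (K + 1) → ι → ℝ) × (ι → ℝ) => z.1 (Fin.last K) i) :=
      (measurable_pi_apply i).comp ((measurable_pi_apply _).comp measurable_fst)
    have h2 : Measurable (fun z : (Fin (K + 1) → ι → ℝ) × (ι → ℝ) => z.2 i) :=
      (measurable_pi_apply i).comp measurable_snd
    exact (h1.add_const _).add (h2.const_mul _)
  exact hpr.lintegral_prod_right'

section CMsteps

variable {Ω : Type*} [MeasurableSpace Ω] {P : Measure Ω} [IsProbabilityMeasure P]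
    {g : ℕ → ι → Ω → ℝ}

/-- The path of the exact process, as a function of the noise. -/
def pathY (ε : ℝ) (v : ι → ℝ) (K : ℕ) (a : ℕ → ι → ℝ) : Fin (K + 1) → ι → ℝ :=
  fun k => exactPath v ε a k

/-- The path of the Euler process, as a function of the noise. -/
def pathE (b : (ι → ℝ) → ι → ℝ) (ε : ℝ) (K : ℕ) (a : ℕ → ι → ℝ) : Fin (K + 1) → ι → ℝ :=
  fun k => euler b ε a k

lemma measurable_pathY (v : ι → ℝ) (K : ℕ) : Measurable (pathY (ι := ι) ε v K) :=
  measurable_pi_lambda _ (fun k => measurable_exactPath v k)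

lemma measurable_pathE (hb : Measurable b) (K : ℕ) : Measurable (pathE (ι := ι) b ε K) :=
  measurable_pi_lambda _ (fun k => measurable_euler hb k)

omit [Fintype ι] in
lemma pathY_past (v : ι → ℝ) (K : ℕ) (a : ℕ → ι → ℝ) :
    pathY ε v K (past K a) = pathY ε v K a := by
  funext k
  exact exactPath_past (by have := k.2; omega) v _

omit [Fintype ι] in
lemma pathE_past (K : ℕ) (a : ℕ → ι → ℝ) :
    pathE b ε K (past K a) = pathE b ε K a := by
  funext k
  exact euler_past (by have := k.2; omega) _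

omit [Fintype ι] in
lemma pathY_succ (v : ι → ℝ) (K : ℕ) (a : ℕ → ι → ℝ) :
    pathY ε v (K + 1) a = snocP K (pathY ε v K a)
      (fun i => (pathY ε v K a) (Fin.last K) i + ε * v i + Real.sqrt ε * a K i) := by
  have h1 := path_snoc (K := K) (fun k => exactPath v ε a k)
  have h2 : (pathY ε v K a) (Fin.last K) = exactPath v ε a K := by
    simp [pathY]
  rw [h2]
  refine h1.trans ?_
  rw [exactPath_succ v]
  rfl

omit [Fintype ι] in
lemma pathE_succ (K : ℕ) (a : ℕ → ι → ℝ) :
    pathE b ε (K + 1) a = snocP K (pathE b ε K a)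
      (fun i => (pathE b ε K a) (Fin.last K) i + ε * b ((pathE b ε K a) (Fin.last K)) i
        + Real.sqrt ε * a K i) := by
  have h1 := path_snoc (K := K) (fun k => euler b ε a k)
  have h2 : (pathE b ε K a) (Fin.last K) = euler b ε a K := by
    simp [pathE]
  rw [h2]
  exact h1

/-- The right side of the induction step. -/
lemma cm_right (hg : IsNoise P g) (v : ι → ℝ) (K : ℕ)
    {Φ : (Fin (K + 2) → ι → ℝ) → ℝ≥0∞} (hΦ : Measurable Φ) :
    ∫⁻ ω, Φ (pathY ε v (K + 1) (gs g ω)) ∂P
      = ∫⁻ ω, avgPhi ε v K Φ (pathY ε v K (gs g ω)) ∂P := by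
  let Ψ : (ℕ → ι → ℝ) × (ι → ℝ) → ℝ≥0∞ := fun z =>
    Φ (snocP K (pathY ε v K z.1)
      (fun i => (pathY ε v K z.1) (Fin.last K) i + ε * v i + Real.sqrt ε * z.2 i))
  have hΨ : Measurable Ψ := by
    refine hΦ.comp ((measurable_snocP K).comp (Measurable.prodMk
      ((measurable_pathY v K).comp measurable_fst) ?_))
    refine measurable_pi_lambda _ (fun i => ?_)
    have h1 : Measurable (fun z : (ℕ → ι → ℝ) × (ι → ℝ) => (pathY ε v K z.1) (Fin.last K) i) :=
      (measurable_pi_apply i).comp ((measurable_pi_apply (Fin.last K)).comp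
        ((measurable_pathY v K).comp measurable_fst))
    have h2 : Measurable (fun z : (ℕ → ι → ℝ) × (ι → ℝ) => z.2 i) :=
      (measurable_pi_apply i).comp measurable_snd
    exact (h1.add_const _).add (h2.const_mul _)
  have hL := lintegral_past hg K hΨ
  have e1 : ∀ ω, Φ (pathY ε v (K + 1) (gs g ω)) = Ψ (past K (gs g ω), gv g K ω) := by
    intro ω
    simp only [Ψ]
    rw [pathY_past, pathY_succ v]
    rfl
  have e2 : ∀ ω, ∫⁻ u, Ψ (past K (gs g ω), u) ∂gamm ι
      = avgPhi ε v K Φ (pathY ε v K (gs g ω)) := by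
    intro ω
    simp only [Ψ, avgPhi]
    rw [pathY_past]
  simp_rw [e1, hL, e2]

/-- The left side of the induction step. -/
lemma cm_left (hg : IsNoise P g) (hb : Measurable b) (hε : 0 ≤ ε) (v : ι → ℝ) (K : ℕ)
    {Φ : (Fin (K + 2) → ι → ℝ) → ℝ≥0∞} (hΦ : Measurable Φ) :
    ∫⁻ ω, Φ (pathE b ε (K + 1) (gs g ω)) * ENNReal.ofReal (Lam b ε v (K + 1) (gs g ω)) ∂P
      = ∫⁻ ω, avgPhi ε v K Φ (pathE b ε K (gs g ω)) * ENNReal.ofReal (Lam b ε v K (gs g ω)) ∂P := by
  let H : (ℕ → ι → ℝ) × (ι → ℝ) → ℝ≥0∞ := fun z =>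
    Φ (snocP K (pathE b ε K z.1)
      (fun i => (pathE b ε K z.1) (Fin.last K) i + ε * b ((pathE b ε K z.1) (Fin.last K)) i
        + Real.sqrt ε * z.2 i))
  have hlast : Measurable (fun z : (ℕ → ι → ℝ) × (ι → ℝ) => (pathE b ε K z.1) (Fin.last K)) :=
    (measurable_pi_apply (Fin.last K)).comp ((measurable_pathE hb K).comp measurable_fst)
  have hH : Measurable H := by
    refine hΦ.comp ((measurable_snocP K).comp (Measurable.prodMk
      ((measurable_pathE hb K).comp measurable_fst) ?_))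
    refine measurable_pi_lambda _ (fun i => ?_)
    have h1 : Measurable (fun z : (ℕ → ι → ℝ) × (ι → ℝ) => (pathE b ε K z.1) (Fin.last K) i) :=
      (measurable_pi_apply i).comp hlast
    have h1' : Measurable (fun z : (ℕ → ι → ℝ) × (ι → ℝ) => b ((pathE b ε K z.1) (Fin.last K)) i) :=
      (measurable_pi_apply i).comp (hb.comp hlast)
    have h2 : Measurable (fun z : (ℕ → ι → ℝ) × (ι → ℝ) => z.2 i) :=
      (measurable_pi_apply i).comp measurable_snd
    exact (h1.add (h1'.const_mul _)).add (h2.const_mul _)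
  have hD : Measurable (fun z : (ℕ → ι → ℝ) × (ι → ℝ) =>
      ENNReal.ofReal (stepDens b ε v ((pathE b ε K z.1) (Fin.last K)) z.2)) := by
    refine ENNReal.measurable_ofReal.comp ?_
    exact measurable_stepDens' hb v hlast measurable_snd
  have hLam : Measurable (fun z : (ℕ → ι → ℝ) × (ι → ℝ) =>
      ENNReal.ofReal (Lam b ε v K z.1)) :=
    ENNReal.measurable_ofReal.comp ((measurable_Lam hb v K).comp measurable_fst)
  let Ψ : (ℕ → ι → ℝ) × (ι → ℝ) → ℝ≥0∞ := fun z =>
    H z * ENNReal.ofReal (stepDens b ε v ((pathE b ε K z.1) (Fin.last K)) z.2)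
      * ENNReal.ofReal (Lam b ε v K z.1)
  have hΨ : Measurable Ψ := (hH.mul hD).mul hLam
  have hL := lintegral_past hg K hΨ
  have hlastE : ∀ a : ℕ → ι → ℝ, (pathE b ε K a) (Fin.last K) = euler b ε a K := by
    intro a; simp [pathE]
  have e1 : ∀ ω, Φ (pathE b ε (K + 1) (gs g ω)) * ENNReal.ofReal (Lam b ε v (K + 1) (gs g ω))
      = Ψ (past K (gs g ω), gv g K ω) := by
    intro ω
    simp only [Ψ, H]
    rw [pathE_past, Lam_past, pathE_succ, Lam_succ, ENNReal.ofReal_mul (Lam_pos v K _).le,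
      hlastE]
    have hgv : gv g K ω = gs g ω K := rfl
    rw [hgv]
    ring
  have e2 : ∀ ω, ∫⁻ u, Ψ (past K (gs g ω), u) ∂gamm ι
      = avgPhi ε v K Φ (pathE b ε K (gs g ω)) * ENNReal.ofReal (Lam b ε v K (gs g ω)) := by
    intro ω
    simp only [Ψ, H]
    rw [pathE_past, Lam_past]
    set P0 := pathE b ε K (gs g ω) with hP0
    set x := P0 (Fin.last K) with hx
    have hmeasH : Measurable (fun u : ι → ℝ => Φ (snocP K P0
        (fun i => x i + ε * b x i + Real.sqrt ε * u i))) := by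
      have hw : Measurable (fun u : ι → ℝ => (fun i => x i + ε * b x i + Real.sqrt ε * u i)) :=
        measurable_pi_lambda _ (fun i => measurable_const.add ((measurable_pi_apply i).const_mul _))
      have hpair : Measurable (fun u : ι → ℝ =>
          ((P0, fun i => x i + ε * b x i + Real.sqrt ε * u i) :
            (Fin (K + 1) → ι → ℝ) × (ι → ℝ))) := measurable_const.prodMk hw
      exact hΦ.comp ((measurable_snocP K).comp hpair)
    rw [lintegral_mul_const' _ _ ENNReal.ofReal_ne_top]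
    congr 1
    have hs := lintegral_shift (fun i => Real.sqrt ε * (v i - b x i)) hmeasH
    unfold stepDens avgPhi
    rw [hs]
    refine lintegral_congr (fun u => ?_)
    rw [← hx]
    congr 2
    funext i
    have hse : Real.sqrt ε * Real.sqrt ε = ε := Real.mul_self_sqrt hε
    simp only [Pi.add_apply]
    linear_combination (v i - b x i) * hse
  simp_rw [e1, hL, e2]

end CMsteps

/-- The Cameron-Martin identity for the Euler scheme with an arbitrary measurable drift. -/
theorem cameron_martin {Ω : Type*} [MeasurableSpace Ω] {P : Measure Ω} [IsProbabilityMeasure P]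
    {g : ℕ → ι → Ω → ℝ} (hg : IsNoise P g) (hb : Measurable b) (hε : 0 ≤ ε) (v : ι → ℝ) (K : ℕ)
    {Φ : (Fin (K + 1) → ι → ℝ) → ℝ≥0∞} (hΦ : Measurable Φ) :
    ∫⁻ ω, Φ (pathE b ε K (gs g ω)) * ENNReal.ofReal (Lam b ε v K (gs g ω)) ∂P
      = ∫⁻ ω, Φ (pathY ε v K (gs g ω)) ∂P := by
  induction K with
  | zero =>
    refine lintegral_congr (fun ω => ?_)
    have h1 : pathE b ε 0 (gs g ω) = pathY ε v 0 (gs g ω) := by
      funext k
      have hk : (k : ℕ) = 0 := by omega
      simp only [pathE, pathY]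
      rw [hk, exactPath_zero]
      rfl
    rw [h1]
    simp [Lam]
  | succ K ih =>
    rw [cm_left hg hb hε v K hΦ, cm_right hg v K hΦ]
    exact ih (measurable_avgPhi v K hΦ)

end CM

/-! ### Second moment of the likelihood -/

section Moments

variable {Sg : Type*} [Fintype Sg]

/-- The tilted partition function of the prior `p` on `Sg` with spin vectors `vec`. -/
def tiltZ (p : Sg → ℝ) (vec : Sg → ι → ℝ) (x : ι → ℝ) : ℝ :=
  ∑ σ, p σ * Real.exp (∑ i, vec σ i * x i)

/-- Posterior mean under the tilt by `x`. -/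
def pm (p : Sg → ℝ) (vec : Sg → ι → ℝ) (x : ι → ℝ) (i : ι) : ℝ :=
  (∑ σ, p σ * Real.exp (∑ j, vec σ j * x j) * vec σ i) / tiltZ p vec x

/-- Posterior weights. -/
def post (p : Sg → ℝ) (vec : Sg → ι → ℝ) (x : ι → ℝ) (σ : Sg) : ℝ :=
  p σ * Real.exp (∑ i, vec σ i * x i) / tiltZ p vec x

variable {p : Sg → ℝ} {vec : Sg → ι → ℝ}

lemma tiltZ_pos (hp : ∀ σ, 0 ≤ p σ) (hp1 : ∑ σ, p σ = 1) (x : ι → ℝ) : 0 < tiltZ p vec x := by
  unfold tiltZ
  obtain ⟨σ, hσ⟩ : ∃ σ, 0 < p σ := by
    by_contra h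
    push Not at h
    have : ∑ σ, p σ ≤ 0 := Finset.sum_nonpos (fun σ _ => h σ)
    linarith
  exact Finset.sum_pos' (fun σ _ => mul_nonneg (hp σ) (Real.exp_pos _).le)
    ⟨σ, Finset.mem_univ _, mul_pos hσ (Real.exp_pos _)⟩

lemma post_nonneg (hp : ∀ σ, 0 ≤ p σ) (hp1 : ∑ σ, p σ = 1) (x : ι → ℝ) (σ : Sg) :
    0 ≤ post p vec x σ :=
  div_nonneg (mul_nonneg (hp σ) (Real.exp_pos _).le) (tiltZ_pos hp hp1 x).le

lemma sum_post (hp : ∀ σ, 0 ≤ p σ) (hp1 : ∑ σ, p σ = 1) (x : ι → ℝ) :
    ∑ σ, post p vec x σ = 1 := by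
  unfold post
  rw [← Finset.sum_div]
  exact div_self (tiltZ_pos hp hp1 x).ne'

lemma pm_eq_sum_post (x : ι → ℝ) (i : ι) :
    pm p vec x i = ∑ σ, post p vec x σ * vec σ i := by
  unfold pm post
  rw [Finset.sum_div]
  refine Finset.sum_congr rfl (fun σ _ => ?_)
  ring

lemma abs_eq_one_of_sq {y : ℝ} (h : y ^ 2 = 1) : |y| = 1 := by
  have h1 : |y| ^ 2 = 1 := by rw [sq_abs]; exact h
  nlinarith [abs_nonneg y]

lemma abs_pm_le (hp : ∀ σ, 0 ≤ p σ) (hp1 : ∑ σ, p σ = 1) (hv : ∀ σ i, vec σ i ^ 2 = 1)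
    (x : ι → ℝ) (i : ι) : |pm p vec x i| ≤ 1 := by
  rw [pm_eq_sum_post]
  calc |∑ σ, post p vec x σ * vec σ i| ≤ ∑ σ, |post p vec x σ * vec σ i| :=
        Finset.abs_sum_le_sum_abs _ _
    _ = ∑ σ, post p vec x σ := by
        refine Finset.sum_congr rfl (fun σ _ => ?_)
        rw [abs_mul, abs_eq_one_of_sq (hv σ i), mul_one, abs_of_nonneg (post_nonneg hp hp1 x σ)]
    _ = 1 := sum_post hp hp1 x

lemma measurable_tiltZ : Measurable (tiltZ p vec) := by
  unfold tiltZ
  refine Finset.measurable_sum _ (fun σ _ => ?_)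
  refine Measurable.const_mul (Real.measurable_exp.comp ?_) _
  refine Finset.measurable_sum _ (fun i _ => ?_)
  exact (measurable_pi_apply i).const_mul _

lemma measurable_pm : Measurable (pm p vec) := by
  refine measurable_pi_lambda _ (fun i => ?_)
  unfold pm
  refine Measurable.div ?_ measurable_tiltZ
  refine Finset.measurable_sum _ (fun σ _ => ?_)
  refine Measurable.mul_const (Measurable.const_mul (Real.measurable_exp.comp ?_) _) _
  refine Finset.measurable_sum _ (fun j _ => ?_)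
  exact (measurable_pi_apply j).const_mul _

lemma measurable_post (σ : Sg) : Measurable (fun x => post p vec x σ) := by
  unfold post
  refine Measurable.div ?_ measurable_tiltZ
  refine Measurable.const_mul (Real.measurable_exp.comp ?_) _
  refine Finset.measurable_sum _ (fun j _ => ?_)
  exact (measurable_pi_apply j).const_mul _

/-- The part of the step likelihood that does not depend on the spin configuration. -/
def ck (p : Sg → ℝ) (vec : Sg → ι → ℝ) (ε : ℝ) (x u : ι → ℝ) : ℝ :=
  Real.exp (-(Real.sqrt ε * ∑ i, pm p vec x i * u i)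
    - (ε / 2) * ((Fintype.card ι : ℝ) + ∑ i, pm p vec x i ^ 2))

variable {ε : ℝ}

lemma stepDens_eq (hv : ∀ σ i, vec σ i ^ 2 = 1) (hε : 0 ≤ ε) (σ : Sg) (x u : ι → ℝ) :
    stepDens (pm p vec) ε (vec σ) x u
      = Real.exp (∑ i, vec σ i * (ε * pm p vec x i + Real.sqrt ε * u i)) * ck p vec ε x u := by
  unfold stepDens shiftDens ck
  rw [← Real.exp_add]
  congr 1
  set m := pm p vec x with hm
  set v := vec σ with hvv
  have hse : Real.sqrt ε ^ 2 = ε := Real.sq_sqrt hε
  have h1 : ∑ i, Real.sqrt ε * (v i - m i) * u i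
      = Real.sqrt ε * (∑ i, v i * u i) - Real.sqrt ε * ∑ i, m i * u i := by
    rw [Finset.mul_sum, Finset.mul_sum, ← Finset.sum_sub_distrib]
    exact Finset.sum_congr rfl (fun i _ => by ring)
  have h2 : ∑ i, (Real.sqrt ε * (v i - m i)) ^ 2
      = ε * ((Fintype.card ι : ℝ) - 2 * (∑ i, v i * m i) + ∑ i, m i ^ 2) := by
    have hone : ∑ _i : ι, (1 : ℝ) = (Fintype.card ι : ℝ) := by simp
    have hterm : ∀ i, (Real.sqrt ε * (v i - m i)) ^ 2 = ε * (1 - 2 * (v i * m i) + m i ^ 2) := by
      intro i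
      have hvi : v i ^ 2 = 1 := hv σ i
      have : (Real.sqrt ε * (v i - m i)) ^ 2
          = Real.sqrt ε ^ 2 * (v i ^ 2 - 2 * (v i * m i) + m i ^ 2) := by
        ring
      rw [this, hse, hvi]
    simp_rw [hterm]
    rw [← Finset.mul_sum, Finset.sum_add_distrib, Finset.sum_sub_distrib, ← Finset.mul_sum, hone]
  have h3 : ∑ i, v i * (ε * m i + Real.sqrt ε * u i)
      = ε * (∑ i, v i * m i) + Real.sqrt ε * ∑ i, v i * u i := by
    rw [Finset.mul_sum, Finset.mul_sum, ← Finset.sum_add_distrib]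
    exact Finset.sum_congr rfl (fun i _ => by ring)
  rw [h1, h2, h3]
  ring

/-- Product of the common parts along the Euler path. -/
def CC (p : Sg → ℝ) (vec : Sg → ι → ℝ) (ε : ℝ) (K : ℕ) (a : ℕ → ι → ℝ) : ℝ :=
  ∏ k ∈ Finset.range K, ck p vec ε (euler (pm p vec) ε a k) (a k)

lemma Lam_closed (hv : ∀ σ i, vec σ i ^ 2 = 1) (hε : 0 ≤ ε) (σ : Sg) (K : ℕ) (a : ℕ → ι → ℝ) :
    Lam (pm p vec) ε (vec σ) K a
      = Real.exp (∑ i, vec σ i * euler (pm p vec) ε a K i) * CC p vec ε K a := by
  induction K with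
  | zero => simp [Lam, CC, euler]
  | succ K ih =>
    rw [Lam_succ, ih, stepDens_eq hv hε]
    have hC : CC p vec ε (K + 1) a = CC p vec ε K a * ck p vec ε (euler (pm p vec) ε a K) (a K) :=
      Finset.prod_range_succ _ _
    rw [hC]
    have hsum : ∑ i, vec σ i * euler (pm p vec) ε a (K + 1) i
        = (∑ i, vec σ i * euler (pm p vec) ε a K i)
          + ∑ i, vec σ i * (ε * pm p vec (euler (pm p vec) ε a K) i + Real.sqrt ε * a K i) := by
      rw [← Finset.sum_add_distrib]
      refine Finset.sum_congr rfl (fun i _ => ?_)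
      simp only [euler]
      ring
    rw [hsum, Real.exp_add]
    ring

/-- The mixture likelihood. -/
def LL (p : Sg → ℝ) (vec : Sg → ι → ℝ) (ε : ℝ) (K : ℕ) (a : ℕ → ι → ℝ) : ℝ :=
  ∑ σ, p σ * Lam (pm p vec) ε (vec σ) K a

/-- One step of the mixture likelihood. -/
def Rfun (p : Sg → ℝ) (vec : Sg → ι → ℝ) (ε : ℝ) (x u : ι → ℝ) : ℝ :=
  ∑ σ, post p vec x σ * stepDens (pm p vec) ε (vec σ) x u

lemma LL_succ (hp : ∀ σ, 0 ≤ p σ) (hp1 : ∑ σ, p σ = 1) (hv : ∀ σ i, vec σ i ^ 2 = 1)
    (hε : 0 ≤ ε) (K : ℕ) (a : ℕ → ι → ℝ) :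
    LL p vec ε (K + 1) a = LL p vec ε K a * Rfun p vec ε (euler (pm p vec) ε a K) (a K) := by
  set x := euler (pm p vec) ε a K with hx
  have hZ := tiltZ_pos (vec := vec) hp hp1 x
  have hLL : LL p vec ε K a = tiltZ p vec x * CC p vec ε K a := by
    unfold LL tiltZ
    rw [Finset.sum_mul]
    refine Finset.sum_congr rfl (fun σ _ => ?_)
    rw [Lam_closed hv hε]
    ring
  rw [hLL]
  unfold LL Rfun
  rw [Finset.mul_sum]
  refine Finset.sum_congr rfl (fun σ _ => ?_)
  rw [Lam_succ, Lam_closed hv hε]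
  unfold post
  rw [← hx]
  field_simp

lemma LL_zero (hp1 : ∑ σ, p σ = 1) (a : ℕ → ι → ℝ) : LL p vec ε 0 a = 1 := by
  simp [LL, Lam, hp1]

lemma LL_past (K : ℕ) (a : ℕ → ι → ℝ) : LL p vec ε K (past K a) = LL p vec ε K a := by
  unfold LL
  refine Finset.sum_congr rfl (fun σ _ => ?_)
  rw [Lam_past]

lemma measurable_LL (K : ℕ) : Measurable (LL p vec ε K) := by
  unfold LL
  refine Finset.measurable_sum _ (fun σ _ => ?_)
  exact (measurable_Lam measurable_pm (vec σ) K).const_mul _

lemma LL_nonneg (hp : ∀ σ, 0 ≤ p σ) (K : ℕ) (a : ℕ → ι → ℝ) : 0 ≤ LL p vec ε K a :=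
  Finset.sum_nonneg (fun σ _ => mul_nonneg (hp σ) (Lam_pos _ K a).le)

/-- The elementary exponential inequality. -/
lemma exp_le_taylor (t : ℝ) : Real.exp t ≤ 1 + t + t ^ 2 / 2 * Real.exp |t| := by
  rcases le_total 0 t with ht | ht
  · -- t ≥ 0
    have hmono : MonotoneOn (fun s : ℝ => (1 + s) * Real.exp (-s) + s ^ 2 / 2) (Set.Ici 0) := by
      have hd : ∀ s : ℝ, HasDerivAt (fun s : ℝ => (1 + s) * Real.exp (-s) + s ^ 2 / 2)
          (s * (1 - Real.exp (-s))) s := by
        intro s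
        have h1 : HasDerivAt (fun s : ℝ => 1 + s) 1 s := by
          simpa using (hasDerivAt_id s).const_add 1
        have h2 : HasDerivAt (fun s : ℝ => Real.exp (-s)) (-Real.exp (-s)) s := by
          have := (hasDerivAt_neg s).exp
          simpa using this
        have h3 : HasDerivAt (fun s : ℝ => s ^ 2 / 2) s s := by
          have := (hasDerivAt_pow 2 s).div_const 2
          have e : ((2 : ℕ) : ℝ) * s ^ (2 - 1) / 2 = s := by norm_num
          rwa [e] at this
        exact ((h1.fun_mul h2).fun_add h3).congr_deriv (by ring)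
      refine monotoneOn_of_deriv_nonneg (convex_Ici 0) ?_ ?_ ?_
      · exact fun s _ => (hd s).continuousAt.continuousWithinAt
      · exact fun s _ => (hd s).differentiableAt.differentiableWithinAt
      · intro s hs
        rw [interior_Ici] at hs
        rw [(hd s).deriv]
        have hs' : 0 < s := hs
        have : Real.exp (-s) ≤ 1 := Real.exp_le_one_iff.2 (by linarith)
        exact mul_nonneg hs'.le (by linarith)
    have h0 := hmono (Set.mem_Ici.2 (le_refl 0)) (Set.mem_Ici.2 ht) ht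
    simp only [add_zero, neg_zero, Real.exp_zero, mul_one, ne_eq, OfNat.ofNat_ne_zero,
      not_false_eq_true, zero_pow, zero_div] at h0
    rw [abs_of_nonneg ht]
    have hpos := Real.exp_pos t
    have hinv : Real.exp (-t) * Real.exp t = 1 := by
      rw [← Real.exp_add]; simp
    have := mul_le_mul_of_nonneg_right h0 hpos.le
    nlinarith [this, hinv]
  · -- t ≤ 0
    have hmono : MonotoneOn (fun s : ℝ => 1 - s + s ^ 2 / 2 - Real.exp (-s)) (Set.Ici 0) := by
      have hd : ∀ s : ℝ, HasDerivAt (fun s : ℝ => 1 - s + s ^ 2 / 2 - Real.exp (-s))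
          (-1 + s + Real.exp (-s)) s := by
        intro s
        have h1 : HasDerivAt (fun s : ℝ => 1 - s) (-1) s := by
          simpa using (hasDerivAt_id s).const_sub 1
        have h2 : HasDerivAt (fun s : ℝ => Real.exp (-s)) (-Real.exp (-s)) s := by
          have := (hasDerivAt_neg s).exp
          simpa using this
        have h3 : HasDerivAt (fun s : ℝ => s ^ 2 / 2) s s := by
          have := (hasDerivAt_pow 2 s).div_const 2
          have e : ((2 : ℕ) : ℝ) * s ^ (2 - 1) / 2 = s := by norm_num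
          rwa [e] at this
        exact ((h1.fun_add h3).fun_sub h2).congr_deriv (by ring)
      refine monotoneOn_of_deriv_nonneg (convex_Ici 0) ?_ ?_ ?_
      · exact fun s _ => (hd s).continuousAt.continuousWithinAt
      · exact fun s _ => (hd s).differentiableAt.differentiableWithinAt
      · intro s _
        rw [(hd s).deriv]
        have := Real.add_one_le_exp (-s)
        linarith
    have hs : 0 ≤ -t := by linarith
    have h0 := hmono (Set.mem_Ici.2 (le_refl 0)) (Set.mem_Ici.2 hs) hs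
    simp only [sub_zero, ne_eq, OfNat.ofNat_ne_zero, not_false_eq_true, zero_pow, zero_div,
      add_zero, neg_zero, Real.exp_zero, sub_self, neg_neg] at h0
    have hexp : 1 ≤ Real.exp |t| := Real.one_le_exp (abs_nonneg t)
    have htsq : 0 ≤ t ^ 2 / 2 := by positivity
    nlinarith [mul_le_mul_of_nonneg_left hexp htsq]

end Moments

/-! ### Assembly -/

section Final

variable {Sg : Type*} [Fintype Sg] {p : Sg → ℝ} {vec : Sg → ι → ℝ} {ε : ℝ}

/-- The shift vector attached to a spin configuration. -/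
def aV (p : Sg → ℝ) (vec : Sg → ι → ℝ) (ε : ℝ) (x : ι → ℝ) (σ : Sg) : ι → ℝ :=
  fun i => Real.sqrt ε * (vec σ i - pm p vec x i)

omit [Fintype Sg] in
lemma shiftDens_mul (a c u : ι → ℝ) :
    shiftDens a u * shiftDens c u
      = Real.exp (∑ i, a i * c i) * shiftDens (fun i => a i + c i) u := by
  unfold shiftDens
  rw [← Real.exp_add, ← Real.exp_add]
  congr 1
  have h1 : ∑ i, (a i + c i) * u i = ∑ i, a i * u i + ∑ i, c i * u i := by
    rw [← Finset.sum_add_distrib]
    exact Finset.sum_congr rfl (fun i _ => by ring)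
  have h2 : ∑ i, (a i + c i) ^ 2 = ∑ i, a i ^ 2 + ∑ i, c i ^ 2 + 2 * ∑ i, a i * c i := by
    rw [Finset.mul_sum, ← Finset.sum_add_distrib, ← Finset.sum_add_distrib]
    exact Finset.sum_congr rfl (fun i _ => by ring)
  rw [h1, h2]
  ring

lemma measurable_shiftDens (a : ι → ℝ) : Measurable (shiftDens a) := by
  have h : Measurable (fun u : ι → ℝ => ((a, u) : (ι → ℝ) × (ι → ℝ))) :=
    measurable_const.prodMk measurable_id
  exact measurable_shiftDens2.comp h

lemma lintegral_Rfun_sq (hp : ∀ σ, 0 ≤ p σ) (hp1 : ∑ σ, p σ = 1) (x : ι → ℝ) :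
    ∫⁻ u, ENNReal.ofReal (Rfun p vec ε x u ^ 2) ∂gamm ι
      = ENNReal.ofReal (∑ σ, ∑ τ, post p vec x σ * post p vec x τ
          * Real.exp (∑ i, aV p vec ε x σ i * aV p vec ε x τ i)) := by
  have hq := post_nonneg (vec := vec) hp hp1 x
  have hc : ∀ σ τ, 0 ≤ post p vec x σ * post p vec x τ
      * Real.exp (∑ i, aV p vec ε x σ i * aV p vec ε x τ i) := fun σ τ =>
    mul_nonneg (mul_nonneg (hq σ) (hq τ)) (Real.exp_pos _).le
  have hsq : ∀ u, Rfun p vec ε x u ^ 2 = ∑ σ, ∑ τ, (post p vec x σ * post p vec x τ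
      * Real.exp (∑ i, aV p vec ε x σ i * aV p vec ε x τ i))
        * shiftDens (fun i => aV p vec ε x σ i + aV p vec ε x τ i) u := by
    intro u
    unfold Rfun stepDens
    rw [pow_two, Finset.sum_mul_sum]
    refine Finset.sum_congr rfl (fun σ _ => Finset.sum_congr rfl (fun τ _ => ?_))
    have := shiftDens_mul (aV p vec ε x σ) (aV p vec ε x τ) u
    unfold aV at this ⊢
    rw [mul_assoc (post p vec x σ * post p vec x τ), ← this]
    ring
  have hpt : ∀ u, ENNReal.ofReal (Rfun p vec ε x u ^ 2) = ∑ σ, ∑ τ,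
      ENNReal.ofReal (post p vec x σ * post p vec x τ
        * Real.exp (∑ i, aV p vec ε x σ i * aV p vec ε x τ i))
      * ENNReal.ofReal (shiftDens (fun i => aV p vec ε x σ i + aV p vec ε x τ i) u) := by
    intro u
    rw [hsq u, ENNReal.ofReal_sum_of_nonneg (fun σ _ => Finset.sum_nonneg (fun τ _ =>
      mul_nonneg (hc σ τ) (shiftDens_pos _ _).le))]
    refine Finset.sum_congr rfl (fun σ _ => ?_)
    rw [ENNReal.ofReal_sum_of_nonneg (fun τ _ => mul_nonneg (hc σ τ) (shiftDens_pos _ _).le)]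
    refine Finset.sum_congr rfl (fun τ _ => ?_)
    exact ENNReal.ofReal_mul (hc σ τ)
  simp_rw [hpt]
  have hmeas : ∀ σ τ, Measurable (fun u => ENNReal.ofReal (post p vec x σ * post p vec x τ
        * Real.exp (∑ i, aV p vec ε x σ i * aV p vec ε x τ i))
      * ENNReal.ofReal (shiftDens (fun i => aV p vec ε x σ i + aV p vec ε x τ i) u)) := fun σ τ =>
    (ENNReal.measurable_ofReal.comp (measurable_shiftDens _)).const_mul _
  rw [lintegral_finsetSum _ (fun σ _ => Finset.measurable_sum _ (fun τ _ => hmeas σ τ)),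
    ENNReal.ofReal_sum_of_nonneg (fun σ _ => Finset.sum_nonneg (fun τ _ => hc σ τ))]
  refine Finset.sum_congr rfl (fun σ _ => ?_)
  rw [lintegral_finsetSum _ (fun τ _ => hmeas σ τ),
    ENNReal.ofReal_sum_of_nonneg (fun τ _ => hc σ τ)]
  refine Finset.sum_congr rfl (fun τ _ => ?_)
  have hm : Measurable (fun u => ENNReal.ofReal
      (shiftDens (fun i => aV p vec ε x σ i + aV p vec ε x τ i) u)) :=
    ENNReal.measurable_ofReal.comp (measurable_shiftDens _)
  rw [lintegral_const_mul _ hm, lintegral_shiftDens, mul_one]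

/-- The numerical bound on the second moment of one step. -/
lemma sum_bound (hp : ∀ σ, 0 ≤ p σ) (hp1 : ∑ σ, p σ = 1) (hv : ∀ σ i, vec σ i ^ 2 = 1)
    (hε : 0 ≤ ε) (hε1 : ε ≤ 1) (x : ι → ℝ) :
    ∑ σ, ∑ τ, post p vec x σ * post p vec x τ
        * Real.exp (∑ i, aV p vec ε x σ i * aV p vec ε x τ i)
      ≤ 1 + 8 * (Fintype.card ι : ℝ) ^ 2 * Real.exp (4 * (Fintype.card ι : ℝ)) * ε ^ 2 := by
  set n : ℝ := (Fintype.card ι : ℝ) with hn
  have hn0 : 0 ≤ n := Nat.cast_nonneg _
  set q := post p vec x with hq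
  have hq0 : ∀ σ, 0 ≤ q σ := post_nonneg hp hp1 x
  have hq1 : ∑ σ, q σ = 1 := sum_post hp hp1 x
  set d : Sg → ι → ℝ := fun σ i => vec σ i - pm p vec x i with hd
  have hd2 : ∀ σ i, |d σ i| ≤ 2 := by
    intro σ i
    calc |vec σ i - pm p vec x i| ≤ |vec σ i| + |pm p vec x i| := abs_sub _ _
      _ ≤ 1 + 1 := add_le_add (le_of_eq (abs_eq_one_of_sq (hv σ i))) (abs_pm_le hp hp1 hv x i)
      _ = 2 := by norm_num
  have hd0 : ∀ i, ∑ σ, q σ * d σ i = 0 := by
    intro i
    have : ∑ σ, q σ * d σ i = ∑ σ, q σ * vec σ i - (∑ σ, q σ) * pm p vec x i := by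
      rw [Finset.sum_mul, ← Finset.sum_sub_distrib]
      exact Finset.sum_congr rfl (fun σ _ => by simp only [hd]; ring)
    rw [this, hq1, one_mul, ← pm_eq_sum_post]
    ring
  set w : Sg → Sg → ℝ := fun σ τ => ∑ i, d σ i * d τ i with hw
  have hw4 : ∀ σ τ, |w σ τ| ≤ 4 * n := by
    intro σ τ
    calc |∑ i, d σ i * d τ i| ≤ ∑ i, |d σ i * d τ i| := Finset.abs_sum_le_sum_abs _ _
      _ ≤ ∑ _i : ι, (4 : ℝ) := by
          refine Finset.sum_le_sum (fun i _ => ?_)
          rw [abs_mul]
          calc |d σ i| * |d τ i| ≤ 2 * 2 :=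
                mul_le_mul (hd2 σ i) (hd2 τ i) (abs_nonneg _) (by norm_num)
            _ = 4 := by norm_num
      _ = 4 * n := by simp [hn]; ring
  have haa : ∀ σ τ, ∑ i, aV p vec ε x σ i * aV p vec ε x τ i = ε * w σ τ := by
    intro σ τ
    unfold aV
    simp only [hw]
    rw [Finset.mul_sum]
    refine Finset.sum_congr rfl (fun i _ => ?_)
    have hse : Real.sqrt ε * Real.sqrt ε = ε := Real.mul_self_sqrt hε
    simp only [hd]
    linear_combination (vec σ i - pm p vec x i) * (vec τ i - pm p vec x i) * hse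
  have hterm : ∀ σ τ, Real.exp (ε * w σ τ)
      ≤ 1 + ε * w σ τ + 8 * n ^ 2 * Real.exp (4 * n) * ε ^ 2 := by
    intro σ τ
    have h1 := exp_le_taylor (ε * w σ τ)
    have habs : |ε * w σ τ| ≤ 4 * n := by
      rw [abs_mul, abs_of_nonneg hε]
      calc ε * |w σ τ| ≤ 1 * (4 * n) :=
            mul_le_mul hε1 (hw4 σ τ) (abs_nonneg _) (by norm_num)
        _ = 4 * n := one_mul _
    have hsq : (ε * w σ τ) ^ 2 ≤ ε ^ 2 * (4 * n) ^ 2 := by
      rw [mul_pow]
      apply mul_le_mul_of_nonneg_left _ (sq_nonneg ε)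
      rw [← sq_abs (w σ τ)]
      exact pow_le_pow_left₀ (abs_nonneg _) (hw4 σ τ) 2
    have hexp : Real.exp |ε * w σ τ| ≤ Real.exp (4 * n) := Real.exp_le_exp.2 habs
    have hE := Real.exp_pos (4 * n)
    have : (ε * w σ τ) ^ 2 / 2 * Real.exp |ε * w σ τ|
        ≤ (ε ^ 2 * (4 * n) ^ 2) / 2 * Real.exp (4 * n) :=
      mul_le_mul (by linarith) hexp (Real.exp_pos _).le (by positivity)
    nlinarith [this]
  have hzero : ∑ σ, ∑ τ, q σ * q τ * w σ τ = 0 := by
    refine Finset.sum_eq_zero (fun σ _ => ?_)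
    have : ∑ τ, q σ * q τ * w σ τ = q σ * ∑ i, d σ i * ∑ τ, q τ * d τ i := by
      simp only [hw]
      rw [Finset.mul_sum]
      simp_rw [Finset.mul_sum]
      rw [Finset.sum_comm]
      refine Finset.sum_congr rfl (fun τ _ => Finset.sum_congr rfl (fun i _ => ?_))
      ring
    rw [this]
    simp [hd0]
  calc ∑ σ, ∑ τ, q σ * q τ * Real.exp (∑ i, aV p vec ε x σ i * aV p vec ε x τ i)
      ≤ ∑ σ, ∑ τ, q σ * q τ * (1 + ε * w σ τ + 8 * n ^ 2 * Real.exp (4 * n) * ε ^ 2) := by
        refine Finset.sum_le_sum (fun σ _ => Finset.sum_le_sum (fun τ _ => ?_))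
        rw [haa]
        exact mul_le_mul_of_nonneg_left (hterm σ τ) (mul_nonneg (hq0 σ) (hq0 τ))
    _ = (∑ σ, ∑ τ, q σ * q τ) * (1 + 8 * n ^ 2 * Real.exp (4 * n) * ε ^ 2)
        + ε * ∑ σ, ∑ τ, q σ * q τ * w σ τ := by
        rw [Finset.sum_mul, Finset.mul_sum, ← Finset.sum_add_distrib]
        refine Finset.sum_congr rfl (fun σ _ => ?_)
        rw [Finset.sum_mul, Finset.mul_sum, ← Finset.sum_add_distrib]
        refine Finset.sum_congr rfl (fun τ _ => ?_)
        ring
    _ = 1 + 8 * n ^ 2 * Real.exp (4 * n) * ε ^ 2 := by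
        rw [hzero, ← Finset.sum_mul_sum, hq1]
        ring

lemma measurable_Rfun :
    Measurable (fun z : (ι → ℝ) × (ι → ℝ) => Rfun p vec ε z.1 z.2) := by
  unfold Rfun
  refine Finset.measurable_sum _ (fun σ _ => ?_)
  exact ((measurable_post σ).comp measurable_fst).mul
    (measurable_stepDens' measurable_pm (vec σ) measurable_fst measurable_snd)

section Mom

variable {Ω : Type*} [MeasurableSpace Ω] {P : Measure Ω} [IsProbabilityMeasure P]
    {g : ℕ → ι → Ω → ℝ}

/-- The recursion for the second moment of the mixture likelihood. -/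
lemma moment_succ (hg : IsNoise P g) (hp : ∀ σ, 0 ≤ p σ) (hp1 : ∑ σ, p σ = 1)
    (hv : ∀ σ i, vec σ i ^ 2 = 1) (hε : 0 ≤ ε) (hε1 : ε ≤ 1) (K : ℕ) :
    ∫⁻ ω, ENNReal.ofReal (LL p vec ε (K + 1) (gs g ω) ^ 2) ∂P
      ≤ ENNReal.ofReal (1 + 8 * (Fintype.card ι : ℝ) ^ 2 * Real.exp (4 * (Fintype.card ι : ℝ)) * ε ^ 2)
        * ∫⁻ ω, ENNReal.ofReal (LL p vec ε K (gs g ω) ^ 2) ∂P := by
  let Ψ : (ℕ → ι → ℝ) × (ι → ℝ) → ℝ≥0∞ := fun z =>
    ENNReal.ofReal (LL p vec ε K z.1 ^ 2)
      * ENNReal.ofReal (Rfun p vec ε (euler (pm p vec) ε z.1 K) z.2 ^ 2)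
  have hΨ : Measurable Ψ := by
    have h1 : Measurable (fun z : (ℕ → ι → ℝ) × (ι → ℝ) => ENNReal.ofReal (LL p vec ε K z.1 ^ 2)) :=
      ENNReal.measurable_ofReal.comp (((measurable_LL K).comp measurable_fst).pow_const 2)
    have h2 : Measurable (fun z : (ℕ → ι → ℝ) × (ι → ℝ) =>
        ENNReal.ofReal (Rfun p vec ε (euler (pm p vec) ε z.1 K) z.2 ^ 2)) := by
      refine ENNReal.measurable_ofReal.comp (Measurable.pow_const ?_ 2)
      have h : Measurable (fun z : (ℕ → ι → ℝ) × (ι → ℝ) =>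
          ((euler (pm p vec) ε z.1 K, z.2) : (ι → ℝ) × (ι → ℝ))) :=
        ((measurable_euler measurable_pm K).comp measurable_fst).prodMk measurable_snd
      have key := (measurable_Rfun (p := p) (vec := vec) (ε := ε)).comp h
      exact key
    exact h1.mul h2
  have hL := lintegral_past hg K hΨ
  have e1 : ∀ ω, ENNReal.ofReal (LL p vec ε (K + 1) (gs g ω) ^ 2)
      = Ψ (past K (gs g ω), gv g K ω) := by
    intro ω
    have hΨe : Ψ (past K (gs g ω), gv g K ω)
        = ENNReal.ofReal (LL p vec ε K (past K (gs g ω)) ^ 2)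
          * ENNReal.ofReal (Rfun p vec ε (euler (pm p vec) ε (past K (gs g ω)) K) (gv g K ω) ^ 2) :=
      rfl
    rw [hΨe, LL_past, euler_past (le_refl K), LL_succ hp hp1 hv hε, mul_pow,
      ENNReal.ofReal_mul (sq_nonneg _)]
    rfl
  have hbound : ∀ ω, ∫⁻ u, Ψ (past K (gs g ω), u) ∂gamm ι
      ≤ ENNReal.ofReal (1 + 8 * (Fintype.card ι : ℝ) ^ 2 * Real.exp (4 * (Fintype.card ι : ℝ)) * ε ^ 2)
        * ENNReal.ofReal (LL p vec ε K (gs g ω) ^ 2) := by
    intro ω
    have hΨe : ∀ u, Ψ (past K (gs g ω), u)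
        = ENNReal.ofReal (LL p vec ε K (gs g ω) ^ 2)
          * ENNReal.ofReal (Rfun p vec ε (euler (pm p vec) ε (gs g ω) K) u ^ 2) := by
      intro u
      have : Ψ (past K (gs g ω), u)
        = ENNReal.ofReal (LL p vec ε K (past K (gs g ω)) ^ 2)
          * ENNReal.ofReal (Rfun p vec ε (euler (pm p vec) ε (past K (gs g ω)) K) u ^ 2) := rfl
      rw [this, LL_past, euler_past (le_refl K)]
    simp_rw [hΨe]
    have hmeas : Measurable (fun u : ι → ℝ =>
        ENNReal.ofReal (Rfun p vec ε (euler (pm p vec) ε (gs g ω) K) u ^ 2)) := by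
      refine ENNReal.measurable_ofReal.comp (Measurable.pow_const ?_ 2)
      have h : Measurable (fun u : ι → ℝ =>
          ((euler (pm p vec) ε (gs g ω) K, u) : (ι → ℝ) × (ι → ℝ))) :=
        measurable_const.prodMk measurable_id
      have key := (measurable_Rfun (p := p) (vec := vec) (ε := ε)).comp h
      exact key
    rw [lintegral_const_mul _ hmeas, lintegral_Rfun_sq hp hp1, mul_comm]
    gcongr
    exact sum_bound hp hp1 hv hε hε1 _
  simp_rw [e1]
  rw [hL, ← lintegral_const_mul' _ _ ENNReal.ofReal_ne_top]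
  exact lintegral_mono hbound

/-- The second moment bound for the mixture likelihood. -/
theorem moment_le (hg : IsNoise P g) (hp : ∀ σ, 0 ≤ p σ) (hp1 : ∑ σ, p σ = 1)
    (hv : ∀ σ i, vec σ i ^ 2 = 1) (hε : 0 ≤ ε) (hε1 : ε ≤ 1) (K : ℕ) :
    ∫⁻ ω, ENNReal.ofReal (LL p vec ε K (gs g ω) ^ 2) ∂P
      ≤ ENNReal.ofReal (Real.exp (8 * (Fintype.card ι : ℝ) ^ 2
          * Real.exp (4 * (Fintype.card ι : ℝ)) * K * ε ^ 2)) := by
  induction K with
  | zero =>
    simp [LL_zero hp1]
  | succ K ih =>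
    refine (moment_succ hg hp hp1 hv hε hε1 K).trans ?_
    set C : ℝ := 8 * (Fintype.card ι : ℝ) ^ 2 * Real.exp (4 * (Fintype.card ι : ℝ)) with hC
    have hC0 : 0 ≤ C := by positivity
    have h1 : 0 ≤ 1 + C * ε ^ 2 := by positivity
    refine (by gcongr : _ ≤ ENNReal.ofReal (1 + C * ε ^ 2)
      * ENNReal.ofReal (Real.exp (C * K * ε ^ 2))).trans ?_
    rw [← ENNReal.ofReal_mul h1]
    refine ENNReal.ofReal_le_ofReal ?_
    have h2 : 1 + C * ε ^ 2 ≤ Real.exp (C * ε ^ 2) := by
      have := Real.add_one_le_exp (C * ε ^ 2)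
      linarith
    calc (1 + C * ε ^ 2) * Real.exp (C * K * ε ^ 2)
        ≤ Real.exp (C * ε ^ 2) * Real.exp (C * K * ε ^ 2) :=
          mul_le_mul_of_nonneg_right h2 (Real.exp_pos _).le
      _ = Real.exp (C * ((K + 1 : ℕ) : ℝ) * ε ^ 2) := by
          rw [← Real.exp_add]
          congr 1
          push_cast
          ring

/-- The mass of the likelihood. -/
lemma lintegral_Lam (hg : IsNoise P g) {b : (ι → ℝ) → ι → ℝ} (hb : Measurable b) (hε : 0 ≤ ε)
    (v : ι → ℝ) (K : ℕ) :
    ∫⁻ ω, ENNReal.ofReal (Lam b ε v K (gs g ω)) ∂P = 1 := by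
  have := cameron_martin hg hb hε v K (Φ := fun _ => 1) measurable_const
  simpa using this

lemma integrable_Lam (hg : IsNoise P g) {b : (ι → ℝ) → ι → ℝ} (hb : Measurable b) (hε : 0 ≤ ε)
    (v : ι → ℝ) (K : ℕ) : Integrable (fun ω => Lam b ε v K (gs g ω)) P := by
  have hm : Measurable (fun ω => Lam b ε v K (gs g ω)) :=
    (measurable_Lam hb v K).comp (measurable_gs hg)
  refine ⟨hm.aestronglyMeasurable, ?_⟩
  rw [hasFiniteIntegral_iff_ofReal (Filter.Eventually.of_forall (fun ω => (Lam_pos v K _).le)),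
    lintegral_Lam hg hb hε]
  exact ENNReal.one_lt_top

lemma integral_Lam (hg : IsNoise P g) {b : (ι → ℝ) → ι → ℝ} (hb : Measurable b) (hε : 0 ≤ ε)
    (v : ι → ℝ) (K : ℕ) : ∫ ω, Lam b ε v K (gs g ω) ∂P = 1 := by
  have hm : Measurable (fun ω => Lam b ε v K (gs g ω)) :=
    (measurable_Lam hb v K).comp (measurable_gs hg)
  rw [integral_eq_lintegral_of_nonneg_ae (Filter.Eventually.of_forall (fun ω => (Lam_pos v K _).le))
    hm.aestronglyMeasurable, lintegral_Lam hg hb hε]
  simp

/-- The Cameron-Martin identity for bounded real functionals. -/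
lemma integral_cm (hg : IsNoise P g) {b : (ι → ℝ) → ι → ℝ} (hb : Measurable b) (hε : 0 ≤ ε)
    (v : ι → ℝ) (K : ℕ) {F : (Fin (K + 1) → ι → ℝ) → ℝ} (hF : Measurable F)
    (hF1 : ∀ x, |F x| ≤ 1) :
    ∫ ω, F (pathE b ε K (gs g ω)) * Lam b ε v K (gs g ω) ∂P
      = ∫ ω, F (pathY ε v K (gs g ω)) ∂P := by
  have hI := integrable_Lam hg hb hε v K (P := P)
  have hFE : Measurable (fun ω => F (pathE b ε K (gs g ω))) :=
    hF.comp ((measurable_pathE hb K).comp (measurable_gs hg))
  have hFY : Measurable (fun ω => F (pathY ε v K (gs g ω))) :=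
    hF.comp ((measurable_pathY v K).comp (measurable_gs hg))
  have hpos : ∀ x, 0 ≤ F x + 1 := fun x => by
    have := (abs_le.1 (hF1 x)).1; linarith
  have hCM := cameron_martin hg hb hε v K
    (Φ := fun x => ENNReal.ofReal (F x + 1)) (ENNReal.measurable_ofReal.comp (hF.add_const 1))
  have hm : Measurable (fun ω => Lam b ε v K (gs g ω)) :=
    (measurable_Lam hb v K).comp (measurable_gs hg)
  have hI1 : Integrable (fun ω => F (pathE b ε K (gs g ω)) * Lam b ε v K (gs g ω)) P := by
    refine hI.bdd_mul (c := 1) hFE.aestronglyMeasurable ?_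
    exact Filter.Eventually.of_forall (fun ω => by simpa using hF1 _)
  have hIY : Integrable (fun ω => F (pathY ε v K (gs g ω))) P := by
    refine Integrable.of_bound hFY.aestronglyMeasurable 1 ?_
    exact Filter.Eventually.of_forall (fun ω => by simpa using hF1 _)
  have hL : ∫ ω, (F (pathE b ε K (gs g ω)) + 1) * Lam b ε v K (gs g ω) ∂P
      = ∫ ω, (F (pathY ε v K (gs g ω)) + 1) ∂P := by
    rw [integral_eq_lintegral_of_nonneg_ae
        (Filter.Eventually.of_forall (fun ω => mul_nonneg (hpos _) (Lam_pos v K _).le))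
        (((hFE.add_const 1).mul hm).aestronglyMeasurable),
      integral_eq_lintegral_of_nonneg_ae
        (Filter.Eventually.of_forall (fun ω => hpos _))
        ((hFY.add_const 1).aestronglyMeasurable)]
    congr 1
    rw [← hCM]
    refine lintegral_congr (fun ω => ?_)
    rw [ENNReal.ofReal_mul (hpos _)]
  have h1 : ∫ ω, (F (pathE b ε K (gs g ω)) + 1) * Lam b ε v K (gs g ω) ∂P
      = ∫ ω, F (pathE b ε K (gs g ω)) * Lam b ε v K (gs g ω) ∂P + 1 := by
    have : ∀ ω, (F (pathE b ε K (gs g ω)) + 1) * Lam b ε v K (gs g ω)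
        = F (pathE b ε K (gs g ω)) * Lam b ε v K (gs g ω) + Lam b ε v K (gs g ω) := fun ω => by ring
    simp_rw [this]
    rw [integral_add hI1 hI, integral_Lam hg hb hε]
  have h2 : ∫ ω, (F (pathY ε v K (gs g ω)) + 1) ∂P = ∫ ω, F (pathY ε v K (gs g ω)) ∂P + 1 := by
    rw [integral_add hIY (integrable_const _)]
    simp
  linarith

/-- `L¹ ≤ L²` for probability measures. -/
lemma integral_abs_sq_le {h : Ω → ℝ} (hI : Integrable h P) (hI2 : Integrable (fun ω => h ω ^ 2) P) :
    (∫ ω, |h ω| ∂P) ^ 2 ≤ ∫ ω, h ω ^ 2 ∂P := by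
  set c := ∫ ω, |h ω| ∂P with hc
  have hA : Integrable (fun ω => |h ω|) P := hI.abs
  have h0 : 0 ≤ ∫ ω, (|h ω| - c) ^ 2 ∂P := integral_nonneg (fun ω => sq_nonneg _)
  have hexp : ∀ ω, (|h ω| - c) ^ 2 = h ω ^ 2 - 2 * c * |h ω| + c ^ 2 := by
    intro ω
    have : |h ω| ^ 2 = h ω ^ 2 := sq_abs _
    rw [sub_sq, this]
    ring
  simp_rw [hexp] at h0
  have hI3 : Integrable (fun ω => h ω ^ 2 - 2 * c * |h ω|) P := hI2.sub (hA.const_mul _)
  have hI4 : Integrable (fun ω => 2 * c * |h ω|) P := hA.const_mul _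
  rw [integral_add hI3 (integrable_const _), integral_sub hI2 hI4, integral_const_mul, ← hc] at h0
  simp only [integral_const, smul_eq_mul, probReal_univ, one_mul] at h0
  nlinarith [h0]

end Mom

/-- Total-variation bound between the Euler scheme driven by the posterior mean and the mixture
of exact observation paths. -/
theorem tv_bound {Ω : Type*} [MeasurableSpace Ω] (P : Measure Ω) [IsProbabilityMeasure P]
    (p : Sg → ℝ) (hp : ∀ σ, 0 ≤ p σ) (hp1 : ∑ σ, p σ = 1)
    (vec : Sg → ι → ℝ) (hv : ∀ σ i, vec σ i ^ 2 = 1)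
    (g : ℕ → ι → Ω → ℝ) (hg : IsNoise P g) {ε : ℝ} (hε : 0 < ε) (hε1 : ε ≤ 1) (K : ℕ)
    (F : (Fin (K + 1) → ι → ℝ) → ℝ) (hF : Measurable F) (hF1 : ∀ x, |F x| ≤ 1) :
    |∫ ω, F (fun k => euler (pm p vec) ε (fun l i => g l i ω) k) ∂P
        - ∑ σ, p σ * ∫ ω, F (fun k => exactPath (vec σ) ε (fun l i => g l i ω) k) ∂P|
      ≤ Real.sqrt (Real.exp (8 * (Fintype.card ι : ℝ) ^ 2
            * Real.exp (4 * (Fintype.card ι : ℝ)) * K * ε ^ 2) - 1) := by
  set b := pm p vec with hb
  have hbm : Measurable b := measurable_pm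
  have hε0 : 0 ≤ ε := hε.le
  set f : Ω → ℝ := fun ω => F (pathE b ε K (gs g ω)) with hf
  have hfm : Measurable f := hF.comp ((measurable_pathE hbm K).comp (measurable_gs hg))
  have hf1 : ∀ ω, |f ω| ≤ 1 := fun ω => hF1 _
  set W : Ω → ℝ := fun ω => LL p vec ε K (gs g ω) with hW
  have hWm : Measurable W := (measurable_LL K).comp (measurable_gs hg)
  have hW0 : ∀ ω, 0 ≤ W ω := fun ω => LL_nonneg hp K _
  -- first moment
  have hLam := fun σ => integrable_Lam (P := P) hg hbm hε0 (vec σ) K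
  have hWI : Integrable W P := by
    simp only [hW, LL]
    exact integrable_finsetSum _ (fun σ _ => (hLam σ).const_mul _)
  have hW1 : ∫ ω, W ω ∂P = 1 := by
    simp only [hW, LL]
    rw [integral_finsetSum _ (fun σ _ => (hLam σ).const_mul _)]
    simp_rw [integral_const_mul]
    rw [← hp1]
    refine Finset.sum_congr rfl (fun σ _ => ?_)
    rw [integral_Lam hg hbm hε0, mul_one]
  -- second moment
  have hmom := moment_le (P := P) hg hp hp1 hv hε0 hε1 K
  set B : ℝ := Real.exp (8 * (Fintype.card ι : ℝ) ^ 2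
      * Real.exp (4 * (Fintype.card ι : ℝ)) * K * ε ^ 2) with hB
  have hB0 : 0 ≤ B := (Real.exp_pos _).le
  have hW2m : Measurable (fun ω => W ω ^ 2) := hWm.pow_const 2
  have hW2I : Integrable (fun ω => W ω ^ 2) P := by
    refine ⟨hW2m.aestronglyMeasurable, ?_⟩
    rw [hasFiniteIntegral_iff_ofReal (Filter.Eventually.of_forall (fun ω => sq_nonneg _))]
    exact lt_of_le_of_lt hmom ENNReal.ofReal_lt_top
  have hW2 : ∫ ω, W ω ^ 2 ∂P ≤ B := by
    rw [integral_eq_lintegral_of_nonneg_ae (Filter.Eventually.of_forall (fun ω => sq_nonneg _))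
      hW2m.aestronglyMeasurable]
    exact ENNReal.toReal_le_of_le_ofReal hB0 hmom
  -- the difference
  have hfI : Integrable f P := by
    refine Integrable.of_bound hfm.aestronglyMeasurable 1 ?_
    exact Filter.Eventually.of_forall (fun ω => by simpa using hf1 _)
  have hfLam : ∀ σ, Integrable (fun ω => f ω * Lam b ε (vec σ) K (gs g ω)) P := fun σ =>
    (hLam σ).bdd_mul (c := 1) hfm.aestronglyMeasurable
      (Filter.Eventually.of_forall (fun ω => by simpa using hf1 _))
  have hsum : ∑ σ, p σ * ∫ ω, F (fun k => exactPath (vec σ) ε (fun l i => g l i ω) k) ∂P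
      = ∫ ω, f ω * W ω ∂P := by
    have : ∀ ω, f ω * W ω = ∑ σ, p σ * (f ω * Lam b ε (vec σ) K (gs g ω)) := by
      intro ω
      simp only [hW, LL]
      rw [Finset.mul_sum]
      exact Finset.sum_congr rfl (fun σ _ => by ring)
    simp_rw [this]
    rw [integral_finsetSum _ (fun σ _ => (hfLam σ).const_mul _)]
    refine Finset.sum_congr rfl (fun σ _ => ?_)
    rw [integral_const_mul]
    congr 1
    exact (integral_cm hg hbm hε0 (vec σ) K hF hF1).symm
  have hmain : ∫ ω, F (fun k => euler (pm p vec) ε (fun l i => g l i ω) k) ∂P = ∫ ω, f ω ∂P := rfl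
  rw [hmain, hsum]
  have hfW : Integrable (fun ω => f ω * W ω) P :=
    hWI.bdd_mul (c := 1) hfm.aestronglyMeasurable
      (Filter.Eventually.of_forall (fun ω => by simpa using hf1 _))
  rw [← integral_sub hfI hfW]
  set h : Ω → ℝ := fun ω => 1 - W ω with hh
  have hhI : Integrable h P := (integrable_const _).sub hWI
  have hh2e : ∀ ω, h ω ^ 2 = 1 - 2 * W ω + W ω ^ 2 := fun ω => by simp only [hh]; ring
  have hh2I : Integrable (fun ω => h ω ^ 2) P := by
    simp_rw [hh2e]
    exact ((integrable_const _).sub (hWI.const_mul _)).add hW2I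
  have hh2 : ∫ ω, h ω ^ 2 ∂P ≤ B - 1 := by
    simp_rw [hh2e]
    have hI4 : Integrable (fun ω => 2 * W ω) P := hWI.const_mul _
    have hI3 : Integrable (fun ω => (1 : ℝ) - 2 * W ω) P := (integrable_const _).sub hI4
    rw [integral_add hI3 hW2I, integral_sub (integrable_const _) hI4, integral_const_mul, hW1]
    simp only [integral_const, smul_eq_mul, probReal_univ, one_mul]
    linarith
  have hCS := integral_abs_sq_le hhI hh2I
  have hle : |∫ ω, (f ω - f ω * W ω) ∂P| ≤ ∫ ω, |h ω| ∂P := by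
    calc |∫ ω, (f ω - f ω * W ω) ∂P| ≤ ∫ ω, |f ω - f ω * W ω| ∂P :=
          abs_integral_le_integral_abs
      _ ≤ ∫ ω, |h ω| ∂P := by
          refine integral_mono (hfI.sub hfW).abs hhI.abs (fun ω => ?_)
          have : f ω - f ω * W ω = f ω * h ω := by simp only [hh]; ring
          show |f ω - f ω * W ω| ≤ |h ω|
          rw [this, abs_mul]
          calc |f ω| * |h ω| ≤ 1 * |h ω| :=
                mul_le_mul_of_nonneg_right (hf1 ω) (abs_nonneg _)
            _ = |h ω| := one_mul _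
  refine hle.trans ?_
  apply Real.le_sqrt_of_sq_le
  linarith

end Final

end

end Vale.Agent.Lib.P161
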