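import Vale.Agent.Lib.P161.Tree
import Vale.Agent.Lib.P161.Scalar
import Vale.Agent.Lib.P161.Exact

/-!
The Ising weights on a finite subtree, exactness of belief propagation and the marginal lemma for
P161 (module task, see the team findings table).
-/

open Finset

namespace Vale.Agent.Lib.P161

noncomputable section

variable {V : Type*} [DecidableEq V]

/-- Extension of a configuration on `S` to all of `V` (by `false` outside `S`). -/
def extB (S : Finset V) (σ : ↥S → Bool) (v : V) : Bool :=
  if h : v ∈ S then σ ⟨v, h⟩ else false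

/-- The free Ising weight of a configuration on `S`. -/
def isingW (G : SimpleGraph V) (θ : ℝ) (S : Finset V) (σ : ↥S → Bool) : ℝ :=
  cylWeight G θ S (extB S σ)

/-- The spin vector of a configuration on `S`. -/
def spinVec (S : Finset V) (σ : ↥S → Bool) (i : ↥S) : ℝ := spin (σ i)

variable {G : SimpleGraph V} {θ : ℝ}

/-! ### Elementary facts on the weights -/

omit [DecidableEq V] in
lemma mem_edgesOf_mk {D : Finset V} {u v : V} :
    s(u, v) ∈ edgesOf G D ↔ u ∈ D ∧ v ∈ D ∧ G.Adj u v := by
  classical
  simp only [edgesOf, Finset.mem_filter, Finset.mk_mem_sym2_iff, SimpleGraph.mem_edgeSet]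
  tauto

omit [DecidableEq V] in
lemma cylWeight_congr {D : Finset V} {η η' : V → Bool} (h : ∀ v ∈ D, η v = η' v) :
    cylWeight G θ D η = cylWeight G θ D η' := by
  unfold cylWeight
  congr 1
  refine Finset.prod_congr rfl fun e he => ?_
  induction e using Sym2.ind with
  | _ u v =>
    obtain ⟨hu, hv, _⟩ := mem_edgesOf_mk.1 he
    simp [edgeFactor, h u hu, h v hv]

lemma edgesOf_leaf {S : Finset V} {w p : V} (hw : w ∈ S) (hp : p ∈ S) (hadj : G.Adj w p)
    (huniq : ∀ q ∈ S, G.Adj w q → q = p) :
    edgesOf G S = insert s(w, p) (edgesOf G (S.erase w)) := by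
  ext e
  induction e using Sym2.ind with
  | _ u v =>
    simp only [Finset.mem_insert, mem_edgesOf_mk, Finset.mem_erase, Sym2.eq_iff]
    constructor
    · rintro ⟨hu, hv, huv⟩
      by_cases huw : u = w
      · subst huw
        exact Or.inl (Or.inl ⟨rfl, huniq v hv huv⟩)
      · by_cases hvw : v = w
        · subst hvw
          exact Or.inl (Or.inr ⟨(huniq u hu huv.symm), rfl⟩)
        · exact Or.inr ⟨⟨huw, hu⟩, ⟨hvw, hv⟩, huv⟩
    · rintro (⟨⟨rfl, rfl⟩ | ⟨rfl, rfl⟩⟩ | ⟨⟨_, hu⟩, ⟨_, hv⟩, huv⟩)
      · exact ⟨hw, hp, hadj⟩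
      · exact ⟨hp, hw, hadj.symm⟩
      · exact ⟨hu, hv, huv⟩

lemma s_not_mem_edgesOf_erase {S : Finset V} {w p : V} : s(w, p) ∉ edgesOf G (S.erase w) := by
  intro h
  obtain ⟨hu, _, _⟩ := mem_edgesOf_mk.1 h
  exact (Finset.mem_erase.1 hu).1 rfl

/-- Removing a leaf from the weight. -/
lemma cylWeight_leaf {S : Finset V} {w p : V} (hw : w ∈ S) (hp : p ∈ S) (hadj : G.Adj w p)
    (huniq : ∀ q ∈ S, G.Adj w q → q = p) (η : V → Bool) :
    cylWeight G θ S η = cylWeight G θ (S.erase w) η *
      ((1 + θ * spin (η w) * spin (η p)) / 2) := by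
  unfold cylWeight
  rw [edgesOf_leaf hw hp hadj huniq, Finset.prod_insert s_not_mem_edgesOf_erase]
  simp only [edgeFactor, Sym2.lift_mk]
  ring

omit [DecidableEq V] in
lemma edgesOf_singleton (a : V) : edgesOf G ({a} : Finset V) = ∅ := by
  rw [Finset.eq_empty_iff_forall_notMem]
  intro e he
  induction e using Sym2.ind with
  | _ u v =>
    obtain ⟨hu, hv, huv⟩ := mem_edgesOf_mk.1 he
    rw [Finset.mem_singleton] at hu hv
    subst hu
    subst hv
    exact huv.ne rfl

omit [DecidableEq V] in
lemma cylWeight_singleton (a : V) (η : V → Bool) : cylWeight G θ ({a} : Finset V) η = 1 / 2 := by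
  unfold cylWeight
  rw [edgesOf_singleton]
  simp

lemma extB_coe (S : Finset V) (σ : ↥S → Bool) (v : ↥S) : extB S σ v = σ v := by
  simp [extB]

/-! ### Splitting the sum over configurations at a vertex -/

/-- Configurations on `S` split as a configuration on `S.erase w` and a spin at `w`. -/
def splitEquiv (S : Finset V) {w : V} (hw : w ∈ S) :
    (↥S → Bool) ≃ (↥(S.erase w) → Bool) × Bool where
  toFun σ := (fun v => σ ⟨v.1, Finset.mem_of_mem_erase v.2⟩, σ ⟨w, hw⟩)
  invFun τ := fun v => if h : v.1 = w then τ.2 else τ.1 ⟨v.1, Finset.mem_erase.2 ⟨h, v.2⟩⟩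
  left_inv σ := by
    funext v
    by_cases h : v.1 = w
    · have hv : v = ⟨w, hw⟩ := Subtype.ext h
      simp [hv]
    · simp [h]
  right_inv τ := by
    obtain ⟨τ1, b⟩ := τ
    apply Prod.ext
    · funext v
      have hv : v.1 ≠ w := (Finset.mem_erase.1 v.2).1
      simp [hv]
    · simp

lemma extB_splitEquiv_symm (S : Finset V) {w : V} (hw : w ∈ S) (τ : ↥(S.erase w) → Bool) (b : Bool) :
    extB S ((splitEquiv S hw).symm (τ, b)) = Function.update (extB (S.erase w) τ) w b := by
  funext v
  by_cases hvw : v = w
  · subst hvw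
    simp [extB, hw, splitEquiv]
  · by_cases hvS : v ∈ S
    · have hv' : v ∈ S.erase w := Finset.mem_erase.2 ⟨hvw, hvS⟩
      simp [extB, hvS, hv', hvw, splitEquiv]
    · have hv' : v ∉ S.erase w := fun h => hvS (Finset.mem_of_mem_erase h)
      simp [extB, hvS, hv', hvw]

/-- Splitting a sum over configurations at the vertex `w`. -/
lemma sum_split (S : Finset V) {w : V} (hw : w ∈ S) (F : (V → Bool) → ℝ) :
    ∑ σ : ↥S → Bool, F (extB S σ)
      = ∑ τ : ↥(S.erase w) → Bool, ∑ b : Bool, F (Function.update (extB (S.erase w) τ) w b) := by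
  rw [← Equiv.sum_comp (splitEquiv S hw).symm, Fintype.sum_prod_type]
  refine Finset.sum_congr rfl fun τ _ => Finset.sum_congr rfl fun b _ => ?_
  rw [extB_splitEquiv_symm]

omit [DecidableEq V] in
lemma spin_sq_one (b : Bool) : spin b = 1 ∨ spin b = -1 := by
  cases b <;> simp [spin]

/-! ### Nonnegativity -/

theorem isingW_nonneg (h0 : 0 ≤ θ) (h1 : θ < 1) (S : Finset V) (σ : ↥S → Bool) :
    0 ≤ isingW G θ S σ := by
  unfold isingW cylWeight
  refine mul_nonneg (by norm_num) (Finset.prod_nonneg fun e _ => ?_)
  induction e using Sym2.ind with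
  | _ u v =>
    simp only [edgeFactor, Sym2.lift_mk]
    rcases spin_sq_one (extB S σ u) with hu | hu <;>
    rcases spin_sq_one (extB S σ v) with hv | hv <;>
    rw [hu, hv] <;> linarith

/-! ### The marginal lemma -/

/-- Marginal lemma: summing the weight of `S` over the configurations extending `η` on the
connected subset `D ⊆ S` gives the weight of `D`. -/
theorem isingW_marginal (hT : G.IsTree) {S D : Finset V}
    (hD : (G.induce (D : Set V)).Connected) (hS : (G.induce (S : Set V)).Connected)
    (hDS : D ⊆ S) (η : V → Bool) :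
    ∑ σ : ↥S → Bool, (if ∀ v ∈ D, extB S σ v = η v then isingW G θ S σ else 0)
      = cylWeight G θ D η := by
  classical
  induction hn : S.card using Nat.strong_induction_on generalizing S with
  | _ n ih =>
    by_cases hDeq : D = S
    · subst hDeq
      let σ0 : ↥D → Bool := fun v => η v
      have hcond : ∀ σ : ↥D → Bool, (∀ v ∈ D, extB D σ v = η v) ↔ σ = σ0 := by
        intro σ
        constructor
        · intro h
          funext v
          have := h v.1 v.2
          rwa [extB_coe] at this
        · rintro rfl v hv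
          simp [extB, hv, σ0]
      rw [Finset.sum_eq_single σ0]
      · rw [if_pos ((hcond σ0).2 rfl)]
        refine cylWeight_congr fun v hv => ?_
        simp [extB, hv, σ0]
      · intro σ _ hne
        rw [if_neg (fun h => hne ((hcond σ).1 h))]
      · intro h
        exact absurd (Finset.mem_univ _) h
    · obtain ⟨w, hwS, hwD, p, hpS, hwp, huniq, hconn⟩ := peel hT hD hS hDS hDeq
      have hDS' : D ⊆ S.erase w := fun v hv =>
        Finset.mem_erase.2 ⟨fun h => hwD (h ▸ hv), hDS hv⟩
      have hcard : (S.erase w).card < n := by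
        rw [← hn]
        exact Finset.card_erase_lt_of_mem hwS
      have hIH := ih _ hcard hconn hDS' rfl
      rw [← hIH]
      have hF := sum_split S hwS
        (fun ξ => if ∀ v ∈ D, ξ v = η v then cylWeight G θ S ξ else 0)
      unfold isingW
      rw [hF]
      refine Finset.sum_congr rfl fun τ _ => ?_
      have hpw : p ≠ w := fun h => hwp.ne h.symm
      have hb : ∀ b : Bool, (∀ v ∈ D, Function.update (extB (S.erase w) τ) w b v = η v) ↔
          (∀ v ∈ D, extB (S.erase w) τ v = η v) := by
        intro b
        refine forall₂_congr fun v hv => ?_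
        have hvw : v ≠ w := fun h => hwD (h ▸ hv)
        rw [Function.update_of_ne hvw]
      have hW : ∀ b : Bool, cylWeight G θ S (Function.update (extB (S.erase w) τ) w b)
          = cylWeight G θ (S.erase w) (extB (S.erase w) τ) *
            ((1 + θ * spin b * spin (extB (S.erase w) τ p)) / 2) := by
        intro b
        rw [cylWeight_leaf hwS hpS hwp huniq, Function.update_self,
          Function.update_of_ne hpw]
        congr 1
        refine cylWeight_congr fun v hv => ?_
        rw [Function.update_of_ne (Finset.mem_erase.1 hv).1]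
      simp only [hb, hW]
      by_cases hc : ∀ v ∈ D, extB (S.erase w) τ v = η v
      · simp only [if_pos hc, Fintype.sum_bool, spin]
        simp only [if_true, Bool.false_eq_true, if_false]
        ring
      · simp [if_neg hc]

omit [DecidableEq V] in
lemma connected_singleton (a : V) : (G.induce (({a} : Finset V) : Set V)).Connected := by
  have : Nonempty ((({a} : Finset V) : Set V)) := ⟨⟨a, by simp⟩⟩
  refine ⟨?_⟩
  rintro ⟨x, hx⟩ ⟨y, hy⟩
  have hx' : x = a := by simpa using hx
  have hy' : y = a := by simpa using hy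
  subst hx'
  subst hy'
  exact SimpleGraph.Reachable.refl _

theorem isingW_sum (hT : G.IsTree) {S : Finset V} (hS : (G.induce (S : Set V)).Connected) :
    ∑ σ : ↥S → Bool, isingW G θ S σ = 1 := by
  classical
  obtain ⟨⟨a, ha'⟩⟩ := hS.nonempty
  have ha : a ∈ S := Finset.mem_coe.1 ha'
  have hD : (G.induce (({a} : Finset V) : Set V)).Connected := by
    have : Nonempty ((({a} : Finset V) : Set V)) := ⟨⟨a, by simp⟩⟩
    refine ⟨?_⟩
    rintro ⟨x, hx⟩ ⟨y, hy⟩
    have hx' : x = a := by simpa using hx
    have hy' : y = a := by simpa using hy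
    subst hx'
    subst hy'
    exact SimpleGraph.Reachable.refl _
  have hDS : ({a} : Finset V) ⊆ S := by simpa using ha
  have h1 := isingW_marginal (θ := θ) hT hD hS hDS (fun _ => true)
  have h2 := isingW_marginal (θ := θ) hT hD hS hDS (fun _ => false)
  rw [cylWeight_singleton] at h1 h2
  have hsum : ∀ σ : ↥S → Bool, isingW G θ S σ
      = (if ∀ v ∈ ({a} : Finset V), extB S σ v = true then isingW G θ S σ else 0)
        + (if ∀ v ∈ ({a} : Finset V), extB S σ v = false then isingW G θ S σ else 0) := by
    intro σ
    simp only [Finset.mem_singleton, forall_eq]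
    cases extB S σ a <;> simp
  rw [Finset.sum_congr rfl fun σ _ => hsum σ, Finset.sum_add_distrib, h1, h2]
  norm_num

/-! ### The partition sums and their reduction at a leaf -/

/-- The linear tilt of a configuration `η` on `S` by a field `x`. -/
def tilt (S : Finset V) (x : V → ℝ) (η : V → Bool) : ℝ := ∑ v ∈ S, spin (η v) * x v

/-- Tilted sums over configurations on `S`. -/
def Asum (G : SimpleGraph V) (θ : ℝ) (S : Finset V) (x : V → ℝ) (g : (V → Bool) → ℝ) : ℝ :=
  ∑ σ : ↥S → Bool, cylWeight G θ S (extB S σ) * Real.exp (tilt S x (extB S σ)) * g (extB S σ)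

lemma tilt_extB (S : Finset V) (x : V → ℝ) (σ : ↥S → Bool) :
    ∑ i : ↥S, spinVec S σ i * x i = tilt S x (extB S σ) := by
  unfold tilt
  rw [← Finset.sum_coe_sort S]
  refine Finset.sum_congr rfl fun i _ => ?_
  rw [extB_coe]
  rfl

lemma tiltZ_eq (S : Finset V) (x : V → ℝ) :
    tiltZ (isingW G θ S) (spinVec S) (fun i : ↥S => x i) = Asum G θ S x (fun _ => 1) := by
  unfold tiltZ Asum
  refine Finset.sum_congr rfl fun σ _ => ?_
  rw [tilt_extB, mul_one]
  rfl

lemma pm_eq_ratio (S : Finset V) (x : V → ℝ) (a : ↥S) :
    pm (isingW G θ S) (spinVec S) (fun i : ↥S => x i) a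
      = Asum G θ S x (fun η => spin (η a)) / Asum G θ S x (fun _ => 1) := by
  unfold pm
  rw [tiltZ_eq]
  congr 1
  unfold Asum
  refine Finset.sum_congr rfl fun σ _ => ?_
  rw [tilt_extB]
  have : (fun η : V → Bool => spin (η a)) (extB S σ) = spinVec S σ a := by
    simp only [spinVec]
    rw [extB_coe]
  rw [this]
  rfl

/-- The normalization factor of a leaf elimination. -/
def leafC (θ x : ℝ) : ℝ := Real.sqrt (Real.cosh x ^ 2 - θ ^ 2 * Real.sinh x ^ 2)

lemma leafC_pos (h0 : 0 ≤ θ) (h1 : θ < 1) (x : ℝ) : 0 < leafC θ x := by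
  unfold leafC
  apply Real.sqrt_pos.2
  have hc := Real.cosh_sq x
  have hθ : θ ^ 2 ≤ 1 := by nlinarith
  have hs : 0 ≤ Real.sinh x ^ 2 := sq_nonneg _
  nlinarith

/-- The sum over a leaf spin of the tilted edge factor. -/
lemma leaf_sum (h0 : 0 ≤ θ) (h1 : θ < 1) (x u : ℝ) (hu : u = 1 ∨ u = -1) :
    ∑ b : Bool, ((1 + θ * spin b * u) / 2) * Real.exp (spin b * x)
      = leafC θ x * Real.exp (u * hm θ x) := by
  have h := leaf_identity h0 h1 x u hu
  unfold leafC
  rw [← h]
  simp only [Fintype.sum_bool, spin, if_true, Bool.false_eq_true, if_false]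
  rw [Real.cosh_eq, Real.sinh_eq]
  have e1 : (1 : ℝ) * x = x := one_mul x
  have e2 : (-1 : ℝ) * x = -x := by ring
  rw [e1, e2]
  ring

omit [DecidableEq V] in
lemma tilt_congr {S : Finset V} {x : V → ℝ} {η η' : V → Bool} (h : ∀ v ∈ S, η v = η' v) :
    tilt S x η = tilt S x η' := by
  unfold tilt
  exact Finset.sum_congr rfl fun v hv => by rw [h v hv]

/-- Removing a leaf from the tilted sums: the neighbour's field gets the cavity message. -/
lemma Asum_leaf (h0 : 0 ≤ θ) (h1 : θ < 1) {S : Finset V} {w p : V} (hw : w ∈ S) (hp : p ∈ S)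
    (hadj : G.Adj w p) (huniq : ∀ q ∈ S, G.Adj w q → q = p) (x : V → ℝ) (g : (V → Bool) → ℝ)
    (hg : ∀ (η : V → Bool) (b : Bool), g (Function.update η w b) = g η) :
    Asum G θ S x g = leafC θ (x w) *
      Asum G θ (S.erase w) (Function.update x p (x p + hm θ (x w))) g := by
  unfold Asum
  have hF := sum_split S hw
    (fun ξ => cylWeight G θ S ξ * Real.exp (tilt S x ξ) * g ξ)
  rw [hF, Finset.mul_sum]
  refine Finset.sum_congr rfl fun τ _ => ?_
  set ξ := extB (S.erase w) τ with hξ
  have hpw : p ≠ w := fun h => hadj.ne h.symm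
  have hpS' : p ∈ S.erase w := Finset.mem_erase.2 ⟨hpw, hp⟩
  have hW : ∀ b : Bool, cylWeight G θ S (Function.update ξ w b)
      = cylWeight G θ (S.erase w) ξ * ((1 + θ * spin b * spin (ξ p)) / 2) := by
    intro b
    rw [cylWeight_leaf hw hp hadj huniq, Function.update_self, Function.update_of_ne hpw]
    congr 1
    refine cylWeight_congr fun v hv => ?_
    rw [Function.update_of_ne (Finset.mem_erase.1 hv).1]
  have hT : ∀ b : Bool, tilt S x (Function.update ξ w b) = tilt (S.erase w) x ξ + spin b * x w := by
    intro b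
    unfold tilt
    rw [← Finset.add_sum_erase S _ hw, Function.update_self, add_comm]
    congr 1
    refine Finset.sum_congr rfl fun v hv => ?_
    rw [Function.update_of_ne (Finset.mem_erase.1 hv).1]
  have hT' : tilt (S.erase w) (Function.update x p (x p + hm θ (x w))) ξ
      = tilt (S.erase w) x ξ + spin (ξ p) * hm θ (x w) := by
    unfold tilt
    rw [← Finset.add_sum_erase (S.erase w) _ hpS', ← Finset.add_sum_erase (S.erase w) (fun v => spin (ξ v) * x v) hpS',
      Function.update_self]
    have : ∑ v ∈ (S.erase w).erase p, spin (ξ v) * Function.update x p (x p + hm θ (x w)) v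
        = ∑ v ∈ (S.erase w).erase p, spin (ξ v) * x v := by
      refine Finset.sum_congr rfl fun v hv => ?_
      rw [Function.update_of_ne (Finset.mem_erase.1 hv).1]
    rw [this]
    ring
  have hleaf := leaf_sum h0 h1 (x w) (spin (ξ p)) (spin_sq_one _)
  simp only [hW, hT, hg, Real.exp_add]
  rw [hT', Real.exp_add]
  calc ∑ b : Bool, cylWeight G θ (S.erase w) ξ * ((1 + θ * spin b * spin (ξ p)) / 2) *
        (Real.exp (tilt (S.erase w) x ξ) * Real.exp (spin b * x w)) * g ξ
      = cylWeight G θ (S.erase w) ξ * Real.exp (tilt (S.erase w) x ξ) * g ξ *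
        ∑ b : Bool, ((1 + θ * spin b * spin (ξ p)) / 2) * Real.exp (spin b * x w) := by
        rw [Finset.mul_sum]
        refine Finset.sum_congr rfl fun b _ => ?_
        ring
    _ = _ := by
        rw [hleaf]
        ring

/-! ### Exactness of belief propagation -/

variable [G.LocallyFinite]

lemma mem_nbS {S : Finset V} {a c : V} : c ∈ nbS G S a ↔ a ∈ S ∧ G.Adj a c ∧ c ∈ S := by
  classical
  by_cases ha : a ∈ S
  · simp [nbS, ha]
  · simp [nbS, ha]

/-- Exactness of belief propagation: if `E` solves the message equations on the connected finite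
subset `S` of the tree, the posterior mean of the spin at `a` is `tanh` of the total field. -/
theorem pm_eq_tanh (hT : G.IsTree) (h0 : 0 ≤ θ) (h1 : θ < 1) {S : Finset V}
    (hS : (G.induce (S : Set V)).Connected) (x : V → ℝ) (E : V → V → ℝ)
    (hE : ∀ a ∈ S, ∀ b ∈ nbS G S a, E a b = x a + ∑ c ∈ (nbS G S a).erase b, hm θ (E c a))
    (a : ↥S) :
    pm (isingW G θ S) (spinVec S) (fun i : ↥S => x i) a
      = Real.tanh (x a + ∑ c ∈ nbS G S a, hm θ (E c a)) := by
  classical
  rw [pm_eq_ratio]
  obtain ⟨a, haS⟩ := a
  show Asum G θ S x (fun η => spin (η a)) / Asum G θ S x (fun _ => 1) = _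
  induction hn : S.card using Nat.strong_induction_on generalizing S x with
  | _ n ih =>
    by_cases hSa : ({a} : Finset V) = S
    · -- the base case: a single vertex
      subst hSa
      have hnb : nbS G ({a} : Finset V) a = ∅ := by
        rw [Finset.eq_empty_iff_forall_notMem]
        intro c hc
        obtain ⟨_, hac, hcS⟩ := mem_nbS.1 hc
        rw [Finset.mem_singleton] at hcS
        subst hcS
        exact hac.ne rfl
      rw [hnb, Finset.sum_empty, add_zero]
      have hval : ∀ g : (V → Bool) → ℝ, (∀ (η : V → Bool) (b : Bool),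
          g (Function.update η a b) = g (Function.update (fun _ => false) a b)) →
          Asum G θ ({a} : Finset V) x g = ∑ b : Bool, (1 / 2) * Real.exp (spin b * x a)
            * g (Function.update (fun _ => false) a b) := by
        intro g hg
        unfold Asum
        have hF := sum_split ({a} : Finset V) haS
          (fun ξ => cylWeight G θ ({a} : Finset V) ξ * Real.exp (tilt ({a} : Finset V) x ξ) * g ξ)
        rw [hF]
        have hemp : IsEmpty ↥((({a} : Finset V)).erase a) := by
          refine ⟨fun v => ?_⟩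
          have := v.2
          simp at this
        let _ : Unique (↥((({a} : Finset V)).erase a) → Bool) := Pi.uniqueOfIsEmpty _
        rw [Fintype.sum_unique]
        refine Finset.sum_congr rfl fun b _ => ?_
        rw [cylWeight_singleton, hg]
        simp [tilt]
      have hnum := hval (fun η => spin (η a)) (by intro η b; simp)
      have hden := hval (fun _ => 1) (by intro η b; rfl)
      rw [hnum, hden, Real.tanh_eq_sinh_div_cosh, Real.sinh_eq, Real.cosh_eq]
      simp only [Fintype.sum_bool, Function.update_self, spin, if_true, Bool.false_eq_true,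
        if_false]
      have e1 : (1 : ℝ) * x a = x a := one_mul _
      have e2 : (-1 : ℝ) * x a = -x a := by ring
      rw [e1, e2]
      congr 1 <;> ring
    · -- the inductive step: peel a leaf
      have hD := connected_singleton (G := G) a
      have hDS : ({a} : Finset V) ⊆ S := by simpa using haS
      obtain ⟨w, hwS, hwD, p, hpS, hwp, huniq, hconn⟩ := peel hT hD hS hDS hSa
      have hwa : w ≠ a := fun h => hwD (by simp [h])
      have hpw : p ≠ w := fun h => hwp.ne h.symm
      have hpS' : p ∈ S.erase w := Finset.mem_erase.2 ⟨hpw, hpS⟩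
      have haS' : a ∈ S.erase w := Finset.mem_erase.2 ⟨hwa.symm, haS⟩
      have hcard : (S.erase w).card < n := by
        rw [← hn]
        exact Finset.card_erase_lt_of_mem hwS
      set x' := Function.update x p (x p + hm θ (x w)) with hx'
      -- the message from the leaf is `x w`
      have hnbw : nbS G S w = {p} := by
        ext c
        rw [mem_nbS, Finset.mem_singleton]
        constructor
        · rintro ⟨_, hwc, hcS⟩
          exact huniq c hcS hwc
        · rintro rfl
          exact ⟨hwS, hwp, hpS⟩
      have hpmem : p ∈ nbS G S w := by rw [hnbw]; exact Finset.mem_singleton_self p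
      have hEw : E w p = x w := by
        rw [hE w hwS p hpmem, hnbw]
        simp
      -- neighbourhoods before and after
      have hnb_ne : ∀ b, b ≠ p → b ≠ w → nbS G (S.erase w) b = nbS G S b := by
        intro b hbp hbw
        ext c
        simp only [mem_nbS, Finset.mem_erase]
        constructor
        · rintro ⟨⟨_, hb⟩, hbc, _, hc⟩
          exact ⟨hb, hbc, hc⟩
        · rintro ⟨hb, hbc, hc⟩
          have hcw : c ≠ w := by
            rintro rfl
            exact hbp (huniq b hb hbc.symm)
          exact ⟨⟨hbw, hb⟩, hbc, hcw, hc⟩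
      have hnb_p : nbS G S p = insert w (nbS G (S.erase w) p) := by
        ext c
        simp only [mem_nbS, Finset.mem_insert, Finset.mem_erase]
        constructor
        · rintro ⟨hb, hbc, hc⟩
          by_cases hcw : c = w
          · exact Or.inl hcw
          · exact Or.inr ⟨⟨hpw, hb⟩, hbc, hcw, hc⟩
        · rintro (rfl | ⟨⟨_, hb⟩, hbc, _, hc⟩)
          · exact ⟨hpS, hwp.symm, hwS⟩
          · exact ⟨hb, hbc, hc⟩
      have hw_not : w ∉ nbS G (S.erase w) p := by
        intro h
        have := (mem_nbS.1 h).2.2
        exact (Finset.mem_erase.1 this).1 rfl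
      -- the message equations on the smaller set
      have hE' : ∀ b ∈ S.erase w, ∀ c ∈ nbS G (S.erase w) b,
          E b c = x' b + ∑ d ∈ (nbS G (S.erase w) b).erase c, hm θ (E d b) := by
        intro b hb c hc
        obtain ⟨hbw, hbS⟩ := Finset.mem_erase.1 hb
        by_cases hbp : b = p
        · subst hbp
          have hcw : w ≠ c := by
            rintro rfl
            exact hw_not hc
          have hcS : c ∈ nbS G S b := by
            rw [hnb_p]
            exact Finset.mem_insert_of_mem hc
          rw [hE b hbS c hcS, hnb_p, Finset.erase_insert_of_ne hcw,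
            Finset.sum_insert (fun h => hw_not (Finset.mem_of_mem_erase h)), hEw, hx',
            Function.update_self]
          ring
        · have hx'b : x' b = x b := by
            rw [hx', Function.update_of_ne hbp]
          rw [hx'b, hnb_ne b hbp hbw] at *
          exact hE b hbS c hc
      have hIH := ih _ hcard hconn x' hE' haS' rfl
      -- the leaf reduction of the two sums
      have hnum := Asum_leaf h0 h1 hwS hpS hwp huniq x (fun η => spin (η a))
        (fun η b => by simp only [Function.update_of_ne hwa.symm])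
      have hden := Asum_leaf h0 h1 hwS hpS hwp huniq x (fun _ => (1 : ℝ)) (fun _ _ => rfl)
      rw [hnum, hden, mul_div_mul_left _ _ (leafC_pos h0 h1 _).ne', ← hx', hIH]
      congr 1
      by_cases hap : a = p
      · subst hap
        rw [hnb_p, Finset.sum_insert hw_not, hEw, hx', Function.update_self]
        ring
      · rw [hnb_ne a hap hwa.symm, hx', Function.update_of_ne hap]

end

end Vale.Agent.Lib.P161
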