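import Vale.Agent.Lib.P161.Taylor
import Vale.Agent.Lib.P161.Compare

/-!
(D) At a fixed ball, the cavity chain is close to the exact messages of the field chain, for P161.
-/

open MeasureTheory ProbabilityTheory Finset

set_option linter.unusedSectionVars false
set_option linter.unusedVariables false

namespace Vale.Agent.Lib.P161

noncomputable section

variable {Ω V : Type*} [mΩ : MeasurableSpace Ω] {P : Measure Ω} [IsProbabilityMeasure P]
  {G : SimpleGraph V} [G.LocallyFinite] [DecidableEq V] {d : ℕ} {θ ε : ℝ} {g : ℕ → V → Ω → ℝ}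
  {N : V → Finset V}

/-! ### Square integrability -/

theorem memLp_xChain (hg : IsNoise P g) (h0 : 0 ≤ θ) (h1 : θ < 1) (N : V → Finset V) (L k : ℕ)
    (a : V) : MemLp (fun ω => xChain θ N L ε (fun i w => g i w ω) k a) 2 P := by
  induction k generalizing a with
  | zero => exact memLp_const _
  | succ k ih =>
    simp only [xChain]
    have hm : ∀ w, Measurable (fun ω => xChain θ N L ε (fun i w => g i w ω) k w) := fun w =>
      (measurable_xChain h0 h1 L k w).mono (pastS_le hg k) le_rfl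
    refine ((ih a).add ?_).add ((memLp_noise hg k a 2 (by simp)).const_mul _)
    refine MemLp.of_bound ?_ (|ε| * 1) (Filter.Eventually.of_forall fun ω => ?_)
    · exact ((continuous_tanh.measurable.comp
        (measurable_totField h0 h1 hm L a)).const_mul ε).aestronglyMeasurable
    · rw [Real.norm_eq_abs, abs_mul]
      exact mul_le_mul_of_nonneg_left (abs_tanh_le_one _) (abs_nonneg _)

theorem memLp_msg (h0 : 0 ≤ θ) (h1 : θ < 1) {x : Ω → V → ℝ}
    (hm : ∀ w, Measurable (fun ω => x ω w)) (hx : ∀ w, MemLp (fun ω => x ω w) 2 P) (L : ℕ)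
    (a b : V) : MemLp (fun ω => msg θ N (x ω) L a b) 2 P := by
  induction L generalizing a b with
  | zero => exact hx a
  | succ L ih =>
    simp only [msg]
    refine (hx a).add (memLp_finsetSum _ fun c _ => ?_)
    refine MemLp.of_le_mul (c := 1) (ih c a) ?_ (Filter.Eventually.of_forall fun ω => ?_)
    · exact ((continuous_hm h0 h1).measurable.comp (measurable_msg h0 h1 hm L c a)).aestronglyMeasurable
    · rw [Real.norm_eq_abs, Real.norm_eq_abs, one_mul]
      refine (abs_hm_le h0 h1 _).trans ?_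
      have := abs_nonneg (msg θ N (x ω) L c a)
      nlinarith

/-- The exact messages of the field chain form an adapted state. -/
theorem adapted_msg_xChain (hg : IsNoise P g) (h0 : 0 ≤ θ) (h1 : θ < 1) (L L' k : ℕ) :
    Adapted2 g k P (fun ω => msg θ N (xChain θ N L ε (fun i w => g i w ω) k) L') := by
  refine ⟨fun a b => measurable_msg h0 h1 (fun w => measurable_xChain h0 h1 L k w) L' a b,
    fun a b => memLp_msg h0 h1 (fun w => ?_) (fun w => memLp_xChain hg h0 h1 N L k w) L' a b⟩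
  exact (measurable_xChain h0 h1 L k w).mono (pastS_le hg k) le_rfl

/-! ### Moments of the noise -/

/-- The sixth moment of a standard Gaussian. -/
def m6 : ℝ := ∫ x, x ^ 6 ∂(gaussianReal 0 1)

theorem integrable_noise_pow6 (hg : IsNoise P g) (k : ℕ) (w : V) :
    Integrable (fun ω => g k w ω ^ 6) P := by
  have h := (memLp_noise hg k w 6 (by simp)).integrable_norm_pow (p := 6) (by norm_num)
  refine h.congr (Filter.Eventually.of_forall fun ω => ?_)
  simp only [Real.norm_eq_abs, Pi.pow_apply]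
  have : Even 6 := by decide
  rw [this.pow_abs]

theorem integral_noise_pow6 (hg : IsNoise P g) (k : ℕ) (w : V) :
    ∫ ω, g k w ω ^ 6 ∂P = m6 := by
  unfold m6
  rw [← hg.law k w, integral_map (hg.meas k w).aemeasurable (by fun_prop)]

theorem m6_nonneg : 0 ≤ m6 := integral_nonneg fun x => by positivity

/-- The size of the noise at a step on the ball. -/
def noiseSize (S : Finset V) (h : V → ℝ) : ℝ := 1 + ∑ w ∈ S, |h w|

theorem one_le_noiseSize (S : Finset V) (h : V → ℝ) : 1 ≤ noiseSize S h := by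
  unfold noiseSize
  have : 0 ≤ ∑ w ∈ S, |h w| := sum_nonneg fun _ _ => abs_nonneg _
  linarith

theorem noiseSize_pow6_le (S : Finset V) (h : V → ℝ) :
    noiseSize S h ^ 6 ≤ 32 * (1 + (S.card : ℝ) ^ 5 * ∑ w ∈ S, h w ^ 6) := by
  unfold noiseSize
  set X := ∑ w ∈ S, |h w|
  have hX : 0 ≤ X := sum_nonneg fun _ _ => abs_nonneg _
  have h1 : (1 + X) ^ 6 ≤ 32 * (1 + X ^ 6) := by
    have h2 := pow_sum_div_card_le_sum_pow (s := (Finset.univ : Finset (Fin 2)))
      (f := fun i => if i = 0 then (1 : ℝ) else X) (by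
        intro i _; by_cases hi : i = 0 <;> simp [hi, hX]) 5
    simp only [Fin.sum_univ_two, Fin.isValue, if_true, one_ne_zero, if_false, Finset.card_univ,
      Fintype.card_fin] at h2
    have e : ((2 : ℕ) : ℝ) ^ 5 = 32 := by norm_num
    rw [e, div_le_iff₀ (by norm_num)] at h2
    simp only [one_pow] at h2
    have h2' : (1 + X) ^ 6 ≤ (1 + X ^ 6) * 32 := h2
    linarith
  have h3 : X ^ 6 ≤ (S.card : ℝ) ^ 5 * ∑ w ∈ S, h w ^ 6 := by
    by_cases hS : S.card = 0
    · have hS' : S = ∅ := Finset.card_eq_zero.1 hS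
      simp [X, hS']
    · have hpos : 0 < (S.card : ℝ) := by
        exact_mod_cast Nat.pos_of_ne_zero hS
      have h2 := pow_sum_div_card_le_sum_pow (s := S) (f := fun w => |h w|)
        (fun _ _ => abs_nonneg _) 5
      rw [div_le_iff₀ (by positivity)] at h2
      have e : ∀ w, |h w| ^ (5 + 1) = h w ^ 6 := fun w => by
        have : Even 6 := by decide
        exact this.pow_abs _
      simp only [e] at h2
      rw [mul_comm]
      exact h2
  have h4 : 0 ≤ (S.card : ℝ) ^ 5 * ∑ w ∈ S, h w ^ 6 :=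
    mul_nonneg (by positivity) (sum_nonneg fun w _ => by positivity)
  nlinarith

theorem measurable_noiseSize (hg : IsNoise P g) (S : Finset V) (k : ℕ) :
    Measurable (fun ω => noiseSize S (fun w => g k w ω)) := by
  unfold noiseSize
  exact measurable_const.add (Finset.measurable_fun_sum _ fun w _ => (hg.meas k w).abs)

/-- Integrability of the sixth power of the noise size. -/
theorem integrable_noiseSize_pow6 (hg : IsNoise P g) (S : Finset V) (k : ℕ) :
    Integrable (fun ω => noiseSize S (fun w => g k w ω) ^ 6) P := by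
  refine Integrable.mono' (g := fun ω => 32 * (1 + (S.card : ℝ) ^ 5 * ∑ w ∈ S, g k w ω ^ 6)) ?_ ?_ ?_
  · refine ((integrable_const (1 : ℝ)).add ?_).const_mul _
    exact (integrable_finset_sum _ fun w _ => integrable_noise_pow6 hg k w).const_mul _
  · exact ((measurable_noiseSize hg S k).pow_const 6).aestronglyMeasurable
  · refine Filter.Eventually.of_forall fun ω => ?_
    rw [Real.norm_eq_abs, abs_of_nonneg (by
      have := one_le_noiseSize S (fun w => g k w ω); positivity)]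
    exact noiseSize_pow6_le S _

/-- The constant bounding the sixth moment of the noise size. -/
def m6c (S : Finset V) : ℝ := 32 * (1 + (S.card : ℝ) ^ 5 * ((S.card : ℝ) * m6))

theorem m6c_nonneg (S : Finset V) : 0 ≤ m6c S := by
  have := m6_nonneg
  unfold m6c
  positivity

theorem integral_noiseSize_pow6_le (hg : IsNoise P g) (S : Finset V) (k : ℕ) :
    ∫ ω, noiseSize S (fun w => g k w ω) ^ 6 ∂P ≤ m6c S := by
  have hi : Integrable (fun ω => 32 * (1 + (S.card : ℝ) ^ 5 * ∑ w ∈ S, g k w ω ^ 6)) P :=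
    ((integrable_const (1 : ℝ)).add
      ((integrable_finset_sum _ fun w _ => integrable_noise_pow6 hg k w).const_mul _)).const_mul _
  refine (integral_mono (integrable_noiseSize_pow6 hg S k) hi
    (fun ω => noiseSize_pow6_le S _)).trans (le_of_eq ?_)
  have i2 : Integrable (fun ω => (S.card : ℝ) ^ 5 * ∑ w ∈ S, g k w ω ^ 6) P :=
    (integrable_finset_sum _ fun w _ => integrable_noise_pow6 hg k w).const_mul _
  rw [integral_const_mul, integral_add (integrable_const _) i2, integral_const_mul,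
    integral_finset_sum _ fun w _ => integrable_noise_pow6 hg k w]
  simp [integral_noise_pow6 hg k, m6c]

/-! ### Second moment of the second derivative recursion -/

theorem Lin_eq_sum_coef (W : V → V → ℝ) (h : V → ℝ) (ℓ : ℕ) (a b : V) :
    Lin N W h ℓ a b = ∑ w ∈ coefSupp N ℓ a b, coef N W ℓ a b w * h w := by
  rw [← lin_coef, lin_eq_sum _ _ (support_coef_subset ℓ a b)]

theorem TreeParams.abs_coef_apply_le (hp : TreeParams G d θ) (hN : SubN G N) (η : V → V → ℝ)
    (ℓ : ℕ) {a b : V} (hab : G.Adj a b) (w : V) : |coef N (wgt θ η) ℓ a b w| ≤ 1 + K2 θ d := by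
  have h := abs_apply_le_sqrt_nsq (coef N (wgt θ η) ℓ a b) w
  rw [nsq_coef hp.tree hN ℓ a b hab] at h
  have h2 := hp.Nsq_wgt_le (η := η) hN ℓ hab
  have h3 : coef N (wgt θ η) ℓ a b w ^ 2 ≤ K2 θ d := h.trans h2
  rcases abs_cases (coef N (wgt θ η) ℓ a b w) with ⟨h4, _⟩ | ⟨h4, _⟩ <;> rw [h4] <;>
    nlinarith [sq_nonneg (coef N (wgt θ η) ℓ a b w - 1),
      sq_nonneg (coef N (wgt θ η) ℓ a b w + 1)]

theorem integrable_mul_bdd_meas {B f : Ω → ℝ} {C : ℝ} (hB : Integrable B P) (hf : Measurable f)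
    (hC : ∀ ω, |f ω| ≤ C) : Integrable (fun ω => B ω * f ω) P :=
  hB.mul_bdd (c := C) hf.aestronglyMeasurable
    (Filter.Eventually.of_forall fun ω => by simpa using hC ω)

theorem measurable_Chi {m : MeasurableSpace Ω} {W W2 : Ω → V → V → ℝ} {h : Ω → V → ℝ}
    (hW : ∀ c a, Measurable[m] (fun ω => W ω c a)) (hW2 : ∀ c a, Measurable[m] (fun ω => W2 ω c a))
    (hh : ∀ w, Measurable[m] (fun ω => h ω w)) (ℓ : ℕ) (a b : V) :
    Measurable[m] (fun ω => Chi N (W ω) (W2 ω) (h ω) ℓ a b) := by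
  induction ℓ generalizing a b with
  | zero => exact measurable_const
  | succ ℓ ih =>
    simp only [Chi]
    exact Finset.measurable_fun_sum _ fun c _ =>
      ((hW2 c a).mul ((measurable_Lin hW hh ℓ c a).pow_const 2)).add ((hW c a).mul (ih c a))

theorem measurable_Tee {m : MeasurableSpace Ω} {W W2 : Ω → V → V → ℝ}
    (hW : ∀ c a, Measurable[m] (fun ω => W ω c a)) (hW2 : ∀ c a, Measurable[m] (fun ω => W2 ω c a))
    (ℓ : ℕ) (a b : V) : Measurable[m] (fun ω => Tee N (W ω) (W2 ω) ℓ a b) := by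
  induction ℓ generalizing a b with
  | zero => exact measurable_const
  | succ ℓ ih =>
    simp only [Tee]
    exact Finset.measurable_fun_sum _ fun c _ =>
      (((hW2 c a).const_mul _).mul (measurable_Nsq hW ℓ c a)).add ((hW c a).mul (ih c a))

section Moment

variable {k : ℕ}

/-- Second moment of the linear term in the random direction `ε m + √ε g`. -/
theorem lin_moment (hp : TreeParams G d θ) (hN : SubN G N) (hg : IsNoise P g) (hε : 0 ≤ ε)
    {η : Ω → V → V → ℝ} (hη : ∀ i j, Measurable[pastS g k] (fun ω => η ω i j))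
    {m : Ω → V → ℝ} (hm : ∀ w, Measurable[pastS g k] (fun ω => m ω w)) {Cm : ℝ} (ℓ : ℕ) {c a : V}
    (hca : G.Adj c a) (hCm : ∀ ω, |Lin N (wgt θ (η ω)) (m ω) ℓ c a| ≤ Cm)
    {B : Ω → ℝ} (hBm : Measurable[pastS g k] B) (hB : Integrable B P) :
    Integrable (fun ω => B ω * (Lin N (wgt θ (η ω))
        (fun w => ε * m ω w + Real.sqrt ε * g k w ω) ℓ c a) ^ 2) P ∧
    ∫ ω, B ω * (Lin N (wgt θ (η ω)) (fun w => ε * m ω w + Real.sqrt ε * g k w ω) ℓ c a) ^ 2 ∂P
      = ∫ ω, B ω * (ε ^ 2 * (Lin N (wgt θ (η ω)) (m ω) ℓ c a) ^ 2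
          + ε * Nsq N (wgt θ (η ω)) ℓ c a) ∂P := by
  have hW : ∀ c a, Measurable[pastS g k] (fun ω => wgt θ (η ω) c a) := fun c a =>
    (continuous_hd1 hp.nonneg hp.lt_one).measurable.comp (hη c a)
  have hle := pastS_le hg k
  set F := coefSupp N ℓ c a with hF
  set cf : V → Ω → ℝ := fun w ω => coef N (wgt θ (η ω)) ℓ c a w with hcf
  have hcm : ∀ w, Measurable[pastS g k] (cf w) := fun w => measurable_coef_apply hW ℓ c a w
  have hcb : ∀ w ω, |cf w ω| ≤ 1 + K2 θ d := fun w ω => hp.abs_coef_apply_le hN (η ω) ℓ hca w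
  set Lm : Ω → ℝ := fun ω => Lin N (wgt θ (η ω)) (m ω) ℓ c a with hLm
  have hLmm : Measurable[pastS g k] Lm := measurable_Lin hW hm ℓ c a
  set Lg : Ω → ℝ := fun ω => ∑ w ∈ F, cf w ω * g k w ω with hLg
  have hLgeq : ∀ ω, Lin N (wgt θ (η ω)) (fun w => g k w ω) ℓ c a = Lg ω := fun ω =>
    Lin_eq_sum_coef _ _ ℓ c a
  have hexp : ∀ ω, B ω * (Lin N (wgt θ (η ω)) (fun w => ε * m ω w + Real.sqrt ε * g k w ω) ℓ c a) ^ 2
      = ε ^ 2 * (B ω * Lm ω ^ 2) + (2 * ε * Real.sqrt ε) * ((B ω * Lm ω) * Lg ω)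
        + ε * (B ω * Lg ω ^ 2) := by
    intro ω
    rw [Lin_add_smul (fun w => m ω w) (fun w => g k w ω) ε (Real.sqrt ε) ℓ c a, hLgeq]
    have hs : Real.sqrt ε ^ 2 = ε := Real.sq_sqrt hε
    simp only [hLm]
    calc _ = B ω * (ε ^ 2 * Lin N (wgt θ (η ω)) (m ω) ℓ c a ^ 2
          + 2 * ε * Real.sqrt ε * (Lin N (wgt θ (η ω)) (m ω) ℓ c a * Lg ω)
          + Real.sqrt ε ^ 2 * Lg ω ^ 2) := by ring
      _ = _ := by rw [hs]; ring
  have hBLm : Integrable (fun ω => B ω * Lm ω) P :=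
    integrable_mul_bdd_meas hB (hLmm.mono hle le_rfl) hCm
  have hBLm2 : Integrable (fun ω => B ω * Lm ω ^ 2) P := by
    refine integrable_mul_bdd_meas (C := Cm ^ 2) hB ((hLmm.mono hle le_rfl).pow_const 2) fun ω => ?_
    rw [abs_pow]
    exact pow_le_pow_left₀ (abs_nonneg _) (hCm ω) 2
  have hBLmLg : Integrable (fun ω => (B ω * Lm ω) * Lg ω) P :=
    integrable_mul_lin hg hcm hcb (hBm.mul hLmm) hBLm
  have hBLg2 : Integrable (fun ω => B ω * Lg ω ^ 2) P :=
    integrable_mul_lin_sq hg hcm hcb hBm hB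
  have hzero : ∫ ω, (B ω * Lm ω) * Lg ω ∂P = 0 := one_step_lin hg hcm hcb (hBm.mul hLmm) hBLm
  have hquad : ∫ ω, B ω * Lg ω ^ 2 ∂P = ∫ ω, B ω * Nsq N (wgt θ (η ω)) ℓ c a ∂P := by
    rw [show ∫ ω, B ω * Lg ω ^ 2 ∂P = ∫ ω, B ω * ∑ w ∈ F, cf w ω ^ 2 ∂P from
      one_step_quad hg hcm hcb hBm hB]
    refine integral_congr_ae (Filter.Eventually.of_forall fun ω => ?_)
    show B ω * ∑ w ∈ F, cf w ω ^ 2 = B ω * Nsq N (wgt θ (η ω)) ℓ c a
    rw [← nsq_coef hp.tree hN ℓ c a hca, nsq_eq_sum _ (support_coef_subset ℓ c a)]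
  have hNsqI : Integrable (fun ω => B ω * Nsq N (wgt θ (η ω)) ℓ c a) P := by
    refine integrable_mul_bdd_meas (C := K2 θ d) hB
      ((measurable_Nsq hW ℓ c a).mono hle le_rfl) fun ω => ?_
    rw [abs_of_nonneg (hp.Nsq_wgt_nonneg hN (η ω) ℓ hca)]
    exact hp.Nsq_wgt_le hN (η ω) ℓ hca
  simp only [hexp]
  have i1 : Integrable (fun ω => ε ^ 2 * (B ω * Lm ω ^ 2)) P := hBLm2.const_mul _
  have i2 : Integrable (fun ω => (2 * ε * Real.sqrt ε) * ((B ω * Lm ω) * Lg ω)) P :=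
    hBLmLg.const_mul _
  have i3 : Integrable (fun ω => ε * (B ω * Lg ω ^ 2)) P := hBLg2.const_mul _
  have i12 : Integrable (fun ω => ε ^ 2 * (B ω * Lm ω ^ 2)
      + (2 * ε * Real.sqrt ε) * ((B ω * Lm ω) * Lg ω)) P := i1.add i2
  refine ⟨i12.add i3, ?_⟩
  rw [integral_add i12 i3, integral_add i1 i2, integral_const_mul, integral_const_mul,
    integral_const_mul, hzero, hquad]
  have e : ∀ ω, B ω * (ε ^ 2 * Lm ω ^ 2 + ε * Nsq N (wgt θ (η ω)) ℓ c a)
      = ε ^ 2 * (B ω * Lm ω ^ 2) + ε * (B ω * Nsq N (wgt θ (η ω)) ℓ c a) := fun ω => by ring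
  have e3 : ∫ ω, B ω * (ε ^ 2 * (Lin N (wgt θ (η ω)) (m ω) ℓ c a) ^ 2
      + ε * Nsq N (wgt θ (η ω)) ℓ c a) ∂P
      = ∫ ω, (ε ^ 2 * (B ω * Lm ω ^ 2) + ε * (B ω * Nsq N (wgt θ (η ω)) ℓ c a)) ∂P :=
    integral_congr_ae (Filter.Eventually.of_forall e)
  rw [e3]
  have i5 : Integrable (fun ω => ε ^ 2 * (B ω * Lm ω ^ 2)) P := hBLm2.const_mul _
  have i6 : Integrable (fun ω => ε * (B ω * Nsq N (wgt θ (η ω)) ℓ c a)) P := hNsqI.const_mul _
  rw [integral_add i5 i6, integral_const_mul, integral_const_mul]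
  ring

theorem TreeParams.mem_ball_of_nbS (o : V) (R : ℕ) {a c : V}
    (hc : c ∈ nbS G (ballF G o R) a) : c ∈ ballF G o R := by
  classical
  unfold nbS at hc
  split_ifs at hc with ha
  · exact (mem_filter.1 hc).2
  · simp at hc

theorem abs_wgt_le (h0 : 0 ≤ θ) (h1 : θ < 1) (η : V → V → ℝ) (c a : V) : |wgt θ η c a| ≤ 1 := by
  simp only [wgt]
  rw [abs_of_nonneg (hd1_nonneg h0 h1 _)]
  exact (hd1_le h0 h1 _).trans h1.le

theorem abs_wgt2_le (h0 : 0 ≤ θ) (h1 : θ < 1) (η : V → V → ℝ) (c a : V) : |wgt2 θ η c a| ≤ 2 := by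
  simp only [wgt2]
  exact abs_hd2_le h0 h1 _

/-- The expectation of the second derivative recursion in the random direction
`ε m + √ε g`, against any adapted integrable weight. -/
theorem chi_moment (hp : TreeParams G d θ) (o : V) (R : ℕ) (hg : IsNoise P g) (hε : 0 ≤ ε)
    {η : Ω → V → V → ℝ} (hη : ∀ i j, Measurable[pastS g k] (fun ω => η ω i j))
    {m : Ω → V → ℝ} (hm : ∀ w, Measurable[pastS g k] (fun ω => m ω w)) (hm1 : ∀ ω w, |m ω w| ≤ 1)
    (ℓ : ℕ) (B : Ω → ℝ) (hBm : Measurable[pastS g k] B) (hB : Integrable B P) (a b : V)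
    (hab : G.Adj a b) (ha : a ∈ ballF G o R) :
    Integrable (fun ω => B ω * Chi (nbS G (ballF G o R)) (wgt θ (η ω)) (wgt2 θ (η ω))
        (fun w => ε * m ω w + Real.sqrt ε * g k w ω) ℓ a b) P ∧
    ∫ ω, B ω * Chi (nbS G (ballF G o R)) (wgt θ (η ω)) (wgt2 θ (η ω))
        (fun w => ε * m ω w + Real.sqrt ε * g k w ω) ℓ a b ∂P
      = ∫ ω, B ω * (ε ^ 2 * Chi (nbS G (ballF G o R)) (wgt θ (η ω)) (wgt2 θ (η ω)) (m ω) ℓ a b
          + 2 * ε * Tee (nbS G (ballF G o R)) (wgt θ (η ω)) (wgt2 θ (η ω)) ℓ a b) ∂P := by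
  set S := ballF G o R with hS
  set N := nbS G S with hNdef
  have hN : SubN G N := subN_nbS S
  have hle := pastS_le hg k
  have hW : ∀ c a, Measurable[pastS g k] (fun ω => wgt θ (η ω) c a) := fun c a =>
    (continuous_hd1 hp.nonneg hp.lt_one).measurable.comp (hη c a)
  have hW2 : ∀ c a, Measurable[pastS g k] (fun ω => wgt2 θ (η ω) c a) := fun c a =>
    (continuous_hd2 hp.nonneg hp.lt_one).measurable.comp (hη c a)
  have hsumm : ∀ ω, ∑ w ∈ S, |m ω w| ≤ S.card := by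
    intro ω
    calc ∑ w ∈ S, |m ω w| ≤ ∑ _w ∈ S, (1 : ℝ) := sum_le_sum fun w _ => hm1 ω w
      _ = S.card := by simp
  induction ℓ generalizing B a b with
  | zero =>
    constructor
    · simp only [Chi, mul_zero]
      exact integrable_zero _ _ _
    · simp [Chi, Tee]
  | succ ℓ ih =>
    obtain ⟨CL, hCL0, hCL⟩ := abs_Lin_le hp o R ℓ
    obtain ⟨Cχ, hCχ0, hCχ⟩ := abs_Chi_le hp o R ℓ
    obtain ⟨CT, hCT0, hCT⟩ := abs_Tee_le hp o R ℓ
    have hchild : ∀ c ∈ (N a).erase b, G.Adj c a ∧ c ∈ S := fun c hc =>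
      ⟨(hN a c (mem_of_mem_erase hc)).symm, TreeParams.mem_ball_of_nbS o R (mem_of_mem_erase hc)⟩
    have hLbd : ∀ c ∈ (N a).erase b, ∀ ω, |Lin N (wgt θ (η ω)) (m ω) ℓ c a| ≤ CL * S.card := by
      intro c hc ω
      have := hCL (η ω) (m ω) c a (hchild c hc).2
      exact this.trans (mul_le_mul_of_nonneg_left (hsumm ω) hCL0.le)
    have hχbd : ∀ c ∈ (N a).erase b, ∀ ω,
        |Chi N (wgt θ (η ω)) (wgt2 θ (η ω)) (m ω) ℓ c a| ≤ Cχ * (S.card : ℝ) ^ 2 := by
      intro c hc ω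
      have := hCχ (η ω) (m ω) c a (hchild c hc).2
      refine this.trans (mul_le_mul_of_nonneg_left ?_ hCχ0.le)
      exact pow_le_pow_left₀ (sum_nonneg fun _ _ => abs_nonneg _) (hsumm ω) 2
    have hTbd : ∀ c ∈ (N a).erase b, ∀ ω, |Tee N (wgt θ (η ω)) (wgt2 θ (η ω)) ℓ c a| ≤ CT :=
      fun c hc ω => hCT (η ω) c a (hchild c hc).2
    -- integrability of the pieces
    have hBW2 : ∀ c, Integrable (fun ω => B ω * wgt2 θ (η ω) c a) P := fun c =>
      integrable_mul_bdd_meas hB ((hW2 c a).mono hle le_rfl)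
        (fun ω => abs_wgt2_le hp.nonneg hp.lt_one (η ω) c a)
    have hBW : ∀ c, Integrable (fun ω => B ω * wgt θ (η ω) c a) P := fun c =>
      integrable_mul_bdd_meas hB ((hW c a).mono hle le_rfl)
        (fun ω => abs_wgt_le hp.nonneg hp.lt_one (η ω) c a)
    have hterm : ∀ c ∈ (N a).erase b,
        Integrable (fun ω => (B ω * wgt2 θ (η ω) c a) * (Lin N (wgt θ (η ω))
          (fun w => ε * m ω w + Real.sqrt ε * g k w ω) ℓ c a) ^ 2
          + (B ω * wgt θ (η ω) c a) * Chi N (wgt θ (η ω)) (wgt2 θ (η ω))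
            (fun w => ε * m ω w + Real.sqrt ε * g k w ω) ℓ c a) P ∧
        ∫ ω, ((B ω * wgt2 θ (η ω) c a) * (Lin N (wgt θ (η ω))
          (fun w => ε * m ω w + Real.sqrt ε * g k w ω) ℓ c a) ^ 2
          + (B ω * wgt θ (η ω) c a) * Chi N (wgt θ (η ω)) (wgt2 θ (η ω))
            (fun w => ε * m ω w + Real.sqrt ε * g k w ω) ℓ c a) ∂P
        = ∫ ω, ((B ω * wgt2 θ (η ω) c a) * (ε ^ 2 * (Lin N (wgt θ (η ω)) (m ω) ℓ c a) ^ 2
              + ε * Nsq N (wgt θ (η ω)) ℓ c a)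
            + (B ω * wgt θ (η ω) c a) * (ε ^ 2 * Chi N (wgt θ (η ω)) (wgt2 θ (η ω)) (m ω) ℓ c a
              + 2 * ε * Tee N (wgt θ (η ω)) (wgt2 θ (η ω)) ℓ c a)) ∂P := by
      intro c hc
      obtain ⟨hca, hcS⟩ := hchild c hc
      obtain ⟨i1, e1⟩ := lin_moment (Cm := CL * S.card) (B := fun ω => B ω * wgt2 θ (η ω) c a)
        hp hN hg hε hη hm ℓ hca (hLbd c hc) (hBm.mul (hW2 c a)) (hBW2 c)
      obtain ⟨i2, e2⟩ := ih (fun ω => B ω * wgt θ (η ω) c a) (hBm.mul (hW c a)) (hBW c) c a hca hcS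
      refine ⟨i1.add i2, ?_⟩
      rw [integral_add i1 i2, e1, e2]
      have hbd1 : Integrable (fun ω => (B ω * wgt2 θ (η ω) c a)
          * (ε ^ 2 * (Lin N (wgt θ (η ω)) (m ω) ℓ c a) ^ 2
              + ε * Nsq N (wgt θ (η ω)) ℓ c a)) P := by
        refine integrable_mul_bdd_meas (C := ε ^ 2 * (CL * S.card) ^ 2 + ε * K2 θ d) (hBW2 c) ?_ ?_
        · exact ((((measurable_Lin hW hm ℓ c a).pow_const 2).const_mul _).add
            ((measurable_Nsq hW ℓ c a).const_mul _)).mono hle le_rfl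
        · intro ω
          refine (abs_add_le _ _).trans (add_le_add ?_ ?_)
          · rw [abs_mul, abs_of_nonneg (by positivity : 0 ≤ ε ^ 2), abs_pow]
            exact mul_le_mul_of_nonneg_left
              (pow_le_pow_left₀ (abs_nonneg _) (hLbd c hc ω) 2) (by positivity)
          · rw [abs_mul, abs_of_nonneg hε, abs_of_nonneg (hp.Nsq_wgt_nonneg hN (η ω) ℓ hca)]
            exact mul_le_mul_of_nonneg_left (hp.Nsq_wgt_le hN (η ω) ℓ hca) hε
      have hbd2 : Integrable (fun ω => (B ω * wgt θ (η ω) c a)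
          * (ε ^ 2 * Chi N (wgt θ (η ω)) (wgt2 θ (η ω)) (m ω) ℓ c a
              + 2 * ε * Tee N (wgt θ (η ω)) (wgt2 θ (η ω)) ℓ c a)) P := by
        refine integrable_mul_bdd_meas (C := ε ^ 2 * (Cχ * (S.card : ℝ) ^ 2) + 2 * ε * CT) (hBW c) ?_ ?_
        · exact (((measurable_Chi hW hW2 hm ℓ c a).const_mul _).add
            ((measurable_Tee hW hW2 ℓ c a).const_mul _)).mono hle le_rfl
        · intro ω
          refine (abs_add_le _ _).trans (add_le_add ?_ ?_)
          · rw [abs_mul, abs_of_nonneg (by positivity : 0 ≤ ε ^ 2)]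
            exact mul_le_mul_of_nonneg_left (hχbd c hc ω) (by positivity)
          · rw [abs_mul, abs_of_nonneg (by positivity : 0 ≤ 2 * ε)]
            exact mul_le_mul_of_nonneg_left (hTbd c hc ω) (by positivity)
      rw [integral_add hbd1 hbd2]
    have e1 : ∀ ω, B ω * Chi N (wgt θ (η ω)) (wgt2 θ (η ω))
        (fun w => ε * m ω w + Real.sqrt ε * g k w ω) (ℓ + 1) a b
        = ∑ c ∈ (N a).erase b, ((B ω * wgt2 θ (η ω) c a) * (Lin N (wgt θ (η ω))
          (fun w => ε * m ω w + Real.sqrt ε * g k w ω) ℓ c a) ^ 2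
          + (B ω * wgt θ (η ω) c a) * Chi N (wgt θ (η ω)) (wgt2 θ (η ω))
            (fun w => ε * m ω w + Real.sqrt ε * g k w ω) ℓ c a) := by
      intro ω
      simp only [Chi]
      rw [mul_sum]
      exact sum_congr rfl fun c _ => by ring
    have e2 : ∀ ω, B ω * (ε ^ 2 * Chi N (wgt θ (η ω)) (wgt2 θ (η ω)) (m ω) (ℓ + 1) a b
          + 2 * ε * Tee N (wgt θ (η ω)) (wgt2 θ (η ω)) (ℓ + 1) a b)
        = ∑ c ∈ (N a).erase b, ((B ω * wgt2 θ (η ω) c a) * (ε ^ 2 * (Lin N (wgt θ (η ω)) (m ω) ℓ c a) ^ 2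
              + ε * Nsq N (wgt θ (η ω)) ℓ c a)
            + (B ω * wgt θ (η ω) c a) * (ε ^ 2 * Chi N (wgt θ (η ω)) (wgt2 θ (η ω)) (m ω) ℓ c a
              + 2 * ε * Tee N (wgt θ (η ω)) (wgt2 θ (η ω)) ℓ c a)) := by
      intro ω
      simp only [Chi, Tee]
      rw [mul_sum, mul_sum, ← sum_add_distrib, mul_sum]
      refine sum_congr rfl fun c _ => by ring
    simp only [e1, e2]
    have hint : ∀ c ∈ (N a).erase b, Integrable (fun ω => (B ω * wgt2 θ (η ω) c a) *
        (ε ^ 2 * (Lin N (wgt θ (η ω)) (m ω) ℓ c a) ^ 2 + ε * Nsq N (wgt θ (η ω)) ℓ c a)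
        + (B ω * wgt θ (η ω) c a) * (ε ^ 2 * Chi N (wgt θ (η ω)) (wgt2 θ (η ω)) (m ω) ℓ c a
              + 2 * ε * Tee N (wgt θ (η ω)) (wgt2 θ (η ω)) ℓ c a)) P := by
      intro c hc
      obtain ⟨hca, hcS⟩ := hchild c hc
      have hbd1 : Integrable (fun ω => (B ω * wgt2 θ (η ω) c a)
          * (ε ^ 2 * (Lin N (wgt θ (η ω)) (m ω) ℓ c a) ^ 2
              + ε * Nsq N (wgt θ (η ω)) ℓ c a)) P := by
        refine integrable_mul_bdd_meas (C := ε ^ 2 * (CL * S.card) ^ 2 + ε * K2 θ d) (hBW2 c) ?_ ?_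
        · exact ((((measurable_Lin hW hm ℓ c a).pow_const 2).const_mul _).add
            ((measurable_Nsq hW ℓ c a).const_mul _)).mono hle le_rfl
        · intro ω
          refine (abs_add_le _ _).trans (add_le_add ?_ ?_)
          · rw [abs_mul, abs_of_nonneg (by positivity : 0 ≤ ε ^ 2), abs_pow]
            exact mul_le_mul_of_nonneg_left
              (pow_le_pow_left₀ (abs_nonneg _) (hLbd c hc ω) 2) (by positivity)
          · rw [abs_mul, abs_of_nonneg hε, abs_of_nonneg (hp.Nsq_wgt_nonneg hN (η ω) ℓ hca)]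
            exact mul_le_mul_of_nonneg_left (hp.Nsq_wgt_le hN (η ω) ℓ hca) hε
      have hbd2 : Integrable (fun ω => (B ω * wgt θ (η ω) c a)
          * (ε ^ 2 * Chi N (wgt θ (η ω)) (wgt2 θ (η ω)) (m ω) ℓ c a
              + 2 * ε * Tee N (wgt θ (η ω)) (wgt2 θ (η ω)) ℓ c a)) P := by
        refine integrable_mul_bdd_meas (C := ε ^ 2 * (Cχ * (S.card : ℝ) ^ 2) + 2 * ε * CT) (hBW c) ?_ ?_
        · exact (((measurable_Chi hW hW2 hm ℓ c a).const_mul _).add
            ((measurable_Tee hW hW2 ℓ c a).const_mul _)).mono hle le_rfl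
        · intro ω
          refine (abs_add_le _ _).trans (add_le_add ?_ ?_)
          · rw [abs_mul, abs_of_nonneg (by positivity : 0 ≤ ε ^ 2)]
            exact mul_le_mul_of_nonneg_left (hχbd c hc ω) (by positivity)
          · rw [abs_mul, abs_of_nonneg (by positivity : 0 ≤ 2 * ε)]
            exact mul_le_mul_of_nonneg_left (hTbd c hc ω) (by positivity)
      exact hbd1.add hbd2
    refine ⟨integrable_finset_sum _ fun c hc => (hterm c hc).1, ?_⟩
    rw [integral_finset_sum _ fun c hc => (hterm c hc).1, integral_finset_sum _ hint]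
    exact sum_congr rfl fun c hc => (hterm c hc).2

end Moment

/-! ### The error of the field chain messages against one cavity step -/

section Err

variable (θ ε)

/-- The direction of one step of the field chain. -/
def dirOf (N : V → Finset V) (L : ℕ) (x h : V → ℝ) (w : V) : ℝ :=
  ε * Real.tanh (totField θ N x L w) + Real.sqrt ε * h w

/-- The error of the exact messages after one step of the field chain against one cavity step. -/
def errK (N : V → Finset V) (L : ℕ) (x h : V → ℝ) (a b : V) : ℝ :=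
  msg θ N (fun w => x w + dirOf θ ε N L x h w) L a b - cavStep θ N L ε (msg θ N x L) h a b

/-- The Taylor remainder of the messages. -/
def remK (N : V → Finset V) (L : ℕ) (x h : V → ℝ) (a b : V) : ℝ :=
  msg θ N (fun w => x w + dirOf θ ε N L x h w) L a b - msg θ N x L a b
    - Lin N (wgt θ (msg θ N x L)) (dirOf θ ε N L x h) L a b
    - (1 / 2) * Chi N (wgt θ (msg θ N x L)) (wgt2 θ (msg θ N x L)) (dirOf θ ε N L x h) L a b

variable {θ ε}

theorem errK_eq (hp : TreeParams G d θ) (o : V) (R : ℕ) (x h : V → ℝ) (a b : V)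
    (hab : G.Adj a b) (ha : a ∈ ballF G o R) (hb : b ∈ ballF G o R) :
    errK θ ε (nbS G (ballF G o R)) (2 * R + 1) x h a b
      = remK θ ε (nbS G (ballF G o R)) (2 * R + 1) x h a b
        + (1 / 2) * Chi (nbS G (ballF G o R)) (wgt θ (msg θ (nbS G (ballF G o R)) x (2 * R + 1)))
            (wgt2 θ (msg θ (nbS G (ballF G o R)) x (2 * R + 1)))
            (dirOf θ ε (nbS G (ballF G o R)) (2 * R + 1) x h) (2 * R + 1) a b
        - ε * Tee (nbS G (ballF G o R)) (wgt θ (msg θ (nbS G (ballF G o R)) x (2 * R + 1)))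
            (wgt2 θ (msg θ (nbS G (ballF G o R)) x (2 * R + 1))) (2 * R + 1) a b := by
  have hT := tee_identity (ℓ := 2 * R + 1) hp o R x a b hab ha hb
  have hF := totField_eq hp o R x a b hab ha hb
  dsimp only at hT hF
  set N := nbS G (ballF G o R)
  set L := 2 * R + 1
  set E := msg θ N x L
  have hL : Lin N (wgt θ E) (dirOf θ ε N L x h) L a b
      = ε * Lin N (wgt θ E) (fun w => Real.tanh (totField θ N x L w)) L a b
        + Real.sqrt ε * Lin N (wgt θ E) h L a b := by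
    exact Lin_add_smul _ _ _ _ _ _ _
  unfold errK remK
  rw [cavStep_eq]
  unfold driftOf
  rw [← hF, hL]
  linear_combination ε * hT

theorem sum_abs_dirOf_le (N : V → Finset V) (L : ℕ) (S : Finset V) (x h : V → ℝ) (hε : 0 < ε)
    (hε1 : ε ≤ 1) :
    ∑ w ∈ S, |dirOf θ ε N L x h w| ≤ Real.sqrt ε * (((S.card : ℝ) + 1) * noiseSize S h) := by
  have hs0 : 0 ≤ Real.sqrt ε := Real.sqrt_nonneg _
  have hs : ε ≤ Real.sqrt ε := by
    have h1 : Real.sqrt ε ≤ 1 := by
      rw [Real.sqrt_le_left (by norm_num)]; simpa using hε1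
    have h2 : Real.sqrt ε * Real.sqrt ε = ε := Real.mul_self_sqrt hε.le
    nlinarith
  have h1 : ∀ w ∈ S, |dirOf θ ε N L x h w| ≤ Real.sqrt ε * (1 + |h w|) := by
    intro w _
    unfold dirOf
    refine (abs_add_le _ _).trans ?_
    rw [abs_mul, abs_mul, abs_of_pos hε, abs_of_nonneg hs0]
    have h3 : ε * |Real.tanh (totField θ N x L w)| ≤ Real.sqrt ε * 1 :=
      mul_le_mul hs (abs_tanh_le_one _) (abs_nonneg _) hs0
    linarith
  refine (sum_le_sum h1).trans ?_
  rw [← mul_sum]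
  refine mul_le_mul_of_nonneg_left ?_ hs0
  rw [sum_add_distrib]
  simp only [sum_const, nsmul_eq_mul, mul_one, noiseSize]
  have h0 : 0 ≤ ∑ w ∈ S, |h w| := sum_nonneg fun _ _ => abs_nonneg _
  have h3 : (0 : ℝ) ≤ S.card := Nat.cast_nonneg _
  nlinarith

/-- Constants for the error bounds on the ball. -/
theorem err_bounds (hp : TreeParams G d θ) (o : V) (R : ℕ) :
    ∃ CR > 0, ∃ CE > 0, ∃ Cm > 0, ∀ (x h : V → ℝ) (ε : ℝ), 0 < ε → ε ≤ 1 → ∀ a b, G.Adj a b →
      a ∈ ballF G o R → b ∈ ballF G o R →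
      remK θ ε (nbS G (ballF G o R)) (2 * R + 1) x h a b ^ 2
          ≤ CR ^ 2 * ε ^ 3 * noiseSize (ballF G o R) h ^ 6 ∧
      errK θ ε (nbS G (ballF G o R)) (2 * R + 1) x h a b ^ 2
          ≤ CE ^ 2 * ε ^ 2 * noiseSize (ballF G o R) h ^ 6 ∧
      |Chi (nbS G (ballF G o R)) (wgt θ (msg θ (nbS G (ballF G o R)) x (2 * R + 1)))
            (wgt2 θ (msg θ (nbS G (ballF G o R)) x (2 * R + 1)))
            (fun w => Real.tanh (totField θ (nbS G (ballF G o R)) x (2 * R + 1) w))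
            (2 * R + 1) a b| ≤ Cm := by
  obtain ⟨CT, hCT0, hCT⟩ := taylor_msg hp o R
  obtain ⟨Cχ, hCχ0, hCχ⟩ := abs_Chi_le hp o R (2 * R + 1)
  obtain ⟨Ct, hCt0, hCt⟩ := abs_Tee_le hp o R (2 * R + 1)
  set S := ballF G o R with hS
  set N := nbS G S with hN
  set L := 2 * R + 1 with hL
  set s : ℝ := (S.card : ℝ) + 1 with hs
  have hs1 : 1 ≤ s := by
    have : (0 : ℝ) ≤ S.card := Nat.cast_nonneg _
    rw [hs]; linarith
  have hs0 : 0 < s := by linarith
  refine ⟨CT * s ^ 3, by positivity, CT * s ^ 3 + Cχ * s ^ 2 + Ct, by positivity,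
    Cχ * (S.card : ℝ) ^ 2 + 1, by positivity, ?_⟩
  intro x h ε hε hε1 a b hab ha hb
  set E := msg θ N x L with hE
  set M := noiseSize S h with hM
  have hM1 : 1 ≤ M := one_le_noiseSize S h
  have hM0 : 0 < M := by linarith
  set δ := dirOf θ ε N L x h with hδ
  have hsq0 : 0 ≤ Real.sqrt ε := Real.sqrt_nonneg _
  have hsq2 : Real.sqrt ε ^ 2 = ε := Real.sq_sqrt hε.le
  have hsq1 : Real.sqrt ε ≤ 1 := by
    rw [Real.sqrt_le_left (by norm_num)]; simpa using hε1
  have hsum : ∑ w ∈ S, |δ w| ≤ Real.sqrt ε * (s * M) := sum_abs_dirOf_le N L S x h hε hε1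
  have hsum0 : 0 ≤ ∑ w ∈ S, |δ w| := sum_nonneg fun _ _ => abs_nonneg _
  -- the remainder
  have hrem : |remK θ ε N L x h a b| ≤ CT * s ^ 3 * (ε * Real.sqrt ε * M ^ 3) := by
    have h1 := hCT x δ a b hab ha
    dsimp only at h1
    have h2 : (∑ w ∈ S, |δ w|) ^ 3 ≤ (Real.sqrt ε * (s * M)) ^ 3 :=
      pow_le_pow_left₀ hsum0 hsum 3
    have h3 : (Real.sqrt ε * (s * M)) ^ 3 = s ^ 3 * (ε * Real.sqrt ε * M ^ 3) := by
      have : Real.sqrt ε ^ 3 = ε * Real.sqrt ε := by rw [pow_succ, hsq2]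
      calc _ = Real.sqrt ε ^ 3 * s ^ 3 * M ^ 3 := by ring
        _ = _ := by rw [this]; ring
    have h4 : |remK θ ε N L x h a b| ≤ CT * (∑ w ∈ S, |δ w|) ^ 3 := h1
    calc _ ≤ CT * (∑ w ∈ S, |δ w|) ^ 3 := h4
      _ ≤ CT * (Real.sqrt ε * (s * M)) ^ 3 := mul_le_mul_of_nonneg_left h2 hCT0.le
      _ = _ := by rw [h3]; ring
  have hchi : |Chi N (wgt θ E) (wgt2 θ E) δ L a b| ≤ Cχ * s ^ 2 * (ε * M ^ 2) := by
    have h1 := hCχ E δ a b ha
    dsimp only at h1
    have h2 : (∑ w ∈ S, |δ w|) ^ 2 ≤ (Real.sqrt ε * (s * M)) ^ 2 :=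
      pow_le_pow_left₀ hsum0 hsum 2
    have h3 : (Real.sqrt ε * (s * M)) ^ 2 = s ^ 2 * (ε * M ^ 2) := by
      calc _ = Real.sqrt ε ^ 2 * s ^ 2 * M ^ 2 := by ring
        _ = _ := by rw [hsq2]; ring
    calc _ ≤ Cχ * (∑ w ∈ S, |δ w|) ^ 2 := h1
      _ ≤ Cχ * (Real.sqrt ε * (s * M)) ^ 2 := mul_le_mul_of_nonneg_left h2 hCχ0.le
      _ = _ := by rw [h3]; ring
  have htee : |Tee N (wgt θ E) (wgt2 θ E) L a b| ≤ Ct := hCt E a b ha
  have hM2 : M ^ 2 ≤ M ^ 3 := pow_le_pow_right₀ hM1 (by norm_num)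
  have hM3 : 1 ≤ M ^ 3 := one_le_pow₀ hM1
  have herr : |errK θ ε N L x h a b| ≤ (CT * s ^ 3 + Cχ * s ^ 2 + Ct) * (ε * M ^ 3) := by
    have e := errK_eq (ε := ε) hp o R x h a b hab ha hb
    rw [e]
    have h5 : |remK θ ε N L x h a b| ≤ CT * s ^ 3 * (ε * M ^ 3) := by
      refine hrem.trans (mul_le_mul_of_nonneg_left ?_ (by positivity))
      have : ε * Real.sqrt ε * M ^ 3 ≤ ε * 1 * M ^ 3 :=
        mul_le_mul_of_nonneg_right (mul_le_mul_of_nonneg_left hsq1 hε.le) (by positivity)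
      simpa using this
    have h6 : |(1 / 2) * Chi N (wgt θ E) (wgt2 θ E) δ L a b| ≤ Cχ * s ^ 2 * (ε * M ^ 3) := by
      rw [abs_mul, abs_of_pos (by norm_num : (0 : ℝ) < 1 / 2)]
      have : Cχ * s ^ 2 * (ε * M ^ 2) ≤ Cχ * s ^ 2 * (ε * M ^ 3) :=
        mul_le_mul_of_nonneg_left (mul_le_mul_of_nonneg_left hM2 hε.le) (by positivity)
      have h7 := abs_nonneg (Chi N (wgt θ E) (wgt2 θ E) δ L a b)
      linarith
    have h8 : |ε * Tee N (wgt θ E) (wgt2 θ E) L a b| ≤ Ct * (ε * M ^ 3) := by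
      rw [abs_mul, abs_of_pos hε]
      have h9 : ε * |Tee N (wgt θ E) (wgt2 θ E) L a b| ≤ ε * Ct :=
        mul_le_mul_of_nonneg_left htee hε.le
      have h10 : ε * Ct ≤ ε * Ct * M ^ 3 := by
        have : 0 ≤ ε * Ct := by positivity
        nlinarith
      linarith
    refine (abs_sub _ _).trans ?_
    refine (add_le_add ((abs_add_le _ _).trans (add_le_add h5 h6)) h8).trans (le_of_eq ?_)
    ring
  refine ⟨?_, ?_, ?_⟩
  · have h1 : remK θ ε N L x h a b ^ 2 ≤ (CT * s ^ 3 * (ε * Real.sqrt ε * M ^ 3)) ^ 2 := by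
      rw [← sq_abs]
      exact pow_le_pow_left₀ (abs_nonneg _) hrem 2
    refine h1.trans (le_of_eq ?_)
    calc _ = (CT * s ^ 3) ^ 2 * ε ^ 2 * Real.sqrt ε ^ 2 * M ^ 6 := by ring
      _ = _ := by rw [hsq2]; ring
  · have h1 : errK θ ε N L x h a b ^ 2 ≤ ((CT * s ^ 3 + Cχ * s ^ 2 + Ct) * (ε * M ^ 3)) ^ 2 := by
      rw [← sq_abs]
      exact pow_le_pow_left₀ (abs_nonneg _) herr 2
    refine h1.trans (le_of_eq ?_)
    ring
  · have h1 := hCχ E (fun w => Real.tanh (totField θ N x L w)) a b ha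
    dsimp only at h1
    refine h1.trans ?_
    have h2 : ∑ w ∈ S, |Real.tanh (totField θ N x L w)| ≤ S.card := by
      calc _ ≤ ∑ _w ∈ S, (1 : ℝ) := sum_le_sum fun w _ => abs_tanh_le_one _
        _ = S.card := by simp
    have h3 : (∑ w ∈ S, |Real.tanh (totField θ N x L w)|) ^ 2 ≤ (S.card : ℝ) ^ 2 :=
      pow_le_pow_left₀ (sum_nonneg fun _ _ => abs_nonneg _) h2 2
    have := mul_le_mul_of_nonneg_left h3 hCχ0.le
    linarith

end Err

/-! ### Measurability of the error -/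

section ErrMeas

variable {m : MeasurableSpace Ω} {x h : Ω → V → ℝ}

theorem measurable_dirOf (h0 : 0 ≤ θ) (h1 : θ < 1)
    (hx : ∀ w, Measurable[m] (fun ω => x ω w)) (hh : ∀ w, Measurable[m] (fun ω => h ω w))
    (L : ℕ) (w : V) : Measurable[m] (fun ω => dirOf θ ε N L (x ω) (h ω) w) := by
  unfold dirOf
  exact ((continuous_tanh.measurable.comp (measurable_totField h0 h1 hx L w)).const_mul _).add
    ((hh w).const_mul _)

theorem measurable_errK (h0 : 0 ≤ θ) (h1 : θ < 1)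
    (hx : ∀ w, Measurable[m] (fun ω => x ω w)) (hh : ∀ w, Measurable[m] (fun ω => h ω w))
    (L : ℕ) (a b : V) : Measurable[m] (fun ω => errK θ ε N L (x ω) (h ω) a b) := by
  unfold errK
  have hE : ∀ a b, Measurable[m] (fun ω => msg θ N (x ω) L a b) := fun a b =>
    measurable_msg h0 h1 hx L a b
  have hW : ∀ c a, Measurable[m] (fun ω => wgt θ (msg θ N (x ω) L) c a) := fun c a =>
    (continuous_hd1 h0 h1).measurable.comp (hE c a)
  refine (measurable_msg h0 h1 (fun w => (hx w).add (measurable_dirOf h0 h1 hx hh L w)) L a b).sub ?_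
  simp only [cavStep]
  exact ((hE a b).add (((continuous_tanh.measurable.comp ((hE a b).add
    ((continuous_hm h0 h1).measurable.comp (hE b a)))).mul
    (measurable_Nsq hW L a b)).const_mul _)).add ((measurable_Lin hW hh L a b).const_mul _)

end ErrMeas

/-! ### The edge sum and the Lipschitz bound of the coefficient vectors -/

/-- Sum over the directed edges of the ball. -/
def edgeSum (S : Finset V) (N : V → Finset V) (f : V → V → ℝ) : ℝ := ∑ a ∈ S, ∑ b ∈ N a, f a b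

theorem single_le_edgeSum {S : Finset V} {f : V → V → ℝ} (hf : ∀ a b, 0 ≤ f a b) {a b : V}
    (ha : a ∈ S) (hb : b ∈ N a) : f a b ≤ edgeSum S N f := by
  unfold edgeSum
  calc f a b ≤ ∑ b ∈ N a, f a b := single_le_sum (f := fun b => f a b) (fun b _ => hf a b) hb
    _ ≤ _ := single_le_sum (f := fun a => ∑ b ∈ N a, f a b)
        (fun a _ => sum_nonneg fun b _ => hf a b) ha

theorem mem_nbS_of_adj [G.LocallyFinite] {S : Finset V} {a b : V} (hab : G.Adj a b) (ha : a ∈ S)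
    (hb : b ∈ S) : b ∈ nbS G S a := by
  classical
  unfold nbS
  rw [if_pos ha]
  simp [hab, hb]

theorem card_nbS_le (S : Finset V) (a : V) : ((nbS G S a).card : ℝ) ≤ S.card := by
  classical
  have h : nbS G S a ⊆ S := by
    intro c hc
    unfold nbS at hc
    split_ifs at hc with ha
    · exact (mem_filter.1 hc).2
    · simp at hc
  exact_mod_cast card_le_card h

theorem nsq_diff_le_edges (hp : TreeParams G d θ) (o : V) (R ℓ : ℕ) :
    ∃ C > 0, ∀ (η y : V → V → ℝ) (a b : V), G.Adj a b → a ∈ ballF G o R →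
      nsq (coef (nbS G (ballF G o R)) (wgt θ η) ℓ a b - coef (nbS G (ballF G o R)) (wgt θ y) ℓ a b)
        ≤ C * edgeSum (ballF G o R) (nbS G (ballF G o R)) (fun a b => (η a b - y a b) ^ 2) := by
  set S := ballF G o R with hS
  set N := nbS G S with hNdef
  have hN : SubN G N := subN_nbS S
  have hK0 : 0 < K2 θ d := hp.K2_pos
  induction ℓ with
  | zero =>
    refine ⟨1, one_pos, fun η y a b _ _ => ?_⟩
    simp only [coef, sub_self, nsq_zero, one_mul]
    exact sum_nonneg fun a _ => sum_nonneg fun b _ => sq_nonneg _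
  | succ ℓ ih =>
    obtain ⟨C, hC0, hC⟩ := ih
    refine ⟨((S.card : ℝ) + 1) * (2 * C + 8 * K2 θ d), by positivity, fun η y a b hab ha => ?_⟩
    set Q := edgeSum S N (fun a b => (η a b - y a b) ^ 2) with hQ
    have hQ0 : 0 ≤ Q := sum_nonneg fun a _ => sum_nonneg fun b _ => sq_nonneg _
    have h1 := nsq_coef_sub_succ_le (W := wgt θ η) (W' := wgt θ y) hp.tree hN hN ℓ a b hab rfl one_pos
    refine h1.trans ?_
    have hθ : θ ^ 2 ≤ 1 := by
      have := hp.nonneg
      have := hp.lt_one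
      nlinarith
    have hterm : ∀ c ∈ (N a).erase b, (1 + 1) * wgt θ η c a ^ 2 * nsq (coef N (wgt θ η) ℓ c a
          - coef N (wgt θ y) ℓ c a)
        + (1 + 1 / 1) * (wgt θ η c a - wgt θ y c a) ^ 2 * Nsq N (wgt θ y) ℓ c a
        ≤ (2 * C + 8 * K2 θ d) * Q := by
      intro c hc
      have hca : G.Adj c a := (hN a c (mem_of_mem_erase hc)).symm
      have hcS : c ∈ S := TreeParams.mem_ball_of_nbS o R (mem_of_mem_erase hc)
      have h2 : nsq (coef N (wgt θ η) ℓ c a - coef N (wgt θ y) ℓ c a) ≤ C * Q := hC η y c a hca hcS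
      have h3 : wgt θ η c a ^ 2 ≤ 1 := (hp.wgt_sq_le η c a).trans hθ
      have h4 : (wgt θ η c a - wgt θ y c a) ^ 2 ≤ 4 * (η c a - y c a) ^ 2 := by
        have h5 := abs_hd1_sub_le hp.nonneg hp.lt_one (η c a) (y c a)
        simp only [wgt]
        have h6 : |hd1 θ (η c a) - hd1 θ (y c a)| ^ 2 ≤ (2 * |η c a - y c a|) ^ 2 :=
          pow_le_pow_left₀ (abs_nonneg _) h5 2
        rw [sq_abs, mul_pow, sq_abs] at h6
        linarith
      have h5 : (η c a - y c a) ^ 2 ≤ Q :=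
        single_le_edgeSum (N := N) (f := fun a b => (η a b - y a b) ^ 2)
          (fun _ _ => sq_nonneg _) hcS (mem_nbS_of_adj hca hcS ha)
      have h6 := hp.Nsq_wgt_le (η := y) hN ℓ hca
      have h7 := hp.Nsq_wgt_nonneg (η := y) hN ℓ hca
      have h8 : 0 ≤ nsq (coef N (wgt θ η) ℓ c a - coef N (wgt θ y) ℓ c a) := nsq_nonneg _
      have h9 : (1 + 1) * wgt θ η c a ^ 2 * nsq (coef N (wgt θ η) ℓ c a - coef N (wgt θ y) ℓ c a)
          ≤ (1 + 1) * 1 * (C * Q) := mul_le_mul (mul_le_mul_of_nonneg_left h3 (by norm_num)) h2 h8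
            (by norm_num)
      have h10 : (1 + 1 / 1) * (wgt θ η c a - wgt θ y c a) ^ 2 * Nsq N (wgt θ y) ℓ c a
          ≤ 2 * (4 * Q) * K2 θ d := mul_le_mul
            (by
              have : (wgt θ η c a - wgt θ y c a) ^ 2 ≤ 4 * Q := by linarith
              norm_num
              linarith) h6 h7 (by positivity)
      nlinarith
    calc _ ≤ ∑ _c ∈ (N a).erase b, (2 * C + 8 * K2 θ d) * Q := sum_le_sum hterm
      _ = ((N a).erase b).card * ((2 * C + 8 * K2 θ d) * Q) := by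
          rw [sum_const, nsmul_eq_mul]
      _ ≤ ((S.card : ℝ) + 1) * ((2 * C + 8 * K2 θ d) * Q) := by
          refine mul_le_mul_of_nonneg_right ?_ (by positivity)
          have h1 : (((N a).erase b).card : ℝ) ≤ (N a).card := by
            exact_mod_cast card_le_card (erase_subset _ _)
          have h2 : ((N a).card : ℝ) ≤ S.card := card_nbS_le S a
          linarith
      _ = _ := by ring

/-! ### The mean of the error against an adapted weight -/

/-- The key mean bound. -/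
theorem mean_err (hp : TreeParams G d θ) (o : V) (R : ℕ) (hg : IsNoise P g) {CR CE Cm : ℝ}
    (hbd : ∀ (x h : V → ℝ) (ε : ℝ), 0 < ε → ε ≤ 1 → ∀ a b, G.Adj a b →
      a ∈ ballF G o R → b ∈ ballF G o R →
      remK θ ε (nbS G (ballF G o R)) (2 * R + 1) x h a b ^ 2
          ≤ CR ^ 2 * ε ^ 3 * noiseSize (ballF G o R) h ^ 6 ∧
      errK θ ε (nbS G (ballF G o R)) (2 * R + 1) x h a b ^ 2
          ≤ CE ^ 2 * ε ^ 2 * noiseSize (ballF G o R) h ^ 6 ∧
      |Chi (nbS G (ballF G o R)) (wgt θ (msg θ (nbS G (ballF G o R)) x (2 * R + 1)))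
            (wgt2 θ (msg θ (nbS G (ballF G o R)) x (2 * R + 1)))
            (fun w => Real.tanh (totField θ (nbS G (ballF G o R)) x (2 * R + 1) w))
            (2 * R + 1) a b| ≤ Cm)
    (hε : 0 < ε) (hε1 : ε ≤ 1) (k : ℕ) {x : Ω → V → ℝ}
    (hx : ∀ w, Measurable[pastS g k] (fun ω => x ω w))
    {A : Ω → ℝ} (hAm : Measurable[pastS g k] A) (hA : MemLp A 2 P) (a b : V) (hab : G.Adj a b)
    (ha : a ∈ ballF G o R) (hb : b ∈ ballF G o R) :
    MemLp (fun ω => errK θ ε (nbS G (ballF G o R)) (2 * R + 1) (x ω) (fun w => g k w ω) a b) 2 P ∧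
    -2 * ∫ ω, A ω * errK θ ε (nbS G (ballF G o R)) (2 * R + 1) (x ω) (fun w => g k w ω) a b ∂P
      ≤ (3 / 2) * ε * ∫ ω, A ω ^ 2 ∂P
        + (CR ^ 2 * m6c (ballF G o R) + Cm ^ 2 / 2) * ε ^ 2 := by
  set S := ballF G o R with hS
  set N := nbS G S with hNdef
  set L := 2 * R + 1 with hL
  have hle := pastS_le hg k
  have hx' : ∀ w, Measurable (fun ω => x ω w) := fun w => (hx w).mono hle le_rfl
  have hnoise : ∀ w, Measurable (fun ω => g k w ω) := fun w => hg.meas k w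
  set M := fun ω => noiseSize S (fun w => g k w ω) with hM
  have hM6 : Integrable (fun ω => M ω ^ 6) P := integrable_noiseSize_pow6 hg S k
  have hM6le : ∫ ω, M ω ^ 6 ∂P ≤ m6c S := integral_noiseSize_pow6_le hg S k
  set Err := fun ω => errK θ ε N L (x ω) (fun w => g k w ω) a b with hErr
  set Rem := fun ω => remK θ ε N L (x ω) (fun w => g k w ω) a b with hRem
  have hErrm : Measurable Err := measurable_errK hp.nonneg hp.lt_one hx' hnoise L a b
  have hErrL2 : MemLp Err 2 P := by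
    rw [memLp_two_iff_integrable_sq hErrm.aestronglyMeasurable]
    refine Integrable.mono' (hM6.const_mul (CE ^ 2 * ε ^ 2)) (hErrm.pow_const 2).aestronglyMeasurable
      (Filter.Eventually.of_forall fun ω => ?_)
    rw [Real.norm_eq_abs, abs_of_nonneg (sq_nonneg _)]
    exact (hbd (x ω) _ ε hε hε1 a b hab ha hb).2.1
  refine ⟨hErrL2, ?_⟩
  -- notation for the recursions along the path
  set y := fun ω => msg θ N (x ω) L with hy
  have hym : ∀ i j, Measurable[pastS g k] (fun ω => y ω i j) := fun i j =>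
    measurable_msg hp.nonneg hp.lt_one hx L i j
  set m := fun ω w => Real.tanh (totField θ N (x ω) L w) with hm
  have hmm : ∀ w, Measurable[pastS g k] (fun ω => m ω w) := fun w =>
    continuous_tanh.measurable.comp (measurable_totField hp.nonneg hp.lt_one hx L w)
  have hm1 : ∀ ω w, |m ω w| ≤ 1 := fun ω w => abs_tanh_le_one _
  have hAi : Integrable A P := hA.integrable (by norm_num)
  have hχe : Integrable (fun ω => A ω * Chi N (wgt θ (y ω)) (wgt2 θ (y ω))
        (fun w => ε * m ω w + Real.sqrt ε * g k w ω) L a b) P ∧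
      ∫ ω, A ω * Chi N (wgt θ (y ω)) (wgt2 θ (y ω))
        (fun w => ε * m ω w + Real.sqrt ε * g k w ω) L a b ∂P
      = ∫ ω, A ω * (ε ^ 2 * Chi N (wgt θ (y ω)) (wgt2 θ (y ω)) (m ω) L a b
          + 2 * ε * Tee N (wgt θ (y ω)) (wgt2 θ (y ω)) L a b) ∂P :=
    chi_moment (ε := ε) hp o R hg hε.le hym hmm hm1 L A hAm hAi a b hab ha
  obtain ⟨hχ, eχ⟩ := hχe
  have hW : ∀ c a, Measurable[pastS g k] (fun ω => wgt θ (y ω) c a) := fun c a =>
    (continuous_hd1 hp.nonneg hp.lt_one).measurable.comp (hym c a)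
  have hW2 : ∀ c a, Measurable[pastS g k] (fun ω => wgt2 θ (y ω) c a) := fun c a =>
    (continuous_hd2 hp.nonneg hp.lt_one).measurable.comp (hym c a)
  obtain ⟨Ct, hCt0, hCt⟩ := abs_Tee_le hp o R L
  -- integrability
  have hChim : Measurable (fun ω => Chi N (wgt θ (y ω)) (wgt2 θ (y ω)) (m ω) L a b) :=
    (measurable_Chi hW hW2 hmm L a b).mono hle le_rfl
  have hTeem : Measurable (fun ω => Tee N (wgt θ (y ω)) (wgt2 θ (y ω)) L a b) :=
    (measurable_Tee hW hW2 L a b).mono hle le_rfl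
  have iChim : Integrable (fun ω => A ω * Chi N (wgt θ (y ω)) (wgt2 θ (y ω)) (m ω) L a b) P :=
    integrable_mul_bdd_meas hAi hChim (fun ω => (hbd (x ω) (fun w => g k w ω) ε hε hε1 a b hab ha hb).2.2)
  have iTee : Integrable (fun ω => A ω * Tee N (wgt θ (y ω)) (wgt2 θ (y ω)) L a b) P :=
    integrable_mul_bdd_meas hAi hTeem (fun ω => hCt (y ω) a b ha)
  have iErr : Integrable (fun ω => A ω * Err ω) P := hA.integrable_mul hErrL2
  have hA2 : Integrable (fun ω => A ω ^ 2) P := hA.integrable_sq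
  -- decomposition of the error
  have hdec : ∀ ω, A ω * Err ω = A ω * Rem ω
      + (1 / 2) * (A ω * Chi N (wgt θ (y ω)) (wgt2 θ (y ω))
          (fun w => ε * m ω w + Real.sqrt ε * g k w ω) L a b)
      - ε * (A ω * Tee N (wgt θ (y ω)) (wgt2 θ (y ω)) L a b) := by
    intro ω
    have e := errK_eq (ε := ε) hp o R (x ω) (fun w => g k w ω) a b hab ha hb
    have ed : dirOf θ ε N L (x ω) (fun w => g k w ω) = fun w => ε * m ω w + Real.sqrt ε * g k w ω :=
      rfl
    rw [ed] at e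
    show A ω * errK θ ε N L (x ω) (fun w => g k w ω) a b = _
    rw [e]
    show A ω * (remK θ ε N L (x ω) (fun w => g k w ω) a b + _ - _) = _
    ring
  have iRem : Integrable (fun ω => A ω * Rem ω) P := by
    have : Integrable (fun ω => A ω * Err ω
        - (1 / 2) * (A ω * Chi N (wgt θ (y ω)) (wgt2 θ (y ω))
          (fun w => ε * m ω w + Real.sqrt ε * g k w ω) L a b)
        + ε * (A ω * Tee N (wgt θ (y ω)) (wgt2 θ (y ω)) L a b)) P :=
      (iErr.sub (hχ.const_mul _)).add (iTee.const_mul _)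
    refine this.congr (Filter.Eventually.of_forall fun ω => ?_)
    show A ω * Err ω - _ + _ = _
    rw [hdec ω]; ring
  -- the integral identity
  have hint : ∫ ω, A ω * Err ω ∂P = ∫ ω, A ω * Rem ω ∂P
      + (ε ^ 2 / 2) * ∫ ω, A ω * Chi N (wgt θ (y ω)) (wgt2 θ (y ω)) (m ω) L a b ∂P := by
    have i1 : Integrable (fun ω => (1 / 2) * (A ω * Chi N (wgt θ (y ω)) (wgt2 θ (y ω))
          (fun w => ε * m ω w + Real.sqrt ε * g k w ω) L a b)) P := hχ.const_mul _
    have i2 : Integrable (fun ω => ε * (A ω * Tee N (wgt θ (y ω)) (wgt2 θ (y ω)) L a b)) P :=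
      iTee.const_mul _
    have i3 : Integrable (fun ω => A ω * Rem ω + (1 / 2) * (A ω * Chi N (wgt θ (y ω)) (wgt2 θ (y ω))
          (fun w => ε * m ω w + Real.sqrt ε * g k w ω) L a b)) P := iRem.add i1
    simp only [hdec]
    rw [integral_sub i3 i2, integral_add iRem i1, integral_const_mul, integral_const_mul, eχ]
    have e4 : ∀ ω, A ω * (ε ^ 2 * Chi N (wgt θ (y ω)) (wgt2 θ (y ω)) (m ω) L a b
          + 2 * ε * Tee N (wgt θ (y ω)) (wgt2 θ (y ω)) L a b)
        = ε ^ 2 * (A ω * Chi N (wgt θ (y ω)) (wgt2 θ (y ω)) (m ω) L a b)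
          + 2 * ε * (A ω * Tee N (wgt θ (y ω)) (wgt2 θ (y ω)) L a b) := fun ω => by ring
    simp only [e4]
    have i5 : Integrable (fun ω => ε ^ 2 * (A ω * Chi N (wgt θ (y ω)) (wgt2 θ (y ω)) (m ω) L a b)) P :=
      iChim.const_mul _
    have i6 : Integrable (fun ω => 2 * ε * (A ω * Tee N (wgt θ (y ω)) (wgt2 θ (y ω)) L a b)) P :=
      iTee.const_mul _
    rw [integral_add i5 i6, integral_const_mul, integral_const_mul]
    ring
  -- lower bounds
  have hb1 : -((ε / 2) * ∫ ω, A ω ^ 2 ∂P) - (CR ^ 2 * ε ^ 2 / 2) * m6c S ≤ ∫ ω, A ω * Rem ω ∂P := by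
    have hpt : ∀ ω, -((ε / 2) * A ω ^ 2) - (CR ^ 2 * ε ^ 2 / 2) * M ω ^ 6 ≤ A ω * Rem ω := by
      intro ω
      have h1 := (hbd (x ω) (fun w => g k w ω) ε hε hε1 a b hab ha hb).1
      have h2 : 0 ≤ (ε * A ω + Rem ω) ^ 2 / (2 * ε) := by positivity
      have e : (ε * A ω + Rem ω) ^ 2 / (2 * ε)
          = (ε / 2) * A ω ^ 2 + A ω * Rem ω + Rem ω ^ 2 / (2 * ε) := by
        field_simp; ring
      have h3 : Rem ω ^ 2 / (2 * ε) ≤ (CR ^ 2 * ε ^ 2 / 2) * M ω ^ 6 := by
        rw [div_le_iff₀ (by positivity)]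
        calc Rem ω ^ 2 ≤ CR ^ 2 * ε ^ 3 * M ω ^ 6 := h1
          _ = _ := by ring
      rw [e] at h2
      linarith
    have n1 : Integrable (fun ω => -((ε / 2) * A ω ^ 2)) P := (hA2.const_mul _).neg
    have n2 : Integrable (fun ω => (CR ^ 2 * ε ^ 2 / 2) * M ω ^ 6) P := hM6.const_mul _
    have i7 : Integrable (fun ω => -((ε / 2) * A ω ^ 2) - (CR ^ 2 * ε ^ 2 / 2) * M ω ^ 6) P :=
      n1.sub n2
    have h4 := integral_mono i7 iRem hpt
    rw [integral_sub n1 n2, integral_neg, integral_const_mul,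
      integral_const_mul] at h4
    have h5 : (CR ^ 2 * ε ^ 2 / 2) * ∫ ω, M ω ^ 6 ∂P ≤ (CR ^ 2 * ε ^ 2 / 2) * m6c S :=
      mul_le_mul_of_nonneg_left hM6le (by positivity)
    linarith
  have hb2 : -((ε / 4) * ∫ ω, A ω ^ 2 ∂P) - (ε ^ 3 / 4) * Cm ^ 2
      ≤ (ε ^ 2 / 2) * ∫ ω, A ω * Chi N (wgt θ (y ω)) (wgt2 θ (y ω)) (m ω) L a b ∂P := by
    have hpt : ∀ ω, -((ε / 4) * A ω ^ 2) - (ε ^ 3 / 4) * Cm ^ 2
        ≤ (ε ^ 2 / 2) * (A ω * Chi N (wgt θ (y ω)) (wgt2 θ (y ω)) (m ω) L a b) := by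
      intro ω
      set c := Chi N (wgt θ (y ω)) (wgt2 θ (y ω)) (m ω) L a b
      have h1 : |c| ≤ Cm := (hbd (x ω) (fun w => g k w ω) ε hε hε1 a b hab ha hb).2.2
      have h2 : c ^ 2 ≤ Cm ^ 2 := by
        have hCm : 0 ≤ Cm := (abs_nonneg _).trans h1
        rw [← sq_abs]
        exact pow_le_pow_left₀ (abs_nonneg _) h1 2
      have h3 : 0 ≤ ε * (A ω / 2 + ε * c / 2) ^ 2 := by positivity
      have h4 : (ε ^ 3 / 4) * c ^ 2 ≤ (ε ^ 3 / 4) * Cm ^ 2 :=
        mul_le_mul_of_nonneg_left h2 (by positivity)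
      nlinarith
    have n1 : Integrable (fun ω => -((ε / 4) * A ω ^ 2)) P := (hA2.const_mul _).neg
    have n2 : Integrable (fun _ : Ω => (ε ^ 3 / 4) * Cm ^ 2) P := integrable_const _
    have i7 : Integrable (fun ω => -((ε / 4) * A ω ^ 2) - (ε ^ 3 / 4) * Cm ^ 2) P :=
      n1.sub n2
    have i8 : Integrable (fun ω => (ε ^ 2 / 2) * (A ω * Chi N (wgt θ (y ω)) (wgt2 θ (y ω)) (m ω) L a b)) P :=
      iChim.const_mul _
    have h4 := integral_mono i7 i8 hpt
    rw [integral_sub n1 n2, integral_neg, integral_const_mul, integral_const,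
      integral_const_mul] at h4
    simpa using h4
  -- conclusion
  have hA0 : 0 ≤ ∫ ω, A ω ^ 2 ∂P := integral_nonneg fun ω => sq_nonneg _
  rw [hint]
  have hε3 : ε ^ 3 ≤ ε ^ 2 := by
    have : ε ^ 3 = ε ^ 2 * ε := by ring
    rw [this]
    have : 0 ≤ ε ^ 2 := by positivity
    nlinarith
  have hCm2 : (ε ^ 3 / 2) * Cm ^ 2 ≤ (ε ^ 2 / 2) * Cm ^ 2 :=
    mul_le_mul_of_nonneg_right (by linarith) (sq_nonneg _)
  nlinarith

/-! ### The per-edge recursion and the conclusion -/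

/-- Expansion of the square of `A + s L - E` when `A` and `L` are orthogonal. -/
theorem l2_expand {A Lg Err : Ω → ℝ} (hA : MemLp A 2 P) (hL : MemLp Lg 2 P) (hE : MemLp Err 2 P)
    (hzero : ∫ ω, A ω * Lg ω ∂P = 0) (s : ℝ) :
    ∫ ω, (A ω + s * Lg ω - Err ω) ^ 2 ∂P
      ≤ ∫ ω, A ω ^ 2 ∂P + (2 * s ^ 2) * ∫ ω, Lg ω ^ 2 ∂P + (-2) * ∫ ω, A ω * Err ω ∂P
        + 2 * ∫ ω, Err ω ^ 2 ∂P := by
  have hA2 : Integrable (fun ω => A ω ^ 2) P := hA.integrable_sq
  have hLg2 : Integrable (fun ω => Lg ω ^ 2) P := hL.integrable_sq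
  have hErr2 : Integrable (fun ω => Err ω ^ 2) P := hE.integrable_sq
  have hAErr : Integrable (fun ω => A ω * Err ω) P := hA.integrable_mul hE
  have hALg : Integrable (fun ω => A ω * Lg ω) P := hA.integrable_mul hL
  have hpt : ∀ ω, (A ω + s * Lg ω - Err ω) ^ 2
      ≤ A ω ^ 2 + (2 * s) * (A ω * Lg ω) + (2 * s ^ 2) * Lg ω ^ 2
        + (-2) * (A ω * Err ω) + 2 * Err ω ^ 2 := by
    intro ω
    nlinarith [sq_nonneg (s * Lg ω + Err ω)]
  have i1 : Integrable (fun ω => (2 * s) * (A ω * Lg ω)) P := hALg.const_mul _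
  have i2 : Integrable (fun ω => (2 * s ^ 2) * Lg ω ^ 2) P := hLg2.const_mul _
  have i3 : Integrable (fun ω => (-2) * (A ω * Err ω)) P := hAErr.const_mul _
  have i4 : Integrable (fun ω => 2 * Err ω ^ 2) P := hErr2.const_mul _
  have i12 : Integrable (fun ω => A ω ^ 2 + (2 * s) * (A ω * Lg ω)) P := hA2.add i1
  have i123 : Integrable (fun ω => A ω ^ 2 + (2 * s) * (A ω * Lg ω)
      + (2 * s ^ 2) * Lg ω ^ 2) P := i12.add i2
  have i1234 : Integrable (fun ω => A ω ^ 2 + (2 * s) * (A ω * Lg ω)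
      + (2 * s ^ 2) * Lg ω ^ 2 + (-2) * (A ω * Err ω)) P := i123.add i3
  have i5 : Integrable (fun ω => A ω ^ 2 + (2 * s) * (A ω * Lg ω)
      + (2 * s ^ 2) * Lg ω ^ 2 + (-2) * (A ω * Err ω) + 2 * Err ω ^ 2) P := i1234.add i4
  have hnew : Integrable (fun ω => (A ω + s * Lg ω - Err ω) ^ 2) P :=
    ((hA.add (hL.const_mul _)).sub hE).integrable_sq
  refine (integral_mono hnew i5 hpt).trans (le_of_eq ?_)
  rw [integral_add i1234 i4, integral_add i123 i3, integral_add i12 i2, integral_add hA2 i1,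
    integral_const_mul, integral_const_mul, integral_const_mul, integral_const_mul, hzero]
  ring

/-- Pure arithmetic of the edge recursion. -/
theorem edge_arith {ε K CD ES Dab Dba Vv AA C₃ CE m : ℝ} (hε : 0 < ε) (hε1 : ε ≤ 1) (hK : 0 < K)
    (hCD : 0 < CD) (hES0 : 0 ≤ ES) (hDab0 : 0 ≤ Dab) (hDba0 : 0 ≤ Dba) (hVv0 : 0 ≤ Vv)
    (hDab : Dab ≤ ES) (hDba : Dba ≤ ES)
    (hVv : Vv ≤ CD * ES) (hAstep : AA ≤ (1 + ε + 8 * K ^ 2 * ε) * Dab + 8 * K ^ 2 * ε * Dba
      + 16 * K * ε * Vv) (hm : 0 ≤ m) (hC₃ : 0 ≤ C₃) :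
    AA + 2 * ε * Vv + ((3 / 2) * ε * AA + C₃ * ε ^ 2) + 2 * (CE ^ 2 * ε ^ 2 * m)
      ≤ Dab + ((4 + 40 * K ^ 2 + 40 * K * CD + 2 * CD) + (C₃ + 2 * CE ^ 2 * m)) * ε * ES
        + ((4 + 40 * K ^ 2 + 40 * K * CD + 2 * CD) + (C₃ + 2 * CE ^ 2 * m)) * ε ^ 2 := by
  set Ca := 4 + 40 * K ^ 2 + 40 * K * CD + 2 * CD with hCa
  set Cb := C₃ + 2 * CE ^ 2 * m with hCb
  have hCa0 : 0 < Ca := by positivity
  have hCb0 : 0 ≤ Cb := by positivity
  have h1 : (1 + (3 / 2) * ε) * AA ≤ (1 + (3 / 2) * ε)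
      * ((1 + ε + 8 * K ^ 2 * ε) * Dab + 8 * K ^ 2 * ε * Dba + 16 * K * ε * Vv) :=
    mul_le_mul_of_nonneg_left hAstep (by positivity)
  have h2 : (1 + (3 / 2) * ε) * (1 + ε + 8 * K ^ 2 * ε) ≤ 1 + (4 + 20 * K ^ 2) * ε := by
    have h20 : 0 ≤ K ^ 2 * ε * (1 - ε) :=
      mul_nonneg (mul_nonneg (sq_nonneg K) hε.le) (sub_nonneg.2 hε1)
    have h21 : 0 ≤ ε * (1 - ε) := mul_nonneg hε.le (sub_nonneg.2 hε1)
    have e : 1 + (4 + 20 * K ^ 2) * ε - (1 + (3 / 2) * ε) * (1 + ε + 8 * K ^ 2 * ε)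
        = 12 * (K ^ 2 * ε * (1 - ε)) + (3 / 2) * (ε * (1 - ε)) := by ring
    linarith
  have h3 : (1 + (3 / 2) * ε) ≤ 5 / 2 := by linarith
  have h4 : (1 + (3 / 2) * ε) * (1 + ε + 8 * K ^ 2 * ε) * Dab ≤ (1 + (4 + 20 * K ^ 2) * ε) * Dab :=
    mul_le_mul_of_nonneg_right h2 hDab0
  have h5 : (4 + 20 * K ^ 2) * ε * Dab ≤ (4 + 20 * K ^ 2) * ε * ES :=
    mul_le_mul_of_nonneg_left hDab (by positivity)
  have h6 : (1 + (3 / 2) * ε) * (8 * K ^ 2 * ε * Dba) ≤ (5 / 2) * (8 * K ^ 2 * ε * ES) :=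
    mul_le_mul h3 (mul_le_mul_of_nonneg_left hDba (by positivity)) (by positivity) (by norm_num)
  have h7 : (1 + (3 / 2) * ε) * (16 * K * ε * Vv) ≤ (5 / 2) * (16 * K * ε * (CD * ES)) :=
    mul_le_mul h3 (mul_le_mul_of_nonneg_left hVv (by positivity)) (by positivity) (by norm_num)
  have h8 : 2 * ε * Vv ≤ 2 * ε * (CD * ES) := mul_le_mul_of_nonneg_left hVv (by positivity)
  have h9 : 0 ≤ Cb * ε * ES := by positivity
  have h10 : 0 ≤ Ca * ε ^ 2 := by positivity
  have e : AA + 2 * ε * Vv + ((3 / 2) * ε * AA + C₃ * ε ^ 2) + 2 * (CE ^ 2 * ε ^ 2 * m)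
      = (1 + (3 / 2) * ε) * AA + 2 * ε * Vv + Cb * ε ^ 2 := by
    rw [hCb]; ring
  rw [e]
  have e2 : (1 + (3 / 2) * ε)
      * ((1 + ε + 8 * K ^ 2 * ε) * Dab + 8 * K ^ 2 * ε * Dba + 16 * K * ε * Vv)
      = (1 + (3 / 2) * ε) * (1 + ε + 8 * K ^ 2 * ε) * Dab
        + (1 + (3 / 2) * ε) * (8 * K ^ 2 * ε * Dba) + (1 + (3 / 2) * ε) * (16 * K * ε * Vv) := by
    ring
  rw [e2] at h1
  have e3 : Dab + (4 + 20 * K ^ 2) * ε * ES + (5 / 2) * (8 * K ^ 2 * ε * ES)
      + (5 / 2) * (16 * K * ε * (CD * ES)) + 2 * ε * (CD * ES) = Dab + Ca * ε * ES := by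
    rw [hCa]; ring
  have e4 : Dab + (Ca + Cb) * ε * ES + (Ca + Cb) * ε ^ 2
      = Dab + Ca * ε * ES + Cb * ε * ES + Ca * ε ^ 2 + Cb * ε ^ 2 := by ring
  have e5 : (1 + (4 + 20 * K ^ 2) * ε) * Dab = Dab + (4 + 20 * K ^ 2) * ε * Dab := by ring
  rw [e4]
  linarith

/-- The difference of the new values as adapted part, noise part and error. -/
theorem new_diff_eq (N : V → Finset V) (L : ℕ) (k : ℕ) (a b : V) (ω : Ω) :
    cavChain θ N L ε (fun i w => g i w ω) (k + 1) a b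
      - msg θ N (xChain θ N L ε (fun i w => g i w ω) (k + 1)) L a b
    = stepA θ ε N N L (fun ω => cavChain θ N L ε (fun i w => g i w ω) k)
          (fun ω => msg θ N (xChain θ N L ε (fun i w => g i w ω) k) L) a b ω
        + Real.sqrt ε * (∑ w ∈ diffSupp N N L a b, diffCoef θ N N L
            (fun ω => cavChain θ N L ε (fun i w => g i w ω) k)
            (fun ω => msg θ N (xChain θ N L ε (fun i w => g i w ω) k) L) a b w ω * g k w ω)
        - errK θ ε N L (xChain θ N L ε (fun i w => g i w ω) k) (fun w => g k w ω) a b := by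
  have e1 : xChain θ N L ε (fun i w => g i w ω) (k + 1)
      = fun w => xChain θ N L ε (fun i w => g i w ω) k w
        + dirOf θ ε N L (xChain θ N L ε (fun i w => g i w ω) k) (fun w => g k w ω) w := by
    funext w
    simp only [xChain, dirOf]
    ring
  have e2 : cavChain θ N L ε (fun i w => g i w ω) (k + 1)
      = cavStep θ N L ε (cavChain θ N L ε (fun i w => g i w ω) k) (fun w => g k w ω) := rfl
  have e3 := cavStep_sub_eq (θ := θ) (ε := ε) (N := N) (N' := N)
    (fun ω => cavChain θ N L ε (fun i w => g i w ω) k)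
    (fun ω => msg θ N (xChain θ N L ε (fun i w => g i w ω) k) L) (fun w => g k w ω) L a b ω
  rw [e1, e2]
  unfold errK
  rw [← e3]
  ring

/-- One step for a directed edge of the ball. -/
theorem edge_step (hp : TreeParams G d θ) (o : V) (R : ℕ) :
    ∃ C > 0, ∀ g : ℕ → V → Ω → ℝ, IsNoise P g → ∀ ε : ℝ, 0 < ε → ε ≤ 1 → ∀ (k : ℕ) (a b : V),
      G.Adj a b → a ∈ ballF G o R → b ∈ ballF G o R →
      ∫ ω, (cavChain θ (nbS G (ballF G o R)) (2 * R + 1) ε (fun i w => g i w ω) (k + 1) a b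
          - msg θ (nbS G (ballF G o R))
              (xChain θ (nbS G (ballF G o R)) (2 * R + 1) ε (fun i w => g i w ω) (k + 1))
              (2 * R + 1) a b) ^ 2 ∂P
        ≤ ∫ ω, (cavChain θ (nbS G (ballF G o R)) (2 * R + 1) ε (fun i w => g i w ω) k a b
          - msg θ (nbS G (ballF G o R))
              (xChain θ (nbS G (ballF G o R)) (2 * R + 1) ε (fun i w => g i w ω) k)
              (2 * R + 1) a b) ^ 2 ∂P
          + C * ε * edgeSum (ballF G o R) (nbS G (ballF G o R)) (fun a b =>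
              ∫ ω, (cavChain θ (nbS G (ballF G o R)) (2 * R + 1) ε (fun i w => g i w ω) k a b
                - msg θ (nbS G (ballF G o R))
                    (xChain θ (nbS G (ballF G o R)) (2 * R + 1) ε (fun i w => g i w ω) k)
                    (2 * R + 1) a b) ^ 2 ∂P)
          + C * ε ^ 2 := by
  obtain ⟨CR, hCR0, CE, hCE0, Cm, hCm0, hbd⟩ := err_bounds hp o R
  obtain ⟨CD, hCD0, hCD⟩ := nsq_diff_le_edges hp o R (2 * R + 1)
  have hK0 : 0 < K2 θ d := hp.K2_pos
  have hm6 : 0 ≤ m6c (ballF G o R) := m6c_nonneg _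
  have hC₃0 : 0 ≤ CR ^ 2 * m6c (ballF G o R) + Cm ^ 2 / 2 := by positivity
  refine ⟨(4 + 40 * K2 θ d ^ 2 + 40 * K2 θ d * CD + 2 * CD)
      + ((CR ^ 2 * m6c (ballF G o R) + Cm ^ 2 / 2) + 2 * CE ^ 2 * m6c (ballF G o R)),
    by positivity, ?_⟩
  intro g hg ε hε hε1 k a b hab ha hb
  have hN : SubN G (nbS G (ballF G o R)) := subN_nbS _
  have hηA : Adapted2 g k P (fun ω => cavChain θ (nbS G (ballF G o R)) (2 * R + 1) ε
      (fun i w => g i w ω) k) := adapted_cavChain hg hp.nonneg hp.lt_one _ k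
  have hyA : Adapted2 g k P (fun ω => msg θ (nbS G (ballF G o R))
      (xChain θ (nbS G (ballF G o R)) (2 * R + 1) ε (fun i w => g i w ω) k) (2 * R + 1)) :=
    adapted_msg_xChain hg hp.nonneg hp.lt_one _ _ k
  have hxm : ∀ w, Measurable[pastS g k] (fun ω => xChain θ (nbS G (ballF G o R)) (2 * R + 1) ε
      (fun i w => g i w ω) k w) := fun w => measurable_xChain hp.nonneg hp.lt_one _ k w
  have hAm := measurable_stepA (ε := ε) (N := nbS G (ballF G o R)) (N' := nbS G (ballF G o R))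
    hηA hyA hp.nonneg hp.lt_one (2 * R + 1) a b
  have hAL2 := hp.memLp_stepA (ε := ε) hN hN hg hηA hyA (2 * R + 1) hab
  obtain ⟨hErrL2, hmean⟩ := mean_err (ε := ε) hp o R hg hbd hε hε1 k hxm hAm hAL2 a b hab ha hb
  have hcm := fun w => measurable_diffCoef (N := nbS G (ballF G o R)) (N' := nbS G (ballF G o R))
    hηA hyA hp.nonneg hp.lt_one (2 * R + 1) a b w
  have hcb := fun w ω => hp.abs_diffCoef_le hN hN
    (fun ω => cavChain θ (nbS G (ballF G o R)) (2 * R + 1) ε (fun i w => g i w ω) k)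
    (fun ω => msg θ (nbS G (ballF G o R))
      (xChain θ (nbS G (ballF G o R)) (2 * R + 1) ε (fun i w => g i w ω) k) (2 * R + 1))
    (2 * R + 1) hab w ω
  have hLgL2 := memLp_lin (F := diffSupp (nbS G (ballF G o R)) (nbS G (ballF G o R)) (2 * R + 1) a b)
    hg hcm hcb
  have hzero := one_step_lin (F := diffSupp (nbS G (ballF G o R)) (nbS G (ballF G o R)) (2 * R + 1) a b)
    hg hcm hcb hAm (hAL2.integrable (by norm_num))
  have hexp := l2_expand hAL2 hLgL2 hErrL2 hzero (Real.sqrt ε)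
  rw [Real.sq_sqrt hε.le] at hexp
  simp only [new_diff_eq]
  refine hexp.trans ?_
  have hquad := one_step_quad (F := diffSupp (nbS G (ballF G o R)) (nbS G (ballF G o R)) (2 * R + 1) a b)
    (B := fun _ => (1 : ℝ)) hg hcm hcb measurable_const (integrable_const _)
  simp only [one_mul] at hquad
  have hquad2 := (hquad.trans (integral_congr_ae (Filter.Eventually.of_forall fun ω =>
      (nsq_diff_eq _ _ (2 * R + 1) a b ω).symm)))
  rw [hquad2]
  -- bound on the error
  have hM6 := integrable_noiseSize_pow6 hg (ballF G o R) k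
  have hEI : ∫ ω, errK θ ε (nbS G (ballF G o R)) (2 * R + 1)
      (xChain θ (nbS G (ballF G o R)) (2 * R + 1) ε (fun i w => g i w ω) k)
      (fun w => g k w ω) a b ^ 2 ∂P ≤ CE ^ 2 * ε ^ 2 * m6c (ballF G o R) := by
    refine (integral_mono hErrL2.integrable_sq (hM6.const_mul (CE ^ 2 * ε ^ 2)) (fun ω =>
      (hbd _ (fun w => g k w ω) ε hε hε1 a b hab ha hb).2.1)).trans ?_
    rw [integral_const_mul]
    exact mul_le_mul_of_nonneg_left (integral_noiseSize_pow6_le hg _ k) (by positivity)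
  have hstepA := hp.integral_stepA_sq_le hN hN hg hε hε1 hηA hyA (2 * R + 1) hab
  -- edge sums
  have ib : ∀ a b, Integrable (fun ω => (cavChain θ (nbS G (ballF G o R)) (2 * R + 1) ε
      (fun i w => g i w ω) k a b - msg θ (nbS G (ballF G o R))
      (xChain θ (nbS G (ballF G o R)) (2 * R + 1) ε (fun i w => g i w ω) k) (2 * R + 1) a b) ^ 2) P :=
    fun a b => ((hηA.memLp a b).sub (hyA.memLp a b)).integrable_sq
  have hD1 : Integrable (fun ω => edgeSum (ballF G o R) (nbS G (ballF G o R)) (fun a b =>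
      (cavChain θ (nbS G (ballF G o R)) (2 * R + 1) ε (fun i w => g i w ω) k a b
        - msg θ (nbS G (ballF G o R))
        (xChain θ (nbS G (ballF G o R)) (2 * R + 1) ε (fun i w => g i w ω) k) (2 * R + 1) a b) ^ 2)) P :=
    integrable_finset_sum _ fun a _ => integrable_finset_sum _ fun b _ => ib a b
  have hD2 : ∫ ω, edgeSum (ballF G o R) (nbS G (ballF G o R)) (fun a b =>
      (cavChain θ (nbS G (ballF G o R)) (2 * R + 1) ε (fun i w => g i w ω) k a b
        - msg θ (nbS G (ballF G o R))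
        (xChain θ (nbS G (ballF G o R)) (2 * R + 1) ε (fun i w => g i w ω) k) (2 * R + 1) a b) ^ 2) ∂P
      = edgeSum (ballF G o R) (nbS G (ballF G o R)) (fun a b =>
        ∫ ω, (cavChain θ (nbS G (ballF G o R)) (2 * R + 1) ε (fun i w => g i w ω) k a b
        - msg θ (nbS G (ballF G o R))
        (xChain θ (nbS G (ballF G o R)) (2 * R + 1) ε (fun i w => g i w ω) k) (2 * R + 1) a b) ^ 2 ∂P) := by
    unfold edgeSum
    rw [integral_finset_sum _ fun a _ => integrable_finset_sum _ fun b _ => ib a b]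
    refine sum_congr rfl fun a _ => ?_
    rw [integral_finset_sum _ fun b _ => ib a b]
  have hV := integral_mono (μ := P) (f := fun ω => nsq (coef (nbS G (ballF G o R))
      (wgt θ (cavChain θ (nbS G (ballF G o R)) (2 * R + 1) ε (fun i w => g i w ω) k)) (2 * R + 1) a b
      - coef (nbS G (ballF G o R)) (wgt θ (msg θ (nbS G (ballF G o R))
        (xChain θ (nbS G (ballF G o R)) (2 * R + 1) ε (fun i w => g i w ω) k) (2 * R + 1)))
        (2 * R + 1) a b))
    (by
      refine Integrable.of_bound (C := 4 * K2 θ d) ?_ (Filter.Eventually.of_forall fun ω => ?_)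
      · have : Measurable (fun ω => ∑ w ∈ diffSupp (nbS G (ballF G o R)) (nbS G (ballF G o R))
            (2 * R + 1) a b, diffCoef θ (nbS G (ballF G o R)) (nbS G (ballF G o R)) (2 * R + 1) _ _
            a b w ω ^ 2) :=
          Finset.measurable_fun_sum _ fun w _ =>
            ((hcm w).mono (pastS_le hg k) le_rfl).pow_const 2
        rw [← funext (nsq_diff_eq (θ := θ) (N := nbS G (ballF G o R)) (N' := nbS G (ballF G o R))
          _ _ (2 * R + 1) a b)] at this
        exact this.aestronglyMeasurable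
      · rw [Real.norm_eq_abs, abs_of_nonneg (nsq_nonneg _)]
        exact hp.nsq_diff_le hN hN _ _ (2 * R + 1) hab)
    (hD1.const_mul CD) (fun ω => hCD _ _ a b hab ha)
  rw [integral_const_mul, hD2] at hV
  have hESnn : ∀ a b, 0 ≤ ∫ ω, (cavChain θ (nbS G (ballF G o R)) (2 * R + 1) ε
      (fun i w => g i w ω) k a b - msg θ (nbS G (ballF G o R))
      (xChain θ (nbS G (ballF G o R)) (2 * R + 1) ε (fun i w => g i w ω) k) (2 * R + 1) a b) ^ 2 ∂P :=
    fun a b => integral_nonneg fun ω => sq_nonneg _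
  have hES0 := sum_nonneg (s := ballF G o R) fun a _ =>
    sum_nonneg (s := nbS G (ballF G o R) a) fun b _ => hESnn a b
  have harith := edge_arith (CE := CE) (C₃ := CR ^ 2 * m6c (ballF G o R) + Cm ^ 2 / 2) hε hε1 hK0 hCD0
    hES0 (hESnn a b) (hESnn b a) (integral_nonneg fun ω => nsq_nonneg _)
    (single_le_edgeSum (N := nbS G (ballF G o R)) (f := fun a b => _) hESnn ha
      (mem_nbS_of_adj hab ha hb))
    (single_le_edgeSum (N := nbS G (ballF G o R)) (f := fun a b => _) hESnn hb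
      (mem_nbS_of_adj hab.symm hb ha))
    hV hstepA hm6 hC₃0
  refine le_trans ?_ harith
  have hmean' := hmean
  linarith

theorem msg_zero_field (h0 : 0 ≤ θ) (h1 : θ < 1) (L : ℕ) (a b : V) :
    msg θ N (fun _ => 0) L a b = 0 := by
  induction L generalizing a b with
  | zero => rfl
  | succ L ih =>
    simp only [msg, ih]
    have : hm θ 0 = 0 := by simp [hm]
    simp [this]

/-- (D) -/
theorem field_chain_close (hp : TreeParams G d θ) (o : V) (R : ℕ) (t : ℝ) :
    ∃ C > 0, ∀ g : ℕ → V → Ω → ℝ, IsNoise P g → ∀ ε : ℝ, 0 < ε → ε ≤ 1 → ∀ k : ℕ, k * ε ≤ t →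
      ∀ a b, G.Adj a b → a ∈ ballF G o R → b ∈ ballF G o R →
        ∫ ω, (cavChain θ (nbS G (ballF G o R)) (2 * R + 1) ε (fun i w => g i w ω) k a b
            - msg θ (nbS G (ballF G o R))
                (xChain θ (nbS G (ballF G o R)) (2 * R + 1) ε (fun i w => g i w ω) k)
                (2 * R + 1) a b) ^ 2 ∂P ≤ C * ε := by
  obtain ⟨C, hC0, hC⟩ := edge_step (Ω := Ω) (P := P) hp o R
  set S := ballF G o R with hS
  set N := nbS G S with hNdef
  set L := 2 * R + 1 with hL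
  set nE : ℝ := ((S.card : ℝ) + 1) ^ 2 with hnE
  have hnE0 : 0 < nE := by positivity
  set C' : ℝ := nE * C * (1 + 1) + 1 with hC'
  have hC'0 : 0 < C' := by positivity
  refine ⟨Real.exp (C' * |t|) + 1, by positivity, ?_⟩
  intro g hg ε hε hε1 k htk a b hab ha hb
  -- the edge sum recursion
  set Dk : ℕ → V → V → ℝ := fun k a b =>
    ∫ ω, (cavChain θ N L ε (fun i w => g i w ω) k a b
      - msg θ N (xChain θ N L ε (fun i w => g i w ω) k) L a b) ^ 2 ∂P with hDk
  have hnn : ∀ k a b, 0 ≤ Dk k a b := fun k a b => integral_nonneg fun ω => sq_nonneg _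
  set ak : ℕ → ℝ := fun k => edgeSum S N (Dk k) with hak
  have hak0 : ∀ k, 0 ≤ ak k := fun k => sum_nonneg fun a _ => sum_nonneg fun b _ => hnn k a b
  have hcount : ((∑ a ∈ S, ((N a).card : ℝ))) ≤ nE := by
    calc ∑ a ∈ S, ((N a).card : ℝ) ≤ ∑ _a ∈ S, (S.card : ℝ) :=
          sum_le_sum fun a _ => card_nbS_le S a
      _ = (S.card : ℝ) ^ 2 := by simp [sq]
      _ ≤ nE := by
          rw [hnE]
          have : (0 : ℝ) ≤ S.card := Nat.cast_nonneg _
          nlinarith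
  have hrec : ∀ k, ak (k + 1) ≤ (1 + C' * ε) * ak k + C' * ε ^ 2 := by
    intro k
    have hE : ∀ a ∈ S, ∀ b ∈ N a, Dk (k + 1) a b ≤ Dk k a b + (C * ε * ak k + C * ε ^ 2) := by
      intro a ha b hb
      have hab : G.Adj a b := subN_nbS S a b hb
      have hbS : b ∈ S := TreeParams.mem_ball_of_nbS o R hb
      have := hC g hg ε hε hε1 k a b hab ha hbS
      have e : C * ε * ak k = C * ε * edgeSum S N (Dk k) := rfl
      rw [e]
      linarith
    have hsum : ak (k + 1) ≤ ak k + (∑ a ∈ S, ((N a).card : ℝ)) * (C * ε * ak k + C * ε ^ 2) := by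
      show edgeSum S N (Dk (k + 1)) ≤ edgeSum S N (Dk k) + _
      unfold edgeSum
      rw [sum_mul, ← sum_add_distrib]
      refine sum_le_sum fun a ha => ?_
      refine (sum_le_sum (hE a ha)).trans (le_of_eq ?_)
      rw [sum_add_distrib, sum_const, nsmul_eq_mul]
    have h0 : 0 ≤ C * ε * ak k + C * ε ^ 2 := by
      have := hak0 k
      positivity
    have h1 := mul_le_mul_of_nonneg_right hcount h0
    have h2 := hak0 k
    have e : (1 + C' * ε) * ak k + C' * ε ^ 2 = ak k + nE * (C * ε * ak k + C * ε ^ 2)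
        + (nE * C * ε * ak k + ε * ak k + nE * C * 2 * ε ^ 2 - nE * C * ε ^ 2 + ε ^ 2) := by
      rw [hC']; ring
    rw [e]
    have h3 : 0 ≤ nE * C * ε * ak k + ε * ak k + nE * C * 2 * ε ^ 2 - nE * C * ε ^ 2 + ε ^ 2 := by
      have h4 : 0 ≤ nE * C * ε * ak k := by positivity
      have h5 : 0 ≤ ε * ak k := by positivity
      have h6 : 0 ≤ nE * C * ε ^ 2 := by positivity
      have h7 : 0 ≤ ε ^ 2 := by positivity
      linarith
    linarith
  have hclosed : ∀ k, ak k ≤ ε * (Real.exp (C' * k * ε) - 1) := by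
    intro k
    induction k with
    | zero =>
      have : ak 0 = 0 := by
        show edgeSum S N (Dk 0) = 0
        unfold edgeSum
        refine sum_eq_zero fun a _ => sum_eq_zero fun b _ => ?_
        simp only [hDk, cavChain, xChain]
        have h1 : msg θ N (0 : V → ℝ) L a b = 0 := msg_zero_field hp.nonneg hp.lt_one L a b
        simp [h1]
      simp [this]
    | succ k ih =>
      have h1 := hrec k
      have hexp : (1 : ℝ) + C' * ε ≤ Real.exp (C' * ε) := by
        have := Real.add_one_le_exp (C' * ε); linarith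
      have e2 : Real.exp (C' * ((k + 1 : ℕ) : ℝ) * ε) = Real.exp (C' * ε) * Real.exp (C' * k * ε) := by
        rw [← Real.exp_add]; congr 1; push_cast; ring
      rw [e2]
      have h0 : 0 ≤ 1 + C' * ε := by positivity
      have h3 := mul_le_mul_of_nonneg_left ih h0
      have h4 : (1 + C' * ε) * (ε * (Real.exp (C' * k * ε) - 1)) + C' * ε ^ 2
          = ε * ((1 + C' * ε) * Real.exp (C' * k * ε) - 1) := by ring
      have h5 : (1 + C' * ε) * Real.exp (C' * k * ε) ≤ Real.exp (C' * ε) * Real.exp (C' * k * ε) :=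
        mul_le_mul_of_nonneg_right hexp (Real.exp_pos _).le
      have h6 := mul_le_mul_of_nonneg_left (sub_le_sub_right h5 1) hε.le
      linarith
  have hk1 : ak k ≤ ε * Real.exp (C' * |t|) := by
    refine (hclosed k).trans (mul_le_mul_of_nonneg_left ?_ hε.le)
    have h1 : Real.exp (C' * k * ε) ≤ Real.exp (C' * |t|) := by
      apply Real.exp_le_exp.2
      have h2 : (k : ℝ) * ε ≤ |t| := htk.trans (le_abs_self t)
      calc C' * k * ε = C' * (k * ε) := by ring
        _ ≤ _ := mul_le_mul_of_nonneg_left h2 hC'0.le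
    linarith
  have hD : Dk k a b ≤ ak k :=
    single_le_edgeSum (N := N) (f := Dk k) (hnn k) ha (mem_nbS_of_adj hab ha hb)
  show Dk k a b ≤ _
  have h2 : 0 < ε := hε
  have h3 : 0 < Real.exp (C' * |t|) := Real.exp_pos _
  calc Dk k a b ≤ ε * Real.exp (C' * |t|) := hD.trans hk1
    _ ≤ (Real.exp (C' * |t|) + 1) * ε := by nlinarith

end

end Vale.Agent.Lib.P161
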