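import Vale.Agent.Lib.P161.OneStep

/-!
Mesh refinement for the field chain of a finite system, for P161 (module task, see the team
findings table). The noise is additive, so the estimate is pathwise; only second moments of the
noise are used.
-/

open MeasureTheory ProbabilityTheory Finset

set_option linter.unusedSectionVars false

namespace Vale.Agent.Lib.P161

noncomputable section

variable {Ω V : Type*} [MeasurableSpace Ω] {P : Measure Ω} [IsProbabilityMeasure P]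
  [DecidableEq V] {N : V → Finset V} {θ : ℝ} {S : Finset V}

/-! ### Deterministic part: Lipschitz bounds -/

section Lip

/-- Lipschitz constants of the messages, by fuel. -/
def lipM (S : Finset V) : ℕ → ℝ
  | 0 => 1
  | L + 1 => 1 + (S.card : ℝ) * lipM S L

lemma lipM_nonneg (S : Finset V) (L : ℕ) : 0 ≤ lipM S L := by
  induction L with
  | zero => simp [lipM]
  | succ L ih => simp only [lipM]; positivity

lemma sum_step_lip (h0 : 0 ≤ θ) (h1 : θ < 1) (hNS : ∀ a ∈ S, N a ⊆ S) {L : ℕ} {x x' : V → ℝ}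
    {T M : ℝ} (hT : 0 ≤ T) (hM : 0 ≤ M) (hx : ∀ w ∈ S, |x w - x' w| ≤ T)
    (ih : ∀ a b, a ∈ S → |msg θ N x L a b - msg θ N x' L a b| ≤ M * T)
    {a : V} (ha : a ∈ S) {F : Finset V} (hF : F ⊆ N a) :
    |(x a + ∑ c ∈ F, hm θ (msg θ N x L c a)) - (x' a + ∑ c ∈ F, hm θ (msg θ N x' L c a))|
      ≤ (1 + (S.card : ℝ) * M) * T := by
  have e : (x a + ∑ c ∈ F, hm θ (msg θ N x L c a)) - (x' a + ∑ c ∈ F, hm θ (msg θ N x' L c a))
      = (x a - x' a) + ∑ c ∈ F, (hm θ (msg θ N x L c a) - hm θ (msg θ N x' L c a)) := by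
    rw [Finset.sum_sub_distrib]; ring
  rw [e]
  have hsum : |∑ c ∈ F, (hm θ (msg θ N x L c a) - hm θ (msg θ N x' L c a))|
      ≤ (S.card : ℝ) * (M * T) := by
    calc |∑ c ∈ F, (hm θ (msg θ N x L c a) - hm θ (msg θ N x' L c a))|
        ≤ ∑ c ∈ F, |hm θ (msg θ N x L c a) - hm θ (msg θ N x' L c a)| :=
          Finset.abs_sum_le_sum_abs _ _
      _ ≤ ∑ _c ∈ F, (M * T) := by
          refine Finset.sum_le_sum (fun c hc => ?_)
          have hcS : c ∈ S := hNS a ha (hF hc)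
          refine le_trans (abs_hm_sub_le h0 h1 _ _) ?_
          exact (mul_le_of_le_one_left (abs_nonneg _) h1.le).trans (ih c a hcS)
      _ = (F.card : ℝ) * (M * T) := by simp
      _ ≤ (S.card : ℝ) * (M * T) := by
          refine mul_le_mul_of_nonneg_right ?_ (mul_nonneg hM hT)
          exact_mod_cast (Finset.card_le_card (hF.trans (hNS a ha)))
  calc |(x a - x' a) + ∑ c ∈ F, (hm θ (msg θ N x L c a) - hm θ (msg θ N x' L c a))|
      ≤ |x a - x' a| + |∑ c ∈ F, (hm θ (msg θ N x L c a) - hm θ (msg θ N x' L c a))| :=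
        abs_add_le _ _
    _ ≤ T + (S.card : ℝ) * (M * T) := add_le_add (hx a ha) hsum
    _ = (1 + (S.card : ℝ) * M) * T := by ring

/-- Lipschitz bound for the messages in the field, with the sum of the differences on `S`. -/
lemma msg_lip (h0 : 0 ≤ θ) (h1 : θ < 1) (hNS : ∀ a ∈ S, N a ⊆ S) (L : ℕ) (x x' : V → ℝ) :
    ∀ a b, a ∈ S → |msg θ N x L a b - msg θ N x' L a b|
      ≤ lipM S L * ∑ w ∈ S, |x w - x' w| := by
  have hT : 0 ≤ ∑ w ∈ S, |x w - x' w| := Finset.sum_nonneg (fun _ _ => abs_nonneg _)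
  have hx : ∀ w ∈ S, |x w - x' w| ≤ ∑ w ∈ S, |x w - x' w| := fun w hw =>
    Finset.single_le_sum (f := fun w => |x w - x' w|) (fun _ _ => abs_nonneg _) hw
  induction L with
  | zero =>
    intro a b ha
    simp only [msg, lipM, one_mul]
    exact hx a ha
  | succ L ih =>
    intro a b ha
    simp only [msg, lipM]
    exact sum_step_lip h0 h1 hNS hT (lipM_nonneg S L) hx ih ha (Finset.erase_subset _ _)

/-- Lipschitz bound for the drift. -/
lemma drift_lip (h0 : 0 ≤ θ) (h1 : θ < 1) (hNS : ∀ a ∈ S, N a ⊆ S) (L : ℕ) (x x' : V → ℝ)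
    {a : V} (ha : a ∈ S) :
    |Real.tanh (totField θ N x L a) - Real.tanh (totField θ N x' L a)|
      ≤ lipM S (L + 1) * ∑ w ∈ S, |x w - x' w| := by
  have hT : 0 ≤ ∑ w ∈ S, |x w - x' w| := Finset.sum_nonneg (fun _ _ => abs_nonneg _)
  have hx : ∀ w ∈ S, |x w - x' w| ≤ ∑ w ∈ S, |x w - x' w| := fun w hw =>
    Finset.single_le_sum (f := fun w => |x w - x' w|) (fun _ _ => abs_nonneg _) hw
  refine (abs_tanh_sub_le _ _).trans ?_
  simp only [totField, lipM]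
  exact sum_step_lip h0 h1 hNS hT (lipM_nonneg S L) hx (msg_lip h0 h1 hNS L x x') ha
    (Finset.Subset.refl _)

end Lip

/-! ### Deterministic part: the one-step inequality -/

section Path

/-- The elementary inequality for one step. -/
lemma step_ineq {ε D U W : ℝ} (hε : 0 < ε) (hε1 : ε ≤ 1) :
    (D + ε * U + (ε / 2) * W) ^ 2 ≤ (1 + ε) * D ^ 2 + 4 * ε * U ^ 2 + ε * W ^ 2 := by
  have h1 : 2 * D * (U + W / 2) ≤ D ^ 2 + (U + W / 2) ^ 2 := by nlinarith [sq_nonneg (D - (U + W / 2))]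
  have h2 : (U + W / 2) ^ 2 ≤ 2 * U ^ 2 + W ^ 2 / 2 := by nlinarith [sq_nonneg (U - W / 2)]
  have h3 : ε ^ 2 * (U + W / 2) ^ 2 ≤ ε * (U + W / 2) ^ 2 := by
    have : ε ^ 2 ≤ ε := by nlinarith
    exact mul_le_mul_of_nonneg_right this (sq_nonneg _)
  have e : (D + ε * U + (ε / 2) * W) ^ 2
      = D ^ 2 + ε * (2 * D * (U + W / 2)) + ε ^ 2 * (U + W / 2) ^ 2 := by ring
  rw [e]
  have h4 := mul_le_mul_of_nonneg_left h1 hε.le
  have h5 := mul_le_mul_of_nonneg_left h2 hε.le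
  nlinarith

/-- The drift field. -/
def drift (θ : ℝ) (N : V → Finset V) (L : ℕ) (x : V → ℝ) (a : V) : ℝ :=
  Real.tanh (totField θ N x L a)

lemma abs_drift_le (L : ℕ) (x : V → ℝ) (a : V) : |drift θ N L x a| ≤ 1 := abs_tanh_le_one _

/-- Squared difference sums. -/
def dSq (S : Finset V) (x y : V → ℝ) : ℝ := ∑ a ∈ S, (x a - y a) ^ 2

lemma dSq_nonneg (S : Finset V) (x y : V → ℝ) : 0 ≤ dSq S x y :=
  Finset.sum_nonneg (fun _ _ => sq_nonneg _)

lemma sq_sum_abs_le (S : Finset V) (x y : V → ℝ) :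
    (∑ w ∈ S, |x w - y w|) ^ 2 ≤ (S.card : ℝ) * dSq S x y := by
  have := sq_sum_le_card_mul_sum_sq (s := S) (f := fun w => |x w - y w|)
  simpa [dSq, sq_abs] using this

/-- One step of the comparison. Here `X` is the coarse state, `Y` the fine state and `Z` the
intermediate fine state. -/
lemma dSq_step (h0 : 0 ≤ θ) (h1 : θ < 1) (hNS : ∀ a ∈ S, N a ⊆ S) (L : ℕ) {ε : ℝ} (hε : 0 < ε)
    (hε1 : ε ≤ 1) (X Y Z X' Y' : V → ℝ) (u v : V → ℝ)
    (hZ : ∀ a, Z a = Y a + (ε / 2) * drift θ N L Y a + Real.sqrt (ε / 2) * u a)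
    (hY' : ∀ a, Y' a = Z a + (ε / 2) * drift θ N L Z a + Real.sqrt (ε / 2) * v a)
    (hX' : ∀ a, X' a = X a + ε * drift θ N L X a + Real.sqrt (ε / 2) * (u a + v a)) :
    dSq S X' Y' ≤ (1 + (1 + 4 * lipM S (L + 1) ^ 2 * (S.card : ℝ) ^ 2) * ε) * dSq S X Y
      + lipM S (L + 1) ^ 2 * (S.card : ℝ) ^ 2 * ε ^ 2 * ∑ w ∈ S, (1 + u w ^ 2) := by
  set Lp := lipM S (L + 1) with hLp
  set n : ℝ := (S.card : ℝ) with hn
  have hn0 : 0 ≤ n := Nat.cast_nonneg _
  set W := ∑ w ∈ S, (1 + u w ^ 2) with hW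
  -- the bound on `Y - Z`
  have hse : Real.sqrt (ε / 2) ^ 2 = ε / 2 := Real.sq_sqrt (by positivity)
  have hYZ : ∀ w, (Y w - Z w) ^ 2 ≤ ε * (1 + u w ^ 2) := by
    intro w
    have e : Y w - Z w = -((ε / 2) * drift θ N L Y w + Real.sqrt (ε / 2) * u w) := by
      rw [hZ w]; ring
    rw [e, neg_sq]
    have hd : drift θ N L Y w ^ 2 ≤ 1 := by
      have := abs_drift_le (θ := θ) (N := N) L Y w
      rw [← sq_abs]
      nlinarith [abs_nonneg (drift θ N L Y w)]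
    have h2 : ((ε / 2) * drift θ N L Y w + Real.sqrt (ε / 2) * u w) ^ 2
        ≤ 2 * ((ε / 2) * drift θ N L Y w) ^ 2 + 2 * (Real.sqrt (ε / 2) * u w) ^ 2 := by
      nlinarith [sq_nonneg ((ε / 2) * drift θ N L Y w - Real.sqrt (ε / 2) * u w)]
    have h3 : (Real.sqrt (ε / 2) * u w) ^ 2 = (ε / 2) * u w ^ 2 := by
      rw [mul_pow, hse]
    have h4 : ((ε / 2) * drift θ N L Y w) ^ 2 ≤ (ε / 2) ^ 2 := by
      rw [mul_pow]
      exact mul_le_of_le_one_right (by positivity) hd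
    have h5 : (ε / 2) ^ 2 * 2 ≤ ε := by nlinarith
    nlinarith
  -- the sum bound for the middle term
  have hQ : (∑ w ∈ S, |Y w - Z w|) ^ 2 ≤ n * (ε * W) := by
    refine (sq_sum_abs_le S Y Z).trans ?_
    refine mul_le_mul_of_nonneg_left ?_ hn0
    unfold dSq
    rw [hW, Finset.mul_sum]
    exact Finset.sum_le_sum (fun w _ => hYZ w)
  have hLp0 : 0 ≤ Lp := lipM_nonneg S (L + 1)
  -- per site
  have hsite : ∀ a ∈ S, (X' a - Y' a) ^ 2 ≤ (1 + ε) * (X a - Y a) ^ 2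
      + 4 * ε * (Lp ^ 2 * (n * dSq S X Y)) + ε * (Lp ^ 2 * (n * (ε * W))) := by
    intro a ha
    set U := drift θ N L X a - drift θ N L Y a with hU
    set R := drift θ N L Y a - drift θ N L Z a with hR
    have e : X' a - Y' a = (X a - Y a) + ε * U + (ε / 2) * R := by
      rw [hX' a, hY' a, hZ a, hU, hR]
      ring
    rw [e]
    refine (step_ineq hε hε1).trans ?_
    have hU2 : U ^ 2 ≤ Lp ^ 2 * (n * dSq S X Y) := by
      have hb : |U| ≤ Lp * ∑ w ∈ S, |X w - Y w| := drift_lip h0 h1 hNS L X Y ha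
      have hT0 : 0 ≤ ∑ w ∈ S, |X w - Y w| := Finset.sum_nonneg (fun _ _ => abs_nonneg _)
      calc U ^ 2 = |U| ^ 2 := (sq_abs U).symm
        _ ≤ (Lp * ∑ w ∈ S, |X w - Y w|) ^ 2 := pow_le_pow_left₀ (abs_nonneg _) hb 2
        _ = Lp ^ 2 * (∑ w ∈ S, |X w - Y w|) ^ 2 := by ring
        _ ≤ Lp ^ 2 * (n * dSq S X Y) :=
            mul_le_mul_of_nonneg_left (sq_sum_abs_le S X Y) (sq_nonneg _)
    have hR2 : R ^ 2 ≤ Lp ^ 2 * (n * (ε * W)) := by
      have hb : |R| ≤ Lp * ∑ w ∈ S, |Y w - Z w| := drift_lip h0 h1 hNS L Y Z ha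
      calc R ^ 2 = |R| ^ 2 := (sq_abs R).symm
        _ ≤ (Lp * ∑ w ∈ S, |Y w - Z w|) ^ 2 := pow_le_pow_left₀ (abs_nonneg _) hb 2
        _ = Lp ^ 2 * (∑ w ∈ S, |Y w - Z w|) ^ 2 := by ring
        _ ≤ Lp ^ 2 * (n * (ε * W)) := mul_le_mul_of_nonneg_left hQ (sq_nonneg _)
    have h4 := mul_le_mul_of_nonneg_left hU2 (by positivity : (0 : ℝ) ≤ 4 * ε)
    have h5 := mul_le_mul_of_nonneg_left hR2 hε.le
    linarith
  -- sum over sites
  have hsum : dSq S X' Y' ≤ ∑ a ∈ S, ((1 + ε) * (X a - Y a) ^ 2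
      + 4 * ε * (Lp ^ 2 * (n * dSq S X Y)) + ε * (Lp ^ 2 * (n * (ε * W)))) :=
    Finset.sum_le_sum hsite
  refine hsum.trans (le_of_eq ?_)
  rw [Finset.sum_add_distrib, Finset.sum_add_distrib, ← Finset.mul_sum, Finset.sum_const,
    Finset.sum_const, nsmul_eq_mul, nsmul_eq_mul]
  unfold dSq
  ring

end Path

/-! ### The pathwise bound along the chain -/

section Chain

/-- The pathwise comparison of the coarse chain and the fine chain. -/
lemma chain_bound (h0 : 0 ≤ θ) (h1 : θ < 1) (hNS : ∀ a ∈ S, N a ⊆ S) (L : ℕ) {ε : ℝ} (hε : 0 < ε)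
    (hε1 : ε ≤ 1) (h h' : ℕ → V → ℝ)
    (hrel : ∀ k w, h k w = (h' (2 * k) w + h' (2 * k + 1) w) / Real.sqrt 2) (k : ℕ) :
    dSq S (xChain θ N L ε h k) (xChain θ N L (ε / 2) h' (2 * k))
      ≤ lipM S (L + 1) ^ 2 * (S.card : ℝ) ^ 2 * ε ^ 2
        * (1 + (1 + 4 * lipM S (L + 1) ^ 2 * (S.card : ℝ) ^ 2) * ε) ^ k
        * ∑ l ∈ Finset.range k, ∑ w ∈ S, (1 + h' (2 * l) w ^ 2) := by
  set A := lipM S (L + 1) ^ 2 * (S.card : ℝ) ^ 2 with hA
  set B := 1 + 4 * lipM S (L + 1) ^ 2 * (S.card : ℝ) ^ 2 with hB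
  have hA0 : 0 ≤ A := by positivity
  have hB0 : 0 ≤ B := by positivity
  have hq : 1 ≤ 1 + B * ε := by
    have : 0 ≤ B * ε := mul_nonneg hB0 hε.le
    linarith
  induction k with
  | zero =>
    have e1 : xChain θ N L ε h 0 = 0 := rfl
    have e2 : xChain θ N L (ε / 2) h' (2 * 0) = 0 := rfl
    rw [e1, e2]
    simp [dSq]
  | succ k ih =>
    have hstep := dSq_step (S := S) (θ := θ) (N := N) h0 h1 hNS L hε hε1
      (xChain θ N L ε h k) (xChain θ N L (ε / 2) h' (2 * k))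
      (xChain θ N L (ε / 2) h' (2 * k + 1))
      (xChain θ N L ε h (k + 1)) (xChain θ N L (ε / 2) h' (2 * (k + 1)))
      (h' (2 * k)) (h' (2 * k + 1))
      (fun a => rfl)
      (fun a => by
        have e : 2 * (k + 1) = (2 * k + 1) + 1 := by ring
        rw [e]
        rfl)
      (fun a => by
        have e : xChain θ N L ε h (k + 1) a = xChain θ N L ε h k a
            + ε * drift θ N L (xChain θ N L ε h k) a + Real.sqrt ε * h k a := rfl
        rw [e, hrel k a, Real.sqrt_div hε.le]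
        ring)
    set W0 := ∑ w ∈ S, (1 + h' (2 * k) w ^ 2) with hW0
    have hW00 : 0 ≤ W0 := Finset.sum_nonneg (fun w _ => by positivity)
    set W := ∑ l ∈ Finset.range k, ∑ w ∈ S, (1 + h' (2 * l) w ^ 2) with hW
    have hW1 : 0 ≤ W := Finset.sum_nonneg (fun l _ => Finset.sum_nonneg (fun w _ => by positivity))
    have hs : ∑ l ∈ Finset.range (k + 1), ∑ w ∈ S, (1 + h' (2 * l) w ^ 2) = W + W0 :=
      Finset.sum_range_succ _ _
    rw [hs]
    refine hstep.trans ?_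
    have hqk : (1 : ℝ) ≤ (1 + B * ε) ^ (k + 1) := one_le_pow₀ hq
    have hAe : 0 ≤ A * ε ^ 2 := by positivity
    calc (1 + B * ε) * dSq S (xChain θ N L ε h k) (xChain θ N L (ε / 2) h' (2 * k))
          + A * ε ^ 2 * W0
        ≤ (1 + B * ε) * (A * ε ^ 2 * (1 + B * ε) ^ k * W) + A * ε ^ 2 * W0 := by
          have := mul_le_mul_of_nonneg_left ih (by linarith : (0 : ℝ) ≤ 1 + B * ε)
          linarith
      _ ≤ (1 + B * ε) * (A * ε ^ 2 * (1 + B * ε) ^ k * W)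
            + A * ε ^ 2 * ((1 + B * ε) ^ (k + 1) * W0) := by
          have : W0 ≤ (1 + B * ε) ^ (k + 1) * W0 := le_mul_of_one_le_left hW00 hqk
          have := mul_le_mul_of_nonneg_left this hAe
          linarith
      _ = A * ε ^ 2 * (1 + B * ε) ^ (k + 1) * (W + W0) := by ring

end Chain

/-! ### The probabilistic part -/

section Prob

lemma integrable_one_add_sq {g' : ℕ → V → Ω → ℝ} (hg : IsNoise P g') (k : ℕ) (w : V) :
    Integrable (fun ω => 1 + g' k w ω ^ 2) P :=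
  (integrable_const 1).add ((memLp_noise hg k w 2 (by simp)).integrable_sq)

lemma integral_one_add_sq {g' : ℕ → V → Ω → ℝ} (hg : IsNoise P g') (k : ℕ) (w : V) :
    ∫ ω, (1 + g' k w ω ^ 2) ∂P = 2 := by
  have h2 : Integrable (fun ω => g' k w ω ^ 2) P :=
    (memLp_noise hg k w 2 (by simp)).integrable_sq
  rw [integral_add (integrable_const 1) h2, integral_noise_sq hg k w]
  simp only [integral_const, probReal_univ, smul_eq_mul, one_mul]
  norm_num

/-- The core of the mesh estimate: a pathwise majorant with controlled expectation. -/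
theorem mesh_core (h0 : 0 ≤ θ) (h1 : θ < 1) (hNS : ∀ a ∈ S, N a ⊆ S) (L : ℕ) (t : ℝ) :
    ∃ C > 0, ∀ (g g' : ℕ → V → Ω → ℝ), IsNoise P g' →
      (∀ k w ω, g k w ω = (g' (2 * k) w ω + g' (2 * k + 1) w ω) / Real.sqrt 2) →
      ∀ ε : ℝ, 0 < ε → ε ≤ 1 → ∀ k : ℕ, k * ε ≤ t → ∃ Υ : Ω → ℝ, Integrable Υ P ∧
        ∫ ω, Υ ω ∂P ≤ C * ε ∧ ∀ a ∈ S, ∀ ω,
          (xChain θ N L ε (fun i w => g i w ω) k a
            - xChain θ N L (ε / 2) (fun i w => g' i w ω) (2 * k) a) ^ 2 ≤ Υ ω := by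
  set A := lipM S (L + 1) ^ 2 * (S.card : ℝ) ^ 2 with hA
  set B := 1 + 4 * lipM S (L + 1) ^ 2 * (S.card : ℝ) ^ 2 with hB
  have hA0 : 0 ≤ A := by positivity
  have hB0 : 0 ≤ B := by positivity
  set E0 := Real.exp (B * |t|) with hE0
  have hE00 : 0 < E0 := Real.exp_pos _
  set n : ℝ := (S.card : ℝ) with hn
  have hn0 : 0 ≤ n := Nat.cast_nonneg _
  set C0 := 2 * n * A * E0 * |t| with hC0
  have hC00 : 0 ≤ C0 := by positivity
  refine ⟨C0 + 1, by linarith, ?_⟩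
  intro g g' hg' hrel ε hε hε1 k hk
  have hIw : ∀ l, Integrable (fun ω => ∑ w ∈ S, (1 + g' (2 * l) w ω ^ 2)) P := fun l =>
    integrable_finsetSum _ (fun w _ => integrable_one_add_sq hg' _ w)
  have hIl : Integrable (fun ω => ∑ l ∈ Finset.range k, ∑ w ∈ S, (1 + g' (2 * l) w ω ^ 2)) P :=
    integrable_finsetSum _ (fun l _ => hIw l)
  have hint : ∫ ω, ∑ l ∈ Finset.range k, ∑ w ∈ S, (1 + g' (2 * l) w ω ^ 2) ∂P = k * (2 * n) := by
    rw [integral_finsetSum _ (fun l _ => hIw l)]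
    have : ∀ l ∈ Finset.range k, ∫ ω, ∑ w ∈ S, (1 + g' (2 * l) w ω ^ 2) ∂P = 2 * n := by
      intro l _
      rw [integral_finsetSum _ (fun w _ => integrable_one_add_sq hg' _ w)]
      rw [Finset.sum_congr rfl (fun w _ => integral_one_add_sq hg' (2 * l) w)]
      simp [hn]
      ring
    rw [Finset.sum_congr rfl this]
    simp
  refine ⟨fun ω => A * ε ^ 2 * E0 * ∑ l ∈ Finset.range k, ∑ w ∈ S, (1 + g' (2 * l) w ω ^ 2),
    hIl.const_mul _, ?_, ?_⟩
  · rw [integral_const_mul, hint]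
    have hkt : (k : ℝ) * ε ≤ |t| := hk.trans (le_abs_self t)
    have hC1 : A * ε ^ 2 * E0 * (k * (2 * n)) = (2 * n * A * E0) * ((k * ε) * ε) := by ring
    rw [hC1]
    have h2 : (2 * n * A * E0) * ((k * ε) * ε) ≤ (2 * n * A * E0) * (|t| * ε) :=
      mul_le_mul_of_nonneg_left (mul_le_mul_of_nonneg_right hkt hε.le) (by positivity)
    have h3 : (2 * n * A * E0) * (|t| * ε) = C0 * ε := by rw [hC0]; ring
    nlinarith
  · intro a ha ω
    have hb := chain_bound (S := S) (θ := θ) (N := N) h0 h1 hNS L hε hε1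
      (fun i w => g i w ω) (fun i w => g' i w ω) (fun k w => hrel k w ω) k
    have hsingle : (xChain θ N L ε (fun i w => g i w ω) k a
        - xChain θ N L (ε / 2) (fun i w => g' i w ω) (2 * k) a) ^ 2
        ≤ dSq S (xChain θ N L ε (fun i w => g i w ω) k)
            (xChain θ N L (ε / 2) (fun i w => g' i w ω) (2 * k)) :=
      Finset.single_le_sum
        (f := fun a => (xChain θ N L ε (fun i w => g i w ω) k a
          - xChain θ N L (ε / 2) (fun i w => g' i w ω) (2 * k) a) ^ 2)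
        (fun _ _ => sq_nonneg _) ha
    refine hsingle.trans (hb.trans ?_)
    have hW : 0 ≤ ∑ l ∈ Finset.range k, ∑ w ∈ S, (1 + g' (2 * l) w ω ^ 2) :=
      Finset.sum_nonneg (fun l _ => Finset.sum_nonneg (fun w _ => by positivity))
    refine mul_le_mul_of_nonneg_right ?_ hW
    refine mul_le_mul_of_nonneg_left ?_ (by positivity)
    -- the exponential bound
    have h1' : 1 + B * ε ≤ Real.exp (B * ε) := by
      have := Real.add_one_le_exp (B * ε)
      linarith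
    have h2 : (1 + B * ε) ^ k ≤ Real.exp (B * ε) ^ k :=
      pow_le_pow_left₀ (by positivity) h1' k
    refine h2.trans ?_
    rw [← Real.exp_nat_mul]
    refine Real.exp_le_exp.2 ?_
    have hkt : (k : ℝ) * ε ≤ |t| := hk.trans (le_abs_self t)
    calc (k : ℝ) * (B * ε) = B * (k * ε) := by ring
      _ ≤ B * |t| := mul_le_mul_of_nonneg_left hkt hB0

/-- Levels of dyadic refining noise; one coarse step of mesh `ε` against two fine steps of mesh
`ε / 2`. All the constants may depend on the finite system. -/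
theorem mesh_step (h0 : 0 ≤ θ) (h1 : θ < 1) (hNS : ∀ a ∈ S, N a ⊆ S) (L : ℕ) (t : ℝ) :
    ∃ C > 0, ∀ (g g' : ℕ → V → Ω → ℝ), IsNoise P g' →
      (∀ k w ω, g k w ω = (g' (2 * k) w ω + g' (2 * k + 1) w ω) / Real.sqrt 2) →
      ∀ ε : ℝ, 0 < ε → ε ≤ 1 → ∀ k : ℕ, k * ε ≤ t → ∀ a ∈ S,
        ∫ ω, (xChain θ N L ε (fun i w => g i w ω) k a
            - xChain θ N L (ε / 2) (fun i w => g' i w ω) (2 * k) a) ^ 2 ∂P ≤ C * ε := by
  obtain ⟨C, hC, hmain⟩ := mesh_core (Ω := Ω) (P := P) (S := S) (N := N) h0 h1 hNS L t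
  refine ⟨C, hC, ?_⟩
  intro g g' hg' hrel ε hε hε1 k hk a ha
  obtain ⟨Υ, hI, hint, hle⟩ := hmain g g' hg' hrel ε hε hε1 k hk
  refine le_trans ?_ hint
  exact integral_mono_of_nonneg (Filter.Eventually.of_forall (fun ω => sq_nonneg _)) hI
    (Filter.Eventually.of_forall (fun ω => hle a ha ω))

/-- The field chains at dyadic levels `j ≤ j'`, for the same integer time `t`. -/
theorem mesh_all (h0 : 0 ≤ θ) (h1 : θ < 1) (hNS : ∀ a ∈ S, N a ⊆ S) (L t : ℕ) :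
    ∃ C > 0, ∀ (g : ℕ → ℕ → V → Ω → ℝ), (∀ j, IsNoise P (g j)) →
      (∀ j k w ω, g j k w ω = (g (j + 1) (2 * k) w ω + g (j + 1) (2 * k + 1) w ω) / Real.sqrt 2) →
      ∀ j j' : ℕ, j ≤ j' → ∀ a ∈ S,
        ∫ ω, (xChain θ N L ((1 / 2 : ℝ) ^ j) (fun i w => g j i w ω) (t * 2 ^ j) a
            - xChain θ N L ((1 / 2 : ℝ) ^ j') (fun i w => g j' i w ω) (t * 2 ^ j') a) ^ 2 ∂P
          ≤ C * (1 / 2 : ℝ) ^ j := by
  obtain ⟨C, hC, hmain⟩ := mesh_core (Ω := Ω) (P := P) (S := S) (N := N) h0 h1 hNS L (t : ℝ)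
  refine ⟨12 * C, by positivity, ?_⟩
  intro g hg hrel j j' hjj' a ha
  -- the chain at level `i`
  set X : ℕ → Ω → ℝ := fun i ω =>
    xChain θ N L ((1 / 2 : ℝ) ^ i) (fun l w => g i l w ω) (t * 2 ^ i) a with hX
  -- majorants at each level
  have hex : ∀ i, ∃ Υ : Ω → ℝ, Integrable Υ P ∧ ∫ ω, Υ ω ∂P ≤ C * (1 / 2 : ℝ) ^ i ∧
      ∀ ω, (X i ω - X (i + 1) ω) ^ 2 ≤ Υ ω := by
    intro i
    have hk : ((t * 2 ^ i : ℕ) : ℝ) * (1 / 2 : ℝ) ^ i ≤ (t : ℝ) := by
      push_cast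
      have : ((2 : ℝ) ^ i) * (1 / 2 : ℝ) ^ i = 1 := by
        rw [← mul_pow]; norm_num
      rw [mul_assoc, this, mul_one]
    obtain ⟨Υ, hI, hint, hle⟩ := hmain (g i) (g (i + 1)) (hg (i + 1)) (hrel i)
      ((1 / 2 : ℝ) ^ i) (by positivity) (pow_le_one₀ (by norm_num) (by norm_num)) _ hk
    refine ⟨Υ, hI, hint, fun ω => ?_⟩
    have := hle a ha ω
    have e1 : (1 / 2 : ℝ) ^ i / 2 = (1 / 2 : ℝ) ^ (i + 1) := by rw [pow_succ]; ring
    have e2 : 2 * (t * 2 ^ i) = t * 2 ^ (i + 1) := by rw [pow_succ]; ring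
    rw [e1, e2] at this
    exact this
  choose Υ hI hint hle using hex
  -- telescoping
  have htel : ∀ ω, X j ω - X j' ω = ∑ i ∈ Finset.Ico j j', (X i ω - X (i + 1) ω) := by
    intro ω
    have h := Finset.sum_Ico_sub (fun i => X i ω) hjj'
    rw [← neg_sub, ← h, ← Finset.sum_neg_distrib]
    exact Finset.sum_congr rfl (fun i _ => by ring)
  have hΥ0 : ∀ i ω, 0 ≤ Υ i ω := fun i ω => (sq_nonneg _).trans (hle i ω)
  set s1 := ∑ i ∈ Finset.Ico j j', (3 / 4 : ℝ) ^ i with hs1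
  have hs10 : 0 ≤ s1 := Finset.sum_nonneg (fun i _ => by positivity)
  -- weighted Cauchy-Schwarz, pointwise
  have hcs : ∀ ω, (X j ω - X j' ω) ^ 2
      ≤ s1 * ∑ i ∈ Finset.Ico j j', (4 / 3 : ℝ) ^ i * Υ i ω := by
    intro ω
    rw [htel ω]
    have h1 := Finset.sum_sq_le_sum_mul_sum_of_sq_le_mul (s := Finset.Ico j j')
      (r := fun i => X i ω - X (i + 1) ω)
      (f := fun i => (3 / 4 : ℝ) ^ i)
      (g := fun i => (4 / 3 : ℝ) ^ i * (X i ω - X (i + 1) ω) ^ 2)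
      (fun i _ => by positivity) (fun i _ => by positivity)
      (fun i _ => by
        have : ((3 / 4 : ℝ) ^ i) * ((4 / 3 : ℝ) ^ i) = 1 := by
          rw [← mul_pow]; norm_num
        refine le_of_eq ?_
        calc (X i ω - X (i + 1) ω) ^ 2
            = ((3 / 4 : ℝ) ^ i * (4 / 3 : ℝ) ^ i) * (X i ω - X (i + 1) ω) ^ 2 := by
              rw [this, one_mul]
          _ = _ := by ring)
    refine h1.trans ?_
    refine mul_le_mul_of_nonneg_left ?_ hs10
    refine Finset.sum_le_sum (fun i _ => ?_)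
    exact mul_le_mul_of_nonneg_left (hle i ω) (by positivity)
  have hIsum : Integrable (fun ω => s1 * ∑ i ∈ Finset.Ico j j', (4 / 3 : ℝ) ^ i * Υ i ω) P :=
    (integrable_finsetSum _ (fun i _ => (hI i).const_mul _)).const_mul _
  have hmono : ∫ ω, (X j ω - X j' ω) ^ 2 ∂P
      ≤ ∫ ω, s1 * ∑ i ∈ Finset.Ico j j', (4 / 3 : ℝ) ^ i * Υ i ω ∂P :=
    integral_mono_of_nonneg (Filter.Eventually.of_forall (fun ω => sq_nonneg _)) hIsum
      (Filter.Eventually.of_forall hcs)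
  refine hmono.trans ?_
  rw [integral_const_mul, integral_finsetSum _ (fun i _ => (hI i).const_mul _)]
  simp_rw [integral_const_mul]
  -- the geometric sums
  have hg1 : s1 ≤ 4 * (3 / 4 : ℝ) ^ j := by
    rw [hs1, geom_sum_Ico' (by norm_num) hjj']
    have : (0 : ℝ) ≤ (3 / 4 : ℝ) ^ j' := by positivity
    have e : (1 : ℝ) - 3 / 4 = 1 / 4 := by norm_num
    rw [e]
    rw [div_le_iff₀ (by norm_num)]
    nlinarith
  have hg2 : ∑ i ∈ Finset.Ico j j', (4 / 3 : ℝ) ^ i * ∫ ω, Υ i ω ∂P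
      ≤ C * (3 * (2 / 3 : ℝ) ^ j) := by
    calc ∑ i ∈ Finset.Ico j j', (4 / 3 : ℝ) ^ i * ∫ ω, Υ i ω ∂P
        ≤ ∑ i ∈ Finset.Ico j j', (4 / 3 : ℝ) ^ i * (C * (1 / 2 : ℝ) ^ i) :=
          Finset.sum_le_sum (fun i _ => mul_le_mul_of_nonneg_left (hint i) (by positivity))
      _ = C * ∑ i ∈ Finset.Ico j j', (2 / 3 : ℝ) ^ i := by
          rw [Finset.mul_sum]
          refine Finset.sum_congr rfl (fun i _ => ?_)
          have : (2 / 3 : ℝ) ^ i = (4 / 3 : ℝ) ^ i * (1 / 2 : ℝ) ^ i := by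
            rw [← mul_pow]; norm_num
          rw [this]; ring
      _ ≤ C * (3 * (2 / 3 : ℝ) ^ j) := by
          refine mul_le_mul_of_nonneg_left ?_ hC.le
          rw [geom_sum_Ico' (by norm_num) hjj']
          have : (0 : ℝ) ≤ (2 / 3 : ℝ) ^ j' := by positivity
          have e : (1 : ℝ) - 2 / 3 = 1 / 3 := by norm_num
          rw [e]
          rw [div_le_iff₀ (by norm_num)]
          nlinarith
  have hg20 : 0 ≤ C * (3 * (2 / 3 : ℝ) ^ j) := by positivity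
  calc s1 * ∑ i ∈ Finset.Ico j j', (4 / 3 : ℝ) ^ i * ∫ ω, Υ i ω ∂P
      ≤ (4 * (3 / 4 : ℝ) ^ j) * (C * (3 * (2 / 3 : ℝ) ^ j)) :=
        mul_le_mul hg1 hg2 (Finset.sum_nonneg (fun i _ => mul_nonneg (by positivity)
          (integral_nonneg (hΥ0 i)))) (by positivity)
    _ = 12 * C * (1 / 2 : ℝ) ^ j := by
        have : (1 / 2 : ℝ) ^ j = (3 / 4 : ℝ) ^ j * (2 / 3 : ℝ) ^ j := by
          rw [← mul_pow]; norm_num
        rw [this]; ring

end Prob

end

end Vale.Agent.Lib.P161
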