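import Vale.Agent.Lib.P161.Limit
import Vale.Agent.Lib.P161.Step

/-!
The master estimator, its equivariance, and the reduction of the main theorem to four facts about
it, for P161 (module task, see the team findings table).
-/

open MeasureTheory ProbabilityTheory Finset Filter

open scoped Topology

namespace Vale.Agent.Lib.P161

noncomputable section

variable {V : Type*} {G : SimpleGraph V} [G.LocallyFinite] [DecidableEq V] {d : ℕ} {θ : ℝ}

/-- The master chain on the uniform field: fuel `ℓ`, level `j`, mesh `2^(-j)`, at step `k`. -/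
def masterChain (G : SimpleGraph V) [G.LocallyFinite] (θ : ℝ) (γ : ℕ → ℕ → unitInterval → ℝ)
    (ℓ j k : ℕ) (u : V → unitInterval) : V → V → ℝ :=
  cavChain θ (nbV G) ℓ ((1 / 2 : ℝ) ^ j) (fun i w => γ j i (u w)) k

/-- The master estimator of the spin at `v`, at integer time `t`. -/
def masterX (G : SimpleGraph V) [G.LocallyFinite] (θ : ℝ) (d : ℕ) (γ : ℕ → ℕ → unitInterval → ℝ)
    (ℓ j t : ℕ) (v : V) (u : V → unitInterval) : ℝ :=
  clip (yHat θ d (nbV G) (masterChain G θ γ ℓ j (t * 2 ^ j) u) v / t)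

/-! ### Equivariance -/

omit [DecidableEq V] in
lemma mem_nbV_equiv (e : G ≃g G) (a c : V) : c ∈ nbV G a ↔ e c ∈ nbV G (e a) := by
  simp [nbV, SimpleGraph.mem_neighborFinset, e.map_adj_iff]

lemma sum_nbV_equiv (e : G ≃g G) (a : V) (f : V → ℝ) :
    ∑ c ∈ nbV G (e a), f c = ∑ c ∈ nbV G a, f (e c) :=
  (Finset.sum_equiv e.toEquiv (fun c => mem_nbV_equiv e a c) (fun _ _ => rfl)).symm

lemma sum_erase_nbV_equiv (e : G ≃g G) (a b : V) (f : V → ℝ) :
    ∑ c ∈ (nbV G (e a)).erase (e b), f c = ∑ c ∈ (nbV G a).erase b, f (e c) := by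
  refine (Finset.sum_equiv e.toEquiv (fun c => ?_) (fun _ _ => rfl)).symm
  have h1 : e.toEquiv c = e c := rfl
  rw [Finset.mem_erase, Finset.mem_erase, h1, ← mem_nbV_equiv e a c, Ne, Ne, e.injective.eq_iff]

lemma Nsq_equiv (e : G ≃g G) {W W' : V → V → ℝ} (hW : ∀ c a, W' (e c) (e a) = W c a) (ℓ : ℕ)
    (a b : V) : Nsq (nbV G) W' ℓ (e a) (e b) = Nsq (nbV G) W ℓ a b := by
  induction ℓ generalizing a b with
  | zero => rfl
  | succ ℓ ih =>
    simp only [Nsq]
    rw [sum_erase_nbV_equiv]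
    congr 1
    refine Finset.sum_congr rfl (fun c _ => ?_)
    rw [hW, ih]

lemma Lin_equiv (e : G ≃g G) {W W' : V → V → ℝ} (hW : ∀ c a, W' (e c) (e a) = W c a)
    {g g' : V → ℝ} (hg : ∀ a, g' (e a) = g a) (ℓ : ℕ)
    (a b : V) : Lin (nbV G) W' g' ℓ (e a) (e b) = Lin (nbV G) W g ℓ a b := by
  induction ℓ generalizing a b with
  | zero => exact hg a
  | succ ℓ ih =>
    simp only [Lin]
    rw [sum_erase_nbV_equiv, hg]
    congr 1
    refine Finset.sum_congr rfl (fun c _ => ?_)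
    rw [hW, ih]

lemma cavChain_equiv (e : G ≃g G) (ℓ : ℕ) (ε : ℝ) {g g' : ℕ → V → ℝ}
    (hg : ∀ i a, g' i (e a) = g i a) (k : ℕ) (a b : V) :
    cavChain θ (nbV G) ℓ ε g' k (e a) (e b) = cavChain θ (nbV G) ℓ ε g k a b := by
  induction k generalizing a b with
  | zero => rfl
  | succ k ih =>
    simp only [cavChain, cavStep]
    have hW : ∀ c a, wgt θ (cavChain θ (nbV G) ℓ ε g' k) (e c) (e a)
        = wgt θ (cavChain θ (nbV G) ℓ ε g k) c a := by
      intro c a
      simp only [wgt, ih]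
    rw [Nsq_equiv e hW, Lin_equiv e hW (hg k), ih, ih]

/-- The master estimator is pointwise equivariant under graph automorphisms. -/
theorem masterX_equivariant (γ : ℕ → ℕ → unitInterval → ℝ) (e : G ≃g G) (ℓ j t : ℕ) (v : V)
    (u : V → unitInterval) :
    masterX G θ d γ ℓ j t (e v) (u ∘ e.symm) = masterX G θ d γ ℓ j t v u := by
  unfold masterX masterChain yHat
  congr 3
  rw [sum_nbV_equiv]
  refine Finset.sum_congr rfl (fun c _ => ?_)
  have hg : ∀ (i : ℕ) (a : V), (fun i w => γ j i ((u ∘ e.symm) w)) i (e a)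
      = (fun i w => γ j i (u w)) i a := by
    intro i a
    simp
  rw [cavChain_equiv e ℓ _ hg, cavChain_equiv e ℓ _ hg]

/-! ### Measurability -/

lemma measurable_masterChain (h0 : 0 ≤ θ) (h1 : θ < 1) {γ : ℕ → ℕ → unitInterval → ℝ}
    (hγ : ∀ j k, Measurable (γ j k)) (ℓ j k : ℕ) (a b : V) :
    Measurable (fun u : V → unitInterval => masterChain G θ γ ℓ j k u a b) := by
  unfold masterChain
  induction k generalizing a b with
  | zero => exact measurable_const
  | succ k ih =>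
    simp only [cavChain, cavStep]
    have hW : ∀ c a, Measurable (fun u : V → unitInterval =>
        wgt θ (cavChain θ (nbV G) ℓ ((1 / 2 : ℝ) ^ j) (fun i w => γ j i (u w)) k) c a) :=
      fun c a => (continuous_hd1 h0 h1).measurable.comp (ih c a)
    refine ((ih a b).add (((continuous_tanh.measurable.comp ((ih a b).add
      ((continuous_hm h0 h1).measurable.comp (ih b a)))).mul
      (measurable_Nsq hW ℓ a b)).const_mul _)).add
      ((measurable_Lin hW (fun w => ?_) ℓ a b).const_mul _)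
    exact (hγ j k).comp (measurable_pi_apply w)

theorem measurable_masterX (h0 : 0 ≤ θ) (h1 : θ < 1) {γ : ℕ → ℕ → unitInterval → ℝ}
    (hγ : ∀ j k, Measurable (γ j k)) [Countable V] (ℓ j t : ℕ) (v : V) :
    Measurable (masterX G θ d γ ℓ j t v) := by
  unfold masterX
  refine continuous_clip.measurable.comp ?_
  unfold yHat
  refine Measurable.div_const (Measurable.div_const ?_ _) _
  refine Finset.measurable_fun_sum _ (fun c _ => ?_)
  exact (measurable_masterChain h0 h1 hγ ℓ j _ v c).sub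
    (((continuous_hm h0 h1).measurable.comp
      (measurable_masterChain h0 h1 hγ ℓ j _ c v)).const_mul _)

/-- `L²` distance at the uniform field. -/
def dist2 (V : Type*) (f h : (V → unitInterval) → ℝ) : ℝ :=
  ∫ u, (f u - h u) ^ 2 ∂(uniformField V)

/-! ### Elementary integral estimates -/

section Estimates

variable {Ω : Type*} [MeasurableSpace Ω] {μ : Measure Ω} [IsProbabilityMeasure μ]

lemma stage_integrable_of_abs_le {f : Ω → ℝ} (hf : Measurable f) {C : ℝ} (hb : ∀ u, |f u| ≤ C) :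
    Integrable f μ :=
  Integrable.of_bound hf.aestronglyMeasurable C
    (Eventually.of_forall (fun u => by rw [Real.norm_eq_abs]; exact hb u))

lemma stage_integrable_sq_sub {f h : Ω → ℝ} (hf : Measurable f) (hh : Measurable h)
    (hfb : ∀ u, |f u| ≤ 1) (hhb : ∀ u, |h u| ≤ 1) :
    Integrable (fun u => (f u - h u) ^ 2) μ := by
  refine stage_integrable_of_abs_le ((hf.sub hh).pow_const 2) (C := 4) (fun u => ?_)
  have h1 := abs_le.1 (hfb u)
  have h2 := abs_le.1 (hhb u)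
  rw [abs_of_nonneg (sq_nonneg _)]
  nlinarith

lemma stage_integral_sq_triangle {f₁ f₂ f₃ f₄ : Ω → ℝ} (m₁ : Measurable f₁) (m₂ : Measurable f₂)
    (m₃ : Measurable f₃) (m₄ : Measurable f₄) (b₁ : ∀ u, |f₁ u| ≤ 1) (b₂ : ∀ u, |f₂ u| ≤ 1)
    (b₃ : ∀ u, |f₃ u| ≤ 1) (b₄ : ∀ u, |f₄ u| ≤ 1) :
    ∫ u, (f₁ u - f₄ u) ^ 2 ∂μ ≤ 3 * (∫ u, (f₁ u - f₂ u) ^ 2 ∂μ + ∫ u, (f₂ u - f₃ u) ^ 2 ∂μ
      + ∫ u, (f₄ u - f₃ u) ^ 2 ∂μ) := by
  have i₁ := stage_integrable_sq_sub (μ := μ) m₁ m₂ b₁ b₂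
  have i₂ := stage_integrable_sq_sub (μ := μ) m₂ m₃ b₂ b₃
  have i₃ := stage_integrable_sq_sub (μ := μ) m₄ m₃ b₄ b₃
  have i₄ := stage_integrable_sq_sub (μ := μ) m₁ m₄ b₁ b₄
  have i₁₂ : Integrable (fun u => (f₁ u - f₂ u) ^ 2 + (f₂ u - f₃ u) ^ 2) μ := i₁.add i₂
  have i₁₂₃ : Integrable (fun u => (f₁ u - f₂ u) ^ 2 + (f₂ u - f₃ u) ^ 2 + (f₄ u - f₃ u) ^ 2) μ :=
    i₁₂.add i₃
  rw [← integral_add i₁ i₂, ← integral_add i₁₂ i₃, ← integral_const_mul]
  refine integral_mono i₄ (i₁₂₃.const_mul 3) (fun u => ?_)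
  simp only
  nlinarith [sq_nonneg ((f₁ u - f₂ u) - (f₂ u - f₃ u)), sq_nonneg ((f₁ u - f₂ u) - (f₃ u - f₄ u)),
    sq_nonneg ((f₂ u - f₃ u) - (f₃ u - f₄ u))]

/-- The mean absolute difference is controlled by the second moment. -/
lemma stage_abs_le_sq_div (x s : ℝ) (hs : 0 < s) : |x| ≤ x ^ 2 / (2 * s) + s / 2 := by
  have h : 0 ≤ (|x| - s) ^ 2 := sq_nonneg _
  have h2 : |x| ^ 2 = x ^ 2 := sq_abs x
  have h3 : x ^ 2 / (2 * s) + s / 2 - |x| = (|x| - s) ^ 2 / (2 * s) := by
    rw [← h2]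
    field_simp
    ring
  have h4 : 0 ≤ (|x| - s) ^ 2 / (2 * s) := by positivity
  linarith

lemma stage_integral_abs_sub_le {f h : Ω → ℝ} (hf : Measurable f) (hh : Measurable h)
    (hfb : ∀ u, |f u| ≤ 1) (hhb : ∀ u, |h u| ≤ 1) {s : ℝ} (hs : 0 < s) :
    ∫ u, |f u - h u| ∂μ ≤ (∫ u, (f u - h u) ^ 2 ∂μ) / (2 * s) + s / 2 := by
  have i₁ := stage_integrable_sq_sub (μ := μ) hf hh hfb hhb
  have i₂ : Integrable (fun u => |f u - h u|) μ := by
    refine stage_integrable_of_abs_le (hf.sub hh).abs (C := 2) (fun u => ?_)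
    rw [abs_abs]
    have h1 := abs_le.1 (hfb u)
    have h2 := abs_le.1 (hhb u)
    rw [abs_le]
    constructor <;> linarith
  have i₃ : Integrable (fun u => (f u - h u) ^ 2 / (2 * s) + s / 2) μ :=
    (i₁.div_const _).add (integrable_const _)
  calc ∫ u, |f u - h u| ∂μ ≤ ∫ u, ((f u - h u) ^ 2 / (2 * s) + s / 2) ∂μ :=
        integral_mono i₂ i₃ (fun u => stage_abs_le_sq_div _ s hs)
    _ = (∫ u, (f u - h u) ^ 2 ∂μ) / (2 * s) + s / 2 := by
        rw [integral_add (i₁.div_const _) (integrable_const _), integral_div]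
        simp

/-- Products of numbers in `[0, 1]` are `1`-Lipschitz in the sum of the differences. -/
lemma stage_abs_prod_sub_prod_le {ι : Type*} [DecidableEq ι] (D : Finset ι) (a b : ι → ℝ)
    (ha : ∀ v ∈ D, 0 ≤ a v ∧ a v ≤ 1) (hb : ∀ v ∈ D, 0 ≤ b v ∧ b v ≤ 1) :
    |∏ v ∈ D, a v - ∏ v ∈ D, b v| ≤ ∑ v ∈ D, |a v - b v| := by
  induction D using Finset.induction_on with
  | empty => simp
  | insert w D hw ih =>
    rw [Finset.prod_insert hw, Finset.prod_insert hw, Finset.sum_insert hw]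
    have ih' := ih (fun v hv => ha v (Finset.mem_insert_of_mem hv))
      (fun v hv => hb v (Finset.mem_insert_of_mem hv))
    have hA0 : 0 ≤ ∏ v ∈ D, a v :=
      Finset.prod_nonneg (fun v hv => (ha v (Finset.mem_insert_of_mem hv)).1)
    have hA1 : ∏ v ∈ D, a v ≤ 1 :=
      Finset.prod_le_one (fun v hv => (ha v (Finset.mem_insert_of_mem hv)).1)
        (fun v hv => (ha v (Finset.mem_insert_of_mem hv)).2)
    have hw1 := hb w (Finset.mem_insert_self _ _)
    have h1 : a w * ∏ v ∈ D, a v - b w * ∏ v ∈ D, b v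
        = (a w - b w) * ∏ v ∈ D, a v + b w * (∏ v ∈ D, a v - ∏ v ∈ D, b v) := by ring
    rw [h1]
    refine (abs_add_le _ _).trans (add_le_add ?_ ?_)
    · rw [abs_mul, abs_of_nonneg hA0]
      exact mul_le_of_le_one_right (abs_nonneg _) hA1
    · rw [abs_mul, abs_of_nonneg hw1.1]
      calc b w * |∏ v ∈ D, a v - ∏ v ∈ D, b v| ≤ 1 * |∏ v ∈ D, a v - ∏ v ∈ D, b v| :=
            mul_le_mul_of_nonneg_right hw1.2 (abs_nonneg _)
        _ ≤ _ := by rw [one_mul]; exact ih'

lemma stage_spin_factor_mem (b : Bool) {x : ℝ} (hx : |x| ≤ 1) :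
    0 ≤ (1 + spin b * x) / 2 ∧ (1 + spin b * x) / 2 ≤ 1 := by
  have h1 := abs_le.1 hx
  cases b <;> simp only [spin] <;> simp <;> constructor <;> linarith [h1.1, h1.2]

lemma stage_spin_factor_sub (b : Bool) (x y : ℝ) :
    |(1 + spin b * x) / 2 - (1 + spin b * y) / 2| = |x - y| / 2 := by
  cases b <;> simp only [spin] <;> simp
  · have : (1 + -x) / 2 - (1 + -y) / 2 = -(x - y) / 2 := by ring
    rw [this, abs_div, abs_neg]
    norm_num
  · have : (1 + x) / 2 - (1 + y) / 2 = (x - y) / 2 := by ring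
    rw [this, abs_div]
    norm_num

end Estimates

lemma stage_sqrt_four_pow (n : ℕ) : Real.sqrt ((4 ^ n : ℕ) : ℝ) = 2 ^ n := by
  have h : ((4 ^ n : ℕ) : ℝ) = (2 ^ n) ^ 2 := by
    push_cast
    rw [← pow_mul, mul_comm, pow_mul]
    norm_num
  rw [h, Real.sqrt_sq (by positivity)]

lemma stage_half_pow_mul_half_pow (n : ℕ) : (1 / 4 : ℝ) ^ n / (1 / 2 : ℝ) ^ n = (1 / 2 : ℝ) ^ n := by
  rw [← div_pow]
  norm_num

lemma stage_one_div_two_pow_eq (n : ℕ) : (1 : ℝ) / 2 ^ n = (1 / 2 : ℝ) ^ n := by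
  rw [one_div_pow]

lemma stage_sixteen_div_four_pow (n : ℕ) : (16 : ℝ) / ((4 ^ n : ℕ) : ℝ) = 16 * (1 / 4 : ℝ) ^ n := by
  push_cast
  rw [one_div_pow]
  ring

/-- Reduction of the main theorem to four facts about the master estimator:
(F1) Cauchy in fuel and level at a fixed time, (F2) two-time bound, (F3) cylinder integrals,
(F4) the estimator approaches the values `±1`. -/
theorem main_of_facts [Countable V]
    (γ : ℕ → ℕ → unitInterval → ℝ) (hγ : ∀ j k, Measurable (γ j k))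
    (h0 : 0 ≤ θ) (h1 : θ < 1)
    (F1 : ∀ (v : V) (t : ℕ), 1 ≤ t → ∀ δ > 0, ∃ ℓ₀ j₀ : ℕ, ∀ ℓ ℓ' j j', ℓ₀ ≤ ℓ → ℓ₀ ≤ ℓ' → j₀ ≤ j →
      j₀ ≤ j' → dist2 V (masterX G θ d γ ℓ j t v) (masterX G θ d γ ℓ' j' t v) ≤ δ)
    (F2 : ∀ (v : V) (t₁ t₂ : ℕ), 1 ≤ t₁ → t₁ ≤ t₂ → ∀ δ > 0, ∃ ℓ₀ j₀ : ℕ, ∀ ℓ j, ℓ₀ ≤ ℓ → j₀ ≤ j →
      dist2 V (masterX G θ d γ ℓ j t₁ v) (masterX G θ d γ ℓ j t₂ v) ≤ 16 / t₁ + δ)
    (F3 : ∀ D : Finset V, (G.induce (D : Set V)).Connected → ∀ (η : V → Bool) (t : ℕ), 1 ≤ t →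
      ∀ δ > 0, ∃ ℓ₀ j₀ : ℕ, ∀ ℓ j, ℓ₀ ≤ ℓ → j₀ ≤ j →
        |∫ u, ∏ v ∈ D, ((1 + spin (η v) * masterX G θ d γ ℓ j t v u) / 2) ∂(uniformField V)
          - cylWeight G θ D η| ≤ D.card / Real.sqrt t + δ)
    (F4 : ∀ (v : V) (t : ℕ), 1 ≤ t → ∀ δ > 0, ∃ ℓ₀ j₀ : ℕ, ∀ ℓ j, ℓ₀ ≤ ℓ → j₀ ≤ j →
      ∫ u, |1 - masterX G θ d γ ℓ j t v u ^ 2| ∂(uniformField V) ≤ 2 / Real.sqrt t + δ) :
    ∃ ν, IsFreeIsing G θ ν ∧ IsFactorOfIID G ν := by
  classical
  have hprob : IsProbabilityMeasure (uniformField V) := limit_uniformField_prob V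
  let t : ℕ → ℕ := fun n => 4 ^ n
  have ht1 : ∀ n, 1 ≤ t n := fun n => Nat.one_le_pow _ _ (by norm_num)
  have hle : ∀ n, t n ≤ t (n + 1) := fun n => Nat.pow_le_pow_right (by norm_num) (Nat.le_succ n)
  have hq : ∀ n : ℕ, (0 : ℝ) < (1 / 4 : ℝ) ^ n := fun n => by positivity
  have hs : ∀ n : ℕ, (0 : ℝ) < (1 / 2 : ℝ) ^ n := fun n => by positivity
  -- thresholds from F1
  have F1' : ∀ (n : ℕ) (v : V), ∃ ℓ₀ j₀ : ℕ, ∀ ℓ ℓ' j j', ℓ₀ ≤ ℓ → ℓ₀ ≤ ℓ' → j₀ ≤ j → j₀ ≤ j' →
      dist2 V (masterX G θ d γ ℓ j (t n) v) (masterX G θ d γ ℓ' j' (t n) v) ≤ (1 / 4 : ℝ) ^ n :=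
    fun n v => F1 v (t n) (ht1 n) _ (hq n)
  choose ℓ₁ j₁ hF1 using F1'
  -- enumeration of the vertices
  obtain ⟨enc⟩ : Nonempty (Encodable V) := ⟨Encodable.ofCountable V⟩
  have hfin : ∀ n : ℕ, Set.Finite {v : V | Encodable.encode v < n} := fun n =>
    Set.Finite.preimage (Encodable.encode_injective.injOn) (Set.finite_Iio n)
  let A : ℕ → Finset V := fun n => (hfin n).toFinset
  have hA : ∀ n v, v ∈ A n ↔ Encodable.encode v < n := fun n v => by simp [A]
  let ℓn : ℕ → ℕ := fun n => (A n).sup (ℓ₁ n)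
  let jn : ℕ → ℕ := fun n => (A n).sup (j₁ n)
  let X : ℕ → V → (V → unitInterval) → ℝ := fun n v => masterX G θ d γ (ℓn n) (jn n) (t n) v
  have hMm : ∀ ℓ j s v, Measurable (masterX G θ d γ ℓ j s v) :=
    fun ℓ j s v => measurable_masterX h0 h1 hγ ℓ j s v
  have hMb : ∀ ℓ j s v u, |masterX G θ d γ ℓ j s v u| ≤ 1 :=
    fun _ _ _ _ _ => abs_clip_le_one _
  have key : ∀ n v, v ∈ A n → ∀ ℓ j, ℓn n ≤ ℓ → jn n ≤ j →
      ∫ u, (X n v u - masterX G θ d γ ℓ j (t n) v u) ^ 2 ∂(uniformField V) ≤ (1 / 4 : ℝ) ^ n := by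
    intro n v hv ℓ j hℓ hj
    exact hF1 n v _ _ _ _ (Finset.le_sup hv) ((Finset.le_sup hv).trans hℓ) (Finset.le_sup hv)
      ((Finset.le_sup hv).trans hj)
  refine limit_factor G θ X (fun n v => hMm _ _ _ _) (fun n v u => hMb _ _ _ _ _)
    (fun e n v u => masterX_equivariant γ e _ _ _ v u) ?_ ?_ ?_
  · -- the Cauchy estimate
    intro v
    refine ⟨100, Encodable.encode v + 1, fun n hn => ?_⟩
    have hv : v ∈ A n := (hA n v).2 (by omega)
    have hv' : v ∈ A (n + 1) := (hA (n + 1) v).2 (by omega)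
    obtain ⟨ℓ₀, j₀, hF2⟩ := F2 v (t n) (t (n + 1)) (ht1 n) (hle n) _ (hq n)
    let ℓ := max (max (ℓn n) (ℓn (n + 1))) ℓ₀
    let j := max (max (jn n) (jn (n + 1))) j₀
    have h1a := key n v hv ℓ j ((le_max_left _ _).trans (le_max_left _ _))
      ((le_max_left _ _).trans (le_max_left _ _))
    have h1b := key (n + 1) v hv' ℓ j ((le_max_right _ _).trans (le_max_left _ _))
      ((le_max_right _ _).trans (le_max_left _ _))
    have h1c : ∫ u, (masterX G θ d γ ℓ j (t n) v u - masterX G θ d γ ℓ j (t (n + 1)) v u) ^ 2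
        ∂(uniformField V) ≤ 16 / (t n : ℝ) + (1 / 4 : ℝ) ^ n :=
      hF2 ℓ j (le_max_right _ _) (le_max_right _ _)
    have htri := stage_integral_sq_triangle (μ := uniformField V)
      (hMm (ℓn n) (jn n) (t n) v) (hMm ℓ j (t n) v) (hMm ℓ j (t (n + 1)) v)
      (hMm (ℓn (n + 1)) (jn (n + 1)) (t (n + 1)) v)
      (hMb _ _ _ _) (hMb _ _ _ _) (hMb _ _ _ _) (hMb _ _ _ _)
    refine htri.trans ?_
    have h16 : 16 / (t n : ℝ) = 16 * (1 / 4 : ℝ) ^ n := stage_sixteen_div_four_pow n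
    rw [h16] at h1c
    have hpos := hq n
    have hnext : (1 / 4 : ℝ) ^ (n + 1) = (1 / 4 : ℝ) ^ n * (1 / 4) := pow_succ _ _
    rw [hnext] at h1b
    have h1a' : ∫ u, (masterX G θ d γ (ℓn n) (jn n) (t n) v u - masterX G θ d γ ℓ j (t n) v u) ^ 2
        ∂(uniformField V) ≤ (1 / 4 : ℝ) ^ n := h1a
    have h1b' : ∫ u, (masterX G θ d γ (ℓn (n + 1)) (jn (n + 1)) (t (n + 1)) v u
        - masterX G θ d γ ℓ j (t (n + 1)) v u) ^ 2
        ∂(uniformField V) ≤ (1 / 4 : ℝ) ^ n * (1 / 4) := h1b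
    linarith
  · -- the estimator approaches plus or minus one
    intro v
    refine squeeze_zero' (Eventually.of_forall (fun n => integral_nonneg (fun u => abs_nonneg _)))
      (g := fun n => 5 * (1 / 2 : ℝ) ^ n) ?_ ?_
    · filter_upwards [eventually_ge_atTop (Encodable.encode v + 1)] with n hn
      have hv : v ∈ A n := (hA n v).2 (by omega)
      obtain ⟨ℓ₀, j₀, hF4⟩ := F4 v (t n) (ht1 n) _ (hs n)
      let ℓ := max (ℓn n) ℓ₀
      let j := max (jn n) j₀
      have h1a := key n v hv ℓ j (le_max_left _ _) (le_max_left _ _)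
      have h1c := hF4 ℓ j (le_max_right _ _) (le_max_right _ _)
      have hsq : Real.sqrt (t n : ℝ) = 2 ^ n := stage_sqrt_four_pow n
      rw [hsq] at h1c
      have h2s : (2 : ℝ) / 2 ^ n = 2 * (1 / 2 : ℝ) ^ n := by
        rw [one_div_pow]; ring
      rw [h2s] at h1c
      -- pointwise comparison
      set M := masterX G θ d γ ℓ j (t n) v with hM
      have hMmM : Measurable M := hMm _ _ _ _
      have hMbM : ∀ u, |M u| ≤ 1 := hMb _ _ _ _
      have hXm : Measurable (X n v) := hMm _ _ _ _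
      have hXb : ∀ u, |X n v u| ≤ 1 := hMb _ _ _ _
      have hI1 : Integrable (fun u => |1 - X n v u ^ 2|) (uniformField V) := by
        refine stage_integrable_of_abs_le ((measurable_const.sub (hXm.pow_const 2))).abs (C := 1)
          (fun u => ?_)
        have := abs_le.1 (hXb u)
        rw [abs_abs, abs_le]
        constructor <;> nlinarith [sq_nonneg (X n v u)]
      have hI2 : Integrable (fun u => |1 - M u ^ 2|) (uniformField V) := by
        refine stage_integrable_of_abs_le ((measurable_const.sub (hMmM.pow_const 2))).abs (C := 1)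
          (fun u => ?_)
        have := abs_le.1 (hMbM u)
        rw [abs_abs, abs_le]
        constructor <;> nlinarith [sq_nonneg (M u)]
      have hI3 := stage_integrable_sq_sub (μ := uniformField V) hXm hMmM hXb hMbM
      have hpt : ∀ u, |1 - X n v u ^ 2| ≤
          |1 - M u ^ 2| + ((X n v u - M u) ^ 2 / (1 / 2 : ℝ) ^ n + (1 / 2 : ℝ) ^ n) := by
        intro u
        have h2 := stage_abs_le_sq_div (X n v u - M u) _ (hs n)
        have h3 : |X n v u ^ 2 - M u ^ 2| ≤ 2 * |X n v u - M u| := by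
          have e : X n v u ^ 2 - M u ^ 2 = (X n v u - M u) * (X n v u + M u) := by ring
          rw [e, abs_mul, mul_comm]
          refine mul_le_mul_of_nonneg_right ?_ (abs_nonneg _)
          refine (abs_add_le _ _).trans ?_
          linarith [hXb u, hMbM u]
        have h4 : |1 - X n v u ^ 2| ≤ |1 - M u ^ 2| + |X n v u ^ 2 - M u ^ 2| := by
          have e : 1 - X n v u ^ 2 = (1 - M u ^ 2) - (X n v u ^ 2 - M u ^ 2) := by ring
          rw [e]
          exact abs_sub _ _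
        have h5 : 2 * ((X n v u - M u) ^ 2 / (2 * (1 / 2 : ℝ) ^ n) + (1 / 2 : ℝ) ^ n / 2)
            = (X n v u - M u) ^ 2 / (1 / 2 : ℝ) ^ n + (1 / 2 : ℝ) ^ n := by
          have := (hs n).ne'
          field_simp
        linarith
      have hI4 : Integrable (fun u => (X n v u - M u) ^ 2 / (1 / 2 : ℝ) ^ n + (1 / 2 : ℝ) ^ n)
          (uniformField V) := (hI3.div_const _).add (integrable_const _)
      calc ∫ u, |1 - X n v u ^ 2| ∂(uniformField V)
          ≤ ∫ u, (|1 - M u ^ 2| + ((X n v u - M u) ^ 2 / (1 / 2 : ℝ) ^ n + (1 / 2 : ℝ) ^ n))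
              ∂(uniformField V) :=
            integral_mono hI1 (hI2.add hI4) hpt
        _ = ∫ u, |1 - M u ^ 2| ∂(uniformField V)
              + ((∫ u, (X n v u - M u) ^ 2 ∂(uniformField V)) / (1 / 2 : ℝ) ^ n + (1 / 2 : ℝ) ^ n) := by
            rw [integral_add hI2 hI4, integral_add (hI3.div_const _) (integrable_const _),
              integral_div]
            simp
        _ ≤ (2 * (1 / 2 : ℝ) ^ n + (1 / 2 : ℝ) ^ n)
              + ((1 / 4 : ℝ) ^ n / (1 / 2 : ℝ) ^ n + (1 / 2 : ℝ) ^ n) := by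
            refine add_le_add h1c (add_le_add_left ?_ _)
            exact div_le_div_of_nonneg_right h1a (hs n).le
        _ = 5 * (1 / 2 : ℝ) ^ n := by
            rw [stage_half_pow_mul_half_pow]
            ring
    · have := (tendsto_pow_atTop_nhds_zero_of_lt_one (r := (1 / 2 : ℝ)) (by norm_num)
        (by norm_num)).const_mul 5
      simpa using this
  · -- the cylinder integrals
    intro D hD η
    rw [tendsto_iff_norm_sub_tendsto_zero]
    refine squeeze_zero' (Eventually.of_forall (fun n => norm_nonneg _))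
      (g := fun n => ((D.card : ℝ) * (3 / 2) + 1) * (1 / 2 : ℝ) ^ n) ?_ ?_
    · filter_upwards [eventually_ge_atTop ((D.sup (fun v => Encodable.encode v)) + 1)] with n hn
      have hDA : ∀ v ∈ D, v ∈ A n := by
        intro v hv
        have : Encodable.encode v ≤ D.sup (fun v => Encodable.encode v) :=
          Finset.le_sup (f := fun v => Encodable.encode v) hv
        exact (hA n v).2 (by omega)
      obtain ⟨ℓ₀, j₀, hF3⟩ := F3 D hD η (t n) (ht1 n) _ (hs n)
      let ℓ := max (ℓn n) ℓ₀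
      let j := max (jn n) j₀
      have h1c := hF3 ℓ j (le_max_right _ _) (le_max_right _ _)
      have hsq : Real.sqrt (t n : ℝ) = 2 ^ n := stage_sqrt_four_pow n
      rw [hsq] at h1c
      have hcard : (D.card : ℝ) / 2 ^ n = (D.card : ℝ) * (1 / 2 : ℝ) ^ n := by
        rw [one_div_pow]; ring
      rw [hcard] at h1c
      -- products
      let PX : (V → unitInterval) → ℝ := fun u => ∏ v ∈ D, ((1 + spin (η v) * X n v u) / 2)
      let PM : (V → unitInterval) → ℝ :=
        fun u => ∏ v ∈ D, ((1 + spin (η v) * masterX G θ d γ ℓ j (t n) v u) / 2)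
      have hXm : ∀ v, Measurable (X n v) := fun v => hMm _ _ _ _
      have hPXm : Measurable PX := Finset.measurable_prod _ (fun v _ =>
        ((measurable_const.add (measurable_const.mul (hXm v))).div_const 2))
      have hPMm : Measurable PM := Finset.measurable_prod _ (fun v _ =>
        ((measurable_const.add (measurable_const.mul (hMm ℓ j (t n) v))).div_const 2))
      have hfacX : ∀ u v, 0 ≤ (1 + spin (η v) * X n v u) / 2 ∧ (1 + spin (η v) * X n v u) / 2 ≤ 1 :=
        fun u v => stage_spin_factor_mem (η v) (hMb _ _ _ _ _)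
      have hfacM : ∀ u v, 0 ≤ (1 + spin (η v) * masterX G θ d γ ℓ j (t n) v u) / 2 ∧
          (1 + spin (η v) * masterX G θ d γ ℓ j (t n) v u) / 2 ≤ 1 :=
        fun u v => stage_spin_factor_mem (η v) (hMb _ _ _ _ _)
      have hPXb : ∀ u, |PX u| ≤ 1 := by
        intro u
        rw [abs_of_nonneg (Finset.prod_nonneg (fun v _ => (hfacX u v).1))]
        exact Finset.prod_le_one (fun v _ => (hfacX u v).1) (fun v _ => (hfacX u v).2)
      have hPMb : ∀ u, |PM u| ≤ 1 := by
        intro u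
        rw [abs_of_nonneg (Finset.prod_nonneg (fun v _ => (hfacM u v).1))]
        exact Finset.prod_le_one (fun v _ => (hfacM u v).1) (fun v _ => (hfacM u v).2)
      have hIX : Integrable PX (uniformField V) := stage_integrable_of_abs_le hPXm hPXb
      have hIM : Integrable PM (uniformField V) := stage_integrable_of_abs_le hPMm hPMb
      -- the mean absolute difference at each vertex
      have hvert : ∀ v ∈ D, ∫ u, |X n v u - masterX G θ d γ ℓ j (t n) v u| ∂(uniformField V)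
          ≤ (1 / 2 : ℝ) ^ n := by
        intro v hv
        have h2 := key n v (hDA v hv) ℓ j (le_max_left _ _) (le_max_left _ _)
        have h3 := stage_integral_abs_sub_le (μ := uniformField V) (hXm v) (hMm ℓ j (t n) v)
          (hMb _ _ _ _) (hMb _ _ _ _) (hs n)
        have h4 : (∫ u, (X n v u - masterX G θ d γ ℓ j (t n) v u) ^ 2 ∂(uniformField V))
            / (2 * (1 / 2 : ℝ) ^ n) ≤ (1 / 4 : ℝ) ^ n / (2 * (1 / 2 : ℝ) ^ n) :=
          div_le_div_of_nonneg_right h2 (by positivity)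
        have h5 : (1 / 4 : ℝ) ^ n / (2 * (1 / 2 : ℝ) ^ n) = (1 / 2 : ℝ) ^ n / 2 := by
          have e : (1 / 4 : ℝ) ^ n = (1 / 2 : ℝ) ^ n * (1 / 2 : ℝ) ^ n := by
            rw [← mul_pow]
            norm_num
          have := (hs n).ne'
          rw [e]
          field_simp
        linarith
      have hIabs : ∀ v, Integrable (fun u => |X n v u - masterX G θ d γ ℓ j (t n) v u|)
          (uniformField V) := by
        intro v
        refine stage_integrable_of_abs_le ((hXm v).sub (hMm ℓ j (t n) v)).abs (C := 2) (fun u => ?_)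
        have h1 := abs_le.1 (hMb (ℓn n) (jn n) (t n) v u)
        have h2 := abs_le.1 (hMb ℓ j (t n) v u)
        have h1' : |X n v u| ≤ 1 := hMb _ _ _ _ _
        have h1'' := abs_le.1 h1'
        rw [abs_abs, abs_le]
        constructor <;> linarith
      have hdiff : |∫ u, PX u ∂(uniformField V) - ∫ u, PM u ∂(uniformField V)|
          ≤ (D.card : ℝ) * (1 / 2 : ℝ) ^ n / 2 := by
        rw [← integral_sub hIX hIM]
        refine (abs_integral_le_integral_abs).trans ?_
        have hpt : ∀ u, |PX u - PM u| ≤ ∑ v ∈ D, |X n v u - masterX G θ d γ ℓ j (t n) v u| / 2 := by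
          intro u
          refine (stage_abs_prod_sub_prod_le D _ _ (fun v _ => hfacX u v) (fun v _ => hfacM u v)).trans
            (le_of_eq ?_)
          exact Finset.sum_congr rfl (fun v _ => stage_spin_factor_sub _ _ _)
        have hIsum : Integrable (fun u => ∑ v ∈ D, |X n v u - masterX G θ d γ ℓ j (t n) v u| / 2)
            (uniformField V) := integrable_finset_sum _ (fun v _ => (hIabs v).div_const 2)
        have hIabsP : Integrable (fun u => |PX u - PM u|) (uniformField V) := (hIX.sub hIM).abs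
        calc ∫ u, |PX u - PM u| ∂(uniformField V)
            ≤ ∫ u, ∑ v ∈ D, |X n v u - masterX G θ d γ ℓ j (t n) v u| / 2 ∂(uniformField V) :=
              integral_mono hIabsP hIsum hpt
          _ = ∑ v ∈ D, (∫ u, |X n v u - masterX G θ d γ ℓ j (t n) v u| ∂(uniformField V)) / 2 := by
              rw [integral_finset_sum _ (fun v _ => (hIabs v).div_const 2)]
              exact Finset.sum_congr rfl (fun v _ => integral_div _ _)
          _ ≤ ∑ _v ∈ D, (1 / 2 : ℝ) ^ n / 2 :=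
              Finset.sum_le_sum (fun v hv => div_le_div_of_nonneg_right (hvert v hv) (by norm_num))
          _ = (D.card : ℝ) * (1 / 2 : ℝ) ^ n / 2 := by
              rw [Finset.sum_const, nsmul_eq_mul]
              ring
      rw [Real.norm_eq_abs]
      have htri : |∫ u, PX u ∂(uniformField V) - cylWeight G θ D η|
          ≤ |∫ u, PX u ∂(uniformField V) - ∫ u, PM u ∂(uniformField V)|
            + |∫ u, PM u ∂(uniformField V) - cylWeight G θ D η| := abs_sub_le _ _ _
      have h1c' : |∫ u, PM u ∂(uniformField V) - cylWeight G θ D η|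
          ≤ (D.card : ℝ) * (1 / 2 : ℝ) ^ n + (1 / 2 : ℝ) ^ n := h1c
      calc |∫ u, PX u ∂(uniformField V) - cylWeight G θ D η|
          ≤ (D.card : ℝ) * (1 / 2 : ℝ) ^ n / 2 + ((D.card : ℝ) * (1 / 2 : ℝ) ^ n + (1 / 2 : ℝ) ^ n) := by
            linarith
        _ = ((D.card : ℝ) * (3 / 2) + 1) * (1 / 2 : ℝ) ^ n := by ring
    · have := (tendsto_pow_atTop_nhds_zero_of_lt_one (r := (1 / 2 : ℝ)) (by norm_num)
        (by norm_num)).const_mul ((D.card : ℝ) * (3 / 2) + 1)
      simpa using this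

end

end Vale.Agent.Lib.P161
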