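import Vale.Agent.Lib.P161.Compare
import Vale.Agent.Lib.P161.FieldChain
import Vale.Agent.Lib.P161.Mesh
import Vale.Agent.Lib.P161.Bridge
import Vale.Agent.Lib.P161.Stage

/-!
Assembly of the four facts about the master estimator, for P161 (module task, see the team
findings table).
-/

open MeasureTheory ProbabilityTheory Finset Filter

open scoped Topology

namespace Vale.Agent.Lib.P161

noncomputable section

set_option linter.unusedSectionVars false
set_option linter.style.haveILetI false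

variable {V : Type*} {G : SimpleGraph V} [G.LocallyFinite] [DecidableEq V] {d : ℕ} {θ : ℝ}

/-- The field chain of the ball `B(o, R)` on the uniform field, at level `j` and integer time
`t`. -/
def ballField (G : SimpleGraph V) [G.LocallyFinite] (θ : ℝ) (γ : ℕ → ℕ → unitInterval → ℝ)
    (o : V) (R j t : ℕ) (u : V → unitInterval) : V → ℝ :=
  xChain θ (nbS G (ballF G o R)) (2 * R + 1) ((1 / 2 : ℝ) ^ j) (fun i w => γ j i (u w)) (t * 2 ^ j)

section Aux

variable {Ω : Type*} [mΩ : MeasurableSpace Ω] {P : Measure Ω} [IsProbabilityMeasure P]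
  {N : V → Finset V}

lemma facts_memLp_hm (h0 : 0 ≤ θ) (h1 : θ < 1) {f : Ω → ℝ} (hf : MemLp f 2 P) :
    MemLp (fun ω => hm θ (f ω)) 2 P := by
  refine hf.of_le ((continuous_hm h0 h1).comp_aestronglyMeasurable hf.aestronglyMeasurable) ?_
  refine Filter.Eventually.of_forall fun ω => ?_
  simp only [Real.norm_eq_abs]
  have h2 := abs_hm_le h0 h1 (f ω)
  have h3 := abs_nonneg (f ω)
  nlinarith

lemma facts_memLp_msg (h0 : 0 ≤ θ) (h1 : θ < 1) {X : Ω → V → ℝ}
    (hX : ∀ a, MemLp (fun ω => X ω a) 2 P) (L : ℕ) (a b : V) :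
    MemLp (fun ω => msg θ N (X ω) L a b) 2 P := by
  induction L generalizing a b with
  | zero => simpa [msg] using hX a
  | succ L ih =>
    simp only [msg]
    exact (hX a).add (memLp_finsetSum _ fun c _ => facts_memLp_hm h0 h1 (ih c a))

lemma facts_measurable_xChain (h0 : 0 ≤ θ) (h1 : θ < 1) {g : ℕ → V → Ω → ℝ}
    (hg : ∀ k w, Measurable (g k w)) (L : ℕ) (ε : ℝ) (k : ℕ) (a : V) :
    Measurable (fun ω => xChain θ N L ε (fun i w => g i w ω) k a) := by
  induction k generalizing a with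
  | zero => exact measurable_const
  | succ k ih =>
    simp only [xChain]
    exact ((ih a).add ((continuous_tanh.measurable.comp
      (measurable_totField h0 h1 ih L a)).const_mul _)).add ((hg k a).const_mul _)

lemma facts_memLp_xChain (h0 : 0 ≤ θ) (h1 : θ < 1) {g : ℕ → V → Ω → ℝ} (hg : IsNoise P g)
    (L : ℕ) (ε : ℝ) (k : ℕ) (a : V) :
    MemLp (fun ω => xChain θ N L ε (fun i w => g i w ω) k a) 2 P := by
  induction k generalizing a with
  | zero => exact memLp_const _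
  | succ k ih =>
    simp only [xChain]
    have hm1 : ∀ a, Measurable (fun ω => xChain θ N L ε (fun i w => g i w ω) k a) :=
      fun a => facts_measurable_xChain h0 h1 hg.meas L ε k a
    have hb : MemLp (fun ω => Real.tanh
        (totField θ N (xChain θ N L ε (fun i w => g i w ω) k) L a)) 2 P := by
      refine MemLp.of_bound (continuous_tanh.measurable.comp
        (measurable_totField h0 h1 hm1 L a)).aestronglyMeasurable 1 ?_
      exact Filter.Eventually.of_forall fun ω => by simpa using abs_tanh_le_one _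
    exact ((ih a).add (hb.const_mul _)).add ((memLp_noise hg k a 2 (by simp)).const_mul _)

lemma facts_memLp_yHat (h0 : 0 ≤ θ) (h1 : θ < 1) {η : Ω → V → V → ℝ}
    (hη : ∀ a b, MemLp (fun ω => η ω a b) 2 P) (v : V) :
    MemLp (fun ω => yHat θ d N (η ω) v) 2 P := by
  unfold yHat
  have e : (fun ω => (∑ b ∈ N v, (η ω v b - ((d : ℝ) - 1) * hm θ (η ω b v))) / (d : ℝ))
      = fun ω => (d : ℝ)⁻¹ * ∑ b ∈ N v, (η ω v b - ((d : ℝ) - 1) * hm θ (η ω b v)) := by
    funext ω
    rw [div_eq_inv_mul]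
  rw [e]
  refine MemLp.const_mul ?_ _
  refine memLp_finsetSum _ fun b _ => (hη v b).sub ?_
  exact (facts_memLp_hm h0 h1 (hη b v)).const_mul _

end Aux

/-- The estimator applied to exact messages returns the field. -/
lemma yHat_msg (hp : TreeParams G d θ) (o : V) (R : ℕ) (x : V → ℝ) {v : V}
    (hv : G.dist o v < R) :
    yHat θ d (nbV G) (msg θ (nbS G (ballF G o R)) x (2 * R + 1)) v = x v := by
  obtain ⟨rk, hr1, hr2⟩ := rank_nbS hp.tree o R
  set N := nbS G (ballF G o R) with hNdef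
  set E := msg θ N x (2 * R + 1) with hE
  have hN : N v = nbV G v := hp.nbS_interior hv
  have hcard : ((nbV G v).card : ℝ) = d := by
    have : (nbV G v).card = d := by
      have := hp.deg v
      simpa [nbV, SimpleGraph.card_neighborFinset_eq_degree] using this
    exact_mod_cast this
  have hd : (d : ℝ) ≠ 0 := by
    have : (1 : ℝ) ≤ d := by exact_mod_cast hp.one_le
    linarith
  have hfix : ∀ b ∈ nbV G v, E v b = x v + (∑ c ∈ nbV G v, hm θ (E c v)) - hm θ (E b v) := by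
    intro b hb
    have hab : G.Adj v b := by simpa [nbV] using hb
    have h1 := msg_fixed (θ := θ) hr1 (subN_nbS _) hr2 x v b hab
    rw [← hE, hN, Finset.sum_erase_eq_sub hb] at h1
    rw [h1]
    ring
  unfold yHat
  have hs : ∑ b ∈ nbV G v, (E v b - ((d : ℝ) - 1) * hm θ (E b v)) = d * x v := by
    have h2 : ∀ b ∈ nbV G v, E v b - ((d : ℝ) - 1) * hm θ (E b v)
        = x v + (∑ c ∈ nbV G v, hm θ (E c v)) - d * hm θ (E b v) := by
      intro b hb
      rw [hfix b hb]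
      ring
    rw [Finset.sum_congr rfl h2, Finset.sum_sub_distrib, Finset.sum_add_distrib,
      Finset.sum_const, Finset.sum_const, nsmul_eq_mul, nsmul_eq_mul, hcard, ← Finset.mul_sum]
    ring
  rw [hs]
  field_simp

/-- Lipschitz bound for the estimator. -/
lemma yHat_sub_sq_le (hp : TreeParams G d θ) (η E : V → V → ℝ) (v : V) :
    (yHat θ d (nbV G) η v - yHat θ d (nbV G) E v) ^ 2
      ≤ 2 * d * ∑ b ∈ nbV G v, ((η v b - E v b) ^ 2 + (η b v - E b v) ^ 2) := by
  have hcard : (nbV G v).card = d := by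
    have := hp.deg v
    simpa [nbV, SimpleGraph.card_neighborFinset_eq_degree] using this
  have hd1 : (1 : ℝ) ≤ d := by exact_mod_cast hp.one_le
  have hd0 : (0 : ℝ) < d := by linarith
  set a : V → ℝ := fun b => (η v b - E v b) - ((d : ℝ) - 1) * (hm θ (η b v) - hm θ (E b v)) with ha
  have h1 : yHat θ d (nbV G) η v - yHat θ d (nbV G) E v = (∑ b ∈ nbV G v, a b) / d := by
    unfold yHat
    rw [← sub_div, ← Finset.sum_sub_distrib]
    congr 1
    refine Finset.sum_congr rfl fun b _ => ?_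
    simp only [ha]
    ring
  have h2 : (∑ b ∈ nbV G v, a b) ^ 2 ≤ d * ∑ b ∈ nbV G v, a b ^ 2 := by
    have := sq_sum_le_card_mul_sum_sq (s := nbV G v) (f := a)
    rwa [hcard] at this
  have h3 : ∀ b ∈ nbV G v, a b ^ 2 ≤ 2 * (d : ℝ) ^ 2 * ((η v b - E v b) ^ 2 + (η b v - E b v) ^ 2) := by
    intro b _
    have hh : (hm θ (η b v) - hm θ (E b v)) ^ 2 ≤ (η b v - E b v) ^ 2 := by
      have h4 := abs_hm_sub_le hp.nonneg hp.lt_one (η b v) (E b v)
      have h5 := abs_nonneg (η b v - E b v)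
      have h6 : |hm θ (η b v) - hm θ (E b v)| ≤ |η b v - E b v| := by
        have := hp.lt_one
        nlinarith
      exact sq_le_sq.2 (by simpa using h6)
    set p := η v b - E v b
    set q := hm θ (η b v) - hm θ (E b v)
    set r := η b v - E b v
    have e : a b = p - ((d : ℝ) - 1) * q := rfl
    rw [e]
    have h7 : (p - ((d : ℝ) - 1) * q) ^ 2 ≤ 2 * p ^ 2 + 2 * (((d : ℝ) - 1) ^ 2 * q ^ 2) := by
      nlinarith [sq_nonneg (p + ((d : ℝ) - 1) * q)]
    have h8 : ((d : ℝ) - 1) ^ 2 ≤ (d : ℝ) ^ 2 := by nlinarith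
    have h9 : ((d : ℝ) - 1) ^ 2 * q ^ 2 ≤ (d : ℝ) ^ 2 * r ^ 2 :=
      mul_le_mul h8 hh (sq_nonneg _) (sq_nonneg _)
    have h10 : p ^ 2 ≤ (d : ℝ) ^ 2 * p ^ 2 := by
      have : (1 : ℝ) ≤ (d : ℝ) ^ 2 := by nlinarith
      nlinarith [sq_nonneg p]
    nlinarith
  have h4 : ∑ b ∈ nbV G v, a b ^ 2
      ≤ 2 * (d : ℝ) ^ 2 * ∑ b ∈ nbV G v, ((η v b - E v b) ^ 2 + (η b v - E b v) ^ 2) := by
    rw [Finset.mul_sum]
    exact Finset.sum_le_sum h3
  rw [h1, div_pow, div_le_iff₀ (by positivity)]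
  calc (∑ b ∈ nbV G v, a b) ^ 2 ≤ d * ∑ b ∈ nbV G v, a b ^ 2 := h2
    _ ≤ d * (2 * (d : ℝ) ^ 2 * ∑ b ∈ nbV G v, ((η v b - E v b) ^ 2 + (η b v - E b v) ^ 2)) :=
        mul_le_mul_of_nonneg_left h4 hd0.le
    _ = _ := by ring

section Close

variable {Ω : Type*} [mΩ : MeasurableSpace Ω] {P : Measure Ω} [IsProbabilityMeasure P]

/-- Edgewise bound: the master chain is close to the exact messages of the ball field. -/
lemma edge_close (hp : TreeParams G d θ) {g : ℕ → V → Ω → ℝ} (hg : IsNoise P g) {ε : ℝ}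
    (hε : 0 < ε) (hε1 : ε ≤ 1) (k : ℕ) {t : ℝ} (hk : k * ε = t) (o : V) {R R₁ : ℕ}
    (hR : R₁ ≤ R) {C : ℝ}
    (hC : ∀ a b, G.Adj a b → a ∈ ballF G o R → b ∈ ballF G o R →
      ∫ ω, (cavChain θ (nbS G (ballF G o R)) (2 * R + 1) ε (fun i w => g i w ω) k a b
          - msg θ (nbS G (ballF G o R))
              (xChain θ (nbS G (ballF G o R)) (2 * R + 1) ε (fun i w => g i w ω) k)
              (2 * R + 1) a b) ^ 2 ∂P ≤ C * ε)
    {ℓ : ℕ} (hℓ : 2 * R + 1 ≤ ℓ) {a b : V} (hab : G.Adj a b) (ha : G.dist o a ≤ R₁ + 1)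
    (haR : a ∈ ballF G o R) (hbR : b ∈ ballF G o R) :
    ∫ ω, (cavChain θ (nbV G) ℓ ε (fun i w => g i w ω) k a b
        - msg θ (nbS G (ballF G o R))
            (xChain θ (nbS G (ballF G o R)) (2 * R + 1) ε (fun i w => g i w ω) k)
            (2 * R + 1) a b) ^ 2 ∂P
      ≤ 2 * ((Real.exp (compC θ d * t) - 1) / gammaC θ d ^ (R - R₁)) + 2 * (C * ε) := by
  obtain ⟨rk, hr1, hr2⟩ := rank_nbS hp.tree o R
  set S := ballF G o R with hS
  set M := fun ω => cavChain θ (nbV G) ℓ ε (fun i w => g i w ω) k a b with hM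
  set Bl := fun ω => cavChain θ (nbS G S) ℓ ε (fun i w => g i w ω) k a b with hBl
  set B₀ := fun ω => cavChain θ (nbS G S) (2 * R + 1) ε (fun i w => g i w ω) k a b with hB₀
  set E := fun ω => msg θ (nbS G S)
    (xChain θ (nbS G S) (2 * R + 1) ε (fun i w => g i w ω) k) (2 * R + 1) a b with hE
  have hBeq : Bl = B₀ := by
    funext ω
    exact cavChain_stable hr1 (subN_nbS S) hr2 _ ℓ hℓ k a b hab
  have hMl : MemLp M 2 P := memLp_cavChain hg hp.nonneg hp.lt_one ℓ k a b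
  have hB₀l : MemLp B₀ 2 P := memLp_cavChain hg hp.nonneg hp.lt_one _ k a b
  have hBll : MemLp Bl 2 P := memLp_cavChain hg hp.nonneg hp.lt_one ℓ k a b
  have hEl : MemLp E 2 P :=
    facts_memLp_msg hp.nonneg hp.lt_one
      (fun w => facts_memLp_xChain hp.nonneg hp.lt_one hg _ ε k w) _ a b
  have h1 : ∫ ω, (M ω - Bl ω) ^ 2 ∂P ≤ (Real.exp (compC θ d * t) - 1) / gammaC θ d ^ (R - R₁) := by
    have hc := hp.compare_chains (o := o) (R := R) hg hε hε1 ℓ k a b hab haR hbR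
    have hγ1 := hp.gammaC_gt
    have hγ0 : 0 < gammaC θ d := by linarith
    have he : compC θ d * k * ε = compC θ d * t := by rw [← hk]; ring
    rw [he] at hc
    have hrank : R - R₁ ≤ ballRank G o R a := by
      unfold ballRank
      omega
    have hI : 0 ≤ ∫ ω, (M ω - Bl ω) ^ 2 ∂P := integral_nonneg fun ω => sq_nonneg _
    rw [le_div_iff₀ (by positivity)]
    calc (∫ ω, (M ω - Bl ω) ^ 2 ∂P) * gammaC θ d ^ (R - R₁)
        ≤ (∫ ω, (M ω - Bl ω) ^ 2 ∂P) * gammaC θ d ^ ballRank G o R a :=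
          mul_le_mul_of_nonneg_left (pow_le_pow_right₀ hγ1.le hrank) hI
      _ = gammaC θ d ^ ballRank G o R a * ∫ ω, (M ω - Bl ω) ^ 2 ∂P := by ring
      _ ≤ _ := hc
  have h2 : ∫ ω, (B₀ ω - E ω) ^ 2 ∂P ≤ C * ε := hC a b hab haR hbR
  have hI1 : Integrable (fun ω => (M ω - Bl ω) ^ 2) P := (hMl.sub hBll).integrable_sq
  have hI2 : Integrable (fun ω => (B₀ ω - E ω) ^ 2) P := (hB₀l.sub hEl).integrable_sq
  have hI3 : Integrable (fun ω => (M ω - E ω) ^ 2) P := (hMl.sub hEl).integrable_sq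
  have hle : ∫ ω, (M ω - E ω) ^ 2 ∂P
      ≤ ∫ ω, (2 * (M ω - Bl ω) ^ 2 + 2 * (B₀ ω - E ω) ^ 2) ∂P := by
    refine integral_mono hI3 ((hI1.const_mul 2).add (hI2.const_mul 2)) fun ω => ?_
    have e : Bl ω = B₀ ω := by rw [hBeq]
    simp only
    rw [e]
    nlinarith [sq_nonneg ((M ω - B₀ ω) - (B₀ ω - E ω))]
  rw [integral_add (hI1.const_mul 2) (hI2.const_mul 2), integral_const_mul, integral_const_mul] at hle
  linarith

/-- The estimator from the master chain is close to the ball field. -/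
lemma yHat_close (hp : TreeParams G d θ) {g : ℕ → V → Ω → ℝ} (hg : IsNoise P g) {ε : ℝ}
    (hε : 0 < ε) (hε1 : ε ≤ 1) (k : ℕ) {t : ℝ} (hk : k * ε = t) (o : V) {R R₁ : ℕ}
    (hR : R₁ + 2 ≤ R) {C : ℝ}
    (hC : ∀ a b, G.Adj a b → a ∈ ballF G o R → b ∈ ballF G o R →
      ∫ ω, (cavChain θ (nbS G (ballF G o R)) (2 * R + 1) ε (fun i w => g i w ω) k a b
          - msg θ (nbS G (ballF G o R))
              (xChain θ (nbS G (ballF G o R)) (2 * R + 1) ε (fun i w => g i w ω) k)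
              (2 * R + 1) a b) ^ 2 ∂P ≤ C * ε)
    {ℓ : ℕ} (hℓ : 2 * R + 1 ≤ ℓ) {v : V} (hv : G.dist o v ≤ R₁) :
    ∫ ω, (yHat θ d (nbV G) (cavChain θ (nbV G) ℓ ε (fun i w => g i w ω) k) v
        - xChain θ (nbS G (ballF G o R)) (2 * R + 1) ε (fun i w => g i w ω) k v) ^ 2 ∂P
      ≤ 4 * d ^ 2 * (2 * ((Real.exp (compC θ d * t) - 1) / gammaC θ d ^ (R - R₁)) + 2 * (C * ε)) := by
  set S := ballF G o R with hS
  set X : Ω → V → ℝ := fun ω => xChain θ (nbS G S) (2 * R + 1) ε (fun i w => g i w ω) k with hX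
  set η : Ω → V → V → ℝ := fun ω => cavChain θ (nbV G) ℓ ε (fun i w => g i w ω) k with hη
  set E : Ω → V → V → ℝ := fun ω => msg θ (nbS G S) (X ω) (2 * R + 1) with hE
  set B := 2 * ((Real.exp (compC θ d * t) - 1) / gammaC θ d ^ (R - R₁)) + 2 * (C * ε) with hB
  have hcard : (nbV G v).card = d := by
    have := hp.deg v
    simpa [nbV, SimpleGraph.card_neighborFinset_eq_degree] using this
  have hXl : ∀ w, MemLp (fun ω => X ω w) 2 P :=
    fun w => facts_memLp_xChain hp.nonneg hp.lt_one hg _ ε k w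
  have hηl : ∀ a b, MemLp (fun ω => η ω a b) 2 P :=
    fun a b => memLp_cavChain hg hp.nonneg hp.lt_one ℓ k a b
  have hEl : ∀ a b, MemLp (fun ω => E ω a b) 2 P :=
    fun a b => facts_memLp_msg hp.nonneg hp.lt_one hXl _ a b
  have hvlt : G.dist o v < R := by omega
  have hpt : ∀ ω, (yHat θ d (nbV G) (η ω) v - X ω v) ^ 2
      ≤ 2 * d * ∑ b ∈ nbV G v, ((η ω v b - E ω v b) ^ 2 + (η ω b v - E ω b v) ^ 2) := by
    intro ω
    have h1 := yHat_sub_sq_le hp (η ω) (E ω) v
    rwa [yHat_msg hp o R (X ω) hvlt] at h1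
  have hI : ∀ a b, Integrable (fun ω => (η ω a b - E ω a b) ^ 2) P :=
    fun a b => ((hηl a b).sub (hEl a b)).integrable_sq
  have hbds : ∀ b ∈ nbV G v, ∫ ω, ((η ω v b - E ω v b) ^ 2 + (η ω b v - E ω b v) ^ 2) ∂P ≤ 2 * B := by
    intro b hb
    have hab : G.Adj v b := by simpa [nbV] using hb
    have hdb : G.dist o b ≤ R₁ + 1 := by
      have h1 : G.dist o b ≤ G.dist o v + G.dist v b := hp.tree.1.dist_triangle
      have h2 : G.dist v b = 1 := SimpleGraph.dist_eq_one_iff_adj.2 hab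
      omega
    have hvS : v ∈ S := (mem_ballF hp.tree.1).2 (by omega)
    have hbS : b ∈ S := (mem_ballF hp.tree.1).2 (by omega)
    rw [integral_add (hI v b) (hI b v)]
    have h1 := edge_close (d := d) hp hg hε hε1 k hk o (R₁ := R₁) (by omega) hC hℓ hab
      (by omega) hvS hbS
    have h2 := edge_close (d := d) hp hg hε hε1 k hk o (R₁ := R₁) (by omega) hC hℓ hab.symm hdb
      hbS hvS
    have e : 2 * B = B + B := by ring
    rw [e]
    exact add_le_add h1 h2
  have hI2 : ∀ b, Integrable (fun ω => (η ω v b - E ω v b) ^ 2 + (η ω b v - E ω b v) ^ 2) P :=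
    fun b => (hI v b).add (hI b v)
  have hIs : Integrable (fun ω => 2 * (d : ℝ) * ∑ b ∈ nbV G v,
      ((η ω v b - E ω v b) ^ 2 + (η ω b v - E ω b v) ^ 2)) P :=
    (integrable_finsetSum _ fun b _ => hI2 b).const_mul _
  have h2 : ∫ ω, (yHat θ d (nbV G) (η ω) v - X ω v) ^ 2 ∂P
      ≤ ∫ ω, 2 * (d : ℝ) * ∑ b ∈ nbV G v,
          ((η ω v b - E ω v b) ^ 2 + (η ω b v - E ω b v) ^ 2) ∂P :=
    integral_mono_of_nonneg (Filter.Eventually.of_forall fun ω => sq_nonneg _) hIs
      (Filter.Eventually.of_forall hpt)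
  refine h2.trans ?_
  rw [integral_const_mul, integral_finsetSum _ (fun b _ => hI2 b)]
  have hd0 : (0 : ℝ) ≤ d := Nat.cast_nonneg _
  have h3 : ∑ b ∈ nbV G v, ∫ ω, ((η ω v b - E ω v b) ^ 2 + (η ω b v - E ω b v) ^ 2) ∂P
      ≤ d * (2 * B) := by
    calc _ ≤ ∑ _b ∈ nbV G v, 2 * B := Finset.sum_le_sum hbds
      _ = _ := by rw [Finset.sum_const, hcard, nsmul_eq_mul]
  calc _ ≤ 2 * (d : ℝ) * (d * (2 * B)) := mul_le_mul_of_nonneg_left h3 (by positivity)
    _ = _ := by ring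

end Close

section General

variable {Ω : Type*} [mΩ : MeasurableSpace Ω] {P : Measure Ω} [IsProbabilityMeasure P]

lemma time_eq (t j : ℕ) : ((t * 2 ^ j : ℕ) : ℝ) * (1 / 2 : ℝ) ^ j = t := by
  push_cast
  rw [mul_assoc, ← mul_pow]
  norm_num

lemma sq_clip_div_sub_le {t : ℝ} (ht : 1 ≤ t) (y x : ℝ) :
    (clip (y / t) - clip (x / t)) ^ 2 ≤ (y - x) ^ 2 := by
  have h1 := abs_clip_sub_le (y / t) (x / t)
  have h2 : |y / t - x / t| ≤ |y - x| := by
    rw [← sub_div, abs_div, abs_of_pos (by linarith : (0 : ℝ) < t)]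
    exact div_le_self (abs_nonneg _) ht
  exact sq_le_sq.2 (by simpa using h1.trans h2)

lemma integral_abs_le_sqrt {f : Ω → ℝ} (hf : MemLp f 2 P) :
    ∫ ω, |f ω| ∂P ≤ Real.sqrt (∫ ω, f ω ^ 2 ∂P) := by
  set m := ∫ ω, |f ω| ∂P with hm
  have hI2 : Integrable (fun ω => f ω ^ 2) P := hf.integrable_sq
  have hI1 : Integrable (fun ω => |f ω|) P := (hf.integrable (by norm_num)).abs
  have h0 : 0 ≤ ∫ ω, (|f ω| - m) ^ 2 ∂P := integral_nonneg fun ω => sq_nonneg _
  have e : ∀ ω, (|f ω| - m) ^ 2 = f ω ^ 2 - 2 * m * |f ω| + m ^ 2 := by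
    intro ω
    have : |f ω| ^ 2 = f ω ^ 2 := sq_abs _
    nlinarith
  simp only [e] at h0
  have hJ1 : Integrable (fun ω => 2 * m * |f ω|) P := hI1.const_mul _
  have hJ2 : Integrable (fun ω => f ω ^ 2 - 2 * m * |f ω|) P := hI2.sub hJ1
  rw [integral_add hJ2 (integrable_const _), integral_sub hI2 hJ1, integral_const_mul, ← hm] at h0
  simp only [integral_const, probReal_univ, one_smul] at h0
  have h3 : m ^ 2 ≤ ∫ ω, f ω ^ 2 ∂P := by nlinarith
  exact (le_abs_self m).trans (Real.abs_le_sqrt h3)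

lemma int_sq_triangle {A B C D : Ω → ℝ} (hA : MemLp A 2 P) (hB : MemLp B 2 P) (hC : MemLp C 2 P)
    (hD : MemLp D 2 P) :
    ∫ ω, (A ω - D ω) ^ 2 ∂P
      ≤ 3 * (∫ ω, (A ω - B ω) ^ 2 ∂P + ∫ ω, (B ω - C ω) ^ 2 ∂P + ∫ ω, (D ω - C ω) ^ 2 ∂P) := by
  have h1 : Integrable (fun ω => (A ω - B ω) ^ 2) P := (hA.sub hB).integrable_sq
  have h2 : Integrable (fun ω => (B ω - C ω) ^ 2) P := (hB.sub hC).integrable_sq
  have h3 : Integrable (fun ω => (D ω - C ω) ^ 2) P := (hD.sub hC).integrable_sq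
  have h4 : Integrable (fun ω => (A ω - D ω) ^ 2) P := (hA.sub hD).integrable_sq
  have h12 : Integrable (fun ω => (A ω - B ω) ^ 2 + (B ω - C ω) ^ 2) P := h1.add h2
  have h123 : Integrable (fun ω => (A ω - B ω) ^ 2 + (B ω - C ω) ^ 2 + (D ω - C ω) ^ 2) P :=
    h12.add h3
  rw [← integral_add h1 h2, ← integral_add h12 h3, ← integral_const_mul]
  refine integral_mono h4 (h123.const_mul 3) fun ω => ?_
  simp only
  nlinarith [sq_nonneg ((A ω - B ω) - (B ω - C ω)), sq_nonneg ((A ω - B ω) - (C ω - D ω)),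
    sq_nonneg ((B ω - C ω) - (C ω - D ω)), sq_nonneg ((A ω - B ω) + (C ω - D ω))]

lemma abs_prod_sub_le {ι : Type*} [DecidableEq ι] (D : Finset ι) (a b : ι → ℝ)
    (ha : ∀ i ∈ D, 0 ≤ a i ∧ a i ≤ 1) (hb : ∀ i ∈ D, 0 ≤ b i ∧ b i ≤ 1) :
    |∏ i ∈ D, a i - ∏ i ∈ D, b i| ≤ ∑ i ∈ D, |a i - b i| := by
  induction D using Finset.induction_on with
  | empty => simp
  | insert i s hi ih =>
    rw [Finset.prod_insert hi, Finset.prod_insert hi, Finset.sum_insert hi]
    have ih' := ih (fun j hj => ha j (Finset.mem_insert_of_mem hj))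
      (fun j hj => hb j (Finset.mem_insert_of_mem hj))
    have hA0 : 0 ≤ ∏ j ∈ s, a j :=
      Finset.prod_nonneg fun j hj => (ha j (Finset.mem_insert_of_mem hj)).1
    have hA1 : ∏ j ∈ s, a j ≤ 1 :=
      Finset.prod_le_one (fun j hj => (ha j (Finset.mem_insert_of_mem hj)).1)
        (fun j hj => (ha j (Finset.mem_insert_of_mem hj)).2)
    obtain ⟨hb0, hb1⟩ := hb i (Finset.mem_insert_self _ _)
    have e : a i * ∏ j ∈ s, a j - b i * ∏ j ∈ s, b j
        = (a i - b i) * ∏ j ∈ s, a j + b i * (∏ j ∈ s, a j - ∏ j ∈ s, b j) := by ring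
    rw [e]
    refine (abs_add_le _ _).trans (add_le_add ?_ ?_)
    · rw [abs_mul, abs_of_nonneg hA0]
      exact mul_le_of_le_one_right (abs_nonneg _) hA1
    · rw [abs_mul, abs_of_nonneg hb0]
      calc b i * _ ≤ 1 * |∏ j ∈ s, a j - ∏ j ∈ s, b j| :=
            mul_le_mul_of_nonneg_right hb1 (abs_nonneg _)
        _ ≤ _ := by rw [one_mul]; exact ih'

/-- A factor `(1 + s c) / 2`. -/
lemma fac_mem (b : Bool) {c : ℝ} (hc : |c| ≤ 1) :
    0 ≤ (1 + spin b * c) / 2 ∧ (1 + spin b * c) / 2 ≤ 1 := by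
  rw [abs_le] at hc
  rcases spin_sq_one b with h | h <;> rw [h] <;> constructor <;> linarith [hc.1, hc.2]

lemma fac_sub (b : Bool) (c c' : ℝ) :
    |(1 + spin b * c) / 2 - (1 + spin b * c') / 2| = |c - c'| / 2 := by
  have e : (1 + spin b * c) / 2 - (1 + spin b * c') / 2 = spin b * (c - c') / 2 := by ring
  rw [e, abs_div, abs_mul]
  rcases spin_sq_one b with h | h <;> rw [h] <;> simp

lemma exact_abs_close {ι : Type*} {g : ℕ → ι → Ω → ℝ} (hg : IsNoise P g) {ε : ℝ} (hε : 0 < ε)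
    {K : ℕ} (hK : 1 ≤ K) (b : Bool) (v : ι → ℝ) (i : ι) (hv : v i = spin b) :
    ∫ ω, |clip (exactPath v ε (fun l j => g l j ω) K i / (K * ε)) - spin b| ∂P
      ≤ Real.sqrt (1 / (K * ε)) := by
  have hm : Measurable (fun ω => clip (exactPath v ε (fun l j => g l j ω) K i / (K * ε))) := by
    refine continuous_clip.measurable.comp (Measurable.div_const ?_ _)
    simp only [exactPath]
    exact measurable_const.add ((Finset.measurable_fun_sum _ fun l _ => hg.meas l i).const_mul _)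
  have hl : MemLp (fun ω => clip (exactPath v ε (fun l j => g l j ω) K i / (K * ε)) - spin b)
      2 P := by
    refine MemLp.sub ?_ (memLp_const _)
    refine MemLp.of_bound hm.aestronglyMeasurable 1 (Filter.Eventually.of_forall fun ω => ?_)
    simpa using abs_clip_le_one _
  refine (integral_abs_le_sqrt hl).trans (Real.sqrt_le_sqrt ?_)
  exact exact_clip_close hg hε hK b v i hv

end General

/-- The weights sum to one and are nonnegative: a mixture of values at most `c` is at most `c`. -/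
lemma mixture_le (hp : TreeParams G d θ) (o : V) (R : ℕ) {c : ℝ}
    {f : (↥(ballF G o R) → Bool) → ℝ} (h : ∀ σ, f σ ≤ c) :
    ∑ σ, isingW G θ (ballF G o R) σ * f σ ≤ c := by
  have h1 : ∑ σ, isingW G θ (ballF G o R) σ * f σ ≤ ∑ σ, isingW G θ (ballF G o R) σ * c :=
    Finset.sum_le_sum fun σ _ =>
      mul_le_mul_of_nonneg_left (h σ) (isingW_nonneg hp.nonneg hp.lt_one _ σ)
  rw [← Finset.sum_mul, isingW_sum hp.tree (ballF_connected hp.tree.1 o R), one_mul] at h1
  exact h1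

lemma tv_small (A : ℝ) (t : ℕ) {δ : ℝ} (hδ : 0 < δ) :
    ∃ j₀ : ℕ, ∀ j ≥ j₀,
      Real.sqrt (Real.exp (A * ((t * 2 ^ j : ℕ) : ℝ) * ((1 / 2 : ℝ) ^ j) ^ 2) - 1) ≤ δ := by
  have h1 : Tendsto (fun j : ℕ => (1 / 2 : ℝ) ^ j) atTop (𝓝 0) :=
    tendsto_pow_atTop_nhds_zero_of_lt_one (by norm_num) (by norm_num)
  have hc : Continuous (fun y : ℝ => Real.sqrt (Real.exp (A * t * y) - 1)) := by fun_prop
  have h2 := hc.tendsto 0 |>.comp h1
  simp only [mul_zero, Real.exp_zero, sub_self, Real.sqrt_zero] at h2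
  have h3 := h2.eventually (Iic_mem_nhds hδ)
  obtain ⟨j₀, hj₀⟩ := eventually_atTop.1 h3
  refine ⟨j₀, fun j hj => ?_⟩
  have h4 := hj₀ j hj
  simp only [Function.comp] at h4
  have e : A * ((t * 2 ^ j : ℕ) : ℝ) * ((1 / 2 : ℝ) ^ j) ^ 2 = A * t * (1 / 2 : ℝ) ^ j := by
    have := time_eq t j
    rw [sq]
    calc A * ((t * 2 ^ j : ℕ) : ℝ) * ((1 / 2 : ℝ) ^ j * (1 / 2 : ℝ) ^ j)
        = A * (((t * 2 ^ j : ℕ) : ℝ) * (1 / 2 : ℝ) ^ j) * (1 / 2 : ℝ) ^ j := by ring
      _ = _ := by rw [this]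
  rw [e]
  exact h4

section Master

variable {γ : ℕ → ℕ → unitInterval → ℝ}

lemma measurable_gamma_of_noise (hp : TreeParams G d θ)
    (hn : ∀ j, IsNoise (uniformField V) (fun (k : ℕ) (v : V) (u : V → unitInterval) => γ j k (u v)))
    (j k : ℕ) : Measurable (γ j k) := by
  obtain ⟨v₀⟩ := hp.tree.1.nonempty
  have h1 := (hn j).meas k v₀
  have h2 : Measurable (fun s : unitInterval => fun _ : V => s) :=
    measurable_pi_lambda _ fun _ => measurable_id
  exact h1.comp h2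

lemma memLp_masterX (hp : TreeParams G d θ)
    (hn : ∀ j, IsNoise (uniformField V) (fun (k : ℕ) (v : V) (u : V → unitInterval) => γ j k (u v)))
    (ℓ j t : ℕ) (v : V) :
    haveI := limit_uniformField_prob V
    MemLp (masterX G θ d γ ℓ j t v) 2 (uniformField V) := by
  haveI := limit_uniformField_prob V
  haveI : Countable V := countable_of_connected hp.tree.1
  have hm := measurable_masterX (G := G) (d := d) hp.nonneg hp.lt_one
    (measurable_gamma_of_noise hp hn) ℓ j t v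
  refine MemLp.of_bound hm.aestronglyMeasurable 1 (Filter.Eventually.of_forall fun ω => ?_)
  simpa [masterX] using abs_clip_le_one _

lemma measurable_ballField (hp : TreeParams G d θ)
    (hn : ∀ j, IsNoise (uniformField V) (fun (k : ℕ) (v : V) (u : V → unitInterval) => γ j k (u v)))
    (o : V) (R j t : ℕ) (v : V) :
    Measurable (fun u => ballField G θ γ o R j t u v) :=
  facts_measurable_xChain hp.nonneg hp.lt_one (hn j).meas _ _ _ v

lemma memLp_clipBall (hp : TreeParams G d θ)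
    (hn : ∀ j, IsNoise (uniformField V) (fun (k : ℕ) (v : V) (u : V → unitInterval) => γ j k (u v)))
    (o : V) (R j t : ℕ) (v : V) :
    haveI := limit_uniformField_prob V
    MemLp (fun u => clip (ballField G θ γ o R j t u v / t)) 2 (uniformField V) := by
  haveI := limit_uniformField_prob V
  have hm : Measurable (fun u => clip (ballField G θ γ o R j t u v / t)) :=
    continuous_clip.measurable.comp ((measurable_ballField hp hn o R j t v).div_const _)
  refine MemLp.of_bound hm.aestronglyMeasurable 1 (Filter.Eventually.of_forall fun ω => ?_)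
  simpa using abs_clip_le_one _

lemma memLp_ballField (hp : TreeParams G d θ)
    (hn : ∀ j, IsNoise (uniformField V) (fun (k : ℕ) (v : V) (u : V → unitInterval) => γ j k (u v)))
    (o : V) (R j t : ℕ) (v : V) :
    haveI := limit_uniformField_prob V
    MemLp (fun u => ballField G θ γ o R j t u v) 2 (uniformField V) := by
  haveI := limit_uniformField_prob V
  exact facts_memLp_xChain hp.nonneg hp.lt_one (hn j) _ _ _ v

/-- The master estimator is close to the clipped rescaled field of a large ball. The estimate is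
uniform on any ball `B(o, R₁)`. -/
theorem approx (hp : TreeParams G d θ) {γ : ℕ → ℕ → unitInterval → ℝ}
    (hn : ∀ j, IsNoise (uniformField V) (fun (k : ℕ) (v : V) (u : V → unitInterval) => γ j k (u v)))
    (o : V) (R₁ t : ℕ) (ht : 1 ≤ t) {δ : ℝ} (hδ : 0 < δ) :
    ∃ R₀ : ℕ, ∀ R ≥ R₀, ∃ j₀ : ℕ, ∀ ℓ ≥ 2 * R + 1, ∀ j ≥ j₀, ∀ v, G.dist o v ≤ R₁ →
      v ∈ ballF G o R ∧
      dist2 V (masterX G θ d γ ℓ j t v) (fun u => clip (ballField G θ γ o R j t u v / t)) ≤ δ := by
  haveI := limit_uniformField_prob V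
  set B := Real.exp (compC θ d * t) - 1 with hB
  have hγ := hp.gammaC_gt
  have hγ0 : 0 < gammaC θ d := by linarith
  have hd0 : (0 : ℝ) ≤ (d : ℝ) ^ 2 := by positivity
  have ht1 : (1 : ℝ) ≤ t := by exact_mod_cast ht
  obtain ⟨n, hn'⟩ := pow_unbounded_of_one_lt (16 * (d : ℝ) ^ 2 * B / δ) hγ
  refine ⟨R₁ + 2 + n, fun R hR => ?_⟩
  obtain ⟨C, hC0, hC⟩ := field_chain_close (P := uniformField V) hp o R (t : ℝ)
  have hpos : 0 < δ / (16 * (d : ℝ) ^ 2 * C + 1) := by positivity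
  obtain ⟨j₀, hj₀⟩ := exists_pow_lt_of_lt_one hpos (by norm_num : (1 / 2 : ℝ) < 1)
  refine ⟨j₀, fun ℓ hℓ j hj v hv => ⟨(mem_ballF hp.tree.1).2 (by omega), ?_⟩⟩
  set ε : ℝ := (1 / 2 : ℝ) ^ j with hε
  have hε0 : 0 < ε := by positivity
  have hε1 : ε ≤ 1 := pow_le_one₀ (by norm_num) (by norm_num)
  have hk : ((t * 2 ^ j : ℕ) : ℝ) * ε = t := time_eq t j
  have hkey := yHat_close (d := d) hp (hn j) hε0 hε1 (t * 2 ^ j) hk o (R := R) (R₁ := R₁)
    (by omega) (hC _ (hn j) ε hε0 hε1 _ hk.le) hℓ hv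
  have hbound : 4 * (d : ℝ) ^ 2 * (2 * (B / gammaC θ d ^ (R - R₁)) + 2 * (C * ε)) ≤ δ := by
    have h1 : gammaC θ d ^ n ≤ gammaC θ d ^ (R - R₁) :=
      pow_le_pow_right₀ hγ.le (by omega)
    have h2 : 8 * (d : ℝ) ^ 2 * B ≤ δ / 2 * gammaC θ d ^ (R - R₁) := by
      have h3 : 16 * (d : ℝ) ^ 2 * B / δ ≤ gammaC θ d ^ (R - R₁) := hn'.le.trans h1
      rw [div_le_iff₀ hδ] at h3
      linarith
    have h4 : 4 * (d : ℝ) ^ 2 * (2 * (B / gammaC θ d ^ (R - R₁))) ≤ δ / 2 := by
      have e : 4 * (d : ℝ) ^ 2 * (2 * (B / gammaC θ d ^ (R - R₁)))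
          = 8 * (d : ℝ) ^ 2 * B / gammaC θ d ^ (R - R₁) := by ring
      rw [e, div_le_iff₀ (by positivity)]
      exact h2
    have h5 : ε ≤ (1 / 2 : ℝ) ^ j₀ :=
      pow_le_pow_of_le_one (by norm_num) (by norm_num) hj
    have h6 : ε * (16 * (d : ℝ) ^ 2 * C + 1) ≤ δ := by
      have h7 : ε < δ / (16 * (d : ℝ) ^ 2 * C + 1) := lt_of_le_of_lt h5 hj₀
      rw [lt_div_iff₀ (by positivity)] at h7
      exact h7.le
    have h8 : 4 * (d : ℝ) ^ 2 * (2 * (C * ε)) ≤ δ / 2 := by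
      have : 0 ≤ ε := hε0.le
      nlinarith
    linarith
  refine le_trans ?_ (hkey.trans hbound)
  unfold dist2
  have hI : Integrable (fun ω : V → unitInterval =>
      (yHat θ d (nbV G) (cavChain θ (nbV G) ℓ ε (fun i w => γ j i (ω w)) (t * 2 ^ j)) v
        - xChain θ (nbS G (ballF G o R)) (2 * R + 1) ε (fun i w => γ j i (ω w)) (t * 2 ^ j) v) ^ 2)
      (uniformField V) := by
    refine MemLp.integrable_sq (MemLp.sub ?_ ?_)
    · exact facts_memLp_yHat hp.nonneg hp.lt_one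
        (fun a b => memLp_cavChain (hn j) hp.nonneg hp.lt_one ℓ _ a b) v
    · exact facts_memLp_xChain hp.nonneg hp.lt_one (hn j) _ _ _ v
  refine integral_mono_of_nonneg (Filter.Eventually.of_forall fun ω => sq_nonneg _) hI
    (Filter.Eventually.of_forall fun u => ?_)
  exact sq_clip_div_sub_le ht1 _ _


theorem fact_F1 (hp : TreeParams G d θ) {γ : ℕ → ℕ → unitInterval → ℝ}
    (hn : ∀ j, IsNoise (uniformField V) (fun (k : ℕ) (v : V) (u : V → unitInterval) => γ j k (u v)))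
    (hr : ∀ j k s, γ j k s = (γ (j + 1) (2 * k) s + γ (j + 1) (2 * k + 1) s) / Real.sqrt 2)
    (v : V) (t : ℕ) (ht : 1 ≤ t) {δ : ℝ} (hδ : 0 < δ) :
    ∃ ℓ₀ j₀ : ℕ, ∀ ℓ ℓ' j j', ℓ₀ ≤ ℓ → ℓ₀ ≤ ℓ' → j₀ ≤ j → j₀ ≤ j' →
      dist2 V (masterX G θ d γ ℓ j t v) (masterX G θ d γ ℓ' j' t v) ≤ δ := by
  haveI := limit_uniformField_prob V
  have ht1 : (1 : ℝ) ≤ t := by exact_mod_cast ht
  have hδ9 : 0 < δ / 9 := by positivity
  obtain ⟨R₀, hR₀⟩ := approx (d := d) hp hn v 0 t ht hδ9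
  obtain ⟨j₁, hj₁⟩ := hR₀ R₀ le_rfl
  have hNS : ∀ a ∈ ballF G v R₀, nbS G (ballF G v R₀) a ⊆ ballF G v R₀ := by
    intro a _ c hc
    exact (mem_nbS.1 hc).2.2
  obtain ⟨C, hC0, hC⟩ := mesh_all (P := uniformField V) hp.nonneg hp.lt_one hNS (2 * R₀ + 1) t
  have hmesh := hC (fun j k w u => γ j k (u w)) hn (fun j k w u => hr j k (u w))
  obtain ⟨j₂, hj₂⟩ := exists_pow_lt_of_lt_one (show 0 < δ / 9 / C by positivity)
    (by norm_num : (1 / 2 : ℝ) < 1)
  have hvS : v ∈ ballF G v R₀ := (mem_ballF hp.tree.1).2 (by simp)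
  refine ⟨2 * R₀ + 1, max j₁ j₂, fun ℓ ℓ' j j' hℓ hℓ' hj hj' => ?_⟩
  have hclip : ∀ j j', j₂ ≤ j → j ≤ j' →
      ∫ u, (clip (ballField G θ γ v R₀ j t u v / t)
          - clip (ballField G θ γ v R₀ j' t u v / t)) ^ 2 ∂(uniformField V) ≤ δ / 9 := by
    intro j j' hj hjj'
    have h1 := hmesh j j' hjj' v hvS
    have h2 : C * (1 / 2 : ℝ) ^ j ≤ δ / 9 := by
      have h5 : (1 / 2 : ℝ) ^ j ≤ (1 / 2 : ℝ) ^ j₂ :=
        pow_le_pow_of_le_one (by norm_num) (by norm_num) hj
      have h7 : (1 / 2 : ℝ) ^ j < δ / 9 / C := lt_of_le_of_lt h5 hj₂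
      rw [lt_div_iff₀ hC0] at h7
      linarith
    refine le_trans ?_ (h1.trans h2)
    refine integral_mono_of_nonneg (Filter.Eventually.of_forall fun ω => sq_nonneg _) ?_
      (Filter.Eventually.of_forall fun u => ?_)
    · exact MemLp.integrable_sq ((memLp_ballField hp hn v R₀ j t v).sub
        (memLp_ballField hp hn v R₀ j' t v))
    · exact sq_clip_div_sub_le ht1 _ _
  have hmid : ∫ u, (clip (ballField G θ γ v R₀ j t u v / t)
      - clip (ballField G θ γ v R₀ j' t u v / t)) ^ 2 ∂(uniformField V) ≤ δ / 9 := by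
    have hj2 : j₂ ≤ j := (le_max_right _ _).trans hj
    have hj2' : j₂ ≤ j' := (le_max_right _ _).trans hj'
    rcases le_total j j' with h | h
    · exact hclip j j' hj2 h
    · have := hclip j' j hj2' h
      refine le_trans (le_of_eq ?_) this
      refine integral_congr_ae (Filter.Eventually.of_forall fun u => ?_)
      simp only
      ring
  have h1 := (hj₁ ℓ hℓ j ((le_max_left _ _).trans hj) v (by simp)).2
  have h2 := (hj₁ ℓ' hℓ' j' ((le_max_left _ _).trans hj') v (by simp)).2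
  unfold dist2 at h1 h2 ⊢
  have htri := int_sq_triangle (P := uniformField V)
    (memLp_masterX (d := d) hp hn ℓ j t v) (memLp_clipBall hp hn v R₀ j t v)
    (memLp_clipBall hp hn v R₀ j' t v) (memLp_masterX (d := d) hp hn ℓ' j' t v)
  refine htri.trans ?_
  linarith

end Master

section PathFunctionals

variable {Ω : Type*} [mΩ : MeasurableSpace Ω] {P : Measure Ω} [IsProbabilityMeasure P]

/-- The total variation term of the bridge. -/
def tvE (S : Finset V) (K : ℕ) (ε : ℝ) : ℝ :=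
  Real.sqrt (Real.exp (8 * (S.card : ℝ) ^ 2 * Real.exp (4 * (S.card : ℝ)) * K * ε ^ 2) - 1)

lemma measurable_exactPath_noise {ι : Type*} {g : ℕ → ι → Ω → ℝ} (hg : ∀ k w, Measurable (g k w))
    (v : ι → ℝ) (ε : ℝ) (k : ℕ) (i : ι) :
    Measurable (fun ω => exactPath v ε (fun l j => g l j ω) k i) := by
  simp only [exactPath]
  exact measurable_const.add ((Finset.measurable_fun_sum _ fun l _ => hg l i).const_mul _)

lemma memLp_clip_exact {ι : Type*} {g : ℕ → ι → Ω → ℝ} (hg : ∀ k w, Measurable (g k w))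
    (v : ι → ℝ) (ε c : ℝ) (k : ℕ) (i : ι) :
    MemLp (fun ω => clip (exactPath v ε (fun l j => g l j ω) k i / c)) 2 P := by
  have hm : Measurable (fun ω => clip (exactPath v ε (fun l j => g l j ω) k i / c)) :=
    continuous_clip.measurable.comp ((measurable_exactPath_noise hg v ε k i).div_const _)
  refine MemLp.of_bound hm.aestronglyMeasurable 1 (Filter.Eventually.of_forall fun ω => ?_)
  simpa using abs_clip_le_one _

/-- Two-time bound for the field chain of a ball. -/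
lemma two_time (hp : TreeParams G d θ) {g : ℕ → V → Ω → ℝ} (hg : IsNoise P g) (o : V) (R : ℕ)
    {v : V} (hv : v ∈ ballF G o R) {ε : ℝ} (hε : 0 < ε) (hε1 : ε ≤ 1) {k₁ k₂ : ℕ} (h1 : 1 ≤ k₁)
    (h12 : k₁ ≤ k₂) :
    ∫ ω, (clip (xChain θ (nbS G (ballF G o R)) (2 * R + 1) ε (fun l w => g l w ω) k₁ v / (k₁ * ε))
        - clip (xChain θ (nbS G (ballF G o R)) (2 * R + 1) ε (fun l w => g l w ω) k₂ v
            / (k₂ * ε))) ^ 2 ∂P
      ≤ 4 / (k₁ * ε) + 4 * tvE (ballF G o R) k₂ ε := by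
  set S := ballF G o R with hS
  have hk1 : (k₁ : ℝ) * ε ≤ k₂ * ε :=
    mul_le_mul_of_nonneg_right (by exact_mod_cast h12) hε.le
  have hk1pos : 0 < (k₁ : ℝ) * ε := by
    have : (0 : ℝ) < k₁ := by exact_mod_cast h1
    positivity
  let i₁ : Fin (k₂ + 1) := ⟨k₁, by omega⟩
  let i₂ : Fin (k₂ + 1) := ⟨k₂, by omega⟩
  let F : (Fin (k₂ + 1) → ↥S → ℝ) → ℝ := fun x =>
    (clip (x i₁ ⟨v, hv⟩ / (k₁ * ε)) - clip (x i₂ ⟨v, hv⟩ / (k₂ * ε))) ^ 2 / 4
  have hFc : Continuous F := by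
    have hc := continuous_clip
    fun_prop
  have hF1 : ∀ x, |F x| ≤ 1 := by
    intro x
    have ha := abs_le.1 (abs_clip_le_one (x i₁ ⟨v, hv⟩ / (k₁ * ε)))
    have hb := abs_le.1 (abs_clip_le_one (x i₂ ⟨v, hv⟩ / (k₂ * ε)))
    simp only [F]
    set a := clip (x i₁ ⟨v, hv⟩ / (k₁ * ε))
    set b := clip (x i₂ ⟨v, hv⟩ / (k₂ * ε))
    rw [abs_of_nonneg (by positivity)]
    nlinarith [ha.1, ha.2, hb.1, hb.2]
  have htv := tv_field hp hg o R hε hε1 k₂ F hFc.measurable hF1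
  have htv' := (abs_le.1 htv).2
  have hsm := hg.restrict S
  have hmeas : ∀ k (w : ↥S), Measurable ((fun k (i : ↥S) => g k i) k w) := hsm.meas
  -- each exact term
  have hexact : ∀ σ : ↥S → Bool, ∫ ω, F (fun k => exactPath (spinVec S σ) ε
      (fun l (i : ↥S) => g l i ω) k) ∂P ≤ 1 / (k₁ * ε) := by
    intro σ
    set s := spin (σ ⟨v, hv⟩) with hs
    have hs2 : spinVec S σ ⟨v, hv⟩ = spin (σ ⟨v, hv⟩) := rfl
    have hA := exact_clip_close hsm hε h1 (σ ⟨v, hv⟩) (spinVec S σ) ⟨v, hv⟩ hs2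
    have hB := exact_clip_close hsm hε (h1.trans h12) (σ ⟨v, hv⟩) (spinVec S σ) ⟨v, hv⟩ hs2
    set A := fun ω => clip (exactPath (spinVec S σ) ε (fun l j => g l j ω) k₁ ⟨v, hv⟩ / (k₁ * ε))
      with hAdef
    set B := fun ω => clip (exactPath (spinVec S σ) ε (fun l j => g l j ω) k₂ ⟨v, hv⟩ / (k₂ * ε))
      with hBdef
    have hAl : MemLp A 2 P := memLp_clip_exact hmeas _ _ _ _ _
    have hBl : MemLp B 2 P := memLp_clip_exact hmeas _ _ _ _ _
    have hI1 : Integrable (fun ω => (A ω - s) ^ 2) P := (hAl.sub (memLp_const _)).integrable_sq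
    have hI2 : Integrable (fun ω => (B ω - s) ^ 2) P := (hBl.sub (memLp_const _)).integrable_sq
    have hI3 : Integrable (fun ω => (A ω - s) ^ 2 + (B ω - s) ^ 2) P := hI1.add hI2
    have hle : ∫ ω, F (fun k => exactPath (spinVec S σ) ε (fun l (i : ↥S) => g l i ω) k) ∂P
        ≤ ∫ ω, (1 / 2) * ((A ω - s) ^ 2 + (B ω - s) ^ 2) ∂P := by
      refine integral_mono_of_nonneg (Filter.Eventually.of_forall fun ω => ?_)
        (hI3.const_mul _) (Filter.Eventually.of_forall fun ω => ?_)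
      · simp only [F, Pi.zero_apply]
        positivity
      · show (A ω - B ω) ^ 2 / 4 ≤ (1 / 2) * ((A ω - s) ^ 2 + (B ω - s) ^ 2)
        nlinarith [sq_nonneg ((A ω - s) + (B ω - s))]
    refine hle.trans ?_
    rw [integral_const_mul, integral_add hI1 hI2]
    have h3 : 1 / ((k₂ : ℝ) * ε) ≤ 1 / (k₁ * ε) := one_div_le_one_div_of_le hk1pos hk1
    have hA' : ∫ ω, (A ω - s) ^ 2 ∂P ≤ 1 / (k₁ * ε) := hA
    have hB' : ∫ ω, (B ω - s) ^ 2 ∂P ≤ 1 / (k₂ * ε) := hB
    linarith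
  have hmix := mixture_le hp o R hexact
  have h4 : ∫ ω, F (fun k i => xChain θ (nbS G S) (2 * R + 1) ε (fun l w => g l w ω) k i) ∂P
      ≤ 1 / (k₁ * ε) + tvE S k₂ ε := by
    have : ∫ ω, F (fun k i => xChain θ (nbS G S) (2 * R + 1) ε (fun l w => g l w ω) k i) ∂P
        - ∑ σ, isingW G θ S σ * ∫ ω, F (fun k => exactPath (spinVec S σ) ε
            (fun l (i : ↥S) => g l i ω) k) ∂P ≤ tvE S k₂ ε := htv'
    linarith
  have e : ∫ ω, (clip (xChain θ (nbS G S) (2 * R + 1) ε (fun l w => g l w ω) k₁ v / (k₁ * ε))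
        - clip (xChain θ (nbS G S) (2 * R + 1) ε (fun l w => g l w ω) k₂ v / (k₂ * ε))) ^ 2 ∂P
      = 4 * ∫ ω, F (fun k i => xChain θ (nbS G S) (2 * R + 1) ε (fun l w => g l w ω) k i) ∂P := by
    rw [← integral_const_mul]
    refine integral_congr_ae (Filter.Eventually.of_forall fun ω => ?_)
    simp only [F, i₁, i₂]
    ring
  rw [e]
  have e2 : 4 / ((k₁ : ℝ) * ε) = 4 * (1 / (k₁ * ε)) := by ring
  rw [e2]
  linarith

lemma spin_factor (a b : Bool) : (1 + spin a * spin b) / 2 = if b = a then 1 else 0 := by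
  cases a <;> cases b <;> norm_num [spin]

/-- The product of factors with exact spins, summed against the weights, is the cylinder weight. -/
lemma sum_weight_indicator (hp : TreeParams G d θ) (o : V) (R : ℕ) {D : Finset V}
    (hD : (G.induce (D : Set V)).Connected) (hDS : D ⊆ ballF G o R) (η : V → Bool) :
    ∑ σ, isingW G θ (ballF G o R) σ
        * ∏ v ∈ D, ((1 + spin (η v) * spin (extB (ballF G o R) σ v)) / 2)
      = cylWeight G θ D η := by
  rw [← isingW_marginal (θ := θ) hp.tree hD (ballF_connected hp.tree.1 o R) hDS η]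
  refine Finset.sum_congr rfl fun σ _ => ?_
  simp only [spin_factor]
  rw [Finset.prod_ite_zero]
  by_cases h : ∀ v ∈ D, extB (ballF G o R) σ v = η v
  · simp [h]
  · simp only [if_neg h, mul_zero]

/-- The extension of the last coordinate of a path to a function on all of `V`. -/
def lastExt (S : Finset V) (K : ℕ) (x : Fin (K + 1) → ↥S → ℝ) (v : V) : ℝ :=
  if h : v ∈ S then x (Fin.last K) ⟨v, h⟩ else 0

lemma measurable_lastExt (S : Finset V) (K : ℕ) (v : V) :
    Measurable (fun x : Fin (K + 1) → ↥S → ℝ => lastExt S K x v) := by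
  unfold lastExt
  by_cases h : v ∈ S
  · simp only [dif_pos h]
    exact (measurable_pi_apply _).comp (measurable_pi_apply _)
  · simp only [dif_neg h]
    exact measurable_const

/-- Cylinder integral of the field chain of a ball. -/
lemma cyl_eval (hp : TreeParams G d θ) {g : ℕ → V → Ω → ℝ} (hg : IsNoise P g) (o : V) (R : ℕ)
    {D : Finset V} (hD : (G.induce (D : Set V)).Connected) (hDS : D ⊆ ballF G o R) (η : V → Bool)
    {ε : ℝ} (hε : 0 < ε) (hε1 : ε ≤ 1) {K : ℕ} (hK : 1 ≤ K) :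
    |∫ ω, ∏ v ∈ D, ((1 + spin (η v) *
          clip (xChain θ (nbS G (ballF G o R)) (2 * R + 1) ε (fun l w => g l w ω) K v / (K * ε)))
            / 2) ∂P
        - cylWeight G θ D η|
      ≤ D.card / 2 * Real.sqrt (1 / (K * ε)) + tvE (ballF G o R) K ε := by
  set S := ballF G o R with hS
  set c : ℝ := K * ε with hc
  let F : (Fin (K + 1) → ↥S → ℝ) → ℝ := fun x =>
    ∏ v ∈ D, ((1 + spin (η v) * clip (lastExt S K x v / c)) / 2)
  have hFm : Measurable F := by
    refine Finset.measurable_prod _ fun v _ => ?_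
    refine Measurable.div_const (measurable_const.add (Measurable.const_mul ?_ _)) _
    exact continuous_clip.measurable.comp ((measurable_lastExt S K v).div_const _)
  have hfac : ∀ (x : Fin (K + 1) → ↥S → ℝ), ∀ v ∈ D,
      0 ≤ (1 + spin (η v) * clip (lastExt S K x v / c)) / 2 ∧
        (1 + spin (η v) * clip (lastExt S K x v / c)) / 2 ≤ 1 :=
    fun x v _ => fac_mem (η v) (abs_clip_le_one _)
  have hF1 : ∀ x, |F x| ≤ 1 := by
    intro x
    rw [abs_of_nonneg (Finset.prod_nonneg fun v hv => (hfac x v hv).1)]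
    exact Finset.prod_le_one (fun v hv => (hfac x v hv).1) (fun v hv => (hfac x v hv).2)
  have htv := tv_field hp hg o R hε hε1 K F hFm hF1
  have hsm := hg.restrict S
  have hmeas : ∀ k (w : ↥S), Measurable ((fun k (i : ↥S) => g k i) k w) := hsm.meas
  have hX : ∀ ω, F (fun k i => xChain θ (nbS G S) (2 * R + 1) ε (fun l w => g l w ω) k i)
      = ∏ v ∈ D, ((1 + spin (η v) *
          clip (xChain θ (nbS G S) (2 * R + 1) ε (fun l w => g l w ω) K v / c)) / 2) := by
    intro ω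
    refine Finset.prod_congr rfl fun v hv => ?_
    simp only [lastExt, dif_pos (hDS hv)]
    rfl
  have hK0 : (0 : ℝ) < K := by exact_mod_cast hK
  have hc0 : 0 < c := by positivity
  set I : (↥S → Bool) → ℝ := fun σ => ∏ v ∈ D, ((1 + spin (η v) * spin (extB S σ v)) / 2) with hI
  have hIsum : ∑ σ, isingW G θ S σ * I σ = cylWeight G θ D η :=
    sum_weight_indicator hp o R hD hDS η
  -- the exact term
  have herr : ∀ σ : ↥S → Bool, |∫ ω, F (fun k => exactPath (spinVec S σ) ε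
      (fun l (i : ↥S) => g l i ω) k) ∂P - I σ| ≤ D.card / 2 * Real.sqrt (1 / c) := by
    intro σ
    set A : Ω → V → ℝ := fun ω v => clip (lastExt S K (fun k => exactPath (spinVec S σ) ε
      (fun l (i : ↥S) => g l i ω) k) v / c) with hA
    have hAm : ∀ v, Measurable (fun ω => A ω v) := by
      intro v
      refine continuous_clip.measurable.comp (Measurable.div_const ?_ _)
      unfold lastExt
      by_cases h : v ∈ S
      · simp only [dif_pos h]
        exact measurable_exactPath_noise hmeas _ _ _ _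
      · simp only [dif_neg h]
        exact measurable_const
    have hAb : ∀ ω v, |A ω v| ≤ 1 := fun ω v => abs_clip_le_one _
    have hAl : ∀ v, MemLp (fun ω => A ω v) 2 P := fun v =>
      MemLp.of_bound (hAm v).aestronglyMeasurable 1
        (Filter.Eventually.of_forall fun ω => by simpa using hAb ω v)
    have hval : ∀ v ∈ D, ∫ ω, |A ω v - spin (extB S σ v)| ∂P ≤ Real.sqrt (1 / c) := by
      intro v hv
      have h1 := exact_abs_close hsm hε hK (σ ⟨v, hDS hv⟩) (spinVec S σ) ⟨v, hDS hv⟩ rfl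
      have h2 : extB S σ v = σ ⟨v, hDS hv⟩ := extB_coe S σ ⟨v, hDS hv⟩
      rw [h2]
      refine le_trans (le_of_eq ?_) h1
      refine integral_congr_ae (Filter.Eventually.of_forall fun ω => ?_)
      simp only [hA, lastExt, dif_pos (hDS hv)]
      rfl
    have hFA : ∀ ω, F (fun k => exactPath (spinVec S σ) ε (fun l (i : ↥S) => g l i ω) k)
        = ∏ v ∈ D, ((1 + spin (η v) * A ω v) / 2) := fun ω => rfl
    have hmeasF : Measurable (fun ω => ∏ v ∈ D, ((1 + spin (η v) * A ω v) / 2)) :=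
      Finset.measurable_prod _ fun v _ =>
        Measurable.div_const (measurable_const.add ((hAm v).const_mul _)) _
    have hIntF : Integrable (fun ω => ∏ v ∈ D, ((1 + spin (η v) * A ω v) / 2)) P := by
      refine Integrable.of_bound hmeasF.aestronglyMeasurable 1
        (Filter.Eventually.of_forall fun ω => ?_)
      have hf := fun v (_ : v ∈ D) => fac_mem (η v) (hAb ω v)
      rw [Real.norm_eq_abs, abs_of_nonneg (Finset.prod_nonneg fun v hv => (hf v hv).1)]
      exact Finset.prod_le_one (fun v hv => (hf v hv).1) (fun v hv => (hf v hv).2)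
    simp only [hFA]
    have hsub : ∫ ω, ∏ v ∈ D, ((1 + spin (η v) * A ω v) / 2) ∂P - I σ
        = ∫ ω, (∏ v ∈ D, ((1 + spin (η v) * A ω v) / 2) - I σ) ∂P := by
      rw [integral_sub hIntF (integrable_const _)]
      simp
    rw [hsub]
    refine (abs_integral_le_integral_abs).trans ?_
    have hpt : ∀ ω, |∏ v ∈ D, ((1 + spin (η v) * A ω v) / 2) - I σ|
        ≤ ∑ v ∈ D, (|A ω v - spin (extB S σ v)| / 2) := by
      intro ω
      refine (abs_prod_sub_le D _ _ (fun v _ => fac_mem (η v) (hAb ω v))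
        (fun v _ => fac_mem (η v) ?_)).trans ?_
      · rcases spin_sq_one (extB S σ v) with h | h <;> rw [h] <;> norm_num
      · exact le_of_eq (Finset.sum_congr rfl fun v _ => fac_sub _ _ _)
    have hIntAbs : ∀ v, Integrable (fun ω => |A ω v - spin (extB S σ v)| / 2) P := by
      intro v
      refine Integrable.div_const ?_ _
      exact (((hAl v).sub (memLp_const _)).integrable (by norm_num)).abs
    have hIntR : Integrable (fun ω => ∑ v ∈ D, (|A ω v - spin (extB S σ v)| / 2)) P :=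
      integrable_finsetSum _ fun v _ => hIntAbs v
    have h5 := integral_mono_of_nonneg (μ := P)
      (Filter.Eventually.of_forall fun ω => abs_nonneg
        (∏ v ∈ D, ((1 + spin (η v) * A ω v) / 2) - I σ)) hIntR
      (Filter.Eventually.of_forall hpt)
    refine h5.trans ?_
    rw [integral_finsetSum _ (fun v _ => hIntAbs v)]
    calc ∑ v ∈ D, ∫ ω, |A ω v - spin (extB S σ v)| / 2 ∂P
        ≤ ∑ _v ∈ D, Real.sqrt (1 / c) / 2 := by
          refine Finset.sum_le_sum fun v hv => ?_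
          rw [integral_div]
          have := hval v hv
          linarith
      _ = _ := by
          rw [Finset.sum_const, nsmul_eq_mul]
          ring
  have hmix := mixture_le hp o R (f := fun σ => |∫ ω, F (fun k => exactPath (spinVec S σ) ε
      (fun l (i : ↥S) => g l i ω) k) ∂P - I σ|) herr
  have hdiff : |∑ σ, isingW G θ S σ * ∫ ω, F (fun k => exactPath (spinVec S σ) ε
        (fun l (i : ↥S) => g l i ω) k) ∂P - cylWeight G θ D η|
      ≤ D.card / 2 * Real.sqrt (1 / c) := by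
    rw [← hIsum, ← Finset.sum_sub_distrib]
    refine (Finset.abs_sum_le_sum_abs _ _).trans (le_trans (le_of_eq ?_) hmix)
    refine Finset.sum_congr rfl fun σ _ => ?_
    rw [← mul_sub, abs_mul, abs_of_nonneg (isingW_nonneg hp.nonneg hp.lt_one S σ)]
  have hXint : ∫ ω, ∏ v ∈ D, ((1 + spin (η v) *
        clip (xChain θ (nbS G S) (2 * R + 1) ε (fun l w => g l w ω) K v / c)) / 2) ∂P
      = ∫ ω, F (fun k i => xChain θ (nbS G S) (2 * R + 1) ε (fun l w => g l w ω) k i) ∂P :=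
    integral_congr_ae (Filter.Eventually.of_forall fun ω => (hX ω).symm)
  rw [hXint]
  have htv' : |∫ ω, F (fun k i => xChain θ (nbS G S) (2 * R + 1) ε (fun l w => g l w ω) k i) ∂P
      - ∑ σ, isingW G θ S σ * ∫ ω, F (fun k => exactPath (spinVec S σ) ε
          (fun l (i : ↥S) => g l i ω) k) ∂P| ≤ tvE S K ε := htv
  have htri := abs_sub_le (∫ ω, F (fun k i => xChain θ (nbS G S) (2 * R + 1) ε
      (fun l w => g l w ω) k i) ∂P) (∑ σ, isingW G θ S σ * ∫ ω, F (fun k => exactPath (spinVec S σ) ε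
          (fun l (i : ↥S) => g l i ω) k) ∂P) (cylWeight G θ D η)
  linarith

/-- Distance of the clipped field chain of a ball to the values `±1`. -/
lemma sign_eval (hp : TreeParams G d θ) {g : ℕ → V → Ω → ℝ} (hg : IsNoise P g) (o : V) (R : ℕ)
    {v : V} (hv : v ∈ ballF G o R) {ε : ℝ} (hε : 0 < ε) (hε1 : ε ≤ 1) {K : ℕ} (hK : 1 ≤ K) :
    ∫ ω, |1 - clip (xChain θ (nbS G (ballF G o R)) (2 * R + 1) ε (fun l w => g l w ω) K v
          / (K * ε)) ^ 2| ∂P
      ≤ 2 * Real.sqrt (1 / (K * ε)) + tvE (ballF G o R) K ε := by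
  set S := ballF G o R with hS
  set c : ℝ := K * ε with hc
  let F : (Fin (K + 1) → ↥S → ℝ) → ℝ := fun x => |1 - clip (x (Fin.last K) ⟨v, hv⟩ / c) ^ 2|
  have hFc : Continuous F := by
    have hc := continuous_clip
    fun_prop
  have hF1 : ∀ x, |F x| ≤ 1 := by
    intro x
    simp only [F, abs_abs]
    set a := clip (x (Fin.last K) ⟨v, hv⟩ / c)
    have ha := abs_le.1 (abs_clip_le_one (x (Fin.last K) ⟨v, hv⟩ / c))
    rw [abs_le]
    constructor <;> nlinarith [ha.1, ha.2, sq_nonneg a]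
  have htv := tv_field hp hg o R hε hε1 K F hFc.measurable hF1
  have htv' := (abs_le.1 htv).2
  have hsm := hg.restrict S
  have hmeas : ∀ k (w : ↥S), Measurable ((fun k (i : ↥S) => g k i) k w) := hsm.meas
  have hexact : ∀ σ : ↥S → Bool, ∫ ω, F (fun k => exactPath (spinVec S σ) ε
      (fun l (i : ↥S) => g l i ω) k) ∂P ≤ 2 * Real.sqrt (1 / c) := by
    intro σ
    have h1 := exact_abs_close hsm hε hK (σ ⟨v, hv⟩) (spinVec S σ) ⟨v, hv⟩ rfl
    set s := spin (σ ⟨v, hv⟩) with hs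
    have hs2 : s ^ 2 = 1 := by
      rcases spin_sq_one (σ ⟨v, hv⟩) with h | h <;> rw [hs, h] <;> norm_num
    have hs3 : |s| = 1 := by
      rcases spin_sq_one (σ ⟨v, hv⟩) with h | h <;> rw [hs, h] <;> norm_num
    set A := fun ω => clip (exactPath (spinVec S σ) ε (fun l j => g l j ω) K ⟨v, hv⟩ / c) with hA
    have hAl : MemLp A 2 P := memLp_clip_exact hmeas _ _ _ _ _
    have hAb : ∀ ω, |A ω| ≤ 1 := fun ω => abs_clip_le_one _
    have hI : Integrable (fun ω => 2 * |A ω - s|) P :=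
      ((((hAl.sub (memLp_const _)).integrable (by norm_num)).abs).const_mul 2)
    have hle : ∫ ω, F (fun k => exactPath (spinVec S σ) ε (fun l (i : ↥S) => g l i ω) k) ∂P
        ≤ ∫ ω, 2 * |A ω - s| ∂P := by
      refine integral_mono_of_nonneg (Filter.Eventually.of_forall fun ω => abs_nonneg _) hI
        (Filter.Eventually.of_forall fun ω => ?_)
      show |1 - A ω ^ 2| ≤ 2 * |A ω - s|
      have e : 1 - A ω ^ 2 = -((A ω - s) * (A ω + s)) := by rw [← hs2]; ring
      rw [e, abs_neg, abs_mul, mul_comm]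
      refine mul_le_mul_of_nonneg_right ?_ (abs_nonneg _)
      calc |A ω + s| ≤ |A ω| + |s| := abs_add_le _ _
        _ ≤ 1 + 1 := by rw [hs3]; linarith [hAb ω]
        _ = 2 := by norm_num
    refine hle.trans ?_
    rw [integral_const_mul]
    exact mul_le_mul_of_nonneg_left h1 (by norm_num)
  have hmix := mixture_le hp o R hexact
  have h4 : ∫ ω, F (fun k i => xChain θ (nbS G S) (2 * R + 1) ε (fun l w => g l w ω) k i) ∂P
      ≤ 2 * Real.sqrt (1 / c) + tvE S K ε := by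
    have : ∫ ω, F (fun k i => xChain θ (nbS G S) (2 * R + 1) ε (fun l w => g l w ω) k i) ∂P
        - ∑ σ, isingW G θ S σ * ∫ ω, F (fun k => exactPath (spinVec S σ) ε
            (fun l (i : ↥S) => g l i ω) k) ∂P ≤ tvE S K ε := htv'
    linarith
  exact h4

end PathFunctionals

section Facts

variable {γ : ℕ → ℕ → unitInterval → ℝ}

theorem fact_F2 (hp : TreeParams G d θ) {γ : ℕ → ℕ → unitInterval → ℝ}
    (hn : ∀ j, IsNoise (uniformField V) (fun (k : ℕ) (v : V) (u : V → unitInterval) => γ j k (u v)))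
    (v : V) (t₁ t₂ : ℕ) (ht : 1 ≤ t₁) (ht₂ : t₁ ≤ t₂) {δ : ℝ} (hδ : 0 < δ) :
    ∃ ℓ₀ j₀ : ℕ, ∀ ℓ j, ℓ₀ ≤ ℓ → j₀ ≤ j →
      dist2 V (masterX G θ d γ ℓ j t₁ v) (masterX G θ d γ ℓ j t₂ v) ≤ 16 / t₁ + δ := by
  haveI := limit_uniformField_prob V
  have ht1 : (0 : ℝ) < t₁ := by exact_mod_cast ht
  have hδ12 : 0 < δ / 12 := by positivity
  have hδ24 : 0 < δ / 24 := by positivity
  obtain ⟨R₁, hR₁⟩ := approx (d := d) hp hn v 0 t₁ ht hδ12
  obtain ⟨R₂, hR₂⟩ := approx (d := d) hp hn v 0 t₂ (ht.trans ht₂) hδ12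
  set R := max R₁ R₂ with hR
  obtain ⟨j₁, hj₁⟩ := hR₁ R (le_max_left _ _)
  obtain ⟨j₂, hj₂⟩ := hR₂ R (le_max_right _ _)
  set S := ballF G v R with hS
  obtain ⟨j₃, hj₃⟩ := tv_small (8 * (S.card : ℝ) ^ 2 * Real.exp (4 * (S.card : ℝ))) t₂ hδ24
  have hvS : v ∈ S := (mem_ballF hp.tree.1).2 (by simp)
  refine ⟨2 * R + 1, max j₁ (max j₂ j₃), fun ℓ j hℓ hj => ?_⟩
  have h1 := (hj₁ ℓ hℓ j ((le_max_left _ _).trans hj) v (by simp)).2
  have h2 := (hj₂ ℓ hℓ j (((le_max_left _ _).trans (le_max_right _ _)).trans hj) v (by simp)).2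
  have h3 : tvE S (t₂ * 2 ^ j) ((1 / 2 : ℝ) ^ j) ≤ δ / 24 :=
    hj₃ j (((le_max_right _ _).trans (le_max_right _ _)).trans hj)
  have hε0 : 0 < (1 / 2 : ℝ) ^ j := by positivity
  have hε1 : (1 / 2 : ℝ) ^ j ≤ 1 := pow_le_one₀ (by norm_num) (by norm_num)
  have hmid := two_time hp (hn j) v R hvS hε0 hε1 (k₁ := t₁ * 2 ^ j) (k₂ := t₂ * 2 ^ j)
    (Nat.mul_pos ht (by positivity)) (Nat.mul_le_mul_right _ ht₂)
  rw [time_eq, time_eq] at hmid
  have hmid' : ∫ u, (clip (ballField G θ γ v R j t₁ u v / t₁)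
      - clip (ballField G θ γ v R j t₂ u v / t₂)) ^ 2 ∂(uniformField V)
      ≤ 4 / t₁ + 4 * tvE S (t₂ * 2 ^ j) ((1 / 2 : ℝ) ^ j) := hmid
  unfold dist2 at h1 h2 ⊢
  have htri := int_sq_triangle (P := uniformField V)
    (memLp_masterX (d := d) hp hn ℓ j t₁ v) (memLp_clipBall hp hn v R j t₁ v)
    (memLp_clipBall hp hn v R j t₂ v) (memLp_masterX (d := d) hp hn ℓ j t₂ v)
  refine htri.trans ?_
  have e : 16 / (t₁ : ℝ) = 3 * (4 / t₁) + 4 / t₁ := by ring
  have hpos : 0 < 4 / (t₁ : ℝ) := by positivity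
  rw [e]
  linarith

theorem fact_F3 (hp : TreeParams G d θ) {γ : ℕ → ℕ → unitInterval → ℝ}
    (hn : ∀ j, IsNoise (uniformField V) (fun (k : ℕ) (v : V) (u : V → unitInterval) => γ j k (u v)))
    (D : Finset V) (hD : (G.induce (D : Set V)).Connected) (η : V → Bool) (t : ℕ) (ht : 1 ≤ t)
    {δ : ℝ} (hδ : 0 < δ) :
    ∃ ℓ₀ j₀ : ℕ, ∀ ℓ j, ℓ₀ ≤ ℓ → j₀ ≤ j →
      |∫ u, ∏ v ∈ D, ((1 + spin (η v) * masterX G θ d γ ℓ j t v u) / 2) ∂(uniformField V)
        - cylWeight G θ D η| ≤ D.card / Real.sqrt t + δ := by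
  haveI := limit_uniformField_prob V
  obtain ⟨⟨o, ho⟩⟩ := hD.nonempty
  set R₁ := D.sup (fun v => G.dist o v) with hR₁
  have hdist : ∀ v ∈ D, G.dist o v ≤ R₁ := fun v hv =>
    Finset.le_sup (f := fun v => G.dist o v) hv
  set n : ℝ := (D.card : ℝ) with hn'
  have hn0 : 0 ≤ n := Nat.cast_nonneg _
  set r : ℝ := δ / (n + 1) with hr
  have hr0 : 0 < r := by positivity
  have hnr : n * r ≤ δ := by
    rw [hr, ← mul_div_assoc, div_le_iff₀ (by positivity)]
    nlinarith
  obtain ⟨R₀, hR₀⟩ := approx (d := d) hp hn o R₁ t ht (pow_pos hr0 2)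
  obtain ⟨j₁, hj₁⟩ := hR₀ R₀ le_rfl
  set S := ballF G o R₀ with hS
  have hDS : D ⊆ S := fun v hv => (mem_ballF hp.tree.1).2
    (by
      have h1 := (hj₁ (2 * R₀ + 1) le_rfl j₁ le_rfl v (hdist v hv)).1
      exact (mem_ballF hp.tree.1).1 h1)
  have hδ2 : 0 < δ / 2 := by positivity
  obtain ⟨j₂, hj₂⟩ := tv_small (8 * (S.card : ℝ) ^ 2 * Real.exp (4 * (S.card : ℝ))) t hδ2
  refine ⟨2 * R₀ + 1, max j₁ j₂, fun ℓ j hℓ hj => ?_⟩
  have hεp : 0 < (1 / 2 : ℝ) ^ j := by positivity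
  have hε1 : (1 / 2 : ℝ) ^ j ≤ 1 := pow_le_one₀ (by norm_num) (by norm_num)
  have hcyl := cyl_eval hp (hn j) o R₀ hD hDS η hεp hε1 (K := t * 2 ^ j)
    (Nat.mul_pos ht (by positivity))
  rw [time_eq] at hcyl
  have htv : tvE S (t * 2 ^ j) ((1 / 2 : ℝ) ^ j) ≤ δ / 2 :=
    hj₂ j ((le_max_right _ _).trans hj)
  set m : (V → unitInterval) → V → ℝ := fun u v => masterX G θ d γ ℓ j t v u with hm
  set c : (V → unitInterval) → V → ℝ := fun u v => clip (ballField G θ γ o R₀ j t u v / t) with hc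
  have hml : ∀ v, MemLp (fun u => m u v) 2 (uniformField V) :=
    fun v => memLp_masterX (d := d) hp hn ℓ j t v
  have hcl : ∀ v, MemLp (fun u => c u v) 2 (uniformField V) :=
    fun v => memLp_clipBall hp hn o R₀ j t v
  have hmb : ∀ u v, |m u v| ≤ 1 := fun u v => abs_clip_le_one _
  have hcb : ∀ u v, |c u v| ≤ 1 := fun u v => abs_clip_le_one _
  have hval : ∀ v ∈ D, ∫ u, |m u v - c u v| ∂(uniformField V) ≤ r := by
    intro v hv
    have h1 := (hj₁ ℓ hℓ j ((le_max_left _ _).trans hj) v (hdist v hv)).2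
    refine (integral_abs_le_sqrt ((hml v).sub (hcl v))).trans ?_
    rw [← Real.sqrt_sq hr0.le]
    exact Real.sqrt_le_sqrt h1
  have hprodm : Measurable (fun u => ∏ v ∈ D, ((1 + spin (η v) * m u v) / 2)) := by
    haveI : Countable V := countable_of_connected hp.tree.1
    refine Finset.measurable_prod _ fun v _ => ?_
    refine Measurable.div_const (measurable_const.add (Measurable.const_mul ?_ _)) _
    exact measurable_masterX hp.nonneg hp.lt_one (measurable_gamma_of_noise hp hn) ℓ j t v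
  have hprodc : Measurable (fun u => ∏ v ∈ D, ((1 + spin (η v) * c u v) / 2)) := by
    refine Finset.measurable_prod _ fun v _ => ?_
    refine Measurable.div_const (measurable_const.add (Measurable.const_mul ?_ _)) _
    exact continuous_clip.measurable.comp ((measurable_ballField hp hn o R₀ j t v).div_const _)
  have hbddP : ∀ (f : V → ℝ), (∀ v, |f v| ≤ 1) → ‖∏ v ∈ D, ((1 + spin (η v) * f v) / 2)‖ ≤ 1 := by
    intro f hf
    have hh := fun v (_ : v ∈ D) => fac_mem (η v) (hf v)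
    rw [Real.norm_eq_abs, abs_of_nonneg (Finset.prod_nonneg fun v hv => (hh v hv).1)]
    exact Finset.prod_le_one (fun v hv => (hh v hv).1) (fun v hv => (hh v hv).2)
  have hIm : Integrable (fun u => ∏ v ∈ D, ((1 + spin (η v) * m u v) / 2)) (uniformField V) :=
    Integrable.of_bound hprodm.aestronglyMeasurable 1
      (Filter.Eventually.of_forall fun u => hbddP _ (hmb u))
  have hIc : Integrable (fun u => ∏ v ∈ D, ((1 + spin (η v) * c u v) / 2)) (uniformField V) :=
    Integrable.of_bound hprodc.aestronglyMeasurable 1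
      (Filter.Eventually.of_forall fun u => hbddP _ (hcb u))
  have hcomp : |∫ u, ∏ v ∈ D, ((1 + spin (η v) * m u v) / 2) ∂(uniformField V)
      - ∫ u, ∏ v ∈ D, ((1 + spin (η v) * c u v) / 2) ∂(uniformField V)| ≤ n * r / 2 := by
    rw [← integral_sub hIm hIc]
    refine (abs_integral_le_integral_abs).trans ?_
    have hpt : ∀ u, |∏ v ∈ D, ((1 + spin (η v) * m u v) / 2)
        - ∏ v ∈ D, ((1 + spin (η v) * c u v) / 2)|
        ≤ ∑ v ∈ D, (|m u v - c u v| / 2) := by
      intro u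
      refine (abs_prod_sub_le D _ _ (fun v _ => fac_mem (η v) (hmb u v))
        (fun v _ => fac_mem (η v) (hcb u v))).trans ?_
      exact le_of_eq (Finset.sum_congr rfl fun v _ => fac_sub _ _ _)
    have hIntAbs : ∀ v, Integrable (fun u => |m u v - c u v| / 2) (uniformField V) := by
      intro v
      refine Integrable.div_const ?_ _
      exact (((hml v).sub (hcl v)).integrable (by norm_num)).abs
    have hIntR : Integrable (fun u => ∑ v ∈ D, (|m u v - c u v| / 2)) (uniformField V) :=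
      integrable_finsetSum _ fun v _ => hIntAbs v
    have h5 := integral_mono_of_nonneg (μ := uniformField V)
      (Filter.Eventually.of_forall fun u => abs_nonneg
        (∏ v ∈ D, ((1 + spin (η v) * m u v) / 2) - ∏ v ∈ D, ((1 + spin (η v) * c u v) / 2))) hIntR
      (Filter.Eventually.of_forall hpt)
    refine h5.trans ?_
    rw [integral_finsetSum _ (fun v _ => hIntAbs v)]
    calc ∑ v ∈ D, ∫ u, |m u v - c u v| / 2 ∂(uniformField V)
        ≤ ∑ _v ∈ D, r / 2 := by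
          refine Finset.sum_le_sum fun v hv => ?_
          rw [integral_div]
          have := hval v hv
          linarith
      _ = _ := by
          rw [Finset.sum_const, nsmul_eq_mul]
          ring
  have hcyl' : |∫ u, ∏ v ∈ D, ((1 + spin (η v) * c u v) / 2) ∂(uniformField V)
      - cylWeight G θ D η| ≤ n / 2 * Real.sqrt (1 / t) + tvE S (t * 2 ^ j) ((1 / 2 : ℝ) ^ j) := hcyl
  have hsq : Real.sqrt (1 / (t : ℝ)) = 1 / Real.sqrt t := by
    rw [Real.sqrt_div zero_le_one, Real.sqrt_one]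
  have ht0 : (0 : ℝ) < t := by exact_mod_cast ht
  have hsp : 0 < Real.sqrt (t : ℝ) := Real.sqrt_pos.2 ht0
  have htri := abs_sub_le (∫ u, ∏ v ∈ D, ((1 + spin (η v) * m u v) / 2) ∂(uniformField V))
    (∫ u, ∏ v ∈ D, ((1 + spin (η v) * c u v) / 2) ∂(uniformField V)) (cylWeight G θ D η)
  have hfin : n / 2 * Real.sqrt (1 / t) ≤ n / Real.sqrt t := by
    rw [hsq]
    have e : n / 2 * (1 / Real.sqrt t) = (n / Real.sqrt t) / 2 := by ring
    rw [e]
    have : 0 ≤ n / Real.sqrt t := by positivity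
    linarith
  show |∫ u, ∏ v ∈ D, ((1 + spin (η v) * m u v) / 2) ∂(uniformField V) - cylWeight G θ D η|
    ≤ n / Real.sqrt t + δ
  linarith

theorem fact_F4 (hp : TreeParams G d θ) {γ : ℕ → ℕ → unitInterval → ℝ}
    (hn : ∀ j, IsNoise (uniformField V) (fun (k : ℕ) (v : V) (u : V → unitInterval) => γ j k (u v)))
    (v : V) (t : ℕ) (ht : 1 ≤ t) {δ : ℝ} (hδ : 0 < δ) :
    ∃ ℓ₀ j₀ : ℕ, ∀ ℓ j, ℓ₀ ≤ ℓ → j₀ ≤ j →
      ∫ u, |1 - masterX G θ d γ ℓ j t v u ^ 2| ∂(uniformField V) ≤ 2 / Real.sqrt t + δ := by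
  haveI := limit_uniformField_prob V
  have hr0 : 0 < δ / 4 := by positivity
  obtain ⟨R₀, hR₀⟩ := approx (d := d) hp hn v 0 t ht (pow_pos hr0 2)
  obtain ⟨j₁, hj₁⟩ := hR₀ R₀ le_rfl
  set S := ballF G v R₀ with hS
  have hvS : v ∈ S := (mem_ballF hp.tree.1).2 (by simp)
  have hδ2 : 0 < δ / 2 := by positivity
  obtain ⟨j₂, hj₂⟩ := tv_small (8 * (S.card : ℝ) ^ 2 * Real.exp (4 * (S.card : ℝ))) t hδ2
  refine ⟨2 * R₀ + 1, max j₁ j₂, fun ℓ j hℓ hj => ?_⟩
  have hεp : 0 < (1 / 2 : ℝ) ^ j := by positivity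
  have hε1 : (1 / 2 : ℝ) ^ j ≤ 1 := pow_le_one₀ (by norm_num) (by norm_num)
  have hsign := sign_eval hp (hn j) v R₀ hvS hεp hε1 (K := t * 2 ^ j)
    (Nat.mul_pos ht (by positivity))
  rw [time_eq] at hsign
  have htv : tvE S (t * 2 ^ j) ((1 / 2 : ℝ) ^ j) ≤ δ / 2 :=
    hj₂ j ((le_max_right _ _).trans hj)
  set m : (V → unitInterval) → ℝ := fun u => masterX G θ d γ ℓ j t v u with hm
  set c : (V → unitInterval) → ℝ := fun u => clip (ballField G θ γ v R₀ j t u v / t) with hc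
  have hml : MemLp m 2 (uniformField V) := memLp_masterX (d := d) hp hn ℓ j t v
  have hcl : MemLp c 2 (uniformField V) := memLp_clipBall hp hn v R₀ j t v
  have hmb : ∀ u, |m u| ≤ 1 := fun u => abs_clip_le_one _
  have hcb : ∀ u, |c u| ≤ 1 := fun u => abs_clip_le_one _
  have hval : ∫ u, |m u - c u| ∂(uniformField V) ≤ δ / 4 := by
    have h1 := (hj₁ ℓ hℓ j ((le_max_left _ _).trans hj) v (by simp)).2
    refine (integral_abs_le_sqrt (hml.sub hcl)).trans ?_
    rw [← Real.sqrt_sq hr0.le]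
    exact Real.sqrt_le_sqrt h1
  have hcm : Measurable c :=
    continuous_clip.measurable.comp ((measurable_ballField hp hn v R₀ j t v).div_const _)
  have hIc : Integrable (fun u => |1 - c u ^ 2|) (uniformField V) := by
    refine Integrable.of_bound ?_ 1 (Filter.Eventually.of_forall fun u => ?_)
    · exact ((measurable_const.sub (hcm.pow_const 2)).abs).aestronglyMeasurable
    · have ha := abs_le.1 (hcb u)
      rw [Real.norm_eq_abs, abs_abs, abs_le]
      constructor <;> nlinarith [ha.1, ha.2, sq_nonneg (c u)]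
  have hIa : Integrable (fun u => |m u - c u|) (uniformField V) :=
    ((hml.sub hcl).integrable (by norm_num)).abs
  have hIR : Integrable (fun u => |1 - c u ^ 2| + 2 * |m u - c u|) (uniformField V) :=
    hIc.add (hIa.const_mul 2)
  have hle : ∫ u, |1 - m u ^ 2| ∂(uniformField V)
      ≤ ∫ u, (|1 - c u ^ 2| + 2 * |m u - c u|) ∂(uniformField V) := by
    refine integral_mono_of_nonneg (Filter.Eventually.of_forall fun u => abs_nonneg _) hIR
      (Filter.Eventually.of_forall fun u => ?_)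
    have e : 1 - m u ^ 2 = (1 - c u ^ 2) + (c u - m u) * (c u + m u) := by ring
    show |1 - m u ^ 2| ≤ |1 - c u ^ 2| + 2 * |m u - c u|
    rw [e]
    refine (abs_add_le _ _).trans (add_le_add le_rfl ?_)
    rw [abs_mul, abs_sub_comm, mul_comm]
    refine mul_le_mul_of_nonneg_right ?_ (abs_nonneg _)
    calc |c u + m u| ≤ |c u| + |m u| := abs_add_le _ _
      _ ≤ 2 := by linarith [hcb u, hmb u]
  rw [integral_add hIc (hIa.const_mul 2), integral_const_mul] at hle
  have hsign' : ∫ u, |1 - c u ^ 2| ∂(uniformField V)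
      ≤ 2 * Real.sqrt (1 / t) + tvE S (t * 2 ^ j) ((1 / 2 : ℝ) ^ j) := hsign
  have hsq : Real.sqrt (1 / (t : ℝ)) = 1 / Real.sqrt t := by
    rw [Real.sqrt_div zero_le_one, Real.sqrt_one]
  have e2 : 2 * (1 / Real.sqrt (t : ℝ)) = 2 / Real.sqrt t := by ring
  rw [hsq, e2] at hsign'
  show ∫ u, |1 - m u ^ 2| ∂(uniformField V) ≤ 2 / Real.sqrt t + δ
  linarith

end Facts

end

end Vale.Agent.Lib.P161
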