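import Vale.Agent.Lib.P161.Basic

/-!
From an `L²`-Cauchy equivariant sequence with the right limiting cylinder integrals to a factor of
IID, for P161 (module task, see the team findings table).
-/

open MeasureTheory ProbabilityTheory Finset Filter

open scoped Topology ENNReal

namespace Vale.Agent.Lib.P161

/-- The uniform field is a probability measure. -/
lemma limit_uniformField_prob (V : Type*) : IsProbabilityMeasure (uniformField V) := by
  unfold uniformField
  infer_instance

/-- Geometrically small second moments of the increments give almost sure convergence. -/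
lemma ae_exists_tendsto_of_moments {Ω : Type*} [MeasurableSpace Ω] {μ : Measure Ω}
    [IsProbabilityMeasure μ] (f : ℕ → Ω → ℝ) (hm : ∀ n, Measurable (f n))
    (hb : ∀ n u, |f n u| ≤ 1) {c : ℝ} {N₀ : ℕ}
    (hC : ∀ n ≥ N₀, ∫ u, (f n u - f (n + 1) u) ^ 2 ∂μ ≤ c * (1 / 4 : ℝ) ^ n) :
    ∀ᵐ u ∂μ, ∃ y, Tendsto (fun n => f n u) atTop (𝓝 y) := by
  -- the constant is nonnegative
  have hc : 0 ≤ c := by
    have h0 := hC N₀ le_rfl
    have h1 : 0 ≤ ∫ u, (f N₀ u - f (N₀ + 1) u) ^ 2 ∂μ := integral_nonneg (fun _ => sq_nonneg _)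
    have h2 : (0 : ℝ) < (1 / 4 : ℝ) ^ N₀ := by positivity
    by_contra hneg
    push_neg at hneg
    nlinarith [mul_neg_of_neg_of_pos hneg h2]
  let g : ℕ → Ω → ℝ := fun n u => (f (n + N₀) u - f (n + N₀ + 1) u) ^ 2 * (16 / 9 : ℝ) ^ n
  have hgm : ∀ n, Measurable (g n) := fun n =>
    (((hm _).sub (hm _)).pow_const 2).mul_const _
  have hg0 : ∀ n u, 0 ≤ g n u := fun n u => by positivity
  have hgb : ∀ n u, ‖g n u‖ ≤ 4 * (16 / 9 : ℝ) ^ n := by
    intro n u
    rw [Real.norm_eq_abs, abs_of_nonneg (hg0 n u)]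
    have h1 := abs_le.1 (hb (n + N₀) u)
    have h2 := abs_le.1 (hb (n + N₀ + 1) u)
    have h3 : (f (n + N₀) u - f (n + N₀ + 1) u) ^ 2 ≤ 4 := by nlinarith
    exact mul_le_mul_of_nonneg_right h3 (by positivity)
  have hgi : ∀ n, Integrable (g n) μ := fun n =>
    Integrable.of_bound (hgm n).aestronglyMeasurable _ (Eventually.of_forall (hgb n))
  have hgint : ∀ n, ∫ u, g n u ∂μ ≤ c * (4 / 9 : ℝ) ^ n := by
    intro n
    have h1 : ∫ u, g n u ∂μ = (∫ u, (f (n + N₀) u - f (n + N₀ + 1) u) ^ 2 ∂μ) * (16 / 9 : ℝ) ^ n := by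
      simp only [g]
      rw [integral_mul_const]
    rw [h1]
    have h2 := hC (n + N₀) (Nat.le_add_left _ _)
    have h3 : (1 / 4 : ℝ) ^ (n + N₀) ≤ (1 / 4 : ℝ) ^ n :=
      pow_le_pow_of_le_one (by norm_num) (by norm_num) (Nat.le_add_right _ _)
    have h4 : (4 / 9 : ℝ) ^ n = (1 / 4 : ℝ) ^ n * (16 / 9 : ℝ) ^ n := by
      rw [← mul_pow]; norm_num
    rw [h4, ← mul_assoc]
    apply mul_le_mul_of_nonneg_right _ (by positivity)
    exact h2.trans (mul_le_mul_of_nonneg_left h3 hc)
  -- the sum is almost everywhere finite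
  have hsum : Summable (fun n : ℕ => c * (4 / 9 : ℝ) ^ n) :=
    (summable_geometric_of_lt_one (by norm_num) (by norm_num)).mul_left c
  have hlint : ∫⁻ u, ∑' n, ENNReal.ofReal (g n u) ∂μ ≠ ∞ := by
    rw [lintegral_tsum (fun n => (hgm n).ennreal_ofReal.aemeasurable)]
    have h1 : ∀ n, ∫⁻ u, ENNReal.ofReal (g n u) ∂μ ≤ ENNReal.ofReal (c * (4 / 9 : ℝ) ^ n) := by
      intro n
      rw [← ofReal_integral_eq_lintegral_ofReal (hgi n)
        (Eventually.of_forall (fun u => hg0 n u))]
      exact ENNReal.ofReal_le_ofReal (hgint n)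
    exact ne_top_of_le_ne_top hsum.tsum_ofReal_lt_top.ne (ENNReal.tsum_le_tsum h1)
  have hae := ae_lt_top (Measurable.ennreal_tsum (fun n => (hgm n).ennreal_ofReal)) hlint
  filter_upwards [hae] with u hu
  -- pointwise: geometric increments
  set M : ℝ := (∑' n, ENNReal.ofReal (g n u)).toReal with hM
  have hgM : ∀ n, g n u ≤ M := by
    intro n
    have h1 : ENNReal.ofReal (g n u) ≤ ∑' n, ENNReal.ofReal (g n u) := ENNReal.le_tsum n
    exact (ENNReal.ofReal_le_iff_le_toReal hu.ne).1 h1
  have hgeo : ∀ n, dist (f (n + N₀) u) (f (n + 1 + N₀) u) ≤ √M * (3 / 4 : ℝ) ^ n := by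
    intro n
    rw [Real.dist_eq]
    have h1 := hgM n
    have h2 : (f (n + N₀) u - f (n + N₀ + 1) u) ^ 2 * (16 / 9 : ℝ) ^ n =
        ((f (n + N₀) u - f (n + N₀ + 1) u) * (4 / 3 : ℝ) ^ n) ^ 2 := by
      rw [mul_pow, ← pow_mul, mul_comm n 2, pow_mul]
      norm_num
    have h3 : ((f (n + N₀) u - f (n + N₀ + 1) u) * (4 / 3 : ℝ) ^ n) ^ 2 ≤ M := by
      rw [← h2]; exact h1
    have h4 := Real.abs_le_sqrt h3
    rw [abs_mul, abs_of_pos (show (0 : ℝ) < (4 / 3 : ℝ) ^ n by positivity)] at h4
    have h5 : (3 / 4 : ℝ) ^ n * (4 / 3 : ℝ) ^ n = 1 := by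
      rw [← mul_pow]; norm_num
    have h6 : (0 : ℝ) < (3 / 4 : ℝ) ^ n := by positivity
    have h7 : n + 1 + N₀ = n + N₀ + 1 := by omega
    rw [h7]
    calc |f (n + N₀) u - f (n + N₀ + 1) u|
        = |f (n + N₀) u - f (n + N₀ + 1) u| * ((3 / 4 : ℝ) ^ n * (4 / 3 : ℝ) ^ n) := by
          rw [h5, mul_one]
      _ = (|f (n + N₀) u - f (n + N₀ + 1) u| * (4 / 3 : ℝ) ^ n) * (3 / 4 : ℝ) ^ n := by ring
      _ ≤ √M * (3 / 4 : ℝ) ^ n := mul_le_mul_of_nonneg_right h4 h6.le
  have hcau : CauchySeq (fun n => f (n + N₀) u) :=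
    cauchySeq_of_le_geometric (3 / 4 : ℝ) (√M) (by norm_num) hgeo
  obtain ⟨y, hy⟩ := cauchySeq_tendsto_of_complete hcau
  exact ⟨y, (tendsto_add_atTop_iff_nat N₀).1 hy⟩

/-- Passage to the limit. -/
theorem limit_factor {V : Type*} [Countable V] [DecidableEq V] (G : SimpleGraph V) (θ : ℝ)
    (X : ℕ → V → (V → unitInterval) → ℝ)
    (hm : ∀ n v, Measurable (X n v))
    (hb : ∀ n v u, |X n v u| ≤ 1)
    (heq : ∀ (e : G ≃g G) (n : ℕ) (v : V) (u : V → unitInterval), X n (e v) (u ∘ e.symm) = X n v u)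
    (hC : ∀ v, ∃ (c : ℝ) (N₀ : ℕ), ∀ n ≥ N₀,
      ∫ u, (X n v u - X (n + 1) v u) ^ 2 ∂(uniformField V) ≤ c * (1 / 4 : ℝ) ^ n)
    (hS : ∀ v, Tendsto (fun n => ∫ u, |1 - X n v u ^ 2| ∂(uniformField V)) atTop (𝓝 0))
    (hL : ∀ D : Finset V, (G.induce (D : Set V)).Connected → ∀ η : V → Bool,
      Tendsto (fun n => ∫ u, ∏ v ∈ D, ((1 + spin (η v) * X n v u) / 2) ∂(uniformField V)) atTop
        (𝓝 (cylWeight G θ D η))) :
    ∃ ν, IsFreeIsing G θ ν ∧ IsFactorOfIID G ν := by
  classical
  haveI hprob : IsProbabilityMeasure (uniformField V) := limit_uniformField_prob V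
  -- the limit field
  let Y : V → (V → unitInterval) → ℝ := fun v u => limsup (fun n => X n v u) atTop
  have hYm : ∀ v, Measurable (Y v) := fun v => Measurable.limsup (fun n => hm n v)
  have hYe : ∀ (e : G ≃g G) (v : V) (u : V → unitInterval), Y (e v) (u ∘ e.symm) = Y v u := by
    intro e v u
    simp only [Y, heq]
  have hconv : ∀ v, ∀ᵐ u ∂(uniformField V), Tendsto (fun n => X n v u) atTop (𝓝 (Y v u)) := by
    intro v
    obtain ⟨c, N₀, h⟩ := hC v
    filter_upwards [ae_exists_tendsto_of_moments (fun n => X n v) (fun n => hm n v)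
      (fun n => hb n v) h] with u hu
    obtain ⟨y, hy⟩ := hu
    have hY : Y v u = y := hy.limsup_eq
    rwa [hY]
  have hconvall : ∀ᵐ u ∂(uniformField V), ∀ v, Tendsto (fun n => X n v u) atTop (𝓝 (Y v u)) :=
    ae_all_iff.2 hconv
  -- the limit is plus or minus one
  have hsq : ∀ v, ∀ᵐ u ∂(uniformField V), Y v u ^ 2 = 1 := by
    intro v
    have hdom : Tendsto (fun n => ∫ u, |1 - X n v u ^ 2| ∂(uniformField V)) atTop
        (𝓝 (∫ u, |1 - Y v u ^ 2| ∂(uniformField V))) := by
      refine tendsto_integral_of_dominated_convergence (fun _ => (2 : ℝ)) ?_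
        (integrable_const _) ?_ ?_
      · intro n
        exact (((measurable_const.sub ((hm n v).pow_const 2))).abs).aestronglyMeasurable
      · intro n
        refine Eventually.of_forall (fun u => ?_)
        rw [Real.norm_eq_abs, abs_abs]
        have h1 := abs_le.1 (hb n v u)
        have h2 : X n v u ^ 2 ≤ 1 := by nlinarith
        have h3 : 0 ≤ X n v u ^ 2 := sq_nonneg _
        rw [abs_le]
        constructor <;> linarith
      · filter_upwards [hconv v] with u hu
        exact ((tendsto_const_nhds.sub (hu.pow 2))).abs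
    have hzero : ∫ u, |1 - Y v u ^ 2| ∂(uniformField V) = 0 := tendsto_nhds_unique hdom (hS v)
    have hint : Integrable (fun u => |1 - Y v u ^ 2|) (uniformField V) := by
      refine Integrable.of_bound
        (((measurable_const.sub ((hYm v).pow_const 2))).abs).aestronglyMeasurable 2 ?_
      filter_upwards [hconv v] with u hu
      have h1 : Y v u ^ 2 ≤ 1 := by
        refine le_of_tendsto' (hu.pow 2) (fun n => ?_)
        have h1 := abs_le.1 (hb n v u)
        nlinarith
      have h3 : 0 ≤ Y v u ^ 2 := sq_nonneg _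
      rw [Real.norm_eq_abs, abs_abs, abs_le]
      constructor <;> linarith
    have hae := (integral_eq_zero_iff_of_nonneg (fun u => abs_nonneg _) hint).1 hzero
    filter_upwards [hae] with u hu
    have h1 : |1 - Y v u ^ 2| = 0 := hu
    have h2 := abs_eq_zero.1 h1
    linarith
  -- the factor map
  let Φ : (V → unitInterval) → V → Bool := fun u v => decide (0 < Y v u)
  have hΦm : Measurable Φ := by
    refine measurable_pi_iff.2 (fun v => measurable_to_bool ?_)
    have : (fun u => Φ u v) ⁻¹' {true} = {u | 0 < Y v u} := by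
      ext u
      simp [Φ]
    rw [this]
    exact measurableSet_lt measurable_const (hYm v)
  have hspin : ∀ᵐ u ∂(uniformField V), ∀ v, spin (Φ u v) = Y v u := by
    refine ae_all_iff.2 (fun v => ?_)
    filter_upwards [hsq v] with u hu
    have h1 : (Y v u - 1) * (Y v u + 1) = 0 := by nlinarith
    rcases mul_eq_zero.1 h1 with h2 | h2
    · have h3 : Y v u = 1 := by linarith
      simp [Φ, spin, h3]
    · have h3 : Y v u = -1 := by linarith
      have h4 : ¬ (0 : ℝ) < -1 := by norm_num
      simp [Φ, spin, h3]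
  refine ⟨(uniformField V).map Φ, ⟨?_, ?_⟩, ⟨Φ, hΦm, ?_, rfl⟩⟩
  · exact Measure.isProbabilityMeasure_map hΦm.aemeasurable
  · intro D hD η
    -- the limit of the cylinder integrals
    have hdom : Tendsto (fun n => ∫ u, ∏ v ∈ D, ((1 + spin (η v) * X n v u) / 2) ∂(uniformField V))
        atTop (𝓝 (∫ u, ∏ v ∈ D, ((1 + spin (η v) * Y v u) / 2) ∂(uniformField V))) := by
      refine tendsto_integral_of_dominated_convergence (fun _ => (1 : ℝ)) ?_
        (integrable_const _) ?_ ?_
      · intro n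
        refine (Finset.measurable_prod _ (fun v _ => ?_)).aestronglyMeasurable
        exact ((measurable_const.add (measurable_const.mul (hm n v))).div_const 2)
      · intro n
        refine Eventually.of_forall (fun u => ?_)
        have hfac : ∀ v ∈ D, 0 ≤ (1 + spin (η v) * X n v u) / 2 ∧
            (1 + spin (η v) * X n v u) / 2 ≤ 1 := by
          intro v _
          have h1 := abs_le.1 (hb n v u)
          cases h : η v <;> simp only [spin] <;> simp <;> constructor <;> linarith [h1.1, h1.2]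
        have h0 : 0 ≤ ∏ v ∈ D, ((1 + spin (η v) * X n v u) / 2) :=
          Finset.prod_nonneg (fun v hv => (hfac v hv).1)
        have h1 : ∏ v ∈ D, ((1 + spin (η v) * X n v u) / 2) ≤ 1 :=
          Finset.prod_le_one (fun v hv => (hfac v hv).1) (fun v hv => (hfac v hv).2)
        rw [Real.norm_eq_abs, abs_of_nonneg h0]
        exact h1
      · filter_upwards [hconvall] with u hu
        exact tendsto_finsetProd _ (fun v _ =>
          ((tendsto_const_nhds.add (tendsto_const_nhds.mul (hu v))).div_const 2))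
    have hval : ∫ u, ∏ v ∈ D, ((1 + spin (η v) * Y v u) / 2) ∂(uniformField V)
        = cylWeight G θ D η := tendsto_nhds_unique hdom (hL D hD η)
    -- the cylinder event
    set A : Set (V → unitInterval) := {u | ∀ v ∈ D, Φ u v = η v} with hA
    have hset : MeasurableSet {σ : V → Bool | ∀ v ∈ D, σ v = η v} := by
      have : {σ : V → Bool | ∀ v ∈ D, σ v = η v} = ⋂ v ∈ D, (fun σ : V → Bool => σ v) ⁻¹' {η v} := by
        ext σ
        simp
      rw [this]
      exact Finset.measurableSet_biInter _ (fun v _ => measurable_pi_apply v (measurableSet_singleton _))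
    have hApre : A = Φ ⁻¹' {σ : V → Bool | ∀ v ∈ D, σ v = η v} := rfl
    have hAm : MeasurableSet A := by
      rw [hApre]
      exact hΦm hset
    have hind : (fun u => ∏ v ∈ D, ((1 + spin (η v) * Y v u) / 2)) =ᵐ[uniformField V]
        A.indicator 1 := by
      filter_upwards [hspin] with u hu
      by_cases huA : u ∈ A
      · rw [Set.indicator_of_mem huA]
        refine Finset.prod_eq_one (fun v hv => ?_)
        rw [← hu v, huA v hv]
        cases η v <;> simp [spin]
      · rw [Set.indicator_of_notMem huA]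
        have : ∃ v ∈ D, Φ u v ≠ η v := by
          by_contra hcon
          push_neg at hcon
          exact huA hcon
        obtain ⟨v, hv, hne⟩ := this
        refine Finset.prod_eq_zero hv ?_
        rw [← hu v]
        cases h1 : Φ u v <;> cases h2 : η v <;> simp_all [spin]
    have hint : ∫ u, ∏ v ∈ D, ((1 + spin (η v) * Y v u) / 2) ∂(uniformField V)
        = (uniformField V).real A := by
      rw [integral_congr_ae hind, integral_indicator_one hAm]
    rw [Measure.map_apply hΦm hset, ← hApre, ← hval, hint, ofReal_measureReal]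
  · intro g
    refine Eventually.of_forall (fun u => ?_)
    funext w
    simp only [Φ, Function.comp]
    have h := hYe g (g.symm w) u
    rw [g.apply_symm_apply] at h
    rw [h]

end Vale.Agent.Lib.P161
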