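import Vale.Agent.Lib.P161.Coef

/-!
Probabilistic one-step lemmas for the noise filtration of P161.
-/

open MeasureTheory ProbabilityTheory Finset

set_option linter.unusedSectionVars false

namespace Vale.Agent.Lib.P161

noncomputable section

variable {Ω V : Type*} [mΩ : MeasurableSpace Ω] {P : Measure Ω} [IsProbabilityMeasure P]
  {g : ℕ → V → Ω → ℝ}

/-- The sigma-algebra generated by the noise before step `k`. -/
def pastS (g : ℕ → V → Ω → ℝ) (k : ℕ) : MeasurableSpace Ω :=
  ⨆ p ∈ {p : ℕ × V | p.1 < k}, MeasurableSpace.comap (g p.1 p.2) inferInstance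

/-- The sigma-algebra generated by the noise at step `k`. -/
def layerS (g : ℕ → V → Ω → ℝ) (k : ℕ) : MeasurableSpace Ω :=
  ⨆ p ∈ {p : ℕ × V | p.1 = k}, MeasurableSpace.comap (g p.1 p.2) inferInstance

theorem pastS_le (hg : IsNoise P g) (k : ℕ) : pastS g k ≤ mΩ := by
  refine iSup₂_le fun p _ => ?_
  exact (hg.meas p.1 p.2).comap_le

theorem layerS_le (hg : IsNoise P g) (k : ℕ) : layerS g k ≤ mΩ := by
  refine iSup₂_le fun p _ => ?_
  exact (hg.meas p.1 p.2).comap_le

theorem indep_past_layer (hg : IsNoise P g) (k : ℕ) : Indep (pastS g k) (layerS g k) P := by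
  have h := indep_iSup_of_disjoint (Ω := Ω) (m := fun p : ℕ × V =>
    MeasurableSpace.comap (g p.1 p.2) inferInstance) (μ := P)
    (fun p => (hg.meas p.1 p.2).comap_le) hg.indep
    (S := {p : ℕ × V | p.1 < k}) (T := {p : ℕ × V | p.1 = k}) (by
      rw [Set.disjoint_left]
      intro p hp hq
      have hp' : p.1 < k := hp
      have hq' : p.1 = k := hq
      omega)
  exact h

theorem measurable_noise_layer (k : ℕ) (w : V) : Measurable[layerS g k] (g k w) := by
  have h : MeasurableSpace.comap (g k w) inferInstance ≤ layerS g k :=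
    le_iSup₂_of_le (k, w) (by simp) le_rfl
  exact (comap_measurable (g k w)).mono h le_rfl

theorem measurable_noise_past {i k : ℕ} (h : i < k) (w : V) : Measurable[pastS g k] (g i w) := by
  have h' : MeasurableSpace.comap (g i w) inferInstance ≤ pastS g k :=
    le_iSup₂_of_le (i, w) (by simpa using h) le_rfl
  exact (comap_measurable (g i w)).mono h' le_rfl

theorem pastS_mono {k k' : ℕ} (h : k ≤ k') : pastS g k ≤ pastS g k' := by
  refine iSup₂_le fun p hp => ?_
  exact le_iSup₂_of_le p (lt_of_lt_of_le hp h) le_rfl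

theorem memLp_noise (hg : IsNoise P g) (k : ℕ) (w : V) (p : ENNReal) (hp : p ≠ ⊤) :
    MemLp (g k w) p P := by
  have h := memLp_id_gaussianReal' (μ := 0) (v := 1) p hp
  rw [← hg.law k w] at h
  exact (memLp_map_measure_iff (by simpa using aestronglyMeasurable_id)
    (hg.meas k w).aemeasurable).1 h

theorem integrable_noise (hg : IsNoise P g) (k : ℕ) (w : V) : Integrable (g k w) P :=
  memLp_one_iff_integrable.1 (memLp_noise hg k w 1 (by simp))

theorem integrable_noise_mul (hg : IsNoise P g) (k : ℕ) (w w' : V) :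
    Integrable (fun ω => g k w ω * g k w' ω) P :=
  (memLp_noise hg k w 2 (by simp)).integrable_mul (memLp_noise hg k w' 2 (by simp))

theorem integral_noise (hg : IsNoise P g) (k : ℕ) (w : V) : ∫ ω, g k w ω ∂P = 0 := by
  have h : ∫ x, x ∂(P.map (g k w)) = 0 := by
    rw [hg.law k w, integral_id_gaussianReal]
  rwa [integral_map (f := fun x => x) (hg.meas k w).aemeasurable aestronglyMeasurable_id] at h

theorem integral_noise_sq (hg : IsNoise P g) (k : ℕ) (w : V) : ∫ ω, g k w ω ^ 2 ∂P = 1 := by
  have h : ∫ x, x ^ 2 ∂(P.map (g k w)) = 1 := by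
    rw [hg.law k w]
    have := variance_id_gaussianReal (μ := 0) (v := 1)
    rw [variance_eq_sub (memLp_id_gaussianReal' (μ := 0) (v := 1) 2 (by simp))] at this
    have e1 : ∫ x, id x ∂gaussianReal 0 1 = 0 := integral_id_gaussianReal
    rw [e1] at this
    simpa using this
  rw [integral_map (hg.meas k w).aemeasurable (by fun_prop)] at h
  exact h

theorem integral_noise_mul (hg : IsNoise P g) (k : ℕ) {w w' : V} (h : w ≠ w') :
    ∫ ω, g k w ω * g k w' ω ∂P = 0 := by
  have hi := hg.indep.indepFun (i := (k, w)) (j := (k, w')) (by simpa using h)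
  have := hi.integral_fun_mul_eq_mul_integral (hg.meas k w).aestronglyMeasurable
    (hg.meas k w').aestronglyMeasurable
  simp only at this
  rw [this]
  have e : P[g k w] = 0 := integral_noise hg k w
  rw [e, zero_mul]

/-- Independence of past-measurable and layer-measurable random variables. -/
theorem indepFun_past_layer (hg : IsNoise P g) (k : ℕ) {X Y : Ω → ℝ}
    (hX : Measurable[pastS g k] X) (hY : Measurable[layerS g k] Y) : IndepFun X Y P := by
  rw [IndepFun_iff_Indep]
  exact indep_of_indep_of_le_left (indep_of_indep_of_le_right (indep_past_layer hg k)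
    hY.comap_le) hX.comap_le

theorem integral_past_mul_layer (hg : IsNoise P g) (k : ℕ) {X Y : Ω → ℝ}
    (hX : Measurable[pastS g k] X) (hY : Measurable[layerS g k] Y) :
    ∫ ω, X ω * Y ω ∂P = (∫ ω, X ω ∂P) * ∫ ω, Y ω ∂P := by
  have hI := indepFun_past_layer hg k hX hY
  have hX' : Measurable X := hX.mono (pastS_le hg k) le_rfl
  have hY' : Measurable Y := hY.mono (layerS_le hg k) le_rfl
  exact hI.integral_fun_mul_eq_mul_integral hX'.aestronglyMeasurable hY'.aestronglyMeasurable

theorem integrable_past_mul_layer (hg : IsNoise P g) (k : ℕ) {X Y : Ω → ℝ}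
    (hX : Measurable[pastS g k] X) (hY : Measurable[layerS g k] Y)
    (hXi : Integrable X P) (hYi : Integrable Y P) :
    Integrable (fun ω => X ω * Y ω) P :=
  (indepFun_past_layer hg k hX hY).integrable_mul hXi hYi

section OneStep

variable {k : ℕ} {F : Finset V} {c : V → Ω → ℝ} {C : ℝ} {B : Ω → ℝ}

private theorem integrable_B_c (hg : IsNoise P g) (hc : ∀ w, Measurable[pastS g k] (c w))
    (hC : ∀ w ω, |c w ω| ≤ C) (hBm : Measurable[pastS g k] B) (hB : Integrable B P) (w : V) :
    Integrable (fun ω => B ω * c w ω) P := by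
  refine hB.mul_bdd (c := C) ?_ ?_
  · exact ((hc w).mono (pastS_le hg k) le_rfl).aestronglyMeasurable
  · exact Filter.Eventually.of_forall fun ω => by simpa using hC w ω

private theorem integrable_B_c_c (hg : IsNoise P g) (hc : ∀ w, Measurable[pastS g k] (c w))
    (hC : ∀ w ω, |c w ω| ≤ C) (hBm : Measurable[pastS g k] B) (hB : Integrable B P) (w w' : V) :
    Integrable (fun ω => B ω * c w ω * c w' ω) P := by
  refine (integrable_B_c hg hc hC hBm hB w).mul_bdd (c := C) ?_ ?_
  · exact ((hc w').mono (pastS_le hg k) le_rfl).aestronglyMeasurable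
  · exact Filter.Eventually.of_forall fun ω => by simpa using hC w' ω

/-- Integrability of `B * ∑ c_w g_w`. -/
theorem integrable_mul_lin (hg : IsNoise P g) (hc : ∀ w, Measurable[pastS g k] (c w))
    (hC : ∀ w ω, |c w ω| ≤ C) (hBm : Measurable[pastS g k] B) (hB : Integrable B P) :
    Integrable (fun ω => B ω * ∑ w ∈ F, c w ω * g k w ω) P := by
  simp only [mul_sum]
  refine integrable_finset_sum _ fun w _ => ?_
  have := integrable_past_mul_layer hg k (hBm.mul (hc w)) (measurable_noise_layer k w)
    (integrable_B_c hg hc hC hBm hB w) (integrable_noise hg k w)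
  refine this.congr (Filter.Eventually.of_forall fun ω => ?_)
  simp [mul_assoc]

/-- The one-step lemma, first moment: `E [B ∑ c_w g_w] = 0`. -/
theorem one_step_lin (hg : IsNoise P g) (hc : ∀ w, Measurable[pastS g k] (c w))
    (hC : ∀ w ω, |c w ω| ≤ C) (hBm : Measurable[pastS g k] B) (hB : Integrable B P) :
    ∫ ω, B ω * ∑ w ∈ F, c w ω * g k w ω ∂P = 0 := by
  simp only [mul_sum]
  rw [integral_finset_sum]
  · refine sum_eq_zero fun w _ => ?_
    have e := integral_past_mul_layer hg k (hBm.mul (hc w)) (measurable_noise_layer k w)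
    have e2 : ∫ ω, B ω * (c w ω * g k w ω) ∂P = ∫ ω, (B * c w) ω * g k w ω ∂P :=
      integral_congr_ae (Filter.Eventually.of_forall fun ω => by simp [mul_assoc])
    rw [e2, e, integral_noise hg k w, mul_zero]
  · intro w _
    have := integrable_past_mul_layer hg k (hBm.mul (hc w)) (measurable_noise_layer k w)
      (integrable_B_c hg hc hC hBm hB w) (integrable_noise hg k w)
    refine this.congr (Filter.Eventually.of_forall fun ω => ?_)
    simp [mul_assoc]

/-- Integrability of `B * (∑ c_w g_w)²`. -/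
theorem integrable_mul_lin_sq (hg : IsNoise P g) (hc : ∀ w, Measurable[pastS g k] (c w))
    (hC : ∀ w ω, |c w ω| ≤ C) (hBm : Measurable[pastS g k] B) (hB : Integrable B P) :
    Integrable (fun ω => B ω * (∑ w ∈ F, c w ω * g k w ω) ^ 2) P := by
  have e : ∀ ω, B ω * (∑ w ∈ F, c w ω * g k w ω) ^ 2
      = ∑ w ∈ F, ∑ w' ∈ F, (B ω * c w ω * c w' ω) * (g k w ω * g k w' ω) := by
    intro ω
    rw [sq, sum_mul_sum, mul_sum]
    refine sum_congr rfl fun w _ => ?_
    rw [mul_sum]
    refine sum_congr rfl fun w' _ => by ring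
  simp only [e]
  refine integrable_finset_sum _ fun w _ => integrable_finset_sum _ fun w' _ => ?_
  have hm : Measurable[pastS g k] (fun ω => B ω * c w ω * c w' ω) :=
    (hBm.mul (hc w)).mul (hc w')
  have hm2 : Measurable[layerS g k] (fun ω => g k w ω * g k w' ω) :=
    (measurable_noise_layer k w).mul (measurable_noise_layer k w')
  exact integrable_past_mul_layer hg k hm hm2 (integrable_B_c_c hg hc hC hBm hB w w')
    (integrable_noise_mul hg k w w')

/-- The one-step lemma, second moment: `E [B (∑ c_w g_w)²] = E [B ∑ c_w²]`. -/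
theorem one_step_quad (hg : IsNoise P g) (hc : ∀ w, Measurable[pastS g k] (c w))
    (hC : ∀ w ω, |c w ω| ≤ C) (hBm : Measurable[pastS g k] B) (hB : Integrable B P) :
    ∫ ω, B ω * (∑ w ∈ F, c w ω * g k w ω) ^ 2 ∂P = ∫ ω, B ω * ∑ w ∈ F, c w ω ^ 2 ∂P := by
  classical
  have e : ∀ ω, B ω * (∑ w ∈ F, c w ω * g k w ω) ^ 2
      = ∑ w ∈ F, ∑ w' ∈ F, (B ω * c w ω * c w' ω) * (g k w ω * g k w' ω) := by
    intro ω
    rw [sq, sum_mul_sum, mul_sum]
    refine sum_congr rfl fun w _ => ?_
    rw [mul_sum]
    refine sum_congr rfl fun w' _ => by ring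
  have hpm : ∀ w w', Measurable[pastS g k] (fun ω => B ω * c w ω * c w' ω) := fun w w' =>
    (hBm.mul (hc w)).mul (hc w')
  have hlm : ∀ w w', Measurable[layerS g k] (fun ω => g k w ω * g k w' ω) := fun w w' =>
    (measurable_noise_layer k w).mul (measurable_noise_layer k w')
  have hint : ∀ w w', Integrable (fun ω => (B ω * c w ω * c w' ω) * (g k w ω * g k w' ω)) P :=
    fun w w' => integrable_past_mul_layer hg k (hpm w w') (hlm w w')
      (integrable_B_c_c hg hc hC hBm hB w w') (integrable_noise_mul hg k w w')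
  simp only [e]
  rw [integral_finset_sum _ fun w _ => integrable_finset_sum _ fun w' _ => hint w w']
  have e2 : ∀ ω, B ω * ∑ w ∈ F, c w ω ^ 2 = ∑ w ∈ F, B ω * c w ω * c w ω := by
    intro ω
    rw [mul_sum]
    exact sum_congr rfl fun w _ => by ring
  simp only [e2]
  rw [integral_finset_sum _ fun w _ => integrable_B_c_c hg hc hC hBm hB w w]
  refine sum_congr rfl fun w hw => ?_
  rw [integral_finset_sum _ fun w' _ => hint w w']
  rw [sum_eq_single_of_mem w hw]
  · rw [integral_past_mul_layer hg k (hpm w w) (hlm w w)]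
    have : ∫ ω, g k w ω * g k w ω ∂P = 1 := by
      have := integral_noise_sq hg k w
      simpa [sq] using this
    rw [this, mul_one]
  · intro w' _ hw'
    rw [integral_past_mul_layer hg k (hpm w w') (hlm w w'), integral_noise_mul hg k hw'.symm,
      mul_zero]

end OneStep

/-- A bounded measurable multiple of a square integrable function. -/
theorem memLp_bdd_mul {f h : Ω → ℝ} {C : ℝ} (hf : Measurable f) (hC : ∀ ω, |f ω| ≤ C)
    (hh : MemLp h 2 P) : MemLp (fun ω => f ω * h ω) 2 P := by
  refine MemLp.of_le_mul (c := C) hh ?_ ?_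
  · exact hf.aestronglyMeasurable.mul hh.aestronglyMeasurable
  · refine Filter.Eventually.of_forall fun ω => ?_
    rw [norm_mul]
    exact mul_le_mul_of_nonneg_right (by simpa using hC ω) (norm_nonneg _)

/-- The square-integrable linear noise term. -/
theorem memLp_lin (hg : IsNoise P g) {k : ℕ} {F : Finset V} {c : V → Ω → ℝ} {C : ℝ}
    (hc : ∀ w, Measurable[pastS g k] (c w)) (hC : ∀ w ω, |c w ω| ≤ C) :
    MemLp (fun ω => ∑ w ∈ F, c w ω * g k w ω) 2 P := by
  refine memLp_finsetSum _ fun w _ => ?_
  refine MemLp.of_le_mul (c := C) (memLp_noise hg k w 2 (by simp)) ?_ ?_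
  · exact (((hc w).mono (pastS_le hg k) le_rfl).mul (hg.meas k w)).aestronglyMeasurable
  · refine Filter.Eventually.of_forall fun ω => ?_
    rw [norm_mul]
    exact mul_le_mul_of_nonneg_right (by simpa using hC w ω) (norm_nonneg _)

/-- The basic `L²` isometry: `E (A + s ∑ c_w g_w)² = E A² + s² E ∑ c_w²`. -/
theorem one_step_sq (hg : IsNoise P g) {k : ℕ} {F : Finset V} {c : V → Ω → ℝ} {C : ℝ}
    (hc : ∀ w, Measurable[pastS g k] (c w)) (hC : ∀ w ω, |c w ω| ≤ C)
    {A : Ω → ℝ} (hAm : Measurable[pastS g k] A) (hA : MemLp A 2 P) (s : ℝ) :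
    ∫ ω, (A ω + s * ∑ w ∈ F, c w ω * g k w ω) ^ 2 ∂P
      = ∫ ω, A ω ^ 2 ∂P + s ^ 2 * ∫ ω, ∑ w ∈ F, c w ω ^ 2 ∂P := by
  have hAi : Integrable A P := hA.integrable (by norm_num)
  have hone : Integrable (fun _ : Ω => (1 : ℝ)) P := integrable_const _
  have hconst : Measurable[pastS g k] (fun _ : Ω => (1 : ℝ)) := measurable_const
  have e : ∀ ω, (A ω + s * ∑ w ∈ F, c w ω * g k w ω) ^ 2
      = A ω ^ 2 + (2 * s) * (A ω * ∑ w ∈ F, c w ω * g k w ω)
        + s ^ 2 * (1 * (∑ w ∈ F, c w ω * g k w ω) ^ 2) := by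
    intro ω; ring
  simp only [e]
  have h1 : Integrable (fun ω => A ω ^ 2) P := hA.integrable_sq
  have h2 := integrable_mul_lin (F := F) hg hc hC hAm hAi
  have h3 := integrable_mul_lin_sq (F := F) hg hc hC hconst hone
  have h12 : Integrable (fun ω => A ω ^ 2 + (2 * s) * (A ω * ∑ w ∈ F, c w ω * g k w ω)) P :=
    h1.add (h2.const_mul _)
  have h2' : Integrable (fun ω => (2 * s) * (A ω * ∑ w ∈ F, c w ω * g k w ω)) P :=
    h2.const_mul _
  have h3' : Integrable (fun ω => s ^ 2 * (1 * (∑ w ∈ F, c w ω * g k w ω) ^ 2)) P :=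
    h3.const_mul _
  rw [integral_add h12 h3', integral_add h1 h2', integral_const_mul, integral_const_mul,
    one_step_lin hg hc hC hAm hAi, one_step_quad hg hc hC hconst hone]
  simp

/-! ### Adaptedness of the dynamics -/

section Adapted

variable [DecidableEq V] {N : V → Finset V} {θ ε : ℝ}

theorem measurable_Lin {m : MeasurableSpace Ω} {W : Ω → V → V → ℝ} {h : Ω → V → ℝ}
    (hW : ∀ c a, Measurable[m] (fun ω => W ω c a)) (hh : ∀ w, Measurable[m] (fun ω => h ω w))
    (ℓ : ℕ) (a b : V) : Measurable[m] (fun ω => Lin N (W ω) (h ω) ℓ a b) := by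
  induction ℓ generalizing a b with
  | zero => exact hh a
  | succ ℓ ih =>
    simp only [Lin]
    exact (hh a).add (Finset.measurable_fun_sum _ fun c _ => (hW c a).mul (ih c a))

theorem measurable_Nsq {m : MeasurableSpace Ω} {W : Ω → V → V → ℝ}
    (hW : ∀ c a, Measurable[m] (fun ω => W ω c a))
    (ℓ : ℕ) (a b : V) : Measurable[m] (fun ω => Nsq N (W ω) ℓ a b) := by
  induction ℓ generalizing a b with
  | zero => exact measurable_const
  | succ ℓ ih =>
    simp only [Nsq]
    exact measurable_const.add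
      (Finset.measurable_fun_sum _ fun c _ => ((hW c a).pow_const 2).mul (ih c a))

theorem measurable_coef_apply {m : MeasurableSpace Ω} {W : Ω → V → V → ℝ}
    (hW : ∀ c a, Measurable[m] (fun ω => W ω c a))
    (ℓ : ℕ) (a b w : V) : Measurable[m] (fun ω => coef N (W ω) ℓ a b w) := by
  induction ℓ generalizing a b with
  | zero => simp only [coef]; exact measurable_const
  | succ ℓ ih =>
    simp only [coef_succ, Finsupp.add_apply, Finsupp.finset_sum_apply, Finsupp.smul_apply,
      smul_eq_mul]
    exact measurable_const.add (Finset.measurable_fun_sum _ fun c _ => (hW c a).mul (ih c a))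

theorem measurable_msg {m : MeasurableSpace Ω} (h0 : 0 ≤ θ) (h1 : θ < 1) {x : Ω → V → ℝ}
    (hx : ∀ w, Measurable[m] (fun ω => x ω w)) (L : ℕ) (a b : V) :
    Measurable[m] (fun ω => msg θ N (x ω) L a b) := by
  induction L generalizing a b with
  | zero => exact hx a
  | succ L ih =>
    simp only [msg]
    exact (hx a).add (Finset.measurable_fun_sum _ fun c _ =>
      (continuous_hm h0 h1).measurable.comp (ih c a))

theorem measurable_totField {m : MeasurableSpace Ω} (h0 : 0 ≤ θ) (h1 : θ < 1) {x : Ω → V → ℝ}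
    (hx : ∀ w, Measurable[m] (fun ω => x ω w)) (L : ℕ) (a : V) :
    Measurable[m] (fun ω => totField θ N (x ω) L a) := by
  simp only [totField]
  exact (hx a).add (Finset.measurable_fun_sum _ fun c _ =>
    (continuous_hm h0 h1).measurable.comp (measurable_msg h0 h1 hx L c a))

/-- The cavity chain at step `k` is determined by the noise before step `k`. -/
theorem measurable_cavChain (h0 : 0 ≤ θ) (h1 : θ < 1) (ℓ k : ℕ) (a b : V) :
    Measurable[pastS g k] (fun ω => cavChain θ N ℓ ε (fun i w => g i w ω) k a b) := by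
  induction k generalizing a b with
  | zero => exact measurable_const
  | succ k ih =>
    simp only [cavChain, cavStep]
    have hle : pastS g k ≤ pastS g (k + 1) := pastS_mono (Nat.le_succ k)
    have ih' : ∀ a b, Measurable[pastS g (k + 1)]
        (fun ω => cavChain θ N ℓ ε (fun i w => g i w ω) k a b) := fun a b =>
      (ih a b).mono hle le_rfl
    have hW : ∀ c a, Measurable[pastS g (k + 1)]
        (fun ω => wgt θ (cavChain θ N ℓ ε (fun i w => g i w ω) k) c a) := fun c a =>
      (continuous_hd1 h0 h1).measurable.comp (ih' c a)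
    refine ((ih' a b).add (((continuous_tanh.measurable.comp ((ih' a b).add
      ((continuous_hm h0 h1).measurable.comp (ih' b a)))).mul
      (measurable_Nsq hW ℓ a b)).const_mul _)).add
      ((measurable_Lin hW (fun w => measurable_noise_past (Nat.lt_succ_self k) w) ℓ a b).const_mul _)

/-- The field chain at step `k` is determined by the noise before step `k`. -/
theorem measurable_xChain (h0 : 0 ≤ θ) (h1 : θ < 1) (L k : ℕ) (a : V) :
    Measurable[pastS g k] (fun ω => xChain θ N L ε (fun i w => g i w ω) k a) := by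
  induction k generalizing a with
  | zero => exact measurable_const
  | succ k ih =>
    simp only [xChain]
    have hle : pastS g k ≤ pastS g (k + 1) := pastS_mono (Nat.le_succ k)
    have ih' : ∀ a, Measurable[pastS g (k + 1)]
        (fun ω => xChain θ N L ε (fun i w => g i w ω) k a) := fun a => (ih a).mono hle le_rfl
    exact ((ih' a).add ((continuous_tanh.measurable.comp
      (measurable_totField h0 h1 ih' L a)).const_mul _)).add
      ((measurable_noise_past (Nat.lt_succ_self k) a).const_mul _)

/-- Crude uniform bound on `Nsq`, valid for arbitrary weights bounded by one. -/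
theorem exists_Nsq_bound (ℓ : ℕ) (a b : V) :
    ∃ C : ℝ, ∀ W : V → V → ℝ, (∀ c a, |W c a| ≤ 1) → |Nsq N W ℓ a b| ≤ C := by
  induction ℓ generalizing a b with
  | zero => exact ⟨1, fun W _ => by simp [Nsq]⟩
  | succ ℓ ih =>
    choose C hC using fun c => ih c a
    refine ⟨1 + ∑ c ∈ (N a).erase b, C c, fun W hW => ?_⟩
    simp only [Nsq]
    refine (abs_add_le _ _).trans ?_
    simp only [abs_one]
    refine add_le_add le_rfl ?_
    refine (abs_sum_le_sum_abs _ _).trans (sum_le_sum fun c _ => ?_)
    rw [abs_mul, abs_pow]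
    have h1 : |W c a| ^ 2 ≤ 1 := pow_le_one₀ (abs_nonneg _) (hW c a)
    calc |W c a| ^ 2 * |Nsq N W ℓ c a| ≤ 1 * C c :=
          mul_le_mul h1 (hC c W hW) (abs_nonneg _) (by norm_num)
      _ = C c := one_mul _

/-- The noise term is square integrable. -/
theorem memLp_Lin (hg : IsNoise P g) {k : ℕ} {W : Ω → V → V → ℝ}
    (hW : ∀ c a, Measurable (fun ω => W ω c a)) (hW1 : ∀ ω c a, |W ω c a| ≤ 1)
    (ℓ : ℕ) (a b : V) : MemLp (fun ω => Lin N (W ω) (fun w => g k w ω) ℓ a b) 2 P := by
  induction ℓ generalizing a b with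
  | zero => exact memLp_noise hg k a 2 (by simp)
  | succ ℓ ih =>
    simp only [Lin]
    refine (memLp_noise hg k a 2 (by simp)).add (memLp_finsetSum _ fun c _ => ?_)
    exact memLp_bdd_mul (hW c a) (fun ω => hW1 ω c a) (ih c a)

/-- The cavity chain is square integrable. -/
theorem memLp_cavChain (hg : IsNoise P g) (h0 : 0 ≤ θ) (h1 : θ < 1) (ℓ k : ℕ) (a b : V) :
    MemLp (fun ω => cavChain θ N ℓ ε (fun i w => g i w ω) k a b) 2 P := by
  induction k generalizing a b with
  | zero => exact memLp_const _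
  | succ k ih =>
    simp only [cavChain, cavStep]
    have hm : ∀ a b, Measurable (fun ω => cavChain θ N ℓ ε (fun i w => g i w ω) k a b) :=
      fun a b => (measurable_cavChain h0 h1 ℓ k a b).mono (pastS_le hg k) le_rfl
    have hW : ∀ c a, Measurable (fun ω => wgt θ (cavChain θ N ℓ ε (fun i w => g i w ω) k) c a) :=
      fun c a => (continuous_hd1 h0 h1).measurable.comp (hm c a)
    have hW1 : ∀ ω c a, |wgt θ (cavChain θ N ℓ ε (fun i w => g i w ω) k) c a| ≤ 1 := by
      intro ω c a
      simp only [wgt]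
      rw [abs_of_nonneg (hd1_nonneg h0 h1 _)]
      exact (hd1_le h0 h1 _).trans h1.le
    obtain ⟨C, hC⟩ := exists_Nsq_bound (N := N) ℓ a b
    refine ((ih a b).add ?_).add ?_
    · refine MemLp.of_bound ?_ (|ε| * (1 * C)) (Filter.Eventually.of_forall fun ω => ?_)
      · exact (((continuous_tanh.measurable.comp ((hm a b).add
          ((continuous_hm h0 h1).measurable.comp (hm b a)))).mul
          (measurable_Nsq hW ℓ a b)).const_mul _).aestronglyMeasurable
      · rw [Real.norm_eq_abs, abs_mul, abs_mul]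
        refine mul_le_mul_of_nonneg_left ?_ (abs_nonneg _)
        exact mul_le_mul (abs_tanh_le_one _) (hC _ (hW1 ω)) (abs_nonneg _) (by norm_num)
    · exact (memLp_Lin hg hW hW1 ℓ a b).const_mul _

end Adapted

end

end Vale.Agent.Lib.P161
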