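import Vale.Agent.Lib.P161.Step

/-!
Deterministic calculus for the messages of a ball, for P161 (module task, see the team findings
table): third order Taylor expansion of the messages in the field, and the algebraic identity
closing the cavity dynamics.
-/

open Finset

set_option linter.unusedSectionVars false

namespace Vale.Agent.Lib.P161

noncomputable section

variable {V : Type*} [DecidableEq V]

/-- Weights `h''(η c a)`. -/
def wgt2 (θ : ℝ) (η : V → V → ℝ) : V → V → ℝ := fun c a => hd2 θ (η c a)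

/-- The second derivative of the messages in the direction `δ`, by recursion. -/
def Chi (N : V → Finset V) (W W2 : V → V → ℝ) (δ : V → ℝ) : ℕ → V → V → ℝ
  | 0, _, _ => 0
  | ℓ + 1, a, b => ∑ c ∈ (N a).erase b,
      (W2 c a * Lin N W δ ℓ c a ^ 2 + W c a * Chi N W W2 δ ℓ c a)

/-- Half the trace of the second derivative of the messages, by recursion. -/
def Tee (N : V → Finset V) (W W2 : V → V → ℝ) : ℕ → V → V → ℝ
  | 0, _, _ => 0
  | ℓ + 1, a, b => ∑ c ∈ (N a).erase b,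
      ((1 / 2) * W2 c a * Nsq N W ℓ c a + W c a * Tee N W W2 ℓ c a)

/-- Weights `h'''(η c a)`. -/
def wgt3 (θ : ℝ) (η : V → V → ℝ) : V → V → ℝ := fun c a => hd3 θ (η c a)

/-- The third derivative of the messages in the direction `δ`, by recursion. -/
def Omg (N : V → Finset V) (W W2 W3 : V → V → ℝ) (δ : V → ℝ) : ℕ → V → V → ℝ
  | 0, _, _ => 0
  | ℓ + 1, a, b => ∑ c ∈ (N a).erase b,
      (W3 c a * Lin N W δ ℓ c a ^ 3 + 3 * W2 c a * Lin N W δ ℓ c a * Chi N W W2 δ ℓ c a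
        + W c a * Omg N W W2 W3 δ ℓ c a)

/-! ### One variable calculus -/

private lemma lip01 {g g' : ℝ → ℝ} {M : ℝ} (hg : ∀ s, HasDerivAt g (g' s) s)
    (hM : ∀ s ∈ Set.Icc (0 : ℝ) 1, |g' s| ≤ M) (h0 : g 0 = 0) :
    ∀ s ∈ Set.Icc (0 : ℝ) 1, |g s| ≤ M := by
  intro s hs
  have h := Convex.norm_image_sub_le_of_norm_hasDerivWithin_le (f := g) (f' := g')
    (s := Set.Icc (0 : ℝ) 1) (C := M) (x := 0) (y := s)
    (fun z _ => (hg z).hasDerivWithinAt) (fun z hz => by simpa using hM z hz)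
    (convex_Icc 0 1) (Set.left_mem_Icc.2 zero_le_one) hs
  simp only [Real.norm_eq_abs, h0, sub_zero] at h
  have hM0 : 0 ≤ M := (abs_nonneg _).trans (hM 0 (Set.left_mem_Icc.2 zero_le_one))
  have hs' : |s| ≤ 1 := by
    rw [abs_of_nonneg hs.1]; exact hs.2
  calc |g s| ≤ M * |s| := h
    _ ≤ M * 1 := mul_le_mul_of_nonneg_left hs' hM0
    _ = M := mul_one M

/-- Third order Taylor bound on `[0, 1]`, with a crude constant. -/
private lemma taylor_one {f f1 f2 f3 : ℝ → ℝ} {M : ℝ}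
    (h1 : ∀ s, HasDerivAt f (f1 s) s) (h2 : ∀ s, HasDerivAt f1 (f2 s) s)
    (h3 : ∀ s, HasDerivAt f2 (f3 s) s) (hM : ∀ s ∈ Set.Icc (0 : ℝ) 1, |f3 s| ≤ M) :
    |f 1 - f 0 - f1 0 - (1 / 2) * f2 0| ≤ M := by
  have g2 : ∀ s ∈ Set.Icc (0 : ℝ) 1, |f2 s - f2 0| ≤ M := by
    refine lip01 (g' := f3) (fun s => (h3 s).sub_const _) hM (by simp)
  have g1 : ∀ s ∈ Set.Icc (0 : ℝ) 1, |f1 s - f1 0 - s * f2 0| ≤ M := by
    refine lip01 (g' := fun s => f2 s - f2 0) (fun s => ?_) g2 (by simp)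
    have h : HasDerivAt (fun s => f1 s - f1 0 - s * f2 0) (f2 s - 1 * f2 0) s :=
      ((h2 s).sub_const (f1 0)).sub ((hasDerivAt_id' s).mul_const (f2 0))
    simpa using h
  have g0 : ∀ s ∈ Set.Icc (0 : ℝ) 1,
      |f s - f 0 - s * f1 0 - (s ^ 2 / 2) * f2 0| ≤ M := by
    refine lip01 (g' := fun s => f1 s - f1 0 - s * f2 0) (fun s => ?_) g1 (by simp)
    have h : HasDerivAt (fun s => f s - f 0 - s * f1 0 - (s ^ 2 / 2) * f2 0)
        (f1 s - 1 * f1 0 - (((2 : ℕ) * s ^ (2 - 1)) / 2) * f2 0) s :=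
      (((h1 s).sub_const (f 0)).sub ((hasDerivAt_id' s).mul_const (f1 0))).sub
        (((hasDerivAt_pow 2 s).div_const 2).mul_const (f2 0))
    convert h using 1
    push_cast
    ring
  have h := g0 1 (Set.right_mem_Icc.2 zero_le_one)
  convert h using 2
  ring

/-! ### Neighbourhoods of a ball -/

variable {G : SimpleGraph V} [G.LocallyFinite] {d : ℕ} {θ : ℝ}

private lemma mem_nbS {S : Finset V} {a c : V} (h : c ∈ nbS G S a) :
    a ∈ S ∧ c ∈ S ∧ G.Adj a c := by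
  classical
  unfold nbS at h
  split_ifs at h with ha
  · have h' := mem_filter.1 h
    exact ⟨ha, h'.2, by simpa using h'.1⟩
  · simp at h

private lemma mem_nbS_of {S : Finset V} {a c : V} (ha : a ∈ S) (hc : c ∈ S) (h : G.Adj a c) :
    c ∈ nbS G S a := by
  classical
  unfold nbS
  rw [if_pos ha]
  exact mem_filter.2 ⟨by simpa using h, hc⟩

private lemma nbS_subset (S : Finset V) (a : V) : nbS G S a ⊆ S :=
  fun _ hc => (mem_nbS hc).2.1

private lemma abs_sum_erase_le {S : Finset V} {a b : V} {f : V → ℝ} {B : ℝ} (hB : 0 ≤ B)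
    (h : ∀ c ∈ (nbS G S a).erase b, |f c| ≤ B) :
    |∑ c ∈ (nbS G S a).erase b, f c| ≤ S.card * B := by
  have h1 : |∑ c ∈ (nbS G S a).erase b, f c| ≤ ((nbS G S a).erase b).card • B :=
    (abs_sum_le_sum_abs _ _).trans (sum_le_card_nsmul _ _ _ h)
  have h2 : ((nbS G S a).erase b).card ≤ S.card :=
    card_le_card ((erase_subset _ _).trans (nbS_subset S a))
  rw [nsmul_eq_mul] at h1
  have h3 : (((nbS G S a).erase b).card : ℝ) ≤ S.card := by exact_mod_cast h2
  exact h1.trans (mul_le_mul_of_nonneg_right h3 hB)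

private lemma abs_mul_le' {u v A B : ℝ} (hu : |u| ≤ A) (hv : |v| ≤ B) : |u * v| ≤ A * B := by
  rw [abs_mul]
  exact mul_le_mul hu hv (abs_nonneg _) ((abs_nonneg _).trans hu)

private lemma abs_hd1_le_one (hp : TreeParams G d θ) (x : ℝ) : |hd1 θ x| ≤ 1 := by
  rw [abs_of_nonneg (hd1_nonneg hp.nonneg hp.lt_one x)]
  exact (hd1_le hp.nonneg hp.lt_one x).trans hp.lt_one.le

private lemma abs_le_sum {S : Finset V} {a : V} (ha : a ∈ S) (δ : V → ℝ) :
    |δ a| ≤ ∑ w ∈ S, |δ w| :=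
  single_le_sum (f := fun w => |δ w|) (fun _ _ => abs_nonneg _) ha

private lemma sum_abs_nonneg (S : Finset V) (δ : V → ℝ) : 0 ≤ ∑ w ∈ S, |δ w| :=
  sum_nonneg fun _ _ => abs_nonneg _

/-! ### Bounds at fixed fuel -/

private lemma Lin_bound (hp : TreeParams G d θ) (S : Finset V) (ℓ : ℕ) :
    ∃ C > 0, ∀ (η : V → V → ℝ) (δ : V → ℝ) (a b : V), a ∈ S →
      |Lin (nbS G S) (wgt θ η) δ ℓ a b| ≤ C * ∑ w ∈ S, |δ w| := by
  induction ℓ with
  | zero =>
    refine ⟨1, one_pos, fun η δ a b ha => ?_⟩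
    simpa [Lin] using abs_le_sum ha δ
  | succ ℓ ih =>
    obtain ⟨C, hC, h⟩ := ih
    refine ⟨1 + S.card * C, by positivity, fun η δ a b ha => ?_⟩
    have hA1 := sum_abs_nonneg S δ
    have hs : |∑ c ∈ (nbS G S a).erase b, wgt θ η c a * Lin (nbS G S) (wgt θ η) δ ℓ c a|
        ≤ S.card * (C * ∑ w ∈ S, |δ w|) := by
      refine abs_sum_erase_le (by positivity) fun c hc => ?_
      have hcS := (mem_nbS (mem_of_mem_erase hc)).2.1
      have := abs_mul_le' (abs_hd1_le_one hp (η c a)) (h η δ c a hcS)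
      simpa [wgt] using this
    simp only [Lin]
    calc _ ≤ |δ a| + |∑ c ∈ (nbS G S a).erase b, wgt θ η c a * Lin (nbS G S) (wgt θ η) δ ℓ c a| :=
          abs_add_le _ _
      _ ≤ (∑ w ∈ S, |δ w|) + S.card * (C * ∑ w ∈ S, |δ w|) := add_le_add (abs_le_sum ha δ) hs
      _ = _ := by ring

private lemma Chi_bound (hp : TreeParams G d θ) (S : Finset V) (ℓ : ℕ) :
    ∃ C > 0, ∀ (η : V → V → ℝ) (δ : V → ℝ) (a b : V), a ∈ S →
      |Chi (nbS G S) (wgt θ η) (wgt2 θ η) δ ℓ a b| ≤ C * (∑ w ∈ S, |δ w|) ^ 2 := by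
  induction ℓ with
  | zero =>
    refine ⟨1, one_pos, fun η δ a b ha => ?_⟩
    have hA1 := sum_abs_nonneg S δ
    simp only [Chi, abs_zero]
    positivity
  | succ ℓ ih =>
    obtain ⟨D, hD, h⟩ := ih
    obtain ⟨C, hC, hL⟩ := Lin_bound hp S ℓ
    refine ⟨1 + S.card * (2 * C ^ 2 + D), by positivity, fun η δ a b ha => ?_⟩
    have hA1 := sum_abs_nonneg S δ
    set A := ∑ w ∈ S, |δ w| with hA0
    have hs : |Chi (nbS G S) (wgt θ η) (wgt2 θ η) δ (ℓ + 1) a b|
        ≤ S.card * ((2 * C ^ 2 + D) * A ^ 2) := by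
      simp only [Chi]
      refine abs_sum_erase_le (by positivity) fun c hc => ?_
      have hcS := (mem_nbS (mem_of_mem_erase hc)).2.1
      have h1 := hL η δ c a hcS
      have h2 := h η δ c a hcS
      have h3 : |wgt2 θ η c a * Lin (nbS G S) (wgt θ η) δ ℓ c a ^ 2| ≤ 2 * (C * A) ^ 2 := by
        refine abs_mul_le' (abs_hd2_le hp.nonneg hp.lt_one _) ?_
        rw [abs_pow]
        exact pow_le_pow_left₀ (abs_nonneg _) h1 2
      have h4 : |wgt θ η c a * Chi (nbS G S) (wgt θ η) (wgt2 θ η) δ ℓ c a| ≤ 1 * (D * A ^ 2) :=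
        abs_mul_le' (abs_hd1_le_one hp _) h2
      calc _ ≤ _ := abs_add_le _ _
        _ ≤ 2 * (C * A) ^ 2 + 1 * (D * A ^ 2) := add_le_add h3 h4
        _ = _ := by ring
    have hp2 : 0 ≤ A ^ 2 := by positivity
    calc _ ≤ _ := hs
      _ ≤ _ := by nlinarith

private lemma Omg_bound (hp : TreeParams G d θ) (S : Finset V) (ℓ : ℕ) :
    ∃ C > 0, ∀ (η : V → V → ℝ) (δ : V → ℝ) (a b : V), a ∈ S →
      |Omg (nbS G S) (wgt θ η) (wgt2 θ η) (wgt3 θ η) δ ℓ a b| ≤ C * (∑ w ∈ S, |δ w|) ^ 3 := by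
  induction ℓ with
  | zero =>
    refine ⟨1, one_pos, fun η δ a b ha => ?_⟩
    have hA1 := sum_abs_nonneg S δ
    simp only [Omg, abs_zero]
    positivity
  | succ ℓ ih =>
    obtain ⟨E, hE, h⟩ := ih
    obtain ⟨C, hC, hL⟩ := Lin_bound hp S ℓ
    obtain ⟨D, hD, hX⟩ := Chi_bound hp S ℓ
    refine ⟨1 + S.card * (12 * C ^ 3 + 6 * (C * D) + E), by positivity, fun η δ a b ha => ?_⟩
    have hA1 := sum_abs_nonneg S δ
    set A := ∑ w ∈ S, |δ w| with hA0
    have hs : |Omg (nbS G S) (wgt θ η) (wgt2 θ η) (wgt3 θ η) δ (ℓ + 1) a b|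
        ≤ S.card * ((12 * C ^ 3 + 6 * (C * D) + E) * A ^ 3) := by
      simp only [Omg]
      refine abs_sum_erase_le (by positivity) fun c hc => ?_
      have hcS := (mem_nbS (mem_of_mem_erase hc)).2.1
      have h1 := hL η δ c a hcS
      have h2 := hX η δ c a hcS
      have h0 := h η δ c a hcS
      have h3 : |wgt3 θ η c a * Lin (nbS G S) (wgt θ η) δ ℓ c a ^ 3| ≤ 12 * (C * A) ^ 3 := by
        refine abs_mul_le' (abs_hd3_le hp.nonneg hp.lt_one _) ?_
        rw [abs_pow]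
        exact pow_le_pow_left₀ (abs_nonneg _) h1 3
      have h4 : |3 * wgt2 θ η c a * Lin (nbS G S) (wgt θ η) δ ℓ c a
          * Chi (nbS G S) (wgt θ η) (wgt2 θ η) δ ℓ c a| ≤ (3 * 2) * (C * A) * (D * A ^ 2) := by
        refine abs_mul_le' (abs_mul_le' (abs_mul_le' ?_ (abs_hd2_le hp.nonneg hp.lt_one _)) h1) h2
        norm_num
      have h5 : |wgt θ η c a * Omg (nbS G S) (wgt θ η) (wgt2 θ η) (wgt3 θ η) δ ℓ c a|
          ≤ 1 * (E * A ^ 3) := abs_mul_le' (abs_hd1_le_one hp _) h0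
      refine (abs_add_le _ _).trans ((add_le_add (abs_add_le _ _) le_rfl).trans
        ((add_le_add (add_le_add h3 h4) h5).trans (le_of_eq ?_)))
      ring
    have hp2 : 0 ≤ A ^ 3 := by positivity
    calc _ ≤ _ := hs
      _ ≤ _ := by nlinarith

private lemma Nsq_bound (hp : TreeParams G d θ) (S : Finset V) (ℓ : ℕ) :
    ∃ C > 0, ∀ (η : V → V → ℝ) (a b : V), a ∈ S →
      |Nsq (nbS G S) (wgt θ η) ℓ a b| ≤ C := by
  induction ℓ with
  | zero => exact ⟨1, one_pos, fun η a b ha => by simp [Nsq]⟩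
  | succ ℓ ih =>
    obtain ⟨C, hC, h⟩ := ih
    refine ⟨1 + S.card * C, by positivity, fun η a b ha => ?_⟩
    have hs : |∑ c ∈ (nbS G S a).erase b, wgt θ η c a ^ 2 * Nsq (nbS G S) (wgt θ η) ℓ c a|
        ≤ S.card * C := by
      refine abs_sum_erase_le hC.le fun c hc => ?_
      have hcS := (mem_nbS (mem_of_mem_erase hc)).2.1
      have h1 : |wgt θ η c a ^ 2| ≤ 1 := by
        rw [abs_pow]
        exact pow_le_one₀ (abs_nonneg _) (abs_hd1_le_one hp _)
      simpa using abs_mul_le' h1 (h η c a hcS)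
    simp only [Nsq]
    calc _ ≤ |(1 : ℝ)| + _ := abs_add_le _ _
      _ ≤ 1 + S.card * C := by rw [abs_one]; linarith

private lemma Tee_bound (hp : TreeParams G d θ) (S : Finset V) (ℓ : ℕ) :
    ∃ C > 0, ∀ (η : V → V → ℝ) (a b : V), a ∈ S →
      |Tee (nbS G S) (wgt θ η) (wgt2 θ η) ℓ a b| ≤ C := by
  induction ℓ with
  | zero => exact ⟨1, one_pos, fun η a b ha => by simp [Tee]⟩
  | succ ℓ ih =>
    obtain ⟨T, hT, h⟩ := ih
    obtain ⟨Q, hQ, hN⟩ := Nsq_bound hp S ℓ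
    refine ⟨1 + S.card * (Q + T), by positivity, fun η a b ha => ?_⟩
    have hs : |Tee (nbS G S) (wgt θ η) (wgt2 θ η) (ℓ + 1) a b| ≤ S.card * (Q + T) := by
      simp only [Tee]
      refine abs_sum_erase_le (by positivity) fun c hc => ?_
      have hcS := (mem_nbS (mem_of_mem_erase hc)).2.1
      have h1 : |(1 / 2) * wgt2 θ η c a * Nsq (nbS G S) (wgt θ η) ℓ c a| ≤ (1 / 2) * 2 * Q := by
        refine abs_mul_le' (abs_mul_le' (by norm_num) (abs_hd2_le hp.nonneg hp.lt_one _))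
          (hN η c a hcS)
      have h2 : |wgt θ η c a * Tee (nbS G S) (wgt θ η) (wgt2 θ η) ℓ c a| ≤ 1 * T :=
        abs_mul_le' (abs_hd1_le_one hp _) (h η c a hcS)
      calc _ ≤ _ := abs_add_le _ _
        _ ≤ (1 / 2) * 2 * Q + 1 * T := add_le_add h1 h2
        _ = _ := by ring
    calc _ ≤ _ := hs
      _ ≤ _ := by linarith

private lemma msg_bound (hp : TreeParams G d θ) (S : Finset V) (L : ℕ) :
    ∃ C > 0, ∀ (x x' : V → ℝ) (a b : V), a ∈ S →
      |msg θ (nbS G S) x L a b - msg θ (nbS G S) x' L a b| ≤ C * ∑ w ∈ S, |x w - x' w| := by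
  induction L with
  | zero =>
    refine ⟨1, one_pos, fun x x' a b ha => ?_⟩
    simpa [msg] using abs_le_sum ha (fun w => x w - x' w)
  | succ L ih =>
    obtain ⟨C, hC, h⟩ := ih
    refine ⟨1 + S.card * C, by positivity, fun x x' a b ha => ?_⟩
    have hA1 := sum_abs_nonneg S (fun w => x w - x' w)
    have hs : |∑ c ∈ (nbS G S a).erase b,
          (hm θ (msg θ (nbS G S) x L c a) - hm θ (msg θ (nbS G S) x' L c a))|
        ≤ S.card * (C * ∑ w ∈ S, |x w - x' w|) := by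
      refine abs_sum_erase_le (mul_nonneg hC.le hA1) fun c hc => ?_
      have hcS := (mem_nbS (mem_of_mem_erase hc)).2.1
      have h1 := abs_hm_sub_le hp.nonneg hp.lt_one (msg θ (nbS G S) x L c a)
        (msg θ (nbS G S) x' L c a)
      have h2 := h x x' c a hcS
      have h3 := abs_nonneg (msg θ (nbS G S) x L c a - msg θ (nbS G S) x' L c a)
      have h4 := hp.lt_one
      nlinarith
    simp only [msg]
    have e : x a + ∑ c ∈ (nbS G S a).erase b, hm θ (msg θ (nbS G S) x L c a)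
        - (x' a + ∑ c ∈ (nbS G S a).erase b, hm θ (msg θ (nbS G S) x' L c a))
        = (x a - x' a) + ∑ c ∈ (nbS G S a).erase b,
          (hm θ (msg θ (nbS G S) x L c a) - hm θ (msg θ (nbS G S) x' L c a)) := by
      rw [sum_sub_distrib]; ring
    rw [e]
    calc _ ≤ _ := abs_add_le _ _
      _ ≤ (∑ w ∈ S, |x w - x' w|) + S.card * (C * ∑ w ∈ S, |x w - x' w|) :=
          add_le_add (abs_le_sum ha (fun w => x w - x' w)) hs
      _ = _ := by ring

private lemma msg_zero_field (S : Finset V) (L : ℕ) (a b : V) :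
    msg θ (nbS G S) (fun _ => 0) L a b = 0 := by
  induction L generalizing a b with
  | zero => rfl
  | succ L ih =>
    have h00 : hm θ 0 = 0 := by simp [hm]
    simp [msg, ih, h00]

/-- Bound on the second derivative recursion (all weights bounded, fixed fuel). -/
theorem abs_Chi_le (hp : TreeParams G d θ) (o : V) (R ℓ : ℕ) :
    ∃ C > 0, ∀ (η : V → V → ℝ) (δ : V → ℝ) (a b : V), a ∈ ballF G o R →
      let N := nbS G (ballF G o R)
      |Chi N (wgt θ η) (wgt2 θ η) δ ℓ a b| ≤ C * (∑ w ∈ ballF G o R, |δ w|) ^ 2 :=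
  Chi_bound hp _ ℓ

/-- Bound on the first derivative recursion (all weights bounded, fixed fuel). -/
theorem abs_Lin_le (hp : TreeParams G d θ) (o : V) (R ℓ : ℕ) :
    ∃ C > 0, ∀ (η : V → V → ℝ) (δ : V → ℝ) (a b : V), a ∈ ballF G o R →
      let N := nbS G (ballF G o R)
      |Lin N (wgt θ η) δ ℓ a b| ≤ C * (∑ w ∈ ballF G o R, |δ w|) :=
  Lin_bound hp _ ℓ

/-- Bound on the trace recursion (all weights bounded, fixed fuel). -/
theorem abs_Tee_le (hp : TreeParams G d θ) (o : V) (R ℓ : ℕ) :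
    ∃ C > 0, ∀ (η : V → V → ℝ) (a b : V), a ∈ ballF G o R →
      let N := nbS G (ballF G o R)
      |Tee N (wgt θ η) (wgt2 θ η) ℓ a b| ≤ C :=
  Tee_bound hp _ ℓ

/-- Lipschitz bound for the messages on a ball in the field. -/
theorem msg_sub_le (hp : TreeParams G d θ) (o : V) (R L : ℕ) :
    ∃ C > 0, ∀ (x x' : V → ℝ) (a b : V), a ∈ ballF G o R →
      let N := nbS G (ballF G o R)
      |msg θ N x L a b - msg θ N x' L a b| ≤ C * (∑ w ∈ ballF G o R, |x w - x' w|) :=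
  msg_bound hp _ L

/-- Linear growth for the messages on a ball. -/
theorem abs_msg_le (hp : TreeParams G d θ) (o : V) (R L : ℕ) :
    ∃ C > 0, ∀ (x : V → ℝ) (a b : V), a ∈ ballF G o R →
      let N := nbS G (ballF G o R)
      |msg θ N x L a b| ≤ C * (∑ w ∈ ballF G o R, |x w|) := by
  obtain ⟨C, hC, h⟩ := msg_bound (θ := θ) hp (ballF G o R) L
  refine ⟨C, hC, fun x a b ha => ?_⟩
  have h1 := h x (fun _ => 0) a b ha
  simpa [msg_zero_field] using h1

/-! ### Fixed point equations on the edges -/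

section Fixed

variable {N : V → Finset V} {rk : V → V → ℕ} {L₀ : ℕ}

private lemma edge_induct (hrk : IsRank G N rk) (hN : ∀ a c, c ∈ N a → G.Adj a c) {P : V → V → Prop}
    (hstep : ∀ a b, G.Adj a b → (∀ c ∈ (N a).erase b, P c a) → P a b) :
    ∀ a b, G.Adj a b → P a b := by
  intro a b hab
  induction h : rk a b using Nat.strong_induction_on generalizing a b with
  | _ n ih =>
    refine hstep a b hab fun c hc => ih (rk c a) ?_ c a (hN a c (mem_of_mem_erase hc)).symm rfl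
    have := hrk a b c hab hc
    omega

private lemma triple_stable (hrk : IsRank G N rk) (hN : ∀ a c, c ∈ N a → G.Adj a c)
    (W W2 W3 : V → V → ℝ) (δ : V → ℝ) (L : ℕ) (a b : V) (hab : G.Adj a b) (hL : rk a b ≤ L)
    (L' : ℕ) (hL' : rk a b ≤ L') :
    (Lin N W δ L a b, Chi N W W2 δ L a b, Omg N W W2 W3 δ L a b)
      = (Lin N W δ L' a b, Chi N W W2 δ L' a b, Omg N W W2 W3 δ L' a b) := by
  refine fuel_stable hrk hN
    (fun L a b => (Lin N W δ L a b, Chi N W W2 δ L a b, Omg N W W2 W3 δ L a b))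
    ?_ ?_ L a b hab hL L' hL'
  · intro a b he ℓ
    cases ℓ with
    | zero => rfl
    | succ ℓ => simp [Lin, Chi, Omg, he]
  · intro ℓ ℓ' a b h
    have h1 : ∀ c ∈ (N a).erase b, Lin N W δ ℓ c a = Lin N W δ ℓ' c a :=
      fun c hc => (Prod.ext_iff.1 (h c hc)).1
    have h2 : ∀ c ∈ (N a).erase b, Chi N W W2 δ ℓ c a = Chi N W W2 δ ℓ' c a :=
      fun c hc => (Prod.ext_iff.1 (Prod.ext_iff.1 (h c hc)).2).1
    have h3 : ∀ c ∈ (N a).erase b, Omg N W W2 W3 δ ℓ c a = Omg N W W2 W3 δ ℓ' c a :=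
      fun c hc => (Prod.ext_iff.1 (Prod.ext_iff.1 (h c hc)).2).2
    simp only [Prod.mk.injEq]
    refine ⟨?_, ?_, ?_⟩
    · simp only [Lin]
      congr 1
      exact sum_congr rfl fun c hc => by rw [h1 c hc]
    · simp only [Chi]
      exact sum_congr rfl fun c hc => by rw [h1 c hc, h2 c hc]
    · simp only [Omg]
      exact sum_congr rfl fun c hc => by rw [h1 c hc, h2 c hc, h3 c hc]

private lemma Chi_fixed (hrk : IsRank G N rk) (hN : ∀ a c, c ∈ N a → G.Adj a c)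
    (hL₀ : ∀ a b, G.Adj a b → rk a b ≤ L₀) (W W2 : V → V → ℝ) (δ : V → ℝ)
    (a b : V) (hab : G.Adj a b) :
    Chi N W W2 δ L₀ a b = ∑ c ∈ (N a).erase b,
      (W2 c a * Lin N W δ L₀ c a ^ 2 + W c a * Chi N W W2 δ L₀ c a) := by
  have h := triple_stable hrk hN W W2 W2 δ L₀ a b hab (hL₀ a b hab) (L₀ + 1)
    ((hL₀ a b hab).trans (Nat.le_succ _))
  have hh : Chi N W W2 δ L₀ a b = Chi N W W2 δ (L₀ + 1) a b := congrArg (fun t => t.2.1) h
  rw [hh]
  rfl

private lemma Omg_fixed (hrk : IsRank G N rk) (hN : ∀ a c, c ∈ N a → G.Adj a c)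
    (hL₀ : ∀ a b, G.Adj a b → rk a b ≤ L₀) (W W2 W3 : V → V → ℝ) (δ : V → ℝ)
    (a b : V) (hab : G.Adj a b) :
    Omg N W W2 W3 δ L₀ a b = ∑ c ∈ (N a).erase b,
      (W3 c a * Lin N W δ L₀ c a ^ 3 + 3 * W2 c a * Lin N W δ L₀ c a * Chi N W W2 δ L₀ c a
        + W c a * Omg N W W2 W3 δ L₀ c a) := by
  have h := triple_stable hrk hN W W2 W3 δ L₀ a b hab (hL₀ a b hab) (L₀ + 1)
    ((hL₀ a b hab).trans (Nat.le_succ _))
  have hh : Omg N W W2 W3 δ L₀ a b = Omg N W W2 W3 δ (L₀ + 1) a b := congrArg (fun t => t.2.2) h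
  rw [hh]
  rfl

/-! ### Derivatives along a line of fields -/

/-- The messages along the line `s ↦ x + s δ`. -/
private def phi (θ : ℝ) (N : V → Finset V) (L : ℕ) (x δ : V → ℝ) (s : ℝ) : V → V → ℝ :=
  msg θ N (fun w => x w + s * δ w) L

private lemma phi_deriv (h0 : 0 ≤ θ) (h1 : θ < 1) (hrk : IsRank G N rk)
    (hN : ∀ a c, c ∈ N a → G.Adj a c) (hL₀ : ∀ a b, G.Adj a b → rk a b ≤ L₀) (x δ : V → ℝ) :
    ∀ a b, G.Adj a b → ∀ s, HasDerivAt (fun s => phi θ N L₀ x δ s a b)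
      (Lin N (wgt θ (phi θ N L₀ x δ s)) δ L₀ a b) s := by
  refine edge_induct hrk hN ?_
  intro a b hab ih s
  have e1 : (fun s => phi θ N L₀ x δ s a b)
      = fun s => (x a + s * δ a) + ∑ c ∈ (N a).erase b, hm θ (phi θ N L₀ x δ s c a) :=
    funext fun s => msg_fixed hrk hN hL₀ _ a b hab
  rw [e1, Lin_fixed hrk hN hL₀ _ a b hab]
  refine HasDerivAt.add ?_ ?_
  · simpa using ((hasDerivAt_id s).mul_const (δ a)).const_add (x a)
  · refine HasDerivAt.fun_sum fun c hc => ?_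
    exact (hm_hasDerivAt h0 h1 _).comp s (ih c hc s)

private lemma psi_deriv (h0 : 0 ≤ θ) (h1 : θ < 1) (hrk : IsRank G N rk)
    (hN : ∀ a c, c ∈ N a → G.Adj a c) (hL₀ : ∀ a b, G.Adj a b → rk a b ≤ L₀) (x δ : V → ℝ) :
    ∀ a b, G.Adj a b → ∀ s, HasDerivAt
      (fun s => Lin N (wgt θ (phi θ N L₀ x δ s)) δ L₀ a b)
      (Chi N (wgt θ (phi θ N L₀ x δ s)) (wgt2 θ (phi θ N L₀ x δ s)) δ L₀ a b) s := by
  refine edge_induct hrk hN ?_
  intro a b hab ih s
  have e1 : (fun s => Lin N (wgt θ (phi θ N L₀ x δ s)) δ L₀ a b)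
      = fun s => δ a + ∑ c ∈ (N a).erase b,
          hd1 θ (phi θ N L₀ x δ s c a) * Lin N (wgt θ (phi θ N L₀ x δ s)) δ L₀ c a :=
    funext fun s => Lin_fixed hrk hN hL₀ _ a b hab
  rw [e1, Chi_fixed hrk hN hL₀ _ _ _ a b hab]
  refine HasDerivAt.const_add _ ?_
  refine HasDerivAt.fun_sum fun c hc => ?_
  have hca : G.Adj c a := (hN a c (mem_of_mem_erase hc)).symm
  have hphi := phi_deriv h0 h1 hrk hN hL₀ x δ c a hca s
  have h2 := ((hd1_hasDerivAt h0 h1 _).comp s hphi).fun_mul (ih c hc s)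
  refine HasDerivAt.congr_deriv h2 ?_
  simp only [wgt, wgt2, Function.comp]
  ring

private lemma chi_deriv (h0 : 0 ≤ θ) (h1 : θ < 1) (hrk : IsRank G N rk)
    (hN : ∀ a c, c ∈ N a → G.Adj a c) (hL₀ : ∀ a b, G.Adj a b → rk a b ≤ L₀) (x δ : V → ℝ) :
    ∀ a b, G.Adj a b → ∀ s, HasDerivAt
      (fun s => Chi N (wgt θ (phi θ N L₀ x δ s)) (wgt2 θ (phi θ N L₀ x δ s)) δ L₀ a b)
      (Omg N (wgt θ (phi θ N L₀ x δ s)) (wgt2 θ (phi θ N L₀ x δ s)) (wgt3 θ (phi θ N L₀ x δ s))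
        δ L₀ a b) s := by
  refine edge_induct hrk hN ?_
  intro a b hab ih s
  have e1 : (fun s => Chi N (wgt θ (phi θ N L₀ x δ s)) (wgt2 θ (phi θ N L₀ x δ s)) δ L₀ a b)
      = fun s => ∑ c ∈ (N a).erase b,
          (hd2 θ (phi θ N L₀ x δ s c a) * Lin N (wgt θ (phi θ N L₀ x δ s)) δ L₀ c a ^ 2
            + hd1 θ (phi θ N L₀ x δ s c a)
              * Chi N (wgt θ (phi θ N L₀ x δ s)) (wgt2 θ (phi θ N L₀ x δ s)) δ L₀ c a) :=
    funext fun s => Chi_fixed hrk hN hL₀ _ _ _ a b hab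
  rw [e1, Omg_fixed hrk hN hL₀ _ _ _ _ a b hab]
  refine HasDerivAt.fun_sum fun c hc => ?_
  have hca : G.Adj c a := (hN a c (mem_of_mem_erase hc)).symm
  have hphi := phi_deriv h0 h1 hrk hN hL₀ x δ c a hca s
  have hpsi := psi_deriv h0 h1 hrk hN hL₀ x δ c a hca s
  have h2 := (((hd2_hasDerivAt h0 h1 _).comp s hphi).fun_mul (hpsi.fun_pow 2)).fun_add
    (((hd1_hasDerivAt h0 h1 _).comp s hphi).fun_mul (ih c hc s))
  refine HasDerivAt.congr_deriv h2 ?_
  simp only [wgt, wgt2, wgt3, Function.comp]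
  norm_num
  ring

end Fixed

/-! ### The main statements -/

private lemma rank_ball (hp : TreeParams G d θ) (o : V) (R : ℕ) :
    ∃ rk : V → V → ℕ, IsRank G (nbS G (ballF G o R)) rk ∧
      ∀ a b, G.Adj a b → rk a b ≤ 2 * R + 1 := by
  obtain ⟨rk, h1, h2⟩ := rank_nbS hp.tree o R
  exact ⟨rk, h1, h2⟩

private lemma subN_ball (S : Finset V) : ∀ a c, c ∈ nbS G S a → G.Adj a c :=
  fun _ _ h => (mem_nbS h).2.2

/-- Third order Taylor expansion of the messages on a ball. The sum of the first three terms on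
the left uses the exact derivative recursions; the constant depends on the ball. -/
theorem taylor_msg (hp : TreeParams G d θ) (o : V) (R : ℕ) :
    ∃ C > 0, ∀ (x δ : V → ℝ) (a b : V), G.Adj a b → a ∈ ballF G o R →
      let N := nbS G (ballF G o R)
      let E := msg θ N x (2 * R + 1)
      |msg θ N (fun w => x w + δ w) (2 * R + 1) a b - E a b
          - Lin N (wgt θ E) δ (2 * R + 1) a b
          - (1 / 2) * Chi N (wgt θ E) (wgt2 θ E) δ (2 * R + 1) a b|
        ≤ C * (∑ w ∈ ballF G o R, |δ w|) ^ 3 := by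
  obtain ⟨rk, hrk, hL₀⟩ := rank_ball hp o R
  have hN := subN_ball (G := G) (ballF G o R)
  obtain ⟨C, hC, hO⟩ := Omg_bound (θ := θ) hp (ballF G o R) (2 * R + 1)
  refine ⟨C, hC, fun x δ a b hab ha => ?_⟩
  intro N E
  have hT := taylor_one (f := fun s => phi θ N (2 * R + 1) x δ s a b)
    (f1 := fun s => Lin N (wgt θ (phi θ N (2 * R + 1) x δ s)) δ (2 * R + 1) a b)
    (f2 := fun s => Chi N (wgt θ (phi θ N (2 * R + 1) x δ s))
      (wgt2 θ (phi θ N (2 * R + 1) x δ s)) δ (2 * R + 1) a b)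
    (f3 := fun s => Omg N (wgt θ (phi θ N (2 * R + 1) x δ s))
      (wgt2 θ (phi θ N (2 * R + 1) x δ s)) (wgt3 θ (phi θ N (2 * R + 1) x δ s)) δ (2 * R + 1) a b)
    (M := C * (∑ w ∈ ballF G o R, |δ w|) ^ 3)
    (phi_deriv hp.nonneg hp.lt_one hrk hN hL₀ x δ a b hab)
    (psi_deriv hp.nonneg hp.lt_one hrk hN hL₀ x δ a b hab)
    (chi_deriv hp.nonneg hp.lt_one hrk hN hL₀ x δ a b hab)
    (fun s _ => hO _ δ a b ha)
  have e0 : phi θ N (2 * R + 1) x δ 0 = E := by
    simp only [phi, E, zero_mul, add_zero]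
  have e1 : phi θ N (2 * R + 1) x δ 1 = msg θ N (fun w => x w + δ w) (2 * R + 1) := by
    simp only [phi, one_mul]
  simp only [e0, e1] at hT
  exact hT

/-- On an edge of the ball the total field is the message plus the reverse message's image. -/
theorem totField_eq (hp : TreeParams G d θ) (o : V) (R : ℕ) (x : V → ℝ) (a b : V)
    (hab : G.Adj a b) (ha : a ∈ ballF G o R) (hb : b ∈ ballF G o R) :
    let N := nbS G (ballF G o R)
    let E := msg θ N x (2 * R + 1)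
    totField θ N x (2 * R + 1) a = E a b + hm θ (E b a) := by
  obtain ⟨rk, hrk, hL₀⟩ := rank_ball hp o R
  have hN := subN_ball (G := G) (ballF G o R)
  intro N E
  have h1 : E a b = x a + ∑ c ∈ (N a).erase b, hm θ (E c a) := msg_fixed hrk hN hL₀ x a b hab
  have hbN : b ∈ N a := mem_nbS_of ha hb hab
  have h2 := Finset.add_sum_erase (N a) (fun c => hm θ (E c a)) hbN
  simp only [totField]
  rw [h1, ← h2]
  ring

/-- The identity closing the dynamics: on edges of the ball,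
`Tee + Lin(m) = m_a Nsq`, where `m` is the `tanh` of the total field, for every fuel. -/
theorem tee_identity (hp : TreeParams G d θ) (o : V) (R : ℕ) (x : V → ℝ) (ℓ : ℕ) (a b : V)
    (hab : G.Adj a b) (ha : a ∈ ballF G o R) (hb : b ∈ ballF G o R) :
    let N := nbS G (ballF G o R)
    let E := msg θ N x (2 * R + 1)
    let m := fun w => Real.tanh (totField θ N x (2 * R + 1) w)
    Tee N (wgt θ E) (wgt2 θ E) ℓ a b + Lin N (wgt θ E) m ℓ a b
      = m a * Nsq N (wgt θ E) ℓ a b := by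
  intro N E m
  induction ℓ generalizing a b with
  | zero => simp [Tee, Lin, Nsq]
  | succ ℓ ih =>
    simp only [Tee, Lin, Nsq]
    have key : ∀ c ∈ (N a).erase b,
        (1 / 2) * wgt2 θ E c a * Nsq N (wgt θ E) ℓ c a + wgt θ E c a * Tee N (wgt θ E) (wgt2 θ E) ℓ c a
          + wgt θ E c a * Lin N (wgt θ E) m ℓ c a
          = m a * (wgt θ E c a ^ 2 * Nsq N (wgt θ E) ℓ c a) := by
      intro c hc
      obtain ⟨_, hcS, hac⟩ := mem_nbS (mem_of_mem_erase hc)
      have hih := ih c a hac.symm hcS ha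
      have t1 : totField θ N x (2 * R + 1) c = E c a + hm θ (E a c) :=
        totField_eq hp o R x c a hac.symm hcS ha
      have t2 : totField θ N x (2 * R + 1) a = E a c + hm θ (E c a) :=
        totField_eq hp o R x a c hac ha hcS
      have hk := key_identity hp.nonneg hp.lt_one (E c a) (E a c)
      have hmc : m c = Real.tanh (E c a + hm θ (E a c)) := by simp only [m, t1]
      have hma : m a = Real.tanh (E a c + hm θ (E c a)) := by simp only [m, t2]
      have e : hd1 θ (E c a) * Tee N (wgt θ E) (wgt2 θ E) ℓ c a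
          + hd1 θ (E c a) * Lin N (wgt θ E) m ℓ c a
          = hd1 θ (E c a) * (m c * Nsq N (wgt θ E) ℓ c a) := by
        rw [← mul_add]
        exact congrArg _ hih
      rw [hmc] at e
      show (1 / 2) * hd2 θ (E c a) * Nsq N (wgt θ E) ℓ c a
          + hd1 θ (E c a) * Tee N (wgt θ E) (wgt2 θ E) ℓ c a
          + hd1 θ (E c a) * Lin N (wgt θ E) m ℓ c a
          = m a * (hd1 θ (E c a) ^ 2 * Nsq N (wgt θ E) ℓ c a)
      rw [hma]
      linear_combination Nsq N (wgt θ E) ℓ c a * hk + e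
    rw [mul_add, mul_one, mul_sum, ← sum_congr rfl key]
    simp only [sum_add_distrib]
    ring

end

end Vale.Agent.Lib.P161
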