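import Vale.Agent.Lib.P161.Tree

/-!
Uniqueness of the free Ising measure: the cylinders over balls determine a measure on
configurations.
-/

open MeasureTheory

namespace Vale.Agent.Lib.P161

variable {V : Type*} {G : SimpleGraph V} [G.LocallyFinite] [DecidableEq V] {θ : ℝ}

/-- Two measures with the free Ising cylinder weights coincide. -/
theorem isFreeIsing_unique (hc : G.Connected) {ν ν' : Measure (V → Bool)}
    (h : IsFreeIsing G θ ν) (h' : IsFreeIsing G θ ν') : ν' = ν := by
  classical
  have hC : Countable V := countable_of_connected hc
  haveI := h.1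
  haveI := h'.1
  obtain ⟨o⟩ := hc.nonempty
  refine IsProjectiveLimit.unique (P := fun I : Finset V => ν.map I.restrict) ?_ (fun I => rfl)
  intro I
  -- a ball containing `I`
  obtain ⟨R, hR⟩ : ∃ R, ∀ v ∈ I, G.dist o v ≤ R :=
    ⟨I.sup (fun v => G.dist o v), fun v hv => Finset.le_sup (f := fun v => G.dist o v) hv⟩
  set B := ballF G o R with hB
  have hIB : I ⊆ B := fun v hv => (mem_ballF hc).2 (hR v hv)
  have hmB : ν'.map B.restrict = ν.map B.restrict := by
    refine Measure.ext_of_singleton ?_
    intro f
    have hm : Measurable (B.restrict : (V → Bool) → (↥B → Bool)) := Finset.measurable_restrict B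
    rw [Measure.map_apply hm (measurableSet_singleton f), Measure.map_apply hm (measurableSet_singleton f)]
    set η : V → Bool := fun v => if hv : v ∈ B then f ⟨v, hv⟩ else false with hη
    have hset : (B.restrict : (V → Bool) → (↥B → Bool)) ⁻¹' {f} = {σ | ∀ v ∈ B, σ v = η v} := by
      ext σ
      simp only [Set.mem_preimage, Set.mem_singleton_iff, Set.mem_setOf_eq]
      constructor
      · intro hσ v hv
        have := congrFun hσ ⟨v, hv⟩
        simp only [Finset.restrict_def] at this
        simp [hη, hv, this]
      · intro hσ
        funext ⟨v, hv⟩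
        have := hσ v hv
        simp only [hη, hv, dif_pos] at this
        simpa [Finset.restrict_def] using this
    rw [hset, h.2 B (ballF_connected hc o R) η, h'.2 B (ballF_connected hc o R) η]
  have hcomp : (I.restrict : (V → Bool) → (↥I → Bool))
      = Finset.restrict₂ (π := fun _ => Bool) hIB ∘ (B.restrict : (V → Bool) → (↥B → Bool)) := by
    funext σ v
    rfl
  show ν'.map I.restrict = ν.map I.restrict
  rw [hcomp, ← Measure.map_map (Finset.measurable_restrict₂ (X := fun _ => Bool) hIB)
      (Finset.measurable_restrict B),
    ← Measure.map_map (Finset.measurable_restrict₂ (X := fun _ => Bool) hIB)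
      (Finset.measurable_restrict B), hmB]

end Vale.Agent.Lib.P161
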